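import Vale.Agent.P161E.Spec

namespace Vale.Agent.P161E

open Filter Topology Finset Real
open scoped Classical

namespace Aa

variable {d : ℕ} {θ : ℝ}

lemma tanh_sq_lt (h : ℝ) : tanh h ^ 2 < 1 := by
  have := abs_tanh_lt_one h
  rw [← sq_abs]; exact pow_lt_one₀ (abs_nonneg _) this two_ne_zero

lemma mem_Ioo (h0 : 0 ≤ θ) (h1 : θ < 1) (h : ℝ) : θ * tanh h ∈ Set.Ioo (-1 : ℝ) 1 := by
  have := abs_lt.1 (abs_tanh_lt_one h)
  constructor <;> nlinarith [this.1, this.2]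

lemma artanh_neg' (x : ℝ) : artanh (-x) = -artanh x := by
  rw [artanh, artanh, ← log_inv, ← sqrt_inv, inv_div, sub_neg_eq_add, ← sub_eq_add_neg]

lemma tanh_add' (x y : ℝ) : tanh (x + y) = (tanh x + tanh y) / (1 + tanh x * tanh y) := by
  have hx := cosh_pos x
  have hy := cosh_pos y
  have hxy := cosh_pos (x + y)
  rw [cosh_add] at hxy
  simp only [tanh_eq_sinh_div_cosh, sinh_add, cosh_add]
  field_simp

lemma den_pos (h0 : 0 ≤ θ) (h1 : θ < 1) (x y : ℝ) : 0 < 1 + θ * (tanh x * tanh y) := by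
  have h2 : |tanh x * tanh y| ≤ 1 := by
    rw [abs_mul]
    exact mul_le_one₀ (abs_tanh_lt_one x).le (abs_nonneg _) (abs_tanh_lt_one y).le
  have := abs_le.1 h2
  nlinarith [this.1, this.2]

lemma den_pos' (h0 : 0 ≤ θ) (h1 : θ < 1) (h : ℝ) : 0 < 1 - θ ^ 2 * tanh h ^ 2 := by
  have := tanh_sq_lt h
  have : θ ^ 2 ≤ 1 := pow_le_one₀ h0 h1.le
  nlinarith [sq_nonneg (tanh h)]

lemma cont_tanh : Continuous tanh := by
  have : tanh = fun x => sinh x / cosh x := funext tanh_eq_sinh_div_cosh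
  rw [this]
  exact continuous_sinh.div continuous_cosh fun x => (cosh_pos x).ne'

lemma tanh_mono {x y : ℝ} (h : x ≤ y) : tanh x ≤ tanh y := by
  by_contra hc
  have := artanh_lt_artanh (neg_one_lt_tanh y) (tanh_lt_one x) (not_le.1 hc)
  rw [artanh_tanh, artanh_tanh] at this
  linarith

lemma tanh_conc (h0 : 0 ≤ θ) (h1 : θ < 1) {h : ℝ} (hh : 0 ≤ h) : θ * tanh h ≤ tanh (θ * h) := by
  have d1 : ∀ x, HasDerivAt tanh (1 - tanh x ^ 2) x := fun x => by
    have : tanh = fun x => sinh x / cosh x := funext tanh_eq_sinh_div_cosh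
    rw [this]
    refine ((hasDerivAt_sinh x).fun_div (hasDerivAt_cosh x) (cosh_pos x).ne').congr_deriv ?_
    have := cosh_pos x
    field_simp
  have d2 : ∀ x, HasDerivAt (fun x => tanh (θ * x) - θ * tanh x)
      ((1 - tanh (θ * x) ^ 2) * θ - θ * (1 - tanh x ^ 2)) x := fun x =>
    ((d1 (θ * x)).comp x (by simpa using (hasDerivAt_id x).const_mul θ)).sub ((d1 x).const_mul θ)
  have m := monotoneOn_of_deriv_nonneg (convex_Ici 0)
    (fun x _ => (d2 x).continuousAt.continuousWithinAt)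
    (fun x _ => (d2 x).differentiableAt.differentiableWithinAt) (fun x hx => by
      rw [(d2 x).deriv]
      have hx : 0 < x := by simpa using hx
      have a1 : tanh (θ * x) ≤ tanh x := tanh_mono (by nlinarith)
      have a2 : 0 ≤ tanh (θ * x) := by simpa using tanh_mono (mul_nonneg h0 hx.le)
      nlinarith [mul_nonneg h0 (sub_nonneg.2 (pow_le_pow_left₀ a2 a1 2))])
  have := m Set.self_mem_Ici hh hh
  simp only [mul_zero, tanh_zero, sub_zero] at this
  linarith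

lemma tanh_Gf (h0 : 0 ≤ θ) (h1 : θ < 1) (h : ℝ) : tanh (Gf θ h) = θ * tanh h :=
  tanh_artanh (mem_Ioo h0 h1 h)

lemma Gf_neg (h : ℝ) : Gf θ (-h) = -Gf θ h := by rw [Gf, tanh_neg, mul_neg, artanh_neg', Gf]

lemma Gf_nonneg (h0 : 0 ≤ θ) {h : ℝ} (hh : 0 ≤ h) : 0 ≤ Gf θ h :=
  artanh_nonneg (mul_nonneg h0 (by simpa using tanh_mono hh))

lemma abs_Gf (h0 : 0 ≤ θ) (h : ℝ) : |Gf θ h| = Gf θ |h| := by
  rcases le_total 0 h with hh | hh
  · rw [abs_of_nonneg hh, abs_of_nonneg (Gf_nonneg h0 hh)]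
  · rw [abs_of_nonpos hh, ← abs_neg, ← Gf_neg, abs_of_nonneg (Gf_nonneg h0 (neg_nonneg.2 hh))]

lemma kap_pos (h0 : 0 ≤ θ) (h1 : θ < 1) (h : ℝ) : 0 < kap θ h :=
  div_pos (sub_pos.2 (tanh_sq_lt h)) (den_pos' h0 h1 h)

lemma kap_le (h0 : 0 ≤ θ) (h1 : θ < 1) (h : ℝ) : kap θ h ≤ 1 - (1 - θ ^ 2) * tanh h ^ 2 := by
  rw [kap, div_le_iff₀ (den_pos' h0 h1 h)]
  have a1 := (tanh_sq_lt h).le
  have a2 : θ ^ 2 ≤ 1 := pow_le_one₀ h0 h1.le
  have : 0 ≤ (1 - θ ^ 2) * θ ^ 2 * (tanh h ^ 2) ^ 2 :=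
    mul_nonneg (mul_nonneg (by linarith) (sq_nonneg _)) (sq_nonneg _)
  nlinarith

lemma kap_le_one (h0 : 0 ≤ θ) (h1 : θ < 1) (h : ℝ) : kap θ h ≤ 1 := by
  have a2 : θ ^ 2 ≤ 1 := pow_le_one₀ h0 h1.le
  linarith [kap_le h0 h1 h, mul_nonneg (sub_nonneg.2 a2) (sq_nonneg (tanh h))]

variable {b : W d → ℝ} {H : W d → Option (Fin d) → ℝ}

lemma Kp_pos (h0 : 0 < θ) (h1 : θ < 1) (x : W d) (p : List (Fin d)) : 0 < Kp θ H x p := by
  induction p generalizing x with
  | nil => exact one_pos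
  | cons a p ih => exact mul_pos (mul_pos h0 (kap_pos h0.le h1 _)) (ih _)

lemma Kp_append (x : W d) (p q : List (Fin d)) :
    Kp θ H x (p ++ q) = Kp θ H x p * Kp θ H (walk x p) q := by
  induction p generalizing x with
  | nil => simp [Kp]
  | cons a p ih => rw [List.cons_append, Kp, Kp, ih, walk_cons, mul_assoc, mul_assoc, mul_assoc]

lemma rec_none (hR : Rec θ b H) (x : W d) (a : Fin d) :
    H x none = H x (some a) + Gf θ (H (step x a) (some a)) := by
  rw [hR x none, hR x (some a), dirs_none, dirs_some, ← add_sum_erase _ _ (mem_univ a)]; ring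

lemma mag_eq (h0 : 0 ≤ θ) (h1 : θ < 1) (hR : Rec θ b H) (x : W d) (a : Fin d) :
    tanh (H x none) = (tanh (H x (some a)) + θ * tanh (H (step x a) (some a))) /
      (1 + θ * (tanh (H x (some a)) * tanh (H (step x a) (some a)))) := by
  rw [rec_none hR x a, tanh_add', tanh_Gf h0 h1]; congr 1; ring

lemma mag_eq' (h0 : 0 ≤ θ) (h1 : θ < 1) (hR : Rec θ b H) (x : W d) (a : Fin d) :
    tanh (H (step x a) none) = (tanh (H (step x a) (some a)) + θ * tanh (H x (some a))) /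
      (1 + θ * (tanh (H x (some a)) * tanh (H (step x a) (some a)))) := by
  rw [mag_eq h0 h1 hR (step x a) a, step_step, mul_comm (tanh _)]

lemma edge (h0 : 0 ≤ θ) (h1 : θ < 1) (hR : Rec θ b H) (x : W d) (a : Fin d) :
    (1 - tanh (H x none) ^ 2) * (θ * kap θ (H (step x a) (some a))) =
      (1 - tanh (H (step x a) none) ^ 2) * (θ * kap θ (H x (some a))) := by
  rw [mag_eq h0 h1 hR x a, mag_eq' h0 h1 hR x a, kap, kap]
  have a1 := den_pos h0 h1 (H x (some a)) (H (step x a) (some a))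
  have a2 := den_pos' h0 h1 (H x (some a))
  have a3 := den_pos' h0 h1 (H (step x a) (some a))
  generalize tanh (H x (some a)) = n at *
  generalize tanh (H (step x a) (some a)) = n' at *
  have e1 : 1 - ((n + θ * n') / (1 + θ * (n * n'))) ^ 2 =
      (1 - n ^ 2) * (1 - θ ^ 2 * n' ^ 2) / (1 + θ * (n * n')) ^ 2 := by
    rw [div_pow, one_sub_div (pow_pos a1 2).ne']; congr 1; ring
  have e2 : 1 - ((n' + θ * n) / (1 + θ * (n * n'))) ^ 2 =
      (1 - n' ^ 2) * (1 - θ ^ 2 * n ^ 2) / (1 + θ * (n * n')) ^ 2 := by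
    rw [div_pow, one_sub_div (pow_pos a1 2).ne']; congr 1; ring
  rw [e1, e2]
  generalize 1 - θ ^ 2 * n ^ 2 = u at *
  generalize 1 - θ ^ 2 * n' ^ 2 = v at *
  generalize 1 + θ * (n * n') = w at *
  field_simp

lemma symm (h0 : 0 ≤ θ) (h1 : θ < 1) (hR : Rec θ b H) (x : W d) (p : List (Fin d)) :
    Acov θ H x p = Acov θ H (walk x p) p.reverse := by
  induction p generalizing x with
  | nil => rfl
  | cons a p ih =>
    have := ih (step x a)
    rw [Acov, Acov] at this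
    rw [Acov, Acov, Kp, List.reverse_cons, Kp_append, walk_cons, walk_reverse, ← mul_assoc,
      ← mul_assoc (1 - _) (Kp _ _ _ _), ← this, edge h0 h1 hR, Kp, Kp, step_step]
    ring

lemma regress (h0 : 0 ≤ θ) (h1 : θ < 1) (hR : Rec θ b H) (x : W d) (a : Fin d) :
    tanh (H x none) = P161.rA θ (tanh (H x (some a))) +
      θ * kap θ (H x (some a)) * tanh (H (step x a) none) := by
  rw [mag_eq h0 h1 hR x a, mag_eq' h0 h1 hR x a, kap, P161.rA, P161.mob, P161.mob]
  have a1 := den_pos h0 h1 (H x (some a)) (H (step x a) (some a))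
  have a2 := den_pos' h0 h1 (H x (some a))
  have a3 := (mem_Ioo h0 h1 (H x (some a))).1
  have a4 := (mem_Ioo h0 h1 (H x (some a))).2
  have a5 : 1 + θ * tanh (H x (some a)) ≠ 0 := by linarith
  have a6 : 1 + -θ * tanh (H x (some a)) ≠ 0 := by linarith
  have e : 1 - θ ^ 2 * tanh (H x (some a)) ^ 2 =
      (1 + θ * tanh (H x (some a))) * (1 + -θ * tanh (H x (some a))) := by ring
  rw [e]
  generalize tanh (H x (some a)) = n at *
  generalize tanh (H (step x a) (some a)) = n' at *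
  generalize hp : 1 + θ * n = p at *
  generalize hq : 1 + -θ * n = q at *
  generalize hw : 1 + θ * (n * n') = w at *
  field_simp
  subst hp hq hw
  ring

lemma jump (h0 : 0 ≤ θ) (h1 : θ < 1) {b' : W d → ℝ} {H' : W d → Option (Fin d) → ℝ} {u : W d}
    {t : ℝ} (hR : Rec θ b H) (hR' : Rec θ b' H') (ht : |t| < 1)
    (hb : ∀ z, b' z = b z + if z = u then artanh t else 0)
    (hH : ∀ x a, ¬ Reach x (some a) u → H' x (some a) = H x (some a)) :
    tanh (H' 1 none) = tanh (H 1 none) +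
      Acov θ H 1 (word u) * (t / (1 + tanh (H u none) * t)) := by
  have key : ∀ (p : List (Fin d)) (x : W d), p.IsChain (· ≠ ·) → walk x p = u →
      tanh (H' x none) = tanh (H x none) +
        Acov θ H u p.reverse * (t / (1 + tanh (H u none) * t)) := by
    intro p
    induction p with
    | nil =>
      rintro x - hx
      obtain rfl : x = u := hx
      have e : H' x none = H x none + artanh t := by
        rw [hR' x none, hR x none, hb, if_pos rfl,
          sum_congr rfl fun c _ => by rw [hH _ _ fun h => reach_step.1 h (Reach.refl _ _)]]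
        ring
      have a1 : 0 < 1 + tanh (H x none) * t := by
        have : |tanh (H x none) * t| < 1 := by
          rw [abs_mul]
          exact mul_lt_one_of_nonneg_of_lt_one_right (abs_tanh_lt_one _).le (abs_nonneg _) ht
        linarith [(abs_lt.1 this).1]
      rw [e, tanh_add', tanh_artanh (abs_lt.1 ht), List.reverse_nil, Acov, Kp]
      field_simp
      ring
    | cons a p ih =>
      intro x hc hx
      have hn : ¬ Reach x (some a) u := fun h => reach_iff.1 h a rfl (by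
        rw [← hx, mul_walk, inv_mul_cancel, sub, Set.mem_ofPred_eq, word_walk hc]; rfl)
      have hw : walk u p.reverse = step x a := by rw [← hx, walk_cons, walk_reverse]
      rw [regress h0 h1 hR' x a, regress h0 h1 hR x a, hH x a hn, ih (step x a) hc.tail hx,
        List.reverse_cons, Acov, Acov, Kp_append, hw, Kp, Kp, step_step]
      ring
  rw [key (word u) 1 (word_chain u) (walk_word u), symm h0 h1 hR 1, walk_word]

lemma lip_key (h0 : 0 ≤ θ) (h1 : θ < 1) {n n' a a' : ℝ} (hn : |n| ≤ 1) (hn' : |n'| ≤ 1)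
    (ha : |a| ≤ 1) :
    |n - n'| ≤ 4 / (1 - θ ^ 2) * (|(P161.rA θ n + P161.rK θ n * a) -
      (P161.rA θ n' + P161.rK θ n' * a')| + |a - a'|) := by
  obtain ⟨⟨a1, a1'⟩, a2, a2'⟩ := P161.mob_den h0 hn
  obtain ⟨⟨b1, b1'⟩, b2, b2'⟩ := P161.mob_den h0 hn'
  have hθ2 : 0 < 1 - θ ^ 2 := by nlinarith
  have key : ∀ s : ℝ, s ^ 2 = θ ^ 2 → 1 - θ ≤ 1 + s * n → 1 + s * n ≤ 1 + θ → 1 - θ ≤ 1 + s * n' →
      1 + s * n' ≤ 1 + θ → ∃ c, 1 / 4 ≤ c ∧
        P161.mob s n - P161.mob s n' = (n - n') * (1 - θ ^ 2) * c := by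
    intro s hs c1 c2 c3 c4
    have hp : 0 < (1 + s * n) * (1 + s * n') := mul_pos (by linarith) (by linarith)
    refine ⟨1 / ((1 + s * n) * (1 + s * n')), one_div_le_one_div_of_le hp (by nlinarith), ?_⟩
    unfold P161.mob
    rw [div_sub_div _ _ (by linarith) (by linarith), ← hs, mul_one_div]
    congr 1; ring
  obtain ⟨c, c1, c3⟩ := key θ rfl a1 a1' b1 b1'
  obtain ⟨c', c1', c3'⟩ := key (-θ) (by ring) a2 a2' b2 b2'
  have e2 : (P161.rA θ n + P161.rK θ n * a) - (P161.rA θ n' + P161.rK θ n' * a') -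
      P161.rK θ n' * (a - a') = (n - n') * ((1 - θ ^ 2) * ((1 + a) / 2 * c + (1 - a) / 2 * c')) := by
    unfold P161.rA P161.rK; linear_combination (1 + a) / 2 * c3 + (1 - a) / 2 * c3'
  have hk := P161.rK_bound h0 h1 hn'
  rw [abs_le] at ha
  have g1 : 1 / 4 ≤ (1 + a) / 2 * c + (1 - a) / 2 * c' := by nlinarith [ha.1, ha.2]
  rw [div_mul_eq_mul_div, le_div_iff₀ hθ2]
  calc |n - n'| * (1 - θ ^ 2) = 4 * (|n - n'| * ((1 - θ ^ 2) * (1 / 4))) := by ring
    _ ≤ 4 * (|n - n'| * ((1 - θ ^ 2) * ((1 + a) / 2 * c + (1 - a) / 2 * c'))) := by gcongr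
    _ = 4 * |(n - n') * ((1 - θ ^ 2) * ((1 + a) / 2 * c + (1 - a) / 2 * c'))| := by
        rw [abs_mul (n - n'), abs_of_pos (mul_pos hθ2 (by linarith))]
    _ ≤ _ := by
        rw [← e2]
        gcongr
        refine (abs_sub _ _).trans ?_
        rw [abs_mul]
        gcongr
        exact mul_le_of_le_one_left (abs_nonneg _) (by linarith)

lemma rK_eq (h0 : 0 ≤ θ) (h1 : θ < 1) (h : ℝ) : P161.rK θ (tanh h) = θ * kap θ h := by
  have a3 := (mem_Ioo h0 h1 h).1
  have a4 := (mem_Ioo h0 h1 h).2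
  have a5 : 1 + θ * tanh h ≠ 0 := by linarith
  have a6 : 1 + -θ * tanh h ≠ 0 := by linarith
  have e : 1 - θ ^ 2 * tanh h ^ 2 = (1 + θ * tanh h) * (1 + -θ * tanh h) := by ring
  rw [kap, e, P161.rK, P161.mob, P161.mob]
  generalize hp : 1 + θ * tanh h = p at *
  generalize hq : 1 + -θ * tanh h = q at *
  field_simp
  subst hp hq
  ring

lemma lip (h0 : 0 ≤ θ) (h1 : θ < 1) : ∃ (Ψ : ℝ × ℝ → ℝ) (C : NNReal), LipschitzWith C Ψ ∧
    ∀ n a, |n| ≤ 1 → |a| ≤ 1 → Ψ (P161.rA θ n + P161.rK θ n * a, a) = n := by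
  have hθ2 : 0 < 1 - θ ^ 2 := by nlinarith
  set S : Set (ℝ × ℝ) := {p | ∃ n, |n| ≤ 1 ∧ |p.2| ≤ 1 ∧ p.1 = P161.rA θ n + P161.rK θ n * p.2}
  set f : ℝ × ℝ → ℝ := fun p => if h : p ∈ S then h.choose else 0 with hf
  have hs : ∀ p ∈ S, |f p| ≤ 1 ∧ |p.2| ≤ 1 ∧ p.1 = P161.rA θ (f p) + P161.rK θ (f p) * p.2 :=
    fun p hp => by simp only [hf, dif_pos hp]; exact hp.choose_spec
  have hl : LipschitzOnWith ⟨8 / (1 - θ ^ 2), by positivity⟩ f S := by
    refine LipschitzOnWith.of_dist_le_mul fun p hp q hq => ?_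
    have := lip_key (a' := q.2) h0 h1 (hs p hp).1 (hs q hq).1 (hs p hp).2.1
    rw [← (hs p hp).2.2, ← (hs q hq).2.2] at this
    rw [Real.dist_eq]
    refine this.trans ?_
    have a1 : |p.1 - q.1| ≤ dist p q := (Real.dist_eq _ _).ge.trans (le_max_left _ _)
    have a2 : |p.2 - q.2| ≤ dist p q := (Real.dist_eq _ _).ge.trans (le_max_right _ _)
    calc _ ≤ 4 / (1 - θ ^ 2) * (dist p q + dist p q) := by gcongr
      _ = 8 / (1 - θ ^ 2) * dist p q := by ring
  obtain ⟨Ψ, hΨ, he⟩ := hl.extend_real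
  refine ⟨Ψ, _, hΨ, fun n a hn ha => ?_⟩
  have hp : (P161.rA θ n + P161.rK θ n * a, a) ∈ S := ⟨n, hn, ha, rfl⟩
  rw [← he hp]
  have := lip_key (a' := a) h0 h1 (hs _ hp).1 hn ha
  rw [← (hs _ hp).2.2] at this
  simpa [sub_eq_zero] using this

lemma loglip {θ' M n n' : ℝ} (h0 : 0 ≤ θ') (h1 : θ' < 1) (hn : |n| ≤ tanh M)
    (hn' : |n'| ≤ tanh M) :
    |log ((1 - n ^ 2) / (1 - θ' ^ 2 * n ^ 2)) - log ((1 - n' ^ 2) / (1 - θ' ^ 2 * n' ^ 2))| ≤
      cosh M ^ 2 * |n ^ 2 - n' ^ 2| := by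
  have hM : cosh M ^ 2 * (1 - tanh M ^ 2) = 1 := by
    have := cosh_pos M
    rw [tanh_eq_sinh_div_cosh]; field_simp; linarith [cosh_sq M]
  have hθ : θ' ^ 2 ≤ 1 := pow_le_one₀ h0 h1.le
  have key : ∀ u v : ℝ, 0 ≤ u → u ≤ v → v ≤ tanh M ^ 2 →
      |log ((1 - u) / (1 - θ' ^ 2 * u)) - log ((1 - v) / (1 - θ' ^ 2 * v))| ≤
        cosh M ^ 2 * (v - u) := by
    intro u v hu huv hv
    have a0 := tanh_sq_lt M
    have a1 : 0 < 1 - v := by linarith
    have a2 : 0 < 1 - u := by linarith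
    have a3 : 0 < 1 - θ' ^ 2 * v := by nlinarith
    have a4 : 0 < 1 - θ' ^ 2 * u := by nlinarith
    rw [← log_div (div_pos a2 a4).ne' (div_pos a1 a3).ne', abs_of_nonneg (log_nonneg (by
      rw [one_le_div (div_pos a1 a3), div_le_div_iff₀ a3 a4]; nlinarith))]
    refine (log_le_sub_one_of_pos (div_pos (div_pos a2 a4) (div_pos a1 a3))).trans ?_
    have e : (1 - u) / (1 - θ' ^ 2 * u) / ((1 - v) / (1 - θ' ^ 2 * v)) - 1 =
        (v - u) * ((1 - θ' ^ 2) / (1 - θ' ^ 2 * u)) / (1 - v) := by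
      generalize hp : 1 - θ' ^ 2 * u = p at *
      generalize hq : 1 - θ' ^ 2 * v = q at *
      generalize hw : 1 - v = w at *
      field_simp
      subst hp hq hw
      ring
    have b1 : (1 - θ' ^ 2) / (1 - θ' ^ 2 * u) ≤ 1 := by rw [div_le_one a4]; nlinarith
    rw [e, div_le_iff₀ a1]
    calc _ ≤ (v - u) * 1 := by gcongr
      _ = cosh M ^ 2 * (v - u) * (1 - tanh M ^ 2) := by linear_combination (u - v) * hM
      _ ≤ _ := by gcongr
  have s1 : n ^ 2 ≤ tanh M ^ 2 := by rw [← sq_abs]; exact pow_le_pow_left₀ (abs_nonneg _) hn 2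
  have s2 : n' ^ 2 ≤ tanh M ^ 2 := by rw [← sq_abs]; exact pow_le_pow_left₀ (abs_nonneg _) hn' 2
  rcases le_total (n ^ 2) (n' ^ 2) with h | h
  · rw [abs_sub_comm (n ^ 2), abs_of_nonneg (sub_nonneg.2 h)]
    exact key _ _ (sq_nonneg _) h s2
  · rw [abs_sub_comm, abs_of_nonneg (sub_nonneg.2 h)]
    exact key _ _ (sq_nonneg _) h s1

lemma sum_le_sum_of_injOn {α β : Type} {s : Finset α} {t : Finset β} {f : α → ℝ} {g : β → ℝ}
    (e : α → β) (he : Set.InjOn e s) (hst : ∀ a ∈ s, e a ∈ t) (h : ∀ a ∈ s, f a ≤ g (e a))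
    (hg : ∀ b, 0 ≤ g b) : ∑ a ∈ s, f a ≤ ∑ b ∈ t, g b :=
  (sum_le_sum h).trans ((sum_image he).symm.le.trans (sum_le_sum_of_subset_of_nonneg
    (image_subset_iff.2 hst) fun b _ _ => hg b))

lemma transport (F : List (Fin d) → List (Fin d) → ℝ) (K : ℕ) (hF : ∀ p q, 0 ≤ F p q) :
    ∑ k ∈ range (K + 1), ∑ p ∈ PE none k, ∑ j ∈ range (k + 1), F (p.take j).reverse (p.drop j) ≤
      ∑ k ∈ range (K + 1), ∑ p ∈ PE none k, ∑ k' ∈ range (K + 1), ∑ q ∈ PE none k', F p q := by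
  simp only [sum_sigma']
  refine sum_le_sum_of_injOn (fun x : Σ _ : ℕ, Σ _ : List (Fin d), ℕ =>
    (⟨x.2.2, (x.2.1.take x.2.2).reverse, x.1 - x.2.2, x.2.1.drop x.2.2⟩ :
      Σ _ : ℕ, Σ _ : List (Fin d), Σ _ : ℕ, List (Fin d))) ?_ ?_ (fun _ _ => le_rfl)
    fun _ => hF _ _
  · rintro ⟨k, p, j⟩ hx ⟨k', p', j'⟩ hy h
    simp only [mem_coe, mem_sigma, mem_range, mem_PE] at hx hy
    simp only [Sigma.mk.injEq, heq_eq_eq, List.reverse_inj] at h
    obtain ⟨rfl, h1, -, h3⟩ := h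
    obtain rfl : p = p' := by rw [← p.take_append_drop j, h1, h3, List.take_append_drop]
    rw [← hx.2.1.2.1, ← hy.2.1.2.1]
  · rintro ⟨k, p, j⟩ hx
    simp only [mem_sigma, mem_range, mem_PE] at hx ⊢
    obtain ⟨h1, ⟨h2, h3, -⟩, h4⟩ := hx
    refine ⟨by omega, ⟨chain_reverse (h2.take j), by simp; omega, by simp⟩, by omega,
      h2.drop j, by simp [h3], by simp⟩

end Aa

open Aa in
theorem stmtA {d : ℕ} {θ : ℝ} (h0 : 0 < θ) (h1 : θ < 1) : StmtA d θ where
  tanh_Gf := tanh_Gf h0.le h1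
  Gf_neg := Gf_neg
  Gf_le h := by
    rw [abs_Gf h0.le, Gf, ← artanh_tanh (θ * |h|)]
    exact artanh_le_artanh (mem_Ioo h0.le h1 _).1 (tanh_lt_one _) (tanh_conc h0.le h1 (abs_nonneg h))
  Gf_le' h := by
    rw [abs_Gf h0.le, Gf]
    exact artanh_le_artanh (mem_Ioo h0.le h1 _).1 h1
      (mul_le_of_le_one_right h0.le (tanh_lt_one _).le)
  Gf_cont := by
    have hc : Continuous fun h => θ * tanh h := continuous_const.mul cont_tanh
    have a1 : ∀ h, 0 < 1 + θ * tanh h := fun h => by linarith [(mem_Ioo h0.le h1 h).1]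
    have a2 : ∀ h, 0 < 1 - θ * tanh h := fun h => by linarith [(mem_Ioo h0.le h1 h).2]
    exact Continuous.log (((continuous_const.add hc).div (continuous_const.sub hc)
      fun h => (a2 h).ne').sqrt) fun h => (sqrt_pos.2 (div_pos (a1 h) (a2 h))).ne'
  kap_pos := kap_pos h0.le h1
  kap_le := kap_le h0.le h1
  kap_le_one := kap_le_one h0.le h1
  kap_neg h := by simp [kap]
  kap_cont := (continuous_const.sub (cont_tanh.pow 2)).div
    (continuous_const.sub (continuous_const.mul (cont_tanh.pow 2))) fun h => (den_pos' h0.le h1 h).ne'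
  Kp_pos _ := Kp_pos h0 h1
  Kp_le H x p := by
    induction p generalizing x with
    | nil => exact le_rfl
    | cons a p ih =>
      rw [Kp, List.length_cons, pow_succ']
      exact mul_le_mul (mul_le_of_le_one_right h0.le (kap_le_one h0.le h1 _)) (ih _)
        (Kp_pos h0 h1 _ _).le h0.le
  Kp_append _ := Kp_append
  Acov_pos H x p := mul_pos (sub_pos.2 (tanh_sq_lt _)) (Kp_pos h0 h1 _ _)
  Acov_le H x p := mul_le_of_le_one_left (Kp_pos h0 h1 _ _).le (sub_le_self _ (sq_nonneg _))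
  Kp_shift H y x p := by
    induction p generalizing x with
    | nil => rfl
    | cons a p ih => simp only [Kp, ih, mul_step]
  VK_shift r H y K x α := by
    induction K generalizing x α with
    | zero => rfl
    | succ K ih => simp only [VK, ih, mul_step]
  symm _ _ hR := symm h0.le h1 hR
  jump _ _ _ _ _ _ := jump h0.le h1
  lip := by
    obtain ⟨Ψ, C, h2, h3⟩ := lip h0.le h1
    refine ⟨Ψ, C, h2, fun b H hR x a => ?_⟩
    rw [regress h0.le h1 hR x a, ← rK_eq h0.le h1,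
      h3 _ _ (abs_tanh_lt_one _).le (abs_tanh_lt_one _).le]
  loglip _ _ _ _ := loglip
  VK_eq r H K x α := by
    induction K generalizing x α with
    | zero => simp [VK, PE, Kp]
    | succ K ih =>
      rw [sum_range_succ', sum_PE_zero, VK, add_comm]
      simp only [sum_PE_succ, ih, mul_sum, Kp, pow_zero, one_pow, mul_one]
      rw [sum_comm]
      congr 1
      exact sum_congr rfl fun _ _ => sum_congr rfl fun _ _ => sum_congr rfl fun _ _ => by ring
  VK_ge r H K x α hr := by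
    induction K generalizing x α with
    | zero => exact le_rfl
    | succ K ih =>
      exact le_add_of_nonneg_right (sum_nonneg fun c _ => mul_nonneg (by positivity)
        (mul_nonneg (sq_nonneg _) (zero_le_one.trans (ih _ _))))
  VK_bdd r K hr := by
    induction K with
    | zero => exact ⟨1, fun _ _ _ => le_rfl⟩
    | succ K ih =>
      obtain ⟨C, hC⟩ := ih
      refine ⟨1 + ∑ _c : Fin d, r * θ ^ 2 * (1 * |C|), fun H x α => add_le_add le_rfl ?_⟩
      refine le_trans (sum_le_sum fun c _ => ?_) (sum_le_sum_of_subset_of_nonneg (subset_univ _)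
        fun _ _ _ => by positivity)
      refine mul_le_mul_of_nonneg_left ((mul_le_mul_of_nonneg_left ((hC _ _ _).trans
        (le_abs_self C)) (sq_nonneg _)).trans ?_) (by positivity)
      exact mul_le_mul_of_nonneg_right (pow_le_one₀ (kap_pos h0.le h1 _).le
        (kap_le_one h0.le h1 _)) (abs_nonneg _)
  transport := transport

end Vale.Agent.P161E
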