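import Vale.Agent.P161E.A

namespace Vale.Agent.P161E

open MeasureTheory ProbabilityTheory Filter Topology Finset Real
open Vale.Agent.P161 (spin obs coin)
open scoped Classical

namespace Bm

variable {d : ℕ} {θ : ℝ} {μ : Measure (W d → Bool)}

lemma meas_ind (C : Set (I d)) : Measurable fun a : I d → ℝ => C.indicator a := by
  refine measurable_pi_lambda _ fun j => ?_
  by_cases h : j ∈ C
  · simp only [Set.indicator_of_mem h]; exact measurable_pi_apply j
  · simp only [Set.indicator_of_notMem h]; exact measurable_const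

lemma meas_yA (e : I d → ℝ) (B : Set (I d)) : Measurable fun a : I d → ℝ => yA e B a :=
  measurable_pi_lambda _ fun j => ((measurable_pi_apply j).comp (meas_ind B)).const_mul _

lemma meas_spin (z : W d) : Measurable fun ω : O0 d => spin (ω.1 z) :=
  (measurable_of_countable spin).comp ((measurable_pi_apply z).comp measurable_fst)

lemma bdd_spin (z : W d) : Bdd fun ω : O0 d => spin (ω.1 z) :=
  ⟨1, fun _ => (P161.spin_abs _).le⟩

lemma cont_artanh {x : ℝ} (hx : |x| < 1) : ContinuousAt artanh x := by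
  have h := abs_lt.1 hx
  have h1 : (1 : ℝ) - x ≠ 0 := by linarith [h.2]
  have h2 : 0 < (1 + x) / (1 - x) := div_pos (by linarith [h.1]) (by linarith [h.2])
  have h3 : ContinuousAt (fun y : ℝ => √((1 + y) / (1 - y))) x :=
    continuous_sqrt.continuousAt.comp (ContinuousAt.div (by fun_prop) (by fun_prop) h1)
  exact h3.log (sqrt_pos.2 h2).ne'

lemma abs_tanh_le {x K : ℝ} (h : |x| ≤ K) : |tanh x| ≤ tanh K := by
  have h' := abs_le.1 h
  refine abs_le.2 ⟨?_, Aa.tanh_mono h'.2⟩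
  rw [← tanh_neg]
  exact Aa.tanh_mono h'.1

lemma tendsto_of_tanh {a : ℕ → ℝ} {l K : ℝ} (hK : ∀ n, |a n| ≤ K)
    (h : Tendsto (fun n => tanh (a n)) atTop (𝓝 l)) : Tendsto a atTop (𝓝 (artanh l)) := by
  have h1 : |l| ≤ tanh K := le_of_tendsto' h.abs fun n => abs_tanh_le (hK n)
  have h2 := (cont_artanh (h1.trans_lt (tanh_lt_one K))).tendsto.comp h
  refine h2.congr fun n => ?_
  simp [artanh_tanh]

/-- The posterior mean of the spin at `z` given the observations in `C`. -/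
noncomputable def ce (μ : Measure (W d → Bool)) (e : I d → ℝ) (C : Set (I d)) (z : W d) :
    O0 d → ℝ :=
  (P0 μ)[fun ω => spin (ω.1 z) |
    MeasurableSpace.comap (fun ω => C.indicator (Yq e ω)) inferInstance]

lemma yA_mask (e : I d → ℝ) (B V : Set (I d)) (a : I d → ℝ) {j : I d} (hj : j ∈ V) :
    yA e B ((B ∩ V).indicator a) j = yA e B a j := by
  by_cases h : j ∈ B
  · simp [yA, Set.indicator_of_mem h, Set.indicator_of_mem (Set.mem_inter h hj)]
  · simp [yA, Set.indicator_of_notMem h]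

lemma fin (b : Base d θ μ) (hB1 : StmtB1 d θ μ) {e : I d → ℝ} (B : Set (I d))
    (he : ∀ j, 0 ≤ e j ∧ e j ≤ 1) (R : ℕ) (z : W d) (α : Option (Fin d)) :
    (fun ω => tanh (hR θ (yA e B (Yq e ω)) R z α)) =ᵐ[P0 μ] ce μ e (B ∩ Vis R z α) z := by
  have := b.crit.hμ.1
  have key : ∀ a : I d → ℝ, hR θ (yA e B ((B ∩ Vis R z α).indicator a)) R z α =
      hR θ (yA e B a) R z α := fun a =>
    b.F.hR_dep _ _ _ _ _ fun j hj => yA_mask e B _ a hj
  have h := b.P.char (P0 μ) (fun ω => (B ∩ Vis R z α).indicator (Yq e ω))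
    (fun ω => spin (ω.1 z)) (fun a => tanh (hR θ (yA e B a) R z α))
    ((meas_ind _).comp (b.F.meas_Yq e)) (meas_spin z) (bdd_spin z)
    (Aa.cont_tanh.measurable.comp ((b.F.meas_hR R z α).comp (meas_yA e B)))
    ⟨1, fun a => (abs_tanh_lt_one _).le⟩ (fun F hF hFb => by
      rw [hB1 e B he R z α F hF hFb]
      simp only [key])
  simpa only [key, ce] using h

lemma int_spin (b : Base d θ μ) (z : W d) :
    Integrable (fun ω : O0 d => spin (ω.1 z)) (P0 μ) := by
  have := b.crit.hμ.1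
  exact Integrable.of_bound (meas_spin z).aestronglyMeasurable 1
    (Eventually.of_forall fun _ => (P161.spin_abs _).le)

lemma levy_ce (b : Base d θ μ) (e : I d → ℝ) (Ck : ℕ → Set (I d)) (hm : Monotone Ck) (z : W d) :
    ∀ᵐ ω ∂P0 μ, Tendsto (fun k => ce μ e (Ck k) z ω) atTop (𝓝 (ce μ e (⋃ k, Ck k) z ω)) := by
  have := b.crit.hμ.1
  exact b.P.levy (P0 μ) (Yq e) Ck _ (b.F.meas_Yq e) hm (int_spin b z)

lemma lim (b : Base d θ μ) (hB1 : StmtB1 d θ μ) {β : ℝ} {e : I d → ℝ} {B : Set (I d)}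
    (h : Bnd β e B) : ∀ᵐ ω ∂P0 μ, ∀ z α,
      Tendsto (fun R => tanh (hR θ (yA e B (Yq e ω)) R z α)) atTop
        (𝓝 (ce μ e (B ∩ {j | Reach z α j.1}) z ω)) := by
  refine ae_all_iff.2 fun z => ae_all_iff.2 fun α => ?_
  have h1 := levy_ce b e (fun R => B ∩ Vis R z α)
    (fun R R' hRR => Set.inter_subset_inter_right _ (b.F.vis_mono z α hRR)) z
  rw [← Set.inter_iUnion, b.F.vis_union] at h1
  filter_upwards [h1, ae_all_iff.2 fun R => fin b hB1 B h.1 R z α] with ω h1 h2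
  exact h1.congr fun R => (h2 R).symm

lemma adm (b : Base d θ μ) {β : ℝ} {e : I d → ℝ} {B : Set (I d)} (h : Bnd β e B) (ω : O0 d) :
    AdmY β (yA e B (Yq e ω)) := b.F.adm β e B _ h (b.F.Yq_le e ω)

lemma conv (b : Base d θ μ) (hB1 : StmtB1 d θ μ) {β : ℝ} {e : I d → ℝ} {B : Set (I d)}
    (h : Bnd β e B) : ∀ᵐ ω ∂P0 μ, Conv θ (yA e B (Yq e ω)) := by
  filter_upwards [lim b hB1 h] with ω hω z α
  exact ⟨_, tendsto_of_tanh (fun R => b.F.hR_le β _ (adm b h ω) R z α) (hω z α)⟩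

lemma tanh_HA (b : Base d θ μ) (hB1 : StmtB1 d θ μ) {β : ℝ} {e : I d → ℝ} {B : Set (I d)}
    (h : Bnd β e B) : ∀ᵐ ω ∂P0 μ, ∀ z α,
      tanh (HA θ e B (Yq e ω) z α) = ce μ e (B ∩ {j | Reach z α j.1}) z ω := by
  filter_upwards [lim b hB1 h, conv b hB1 h] with ω h1 h2 z α
  exact tendsto_nhds_unique
    (Aa.cont_tanh.continuousAt.tendsto.comp (b.F.tendsto_HI _ h2 z α)) (h1 z α)

lemma test_ce (b : Base d θ μ) (e : I d → ℝ) (C : Set (I d)) (z : W d)
    (F : (I d → ℝ) → ℝ) (hF : Measurable F) (hFb : Bdd F) :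
    ∫ ω, spin (ω.1 z) * F (C.indicator (Yq e ω)) ∂P0 μ =
      ∫ ω, ce μ e C z ω * F (C.indicator (Yq e ω)) ∂P0 μ := by
  have := b.crit.hμ.1
  obtain ⟨K, hK⟩ := hFb
  have hZ : Measurable fun ω : O0 d => C.indicator (Yq e ω) := (meas_ind C).comp (b.F.meas_Yq e)
  have hle := hZ.comap_le
  have hg : Measurable fun ω : O0 d => F (C.indicator (Yq e ω)) := hF.comp hZ
  have hint : Integrable (fun ω : O0 d => F (C.indicator (Yq e ω))) (P0 μ) :=
    Integrable.of_bound hg.aestronglyMeasurable K (Eventually.of_forall fun _ => hK _)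
  have hgm : Measurable[MeasurableSpace.comap (fun ω : O0 d => C.indicator (Yq e ω))
      inferInstance] fun ω : O0 d => F (C.indicator (Yq e ω)) :=
    hF.comp (comap_measurable _)
  have h := b.P.dual (MeasurableSpace.comap (fun ω : O0 d => C.indicator (Yq e ω)) inferInstance)
    (P0 μ) (fun ω => spin (ω.1 z)) (fun ω => F (C.indicator (Yq e ω))) (max 1 K) hle
    (meas_spin z) hg
    (Eventually.of_forall fun _ => (P161.spin_abs _).le.trans (le_max_left _ _))
    (Eventually.of_forall fun _ => (hK _).trans (le_max_right _ _))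
  rw [condExp_of_stronglyMeasurable hle hgm.stronglyMeasurable hint] at h
  exact h

lemma test (b : Base d θ μ) (hB1 : StmtB1 d θ μ) {β : ℝ} {e : I d → ℝ} {B : Set (I d)}
    (h : Bnd β e B) (z : W d) (α : Option (Fin d)) (F : (I d → ℝ) → ℝ) (hF : Measurable F)
    (hFb : Bdd F) :
    ∫ ω, spin (ω.1 z) * F ((B ∩ {j | Reach z α j.1}).indicator (Yq e ω)) ∂P0 μ =
      ∫ ω, tanh (HA θ e B (Yq e ω) z α) *
        F ((B ∩ {j | Reach z α j.1}).indicator (Yq e ω)) ∂P0 μ := by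
  rw [test_ce b e _ z F hF hFb]
  refine integral_congr_ae ?_
  filter_upwards [tanh_HA b hB1 h] with ω hω
  rw [hω]

lemma tendsto_Kp (hk : Continuous (kap θ)) {Hk : ℕ → W d → Option (Fin d) → ℝ}
    {H : W d → Option (Fin d) → ℝ}
    (h : ∀ z α, Tendsto (fun k => Hk k z α) atTop (𝓝 (H z α))) (x : W d) (p : List (Fin d)) :
    Tendsto (fun k => Kp θ (Hk k) x p) atTop (𝓝 (Kp θ H x p)) := by
  induction p generalizing x with
  | nil => exact tendsto_const_nhds
  | cons a p ih =>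
    exact (((hk.tendsto _).comp (h _ _)).const_mul θ).mul (ih _)

lemma levy (b : Base d θ μ) (hB1 : StmtB1 d θ μ) {β : ℝ} {e : I d → ℝ} {B : Set (I d)}
    {Bk : ℕ → Set (I d)} (h : Bnd β e B) (hm : Monotone Bk) (hU : (⋃ k, Bk k) = B) :
    ∀ᵐ ω ∂P0 μ, ∀ z α, Tendsto (fun k => HA θ e (Bk k) (Yq e ω) z α) atTop
      (𝓝 (HA θ e B (Yq e ω) z α)) := by
  have hk : ∀ k, Bnd β e (Bk k) := fun k =>
    b.F.bnd_mono β e B _ h (hU ▸ Set.subset_iUnion Bk k)
  have h1 : ∀ᵐ ω ∂P0 μ, ∀ z α, Tendsto (fun k => ce μ e (Bk k ∩ {j | Reach z α j.1}) z ω) atTop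
      (𝓝 (ce μ e (B ∩ {j | Reach z α j.1}) z ω)) := by
    refine ae_all_iff.2 fun z => ae_all_iff.2 fun α => ?_
    have := levy_ce b e (fun k => Bk k ∩ {j | Reach z α j.1})
      (fun k k' hkk => Set.inter_subset_inter_left _ (hm hkk)) z
    rwa [← Set.iUnion_inter, hU] at this
  filter_upwards [h1, tanh_HA b hB1 h, ae_all_iff.2 fun k => tanh_HA b hB1 (hk k)]
    with ω h1 h2 h3 z α
  have h4 : Tendsto (fun k => tanh (HA θ e (Bk k) (Yq e ω) z α)) atTop
      (𝓝 (tanh (HA θ e B (Yq e ω) z α))) := by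
    rw [h2]
    exact (h1 z α).congr fun k => (h3 k z α).symm
  have := tendsto_of_tanh (fun k => b.F.HI_le β _ (adm b (hk k) ω) z α) h4
  rwa [artanh_tanh] at this

lemma nish_one (b : Base d θ μ) (hB1 : StmtB1 d θ μ) {β : ℝ} {e : I d → ℝ} {B : Set (I d)}
    (h : Bnd β e B) (α : Option (Fin d)) :
    Nish0 (P0 μ) fun ω => spin (ω.1 1) * HA θ e B (Yq e ω) 1 α := by
  have := b.crit.hμ.1
  have hH : Measurable fun ω : O0 d => HA θ e B (Yq e ω) 1 α :=
    (b.F.meas_HA e B 1 α).comp (b.F.meas_Yq e)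
  have hX : Measurable fun ω : O0 d => spin (ω.1 1) * HA θ e B (Yq e ω) 1 α :=
    (meas_spin 1).mul hH
  have hs : Measurable fun ω : O0 d => ω.1 1 := (measurable_pi_apply 1).comp measurable_fst
  refine b.N.conv (P0 μ) _ (fun ω => ω.1 1) hX ⟨β + d * artanh θ, fun ω => ?_⟩ hs ?_ ?_ ?_
  · rw [abs_mul, P161.spin_abs, one_mul]
    exact b.F.HI_le β _ (adm b h ω) 1 α
  · rw [← b.I.law_spin 1]
    have : (fun ω : O0 d => ω.1 1) = (fun σ : W d → Bool => σ 1) ∘ Prod.fst := rfl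
    rw [this, ← Measure.map_map (measurable_pi_apply 1) measurable_fst, P0,
      Measure.map_fst_prod, measure_univ, one_smul]
  · refine b.I.indep0 {1} {1}ᶜ ∅ Set.univ _ _ disjoint_compl_right (Set.empty_disjoint _) hs hX
      (fun ω ω' h1 _ => ?_) fun ω ω' h1 h2 => ?_
    · simpa [Xi] using h1 1 rfl
    · have key : ∀ ω : O0 d, spin (ω.1 1) * HA θ e B (Yq e ω) 1 α =
          HI θ (fun j => e j * B.indicator
            (fun j => spin (ω.1 1) * spin (ω.1 j.1) * obs (e j) (ω.2 j)) j) 1 α := fun ω => by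
        rw [HA, ← b.F.HI_spin]
        congr 1
        funext j
        by_cases hj : j ∈ B
        · simp only [yA, Set.indicator_of_mem hj, Yq]; ring
        · simp [yA, Set.indicator_of_notMem hj]
      simp only [key]
      congr 1
      funext j
      congr 2
      funext j
      rw [h2 j trivial, b.I.dep_pair ω.1 ω'.1 1 j.1 List.nil_suffix fun v _ hv => h1 v hv]
  · intro F hF hFb
    have e1 : ∀ ω : O0 d, spin (ω.1 1) * (spin (ω.1 1) * HA θ e B (Yq e ω) 1 α) =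
        HA θ e B (Yq e ω) 1 α := fun ω => by rw [← mul_assoc, P161.spin_sq, one_mul]
    have key : ∀ a : I d → ℝ, HA θ e B ((B ∩ {j | Reach 1 α j.1}).indicator a) 1 α =
        HA θ e B a 1 α := fun a =>
      b.F.HI_dep _ _ _ _ fun j hj => yA_mask e B _ a hj
    obtain ⟨K, hK⟩ := hFb
    have := test b hB1 h 1 α (fun a => F (HA θ e B a 1 α)) (hF.comp (b.F.meas_HA e B 1 α))
      ⟨K, fun _ => hK _⟩
    simpa only [e1, key] using this

lemma nish_comp {Ω : Type} [MeasurableSpace Ω] {P : Measure Ω} {X : Ω → ℝ} {S : Ω → Ω}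
    (h : Nish0 P X) (hS : MeasurePreserving S P P) : Nish0 P fun ω => X (S ω) := by
  obtain ⟨K, hK⟩ := h.bdd
  refine ⟨h.mX.comp hS.measurable, ⟨K, fun _ => hK _⟩, fun F hF hFb => ?_⟩
  have key : ∀ G : Ω → ℝ, Measurable G → ∫ ω, G (S ω) ∂P = ∫ ω, G ω ∂P := fun G hG => by
    rw [← integral_map hS.measurable.aemeasurable hG.aestronglyMeasurable, hS.map_eq]
  rw [key (fun ω => F (-X ω)) (hF.comp h.mX.neg),
    key (fun ω => F (X ω) * exp (-2 * X ω)) ((hF.comp h.mX).mul (h.mX.const_mul _).exp)]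
  exact h.eq F hF hFb

lemma nish (b : Base d θ μ) (hB1 : StmtB1 d θ μ) {β : ℝ} {e : I d → ℝ} {B : Set (I d)}
    (h : Bnd β e B) (z : W d) (α : Option (Fin d)) :
    Nish0 (P0 μ) fun ω => spin (ω.1 z) * HA θ e B (Yq e ω) z α := by
  have h' : Bnd β (fun j => e (exI (lm z) j)) (exI (lm z) ⁻¹' B) :=
    ⟨fun j => h.1 _, fun u S => h.2 (z * u) S⟩
  have h1 := nish_comp (nish_one b hB1 h' α) (b.I.mp0 (lm z))
  have key : ∀ ω : O0 d, spin ((act0 (lm z) ω).1 1) *
      HA θ (fun j => e (exI (lm z) j)) (exI (lm z) ⁻¹' B)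
        (Yq (fun j => e (exI (lm z) j)) (act0 (lm z) ω)) 1 α =
      spin (ω.1 z) * HA θ e B (Yq e ω) z α := fun ω => by
    have e1 := b.F.HI_lm (yA e B (Yq e ω)) z 1 α
    rw [mul_one] at e1
    rw [HA, HA, ← e1]
    simp only [act0, lm_apply, mul_one]
    rfl
  simpa only [key] using h1

end Bm

variable {d : ℕ} {θ : ℝ} {μ : Measure (W d → Bool)}

theorem stmtB (b : Base d θ μ) (hB1 : StmtB1 d θ μ) : StmtB d θ μ where
  conv _ _ _ h := Bm.conv b hB1 h
  recur β _ _ h := by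
    filter_upwards [Bm.conv b hB1 h] with ω hω
    exact b.F.recur β _ (Bm.adm b h ω) hω
  test _ _ _ h z α F hF hFb := Bm.test b hB1 h z α F hF hFb
  test0 _ e B h z F hF hFb := by
    have := Bm.test b hB1 h z none F hF hFb
    have e1 : B ∩ {j : I d | Reach z none j.1} = B :=
      Set.inter_eq_left.2 fun j _ => reach_none z j.1
    rw [e1] at this
    exact this
  levy _ _ _ _ h hm hU := by
    filter_upwards [Bm.levy b hB1 h hm hU] with ω hω
    refine ⟨hω, fun u => ?_⟩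
    exact (((Aa.cont_tanh.tendsto _).comp (hω 1 none)).pow 2).const_sub 1 |>.mul
      (Bm.tendsto_Kp b.A.kap_cont hω 1 (word u))
  nish _ _ _ h z α := Bm.nish b hB1 h z α

end Vale.Agent.P161E
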