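import Vale.Agent.P161E.Spec

namespace Vale.Agent.P161E

open MeasureTheory ProbabilityTheory Filter Topology Finset Real
open Vale.Agent.P161 (spin obs gain clip coin IsFreeIsing IsFactorOfIID spin_sq)
open scoped Classical

namespace B1

variable {d : ℕ} {θ : ℝ} {μ : Measure (W d → Bool)}

lemma artanh_neg' (x : ℝ) : artanh (-x) = -artanh x := by
  rw [artanh, artanh, ← log_inv, ← sqrt_inv, inv_div, sub_neg_eq_add, ← sub_eq_add_neg]

lemma meas_artanh : Measurable artanh := by unfold artanh; fun_prop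

lemma meas_tanh : Measurable tanh := by
  have : tanh = fun x => sinh x / cosh x := funext tanh_eq_sinh_div_cosh
  rw [this]; fun_prop

lemma int_comp {Ω : Type} [MeasurableSpace Ω] {P : Measure Ω} {S : Ω → Ω}
    (hS : MeasurePreserving S P P) {G : Ω → ℝ} (hG : Measurable G) :
    ∫ ω, G (S ω) ∂P = ∫ ω, G ω ∂P := by
  rw [← integral_map hS.measurable.aemeasurable hG.aestronglyMeasurable, hS.map_eq]

lemma meas_re {ι : Type} (σ : ι → ι) : Measurable fun (a : ι → ℝ) j => a (σ j) :=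
  measurable_pi_lambda _ fun _ => measurable_pi_apply _

lemma nish_comp {Ω ι : Type} [MeasurableSpace Ω] {P : Measure Ω} {Z : Ω → ι → ℝ} {X : Ω → ℝ}
    (h : Nish P Z X) {S : Ω → Ω} (hS : MeasurePreserving S P P) (σ : ι → ι) :
    Nish P (fun ω j => Z (S ω) (σ j)) fun ω => X (S ω) where
  mZ := (meas_re σ).comp (h.mZ.comp hS.measurable)
  mX := h.mX.comp hS.measurable
  bdd := let ⟨C, hC⟩ := h.bdd; ⟨C, fun _ => hC _⟩
  eq := fun F hF ⟨C, hC⟩ => by
    have hF' : Measurable fun p : (ι → ℝ) × ℝ => F (fun j => p.1 (σ j), p.2) :=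
      hF.comp (((meas_re σ).comp measurable_fst).prodMk measurable_snd)
    have h1 := h.eq _ hF' ⟨C, fun _ => hC _⟩
    have m1 : Measurable fun ω => F (fun j => (-Z ω) (σ j), -X ω) :=
      hF'.comp (h.mZ.neg.prodMk h.mX.neg)
    have m2 : Measurable fun ω => F (fun j => Z ω (σ j), X ω) * exp (-2 * X ω) :=
      (hF'.comp (h.mZ.prodMk h.mX)).mul (measurable_exp.comp (h.mX.const_mul _))
    exact (int_comp hS m1).trans (h1.trans (int_comp hS m2).symm)

lemma map_fst' [IsProbabilityMeasure μ] {g : (W d → Bool) → Bool} (hg : Measurable g) :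
    (P0 μ).map (fun ω => g ω.1) = μ.map g := by
  have h1 : (P0 μ).map Prod.fst = μ := measurePreserving_fst.map_eq
  conv_rhs => rw [← h1]
  rw [Measure.map_map hg measurable_fst]
  rfl

lemma dep_mono {α : Type} {S S' : Set (W d)} {R R' : Set (I d)} {f : O0 d → α}
    (h : DepOn0 S R f) (hS : S ⊆ S') (hR : R ⊆ R') : DepOn0 S' R' f :=
  fun ω ω' h1 h2 => h ω ω' (fun v hv => h1 v (hS hv)) fun j hj => h2 j (hR hj)

lemma nish_sum (b : Base d θ μ) {κ : Type} (Z : κ → O0 d → I d → ℝ) (X : κ → O0 d → ℝ)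
    (S : κ → Set (W d)) (R : κ → Set (I d)) (hN : ∀ i, Nish (P0 μ) (Z i) (X i))
    (hD : ∀ i, DepOn0 (S i) (R i) fun ω => (Z i ω, X i ω))
    (hS : ∀ i k, i ≠ k → Disjoint (S i) (S k)) (hR : ∀ i k, i ≠ k → Disjoint (R i) (R k))
    (s : Finset κ) : Nish (P0 μ) (fun ω => ∑ i ∈ s, Z i ω) (fun ω => ∑ i ∈ s, X i ω) ∧
      DepOn0 (⋃ i ∈ s, S i) (⋃ i ∈ s, R i) fun ω => (∑ i ∈ s, Z i ω, ∑ i ∈ s, X i ω) := by
  have := b.crit.hμ.1
  have hdep : ∀ s : Finset κ,
      DepOn0 (⋃ i ∈ s, S i) (⋃ i ∈ s, R i) fun ω => (∑ i ∈ s, Z i ω, ∑ i ∈ s, X i ω) := by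
    intro s ω ω' h1 h2
    have h3 : ∀ i ∈ s, (Z i ω, X i ω) = (Z i ω', X i ω') := fun i hi =>
      hD i ω ω' (fun v hv => h1 v (Set.mem_biUnion (mem_coe.2 hi) hv))
        fun j hj => h2 j (Set.mem_biUnion (mem_coe.2 hi) hj)
    exact Prod.ext (sum_congr rfl fun i hi => congrArg Prod.fst (h3 i hi))
      (sum_congr rfl fun i hi => congrArg Prod.snd (h3 i hi))
  refine ⟨?_, hdep s⟩
  induction s using Finset.induction_on with
  | empty => simp only [sum_empty]; exact b.N.zero (ι := I d) (P0 μ)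
  | insert i s hi ih =>
    simp only [sum_insert hi]
    refine b.N.add _ _ _ _ _ (hN i) ih (b.I.indep0 _ _ _ _ _ _ ?_ ?_
      ((hN i).mZ.prodMk (hN i).mX) (ih.mZ.prodMk ih.mX) (hD i) (hdep s))
    · exact Set.disjoint_iUnion₂_right.2 fun k hk => hS i k fun e => hi (e ▸ hk)
    · exact Set.disjoint_iUnion₂_right.2 fun k hk => hR i k fun e => hi (e ▸ hk)

noncomputable def ZZ (e : I d → ℝ) (A : Set (I d)) (z : W d) (ω : O0 d) (j : I d) : ℝ :=
  spin (ω.1 z) * A.indicator (Yq e ω) j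

noncomputable def XX (θ : ℝ) (e : I d → ℝ) (B : Set (I d)) (R : ℕ) (z : W d)
    (α : Option (Fin d)) (ω : O0 d) : ℝ := spin (ω.1 z) * hR θ (yA e B (Yq e ω)) R z α

noncomputable def X1 (e : I d → ℝ) (B : Set (I d)) (n : ℤ) (ω : O0 d) : ℝ :=
  artanh (spin (ω.1 1) * yA e B (Yq e ω) (1, n) / 2)

lemma ZZ_own (e : I d → ℝ) {B : Set (I d)} {n : ℤ} (h : ((1 : W d), n) ∈ B) (ω : O0 d) :
    ZZ e (B ∩ {(1, n)}) 1 ω = Pi.single (1, n) (obs (e (1, n)) (ω.2 (1, n))) := by
  funext j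
  by_cases hj : j = (1, n)
  · subst hj
    rw [ZZ, Set.indicator_of_mem (show _ ∈ B ∩ {(1, n)} from ⟨h, rfl⟩), Pi.single_eq_same, Yq,
      ← mul_assoc, spin_sq, one_mul]
  · rw [ZZ, Set.indicator_of_notMem (fun h' => hj h'.2), Pi.single_eq_of_ne hj, mul_zero]

lemma X1_own (e : I d → ℝ) {B : Set (I d)} {n : ℤ} (h : ((1 : W d), n) ∈ B) (ω : O0 d) :
    X1 e B n ω = artanh (e (1, n) * obs (e (1, n)) (ω.2 (1, n)) / 2) := by
  rw [X1, yA, Set.indicator_of_mem h, Yq, mul_left_comm, ← mul_assoc (spin _), spin_sq, one_mul]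

lemma ZZ_not (e : I d → ℝ) {B : Set (I d)} {n : ℤ} (h : ((1 : W d), n) ∉ B) :
    ZZ e (B ∩ {(1, n)}) 1 = fun _ _ => 0 := by
  funext ω j
  have : j ∉ B ∩ {(1, n)} := fun h' => h ((show j = (1, n) from h'.2) ▸ h'.1)
  rw [ZZ, Set.indicator_of_notMem this, mul_zero]

lemma X1_not (e : I d → ℝ) {B : Set (I d)} {n : ℤ} (h : ((1 : W d), n) ∉ B) :
    X1 e B n = fun _ => 0 := by
  funext ω
  rw [X1, yA, Set.indicator_of_notMem h, mul_zero, mul_zero, zero_div, artanh_zero]

lemma own_dep (e : I d → ℝ) (B : Set (I d)) (n : ℤ) :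
    DepOn0 ∅ {((1 : W d), n)} fun ω => (ZZ e (B ∩ {(1, n)}) 1 ω, X1 e B n ω) := by
  intro ω ω' _ h2
  by_cases h : ((1 : W d), n) ∈ B
  · simp only [ZZ_own e h, X1_own e h, h2 _ rfl]
  · simp only [ZZ_not e h, X1_not e h]

lemma own_nish (b : Base d θ μ) {e : I d → ℝ} (he : ∀ j, 0 ≤ e j ∧ e j ≤ 1) (B : Set (I d))
    (n : ℤ) : Nish (P0 μ) (ZZ e (B ∩ {(1, n)}) 1) (X1 e B n) := by
  have := b.crit.hμ.1
  by_cases h : ((1 : W d), n) ∈ B
  swap
  · rw [ZZ_not e h, X1_not e h]; exact b.N.zero _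
  rw [funext (ZZ_own e h), funext (X1_own e h)]
  set i : I d := (1, n)
  have hmp : MeasurePreserving (fun ω : O0 d => ω.2 i) (P0 μ) volume :=
    (measurePreserving_eval_infinitePi (fun _ : I d => (volume : Measure unitInterval)) i).comp
      measurePreserving_snd
  have mo : Measurable (obs (e i)) :=
    P161.measurable_obs.comp (measurable_const.prodMk measurable_id)
  have ms : Measurable fun y : ℝ => (Pi.single i y : I d → ℝ) := measurable_pi_lambda _ fun j => by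
    by_cases hj : j = i
    · subst hj; simpa using measurable_id'
    · simp [Pi.single_eq_of_ne hj]
  have ma : Measurable fun y : ℝ => artanh (e i * y / 2) :=
    meas_artanh.comp ((measurable_id.const_mul _).div_const _)
  refine ⟨ms.comp (mo.comp hmp.measurable), ma.comp (mo.comp hmp.measurable), ⟨1, fun ω => ?_⟩,
    fun F hF ⟨C, hC⟩ => ?_⟩
  · have h1 : |e i * obs (e i) (ω.2 i)| ≤ 1 := by
      rw [abs_mul, abs_of_nonneg (he i).1]
      exact mul_le_one₀ (he i).2 (abs_nonneg _) (P161.obs_abs _ _)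
    exact (b.C.artanh_le _ h1).trans h1
  · have mG : Measurable fun y : ℝ => F (Pi.single i y, artanh (e i * y / 2)) :=
      hF.comp (ms.prodMk ma)
    have h1 := b.C.nish (e i) _ (he i).1 (he i).2 mG ⟨C, fun _ => hC _⟩
    have m1 : Measurable fun u =>
        F (Pi.single i (-obs (e i) u), artanh (e i * -obs (e i) u / 2)) := mG.comp mo.neg
    have m2 : Measurable fun u => F (Pi.single i (obs (e i) u), artanh (e i * obs (e i) u / 2)) *
        exp (-2 * artanh (e i * obs (e i) u / 2)) :=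
      (mG.comp mo).mul (measurable_exp.comp ((ma.comp mo).const_mul (-2)))
    rw [← hmp.map_eq, integral_map hmp.measurable.aemeasurable m1.aestronglyMeasurable,
      integral_map hmp.measurable.aemeasurable m2.aestronglyMeasurable] at h1
    refine Eq.trans (integral_congr_ae (ae_of_all _ fun ω => ?_)) h1
    simp only [Pi.single_neg, mul_neg, neg_div, artanh_neg']

lemma vis_reach (b : Base d θ μ) {R : ℕ} {z : W d} {α : Option (Fin d)} {j : I d}
    (h : j ∈ Vis R z α) : Reach z α j.1 := by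
  have : j ∈ ⋃ R, Vis R z α := Set.mem_iUnion.2 ⟨R, h⟩
  rwa [b.F.vis_union] at this

lemma vis_sub (b : Base d θ μ) {R : ℕ} {c : Fin d} {j : I d}
    (h : j ∈ Vis R (gen c) (some c)) : j.1 ∈ sub c := reach_gen.1 (vis_reach b h)

lemma XX_eq (b : Base d θ μ) (e : I d → ℝ) (B : Set (I d)) (R : ℕ) (z : W d) (α : Option (Fin d))
    (ω : O0 d) : XX θ e B R z α ω = hR θ (fun j => spin (ω.1 z) * yA e B (Yq e ω) j) R z α :=
  (b.F.hR_spin _ _ _ _ _).symm

lemma pair_dep (b : Base d θ μ) (e : I d → ℝ) (B : Set (I d)) (R : ℕ) (x : W d)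
    (α : Option (Fin d)) (hx : ∀ j ∈ Vis R x α, x.1 <:+ j.1.1) :
    DepOn0 {v | x.1 <:+ v.1 ∧ v ≠ x} {j | x.1 <:+ j.1.1}
      fun ω => (ZZ e (B ∩ Vis R x α) x ω, XX θ e B R x α ω) := by
  intro ω ω' h1 h2
  have h3 : ∀ j ∈ Vis R x α, spin (ω.1 x) * Yq e ω j = spin (ω'.1 x) * Yq e ω' j := by
    intro j hj
    rw [Yq, Yq, ← mul_assoc, ← mul_assoc, h2 j (hx j hj),
      b.I.dep_pair _ _ x j.1 (hx j hj) fun v hv hv' => h1 v ⟨hv, hv'⟩]
  refine Prod.ext (funext fun j => ?_) ?_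
  · by_cases hj : j ∈ B ∩ Vis R x α
    · simp only [ZZ, Set.indicator_of_mem hj, h3 j hj.2]
    · simp only [ZZ, Set.indicator_of_notMem hj, mul_zero]
  · simp only [XX_eq b]
    refine b.F.hR_dep _ _ _ _ _ fun j hj => ?_
    by_cases hB : j ∈ B
    · simp only [yA, Set.indicator_of_mem hB]
      rw [mul_left_comm, h3 j hj, mul_left_comm]
    · simp only [yA, Set.indicator_of_notMem hB, mul_zero]

lemma vis_lm (x : W d) : ∀ (R : ℕ) (z : W d) (α : Option (Fin d)) (j : I d),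
    exI (lm x) j ∈ Vis R (x * z) α ↔ j ∈ Vis R z α
  | 0, _, _, _ => Iff.rfl
  | R + 1, z, α, j => by
      simp only [Vis, Set.mem_union, Set.mem_iUnion, ← mul_step, vis_lm x R]
      simp [exI]

lemma exI_inv (z : W d) (j : I d) : exI (lm z) (exI (lm z⁻¹) j) = j := by simp [exI]

lemma ind_lm (e : I d → ℝ) (B : Set (I d)) (R : ℕ) (z : W d) (α : Option (Fin d)) (ω : O0 d)
    (j : I d) : ((exI (lm z) ⁻¹' B) ∩ Vis R 1 α).indicator
      (Yq (fun j => e (exI (lm z) j)) (act0 (lm z) ω)) (exI (lm z⁻¹) j) =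
      (B ∩ Vis R z α).indicator (Yq e ω) j := by
  have h : exI (lm z⁻¹) j ∈ (exI (lm z) ⁻¹' B) ∩ Vis R 1 α ↔ j ∈ B ∩ Vis R z α := by
    rw [Set.mem_inter_iff, Set.mem_preimage, ← vis_lm z, exI_inv, mul_one, Set.mem_inter_iff]
  by_cases hj : j ∈ B ∩ Vis R z α
  · rw [Set.indicator_of_mem hj, Set.indicator_of_mem (h.2 hj)]
    exact congrArg (Yq e ω) (exI_inv z j)
  · rw [Set.indicator_of_notMem hj, Set.indicator_of_notMem fun h' => hj (h.1 h')]

lemma hR_tr (b : Base d θ μ) (e : I d → ℝ) (B : Set (I d)) (R : ℕ) (z : W d) (α : Option (Fin d))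
    (ω : O0 d) : hR θ (yA (fun j => e (exI (lm z) j)) (exI (lm z) ⁻¹' B)
      (Yq (fun j => e (exI (lm z) j)) (act0 (lm z) ω))) R 1 α = hR θ (yA e B (Yq e ω)) R z α := by
  have := b.F.hR_lm (yA e B (Yq e ω)) z R 1 α
  rw [mul_one] at this
  rw [← this]
  rfl

lemma spin_tr (z : W d) (ω : O0 d) : (act0 (lm z) ω).1 1 = ω.1 z := by simp [act0]

lemma ind_succ (b : Base d θ μ) (B : Set (I d)) (R : ℕ) (α : Option (Fin d)) (Y : I d → ℝ)
    (j : I d) : (B ∩ Vis (R + 1) 1 α).indicator Y j =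
      ∑ n ∈ Icc (-(R : ℤ)) R, (B ∩ {(1, n)}).indicator Y j +
        ∑ c ∈ dirs α, (B ∩ Vis R (gen c) (some c)).indicator Y j := by
  obtain ⟨u, m⟩ := j
  have hv : (u, m) ∈ Vis (R + 1) 1 α ↔ (u = 1 ∧ m ∈ Icc (-(R : ℤ)) R) ∨
      ∃ c ∈ dirs α, (u, m) ∈ Vis R (gen c) (some c) := by
    simp only [Vis, Set.mem_union, Set.mem_iUnion, exists_prop]; rfl
  by_cases hB : (u, m) ∈ B
  swap
  · rw [Set.indicator_of_notMem fun h => hB h.1, sum_eq_zero, sum_eq_zero, add_zero]
    · exact fun c _ => Set.indicator_of_notMem (fun h => hB h.1) _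
    · exact fun n _ => Set.indicator_of_notMem (fun h => hB h.1) _
  by_cases hu : u = 1
  · subst hu
    have h0 : ∀ c, ((1 : W d), m) ∉ Vis R (gen c) (some c) :=
      fun c h => one_notMem_sub c (vis_sub b h)
    rw [sum_eq_zero (s := dirs α) fun c _ => Set.indicator_of_notMem (fun h => h0 c h.2) _,
      add_zero]
    by_cases hm : m ∈ Icc (-(R : ℤ)) R
    · rw [Set.indicator_of_mem (show _ ∈ B ∩ _ from ⟨hB, hv.2 (Or.inl ⟨rfl, hm⟩)⟩),
        sum_eq_single_of_mem m hm fun n _ hn => Set.indicator_of_notMem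
          (fun h => hn (congrArg Prod.snd h.2).symm) _,
        Set.indicator_of_mem (show _ ∈ B ∩ {(1, m)} from ⟨hB, rfl⟩)]
    · rw [Set.indicator_of_notMem, sum_eq_zero]
      · intro n hn
        have : ((1 : W d), m) ∉ B ∩ {(1, n)} := fun h =>
          hm ((show m = n from congrArg Prod.snd h.2) ▸ hn)
        exact Set.indicator_of_notMem this _
      · intro h
        rcases hv.1 h.2 with h | ⟨c, _, h⟩
        · exact hm h.2
        · exact h0 c h
  · rw [sum_eq_zero (s := Icc _ _) fun n _ => Set.indicator_of_notMem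
      (fun h => hu (congrArg Prod.fst h.2)) _, zero_add]
    by_cases hc : ∃ c ∈ dirs α, (u, m) ∈ Vis R (gen c) (some c)
    · obtain ⟨c, hc, h⟩ := hc
      rw [Set.indicator_of_mem (show _ ∈ B ∩ _ from ⟨hB, hv.2 (Or.inr ⟨c, hc, h⟩)⟩),
        sum_eq_single_of_mem c hc fun c' _ hn => Set.indicator_of_notMem
          (fun h' => Set.disjoint_left.1 (sub_disjoint hn) (vis_sub b h'.2) (vis_sub b h)) _,
        Set.indicator_of_mem (show _ ∈ B ∩ _ from ⟨hB, h⟩)]
    · rw [Set.indicator_of_notMem, sum_eq_zero]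
      · exact fun c hc' => Set.indicator_of_notMem (fun h => hc ⟨c, hc', h.2⟩) _
      · intro h
        rcases hv.1 h.2 with h | h
        · exact hu h.1
        · exact hc h

lemma spin_one (b : Base d θ μ) (σ : W d → Bool) (c : Fin d) :
    spin (σ 1) = spin (Xi σ (gen c)) * spin (σ (gen c)) := by
  rw [b.I.spin_par σ (gen c) (step_ne 1 c), b.I.par_gen, ← mul_assoc, spin_sq, one_mul]

lemma Gf_spin (b : Base d θ μ) (s : Bool) (x : ℝ) : Gf θ (spin s * x) = spin s * Gf θ x := by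
  cases s <;> simp [spin, b.A.Gf_neg]

lemma main (b : Base d θ μ) : ∀ (R : ℕ) (e : I d → ℝ) (B : Set (I d)),
    (∀ j, 0 ≤ e j ∧ e j ≤ 1) → ∀ z α, Nish (P0 μ) (ZZ e (B ∩ Vis R z α) z) (XX θ e B R z α) := by
  have := b.crit.hμ.1
  intro R
  induction R with
  | zero =>
    intro e B _ z α
    have h1 : ZZ e (B ∩ Vis 0 z α) z = fun _ _ => 0 := by
      funext ω j; simp [ZZ, Vis]
    have h2 : XX θ e B 0 z α = fun _ => 0 := by
      funext ω; simp [XX, hR]
    rw [h1, h2]; exact b.N.zero _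
  | succ R ih =>
    have root : ∀ (e : I d → ℝ) (B : Set (I d)), (∀ j, 0 ≤ e j ∧ e j ≤ 1) → ∀ α,
        Nish (P0 μ) (ZZ e (B ∩ Vis (R + 1) 1 α) 1) (XX θ e B (R + 1) 1 α) := by
      intro e B he α
      obtain ⟨n1, d1⟩ := nish_sum b (fun n => ZZ e (B ∩ {(1, n)}) 1) (X1 e B) (fun _ => ∅)
        (fun n => {(1, n)}) (own_nish b he B) (own_dep e B) (fun _ _ _ => Set.disjoint_empty _)
        (fun _ _ h => Set.disjoint_singleton.2 fun e => h (congrArg Prod.snd e))
        (Icc (-(R : ℤ)) R)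
      have hd : ∀ c : Fin d, DepOn0 (sub c \ {gen c}) {j | j.1 ∈ sub c} fun ω =>
          (ZZ e (B ∩ Vis R (gen c) (some c)) (gen c) ω, XX θ e B R (gen c) (some c) ω) :=
        fun c => dep_mono (pair_dep b e B R (gen c) (some c) fun j hj =>
          (b.I.mem_sub _ _).1 (vis_sub b hj)) (fun v hv => ⟨(b.I.mem_sub _ _).2 hv.1, hv.2⟩)
          fun j hj => (b.I.mem_sub _ _).2 hj
      have mξ : ∀ c : Fin d, Measurable fun ω : O0 d => Xi ω.1 (gen c) := fun c =>
        (measurable_pi_apply (gen c)).comp (b.I.meas_Xi.comp measurable_fst)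
      obtain ⟨n2, d2⟩ := nish_sum b
        (fun c ω j => spin (Xi ω.1 (gen c)) * ZZ e (B ∩ Vis R (gen c) (some c)) (gen c) ω j)
        (fun c ω => spin (Xi ω.1 (gen c)) * Gf θ (XX θ e B R (gen c) (some c) ω))
        sub (fun c => {j | j.1 ∈ sub c})
        (fun c => b.N.flip _ _ _ (fun ω => Xi ω.1 (gen c)) (ih e B he _ _) (mξ c)
          (by
            rw [← b.I.law_Xi (gen c) (step_ne 1 c)]
            exact map_fst' ((measurable_pi_apply (gen c)).comp b.I.meas_Xi))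
          (b.I.indep0 {gen c} _ ∅ _ _ _ (Set.disjoint_left.2 fun v hv h => h.2 hv)
            (Set.empty_disjoint _) (mξ c) ((ih e B he _ _).mZ.prodMk (ih e B he _ _).mX)
            (fun ω ω' h _ => h _ rfl) (hd c)))
        (fun c ω ω' h1 h2 => by
          have h3 := hd c ω ω' (fun v hv => h1 v hv.1) h2
          simp only [Prod.mk.injEq] at h3
          simp only [h1 _ (gen_mem_sub c), h3.1, h3.2])
        (fun _ _ h => sub_disjoint h)
        (fun _ _ h => Set.disjoint_left.2 fun j h1 h2 =>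
          Set.disjoint_left.1 (sub_disjoint h) h1 h2) (dirs α)
      have n3 := b.N.add _ _ _ _ _ n1 n2 (b.I.indep0 _ _ _ _ _ _ (by simp) ?_
        (n1.mZ.prodMk n1.mX) (n2.mZ.prodMk n2.mX) d1 d2)
      · have e1 : ZZ e (B ∩ Vis (R + 1) 1 α) 1 = fun ω =>
            (∑ n ∈ Icc (-(R : ℤ)) R, ZZ e (B ∩ {(1, n)}) 1 ω) + ∑ c ∈ dirs α, fun j =>
              spin (Xi ω.1 (gen c)) * ZZ e (B ∩ Vis R (gen c) (some c)) (gen c) ω j := by
          funext ω j
          simp only [Pi.add_apply, Finset.sum_apply, ZZ]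
          rw [ind_succ b, mul_add, mul_sum, mul_sum]
          congr 1
          exact sum_congr rfl fun c _ => by rw [spin_one b _ c, mul_assoc]
        have e2 : XX θ e B (R + 1) 1 α = fun ω => (∑ n ∈ Icc (-(R : ℤ)) R, X1 e B n ω) +
            ∑ c ∈ dirs α, spin (Xi ω.1 (gen c)) * Gf θ (XX θ e B R (gen c) (some c) ω) := by
          funext ω
          rw [XX_eq b, hR]
          congr 1
          refine sum_congr rfl fun c _ => ?_
          rw [b.F.hR_spin, spin_one b _ c, mul_assoc, Gf_spin b]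
          rfl
        rw [e1, e2]
        exact n3
      · refine Set.disjoint_left.2 fun j h1 h2 => ?_
        obtain ⟨n, _, h1⟩ := Set.mem_iUnion₂.1 h1
        obtain ⟨c, _, h2⟩ := Set.mem_iUnion₂.1 h2
        rw [show j = (1, n) from h1] at h2
        exact one_notMem_sub c h2
    intro e B he z α
    have h := nish_comp (root (fun j => e (exI (lm z) j)) (exI (lm z) ⁻¹' B) (fun j => he _) α)
      (b.I.mp0 (lm z)) (exI (lm z⁻¹))
    simp only [ZZ, XX, ind_lm, hR_tr b, spin_tr] at h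
    exact h

lemma bayes_root (b : Base d θ μ) (e : I d → ℝ) (B : Set (I d)) (he : ∀ j, 0 ≤ e j ∧ e j ≤ 1)
    (R : ℕ) (α : Option (Fin d)) (F : (I d → ℝ) → ℝ) (hF : Measurable F) (hb : Bdd F) :
    ∫ ω, spin (ω.1 1) * F ((B ∩ Vis R 1 α).indicator (Yq e ω)) ∂P0 μ =
      ∫ ω, tanh (hR θ (yA e B (Yq e ω)) R 1 α) * F ((B ∩ Vis R 1 α).indicator (Yq e ω)) ∂P0 μ := by
  have := b.crit.hμ.1
  have hN := main b R e B he 1 α
  have ms : Measurable fun ω : O0 d => ω.1 1 := (measurable_pi_apply _).comp measurable_fst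
  have h := b.N.bayes _ _ _ (fun ω => ω.1 1) hN ms
    (by
      rw [← b.I.law_spin 1]
      exact map_fst' (measurable_pi_apply 1))
    (b.I.indep0 {1} _ ∅ _ (fun ω => ω.1 1) _ (Set.disjoint_left.2 fun v hv h => h.2 hv) (Set.empty_disjoint _) ms
      (hN.mZ.prodMk hN.mX) (fun ω ω' h _ => by simpa [Xi] using h _ rfl)
      (pair_dep b e B R 1 α fun j _ => List.nil_suffix)) F hF hb
  simp only [ZZ, XX, ← mul_assoc, spin_sq, one_mul] at h
  exact h

end B1

open B1 in
theorem stmtB1 {d : ℕ} {θ : ℝ} {μ : Measure (W d → Bool)} (b : Base d θ μ) : StmtB1 d θ μ := by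
  intro e B he R z α F hF ⟨C, hC⟩
  have hF' := hF.comp (meas_re (exI (lm z⁻¹)))
  have h := bayes_root b (fun j => e (exI (lm z) j)) (exI (lm z) ⁻¹' B) (fun j => he _) R α _ hF'
    ⟨C, fun _ => hC _⟩
  have mi : ∀ (e : I d → ℝ) (A : Set (I d)), Measurable fun ω : O0 d => A.indicator (Yq e ω) :=
    fun e A => measurable_pi_lambda _ fun j => by
      by_cases hj : j ∈ A
      · simp only [Set.indicator_of_mem hj]
        exact (measurable_pi_apply j).comp (b.F.meas_Yq e)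
      · simp only [Set.indicator_of_notMem hj]
        exact measurable_const
  have my : ∀ (e : I d → ℝ) (A : Set (I d)), Measurable fun ω : O0 d => yA e A (Yq e ω) :=
    fun e A => measurable_pi_lambda _ fun j =>
      ((measurable_pi_apply j).comp (mi e A)).const_mul _
  have m1 : Measurable fun ω : O0 d => spin (ω.1 1) :=
    (measurable_of_countable spin).comp ((measurable_pi_apply _).comp measurable_fst)
  have h2 := (int_comp (b.I.mp0 (lm z)) (m1.mul (hF'.comp (mi _ _)))).trans (h.trans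
    (int_comp (b.I.mp0 (lm z)) ((meas_tanh.comp ((b.F.meas_hR R 1 α).comp (my _ _))).mul
      (hF'.comp (mi _ _)))).symm)
  simp only [Pi.mul_apply, Function.comp_def, ind_lm, hR_tr b, spin_tr] at h2
  exact h2

end Vale.Agent.P161E
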