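import Vale.Agent.P161E.Spec

/-!
Module C: the one-site channel.
-/

namespace Vale.Agent.P161E

open MeasureTheory Filter Topology Real
open Vale.Agent.P161

namespace Cm

theorem Q_inv {a y : ℝ} (ha : |a| ≤ 1 / 2) (hy : |y| ≤ 1) : Q a (y + a * (y ^ 2 - 1) / 2) = y := by
  have h1 : |a * y| ≤ 1 / 2 := by
    rw [abs_mul]
    nlinarith [abs_nonneg a, abs_nonneg y]
  have h2 := (abs_le.1 h1).1
  have h3 : sq' a (y + a * (y ^ 2 - 1) / 2) = 1 + a * y := by
    rw [sq', show 1 + 2 * a * (y + a * (y ^ 2 - 1) / 2) + a ^ 2 = (1 + a * y) ^ 2 by ring,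
      sqrt_sq (by linarith)]
  rw [Q, h3, div_eq_iff (by linarith)]
  ring

theorem law (m : ℝ) (F : ℝ → ℝ) (hm : |m| ≤ 1) (hF : Measurable F) :
    ∫ u, F (obs m u) = ∫ y in (-1 : ℝ)..1, F y * ((1 + m * y / 2) / 2) := by
  have hc : Continuous fun x : ℝ => Q (m / 2) (2 * x - 1) :=
    continuous_Q.comp (f := fun x : ℝ => (m / 2, 2 * x - 1)) (by fun_prop)
  simp only [obs, clip_eq hm]
  rw [integral_unit (k := fun x => F (Q (m / 2) (2 * x - 1))) (hF.comp hc.measurable)]
  have h := intervalIntegral.integral_comp_mul_deriv_of_deriv_nonneg (a := -1) (b := 1)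
    (f := fun y : ℝ => (1 + (y + m / 2 * (y ^ 2 - 1) / 2)) / 2)
    (f' := fun y => (1 + m * y / 2) / 2) (g := fun x => F (Q (m / 2) (2 * x - 1)))
    (by fun_prop) (fun y _ => by
      have := ((((hasDerivAt_id' y).fun_add ((((hasDerivAt_id' y).fun_pow 2).sub_const 1).const_mul
        (m / 2) |>.div_const 2)).const_add 1).div_const 2)
      refine this.congr_deriv ?_
      norm_num
      ring) (fun y hy => by
      have h1 : |y| ≤ 1 := by
        rw [abs_le]
        norm_num at hy
        exact ⟨hy.1.le, hy.2.le⟩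
      have := (den_ge hm h1).1
      linarith)
  norm_num at h
  rw [← h]
  refine intervalIntegral.integral_congr fun y hy => ?_
  have h1 : |y| ≤ 1 := by
    rw [Set.uIcc_of_le (by norm_num)] at hy
    exact abs_le.2 hy
  have h2 := Q_inv (half_abs hm) h1
  have e : 2 * ((1 + (y + m / 2 * (y ^ 2 - 1) / 2)) / 2) - 1 = y + m / 2 * (y ^ 2 - 1) / 2 := by
    ring
  simp only [e, h2]

theorem law_neg (m : ℝ) (F : ℝ → ℝ) (hm : |m| ≤ 1) (hF : Measurable F) :
    ∫ u, F (-obs m u) = ∫ y in (-1 : ℝ)..1, F y * ((1 - m * y / 2) / 2) := by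
  rw [law m (fun y => F (-y)) hm (hF.comp measurable_neg)]
  have h := intervalIntegral.integral_comp_neg (a := -1) (b := 1)
    (fun y => F y * ((1 - m * y / 2) / 2))
  rw [neg_neg] at h
  rw [← h]
  refine intervalIntegral.integral_congr fun y _ => ?_
  ring

theorem tanh_mono {x y : ℝ} (h : x ≤ y) : tanh x ≤ tanh y := by
  by_contra hc
  have := artanh_lt_artanh (neg_one_lt_tanh y) (tanh_lt_one x) (not_le.1 hc)
  rw [artanh_tanh, artanh_tanh] at this
  linarith

theorem tanh_sq_abs (x : ℝ) : tanh |x| ^ 2 = tanh x ^ 2 := by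
  rcases abs_cases x with h | h <;> rw [h.1]
  rw [tanh_neg, neg_sq]

theorem tanh_sq_mono {x y : ℝ} (h : |x| ≤ |y|) : tanh x ^ 2 ≤ tanh y ^ 2 := by
  rw [← tanh_sq_abs x, ← tanh_sq_abs y]
  refine pow_le_pow_left₀ ?_ (tanh_mono h) 2
  simpa using tanh_mono (abs_nonneg x)

theorem tanh_pair (a g : ℝ) : tanh g ^ 2 ≤ tanh (a + g) ^ 2 + tanh (a - g) ^ 2 := by
  by_cases h : |g| ≤ |a + g|
  · exact le_add_of_le_of_nonneg (tanh_sq_mono h) (sq_nonneg _)
  · refine le_add_of_nonneg_of_le (sq_nonneg _) (tanh_sq_mono ?_)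
    have h1 := abs_sub (a + g) (a - g)
    rw [show a + g - (a - g) = 2 * g by ring, abs_mul, abs_two] at h1
    linarith [not_le.1 h]

theorem artanh_odd {x : ℝ} (hx : |x| < 1) : artanh (-x) = -artanh x := by
  rw [abs_lt] at hx
  apply tanh_injective
  rw [tanh_neg, tanh_artanh ⟨hx.1, hx.2⟩, tanh_artanh ⟨by linarith [hx.2], by linarith [hx.1]⟩]

theorem meas_tanh : Measurable tanh := by
  have : tanh = fun x => sinh x / cosh x := funext tanh_eq_sinh_div_cosh
  rw [this]
  exact continuous_sinh.measurable.div continuous_cosh.measurable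

theorem meas_artanh : Measurable artanh := by
  unfold artanh
  fun_prop

theorem half_lt {e y : ℝ} (h0 : 0 ≤ e) (h1 : e ≤ 1) (hy : |y| ≤ 1) : |e * y / 2| ≤ 1 / 2 := by
  refine half_abs ?_
  rw [abs_mul, abs_of_nonneg h0]
  exact mul_le_one₀ h1 (abs_nonneg _) hy

theorem ii {F : ℝ → ℝ} (hF : Measurable F) (hb : Bdd F) :
    IntervalIntegrable F volume (-1) 1 := by
  obtain ⟨C, hC⟩ := hb
  exact (intervalIntegrable_const (c := C)).mono_fun' hF.aestronglyMeasurable
    (Eventually.of_forall hC)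

theorem mem_abs {y : ℝ} (hy : y ∈ Set.uIcc (-1 : ℝ) 1) : |y| ≤ 1 := by
  rw [Set.uIcc_of_le (by norm_num)] at hy
  exact abs_le.2 hy

theorem anti (e a : ℝ) (s : Bool) (h0 : 0 ≤ e) (h1 : e ≤ 1) :
    e ^ 2 / 48 ≤ ∫ u, tanh (a + spin s * artanh (e * obs e u / 2)) ^ 2 := by
  have he : |e| ≤ 1 := by rwa [abs_of_nonneg h0]
  have hF : Measurable fun y : ℝ => tanh (a + spin s * artanh (e * y / 2)) ^ 2 :=
    (meas_tanh.comp (((meas_artanh.comp (by fun_prop)).const_mul _).const_add _)).pow_const 2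
  have hb : Bdd fun y : ℝ => tanh (a + spin s * artanh (e * y / 2)) ^ 2 :=
    ⟨1, fun y => by
      rw [abs_of_nonneg (sq_nonneg _)]
      nlinarith [neg_one_lt_tanh (a + spin s * artanh (e * y / 2)),
        tanh_lt_one (a + spin s * artanh (e * y / 2))]⟩
  rw [law e (fun y => tanh (a + spin s * artanh (e * y / 2)) ^ 2) he hF]
  set F := fun y : ℝ => tanh (a + spin s * artanh (e * y / 2)) ^ 2 with hFd
  have i1 := ii hF hb
  have i2 : IntervalIntegrable (fun y => F (-y)) volume (-1) 1 :=
    ii (hF.comp measurable_neg) (by obtain ⟨C, hC⟩ := hb; exact ⟨C, fun y => hC _⟩)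
  have s1 : ∫ y in (-1 : ℝ)..1, F y * (1 / 4) ≤
      ∫ y in (-1 : ℝ)..1, F y * ((1 + e * y / 2) / 2) := by
    refine intervalIntegral.integral_mono_on (by norm_num) (i1.mul_const _)
      (i1.mul_continuousOn (by fun_prop)) fun y hy => ?_
    have := (abs_le.1 (half_lt h0 h1 (abs_le.2 hy))).1
    exact mul_le_mul_of_nonneg_left (by linarith) (sq_nonneg _)
  have s2 : ∫ y in (-1 : ℝ)..1, F (-y) = ∫ y in (-1 : ℝ)..1, F y := by
    rw [intervalIntegral.integral_comp_neg, neg_neg]
  have s3 : ∫ y in (-1 : ℝ)..1, e ^ 2 / 4 * y ^ 2 ≤ ∫ y in (-1 : ℝ)..1, (F y + F (-y)) := by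
    refine intervalIntegral.integral_mono_on (by norm_num)
      (Continuous.intervalIntegrable (by fun_prop) _ _) (i1.add i2) fun y hy => ?_
    have b1 := half_lt h0 h1 (abs_le.2 hy)
    have b2 : |e * y / 2| < 1 := by linarith
    have b3 := tanh_pair a (spin s * artanh (e * y / 2))
    have b4 : tanh (spin s * artanh (e * y / 2)) ^ 2 = e ^ 2 / 4 * y ^ 2 := by
      have := tanh_artanh (x := e * y / 2) (abs_lt.1 b2)
      rcases spin_cases s with h | h <;> rw [h]
      · rw [one_mul, this]; ring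
      · rw [neg_one_mul, tanh_neg, this]; ring
    simp only [hFd]
    rw [show e * -y / 2 = -(e * y / 2) by ring, artanh_odd b2, mul_neg, ← sub_eq_add_neg, ← b4]
    exact b3
  rw [intervalIntegral.integral_add i1 i2, s2, intervalIntegral.integral_const_mul,
    integral_pow] at s3
  rw [intervalIntegral.integral_mul_const] at s1
  norm_num at s3
  linarith

theorem exp_artanh' {t : ℝ} (ht : |t| < 1) : exp (-2 * artanh t) = (1 - t) / (1 + t) := by
  rw [abs_lt] at ht
  have h1 : 0 < 1 + t := by linarith [ht.1]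
  have h2 : 0 < 1 - t := by linarith [ht.2]
  rw [artanh_eq_half_log ⟨ht.1.le, ht.2.le⟩,
    show -2 * (1 / 2 * log ((1 + t) / (1 - t))) = -log ((1 + t) / (1 - t)) by ring, exp_neg,
    exp_log (div_pos h1 h2), inv_div]

theorem artanh_le_aux {t : ℝ} (h0 : 0 ≤ t) (h1 : t ≤ 1 / 2) : artanh t ≤ 2 * t := by
  have h2 : 0 < 1 - t := by linarith
  rw [artanh_eq_half_log ⟨by linarith, by linarith⟩]
  have h3 := log_le_sub_one_of_pos (div_pos (by linarith : 0 < 1 + t) h2)
  have h4 : (1 + t) / (1 - t) ≤ 1 + 4 * t := by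
    rw [div_le_iff₀ h2]
    nlinarith
  linarith

end Cm

open Cm in
theorem stmtC : StmtC where
  law := fun m F hm hF _ => law m F hm hF
  cdf_obs := fun m u hm => by
    have h := Q_eq (half_abs hm) (g_abs u)
    rw [cdf, obs, clip_eq hm, ← h, show (1 + (2 * (u : ℝ) - 1)) / 2 = u by ring]
    exact Set.projIcc_val _ u
  obs_cdf := fun m y hm hy => by
    have ha := abs_le.1 (half_abs hm)
    have hy' := abs_le.1 hy
    have h1 : (1 + (y + m / 2 * (y ^ 2 - 1) / 2)) / 2 ∈ Set.Icc (0 : ℝ) 1 := by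
      have a1 : 0 ≤ (y + 1) * (1 + m / 2 * (y - 1) / 2) :=
        mul_nonneg (by linarith) (by nlinarith)
      have a2 : 0 ≤ (1 - y) * (1 + m / 2 * (1 + y) / 2) :=
        mul_nonneg (by linarith) (by nlinarith)
      constructor <;> nlinarith
    rw [obs, clip_eq hm, cdf, Set.projIcc_of_mem _ h1]
    simp only
    rw [show 2 * ((1 + (y + m / 2 * (y ^ 2 - 1) / 2)) / 2) - 1 = y + m / 2 * (y ^ 2 - 1) / 2 by
      ring]
    exact Q_inv (half_abs hm) hy
  meas_cdf := by
    unfold cdf
    exact (continuous_projIcc.comp (by fun_prop)).measurable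
  meas_gain := by
    unfold gain
    exact (measurable_obs.div_const 2).div
      (((measurable_fst.div_const 2).mul measurable_obs).const_add 1)
  gain_mean := fun m hm => by
    have h := obs_mart hm 0 (1 / 2)
    rw [← h]
    refine integral_congr_ae (Eventually.of_forall fun u => ?_)
    simp only [gain]
    ring
  anti := anti
  nish := fun e F h0 h1 hF _ => by
    have he : |e| ≤ 1 := by rwa [abs_of_nonneg h0]
    rw [law_neg e F he hF, law e (fun y => F y * exp (-2 * artanh (e * y / 2))) he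
      (hF.mul (((meas_artanh.comp (by fun_prop)).const_mul _).exp))]
    refine intervalIntegral.integral_congr fun y hy => ?_
    have b1 := half_lt h0 h1 (mem_abs hy)
    have b2 := (abs_le.1 b1).1
    have b3 : 1 + e * y / 2 ≠ 0 := by linarith
    rw [exp_artanh' (by linarith), mul_assoc]
    congr 1
    rw [div_mul_div_comm, mul_comm (1 - e * y / 2), mul_div_mul_left _ _ b3]
  mean := by
    rw [law 1 (fun y => y) (by simp) measurable_id]
    have e : ∀ y : ℝ, y * ((1 + 1 * y / 2) / 2) = 1 / 2 * y ^ 1 + 1 / 4 * y ^ 2 := fun y => by ring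
    simp only [e]
    rw [intervalIntegral.integral_add (Continuous.intervalIntegrable (by fun_prop) _ _)
      (Continuous.intervalIntegrable (by fun_prop) _ _), intervalIntegral.integral_const_mul,
      intervalIntegral.integral_const_mul, integral_pow, integral_pow]
    norm_num
  mix := fun e m F h0 h1 hm hF hb => by
    have he : |e| ≤ 1 := by rwa [abs_of_nonneg h0]
    have hem : |e * m| ≤ 1 := by
      rw [abs_mul]
      exact mul_le_one₀ he (abs_nonneg _) hm
    have i1 := ii hF hb
    rw [law e F he hF, law_neg e F he hF, law _ F hem hF, ← intervalIntegral.integral_const_mul,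
      ← intervalIntegral.integral_const_mul, ← intervalIntegral.integral_add
        ((i1.mul_continuousOn (by fun_prop)).const_mul _)
        ((i1.mul_continuousOn (by fun_prop)).const_mul _)]
    refine intervalIntegral.integral_congr fun y _ => ?_
    ring
  artanh_le := fun y hy => by
    have hy' := abs_le.1 hy
    rcases le_total 0 y with h | h
    · rw [abs_of_nonneg h, abs_of_nonneg (artanh_nonneg (by linarith))]
      linarith [artanh_le_aux (t := y / 2) (by linarith) (by linarith)]
    · have h1 : |y / 2| < 1 := by linarith [half_abs hy]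
      rw [abs_of_nonpos h, abs_of_nonpos (artanh_nonpos (by linarith)), ← artanh_odd h1]
      linarith [artanh_le_aux (t := -(y / 2)) (by linarith) (by linarith)]

end Vale.Agent.P161E
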