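import Vale.Agent.P161E.Spec

/-!
Module GA: the abstract spectral gap for the non-backtracking operator.
-/

namespace Vale.Agent.P161E

open Filter Topology Finset Real
open scoped InnerProductSpace

namespace GAm

theorem sa_bound {K : Type} [NormedAddCommGroup K] [InnerProductSpace ℝ K] (T : K → K)
    (hT : ∀ f h, ⟪T f, h⟫_ℝ = ⟪f, T h⟫_ℝ) (g : K) {C M : ℝ} (hM : 0 < M)
    (h : ∀ n, ⟪g, T^[n] g⟫_ℝ ≤ C * M ^ n) : ‖T g‖ ≤ M * ‖g‖ := by
  have h1 : ∀ n f k, ⟪T^[n] f, k⟫_ℝ = ⟪f, T^[n] k⟫_ℝ := by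
    intro n
    induction n with
    | zero => intro f k; rfl
    | succ n ih =>
      intro f k
      rw [Function.iterate_succ_apply', hT, ih, ← Function.iterate_succ_apply,
        Function.iterate_succ_apply']
  have h2 : ∀ n, ‖T^[n] g‖ ^ 2 = ⟪g, T^[n + n] g⟫_ℝ := fun n => by
    rw [← real_inner_self_eq_norm_sq, h1, Function.iterate_add_apply]
  rcases (norm_nonneg g).eq_or_lt with hg | hg
  · have h3 := h2 1
    rw [norm_eq_zero.1 hg.symm, inner_zero_left] at h3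
    rw [← hg, mul_zero, norm_eq_zero.1 hg.symm]
    exact le_of_eq (pow_eq_zero_iff two_ne_zero |>.1 h3)
  have h3 : ∀ k : ℕ, (‖T g‖ / ‖g‖) ^ (2 ^ k) ≤ ‖T^[2 ^ k] g‖ / ‖g‖ := by
    intro k
    induction k with
    | zero => simp
    | succ k ih =>
      have a1 : ‖T^[2 ^ k] g‖ ^ 2 ≤ ‖g‖ * ‖T^[2 ^ (k + 1)] g‖ := by
        rw [h2, pow_succ 2 k, Nat.mul_two]
        exact real_inner_le_norm _ _
      rw [pow_succ 2 k, pow_mul]
      refine (pow_le_pow_left₀ (by positivity) ih 2).trans ?_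
      rw [div_pow, div_le_div_iff₀ (by positivity) hg, ← pow_succ 2 k]
      nlinarith
  by_contra hc
  have h4 : 1 < ‖T g‖ / ‖g‖ / M := by
    rw [lt_div_iff₀ hM, lt_div_iff₀ hg]
    linarith [not_le.1 hc]
  obtain ⟨n, hn⟩ := pow_unbounded_of_one_lt (C / ‖g‖ ^ 2) h4
  have h5 : (‖T g‖ / ‖g‖ / M) ^ n ≤ (‖T g‖ / ‖g‖ / M) ^ (2 ^ n + 2 ^ n) :=
    pow_le_pow_right₀ h4.le (le_add_right (Nat.lt_two_pow_self).le)
  have h6 : (‖T g‖ / ‖g‖) ^ (2 ^ n + 2 ^ n) ≤ C * M ^ (2 ^ n + 2 ^ n) / ‖g‖ ^ 2 := by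
    rw [← two_mul, mul_comm 2, pow_mul]
    refine (pow_le_pow_left₀ (by positivity) (h3 n) 2).trans ?_
    rw [div_pow, h2, mul_comm (2 ^ n) 2, two_mul]
    exact div_le_div_of_nonneg_right (h _) (by positivity)
  have h7 : (‖T g‖ / ‖g‖ / M) ^ (2 ^ n + 2 ^ n) ≤ C / ‖g‖ ^ 2 := by
    rw [div_pow _ M, div_le_iff₀ (by positivity)]
    refine h6.trans (le_of_eq ?_)
    ring
  linarith

variable {d : ℕ} {H : Type} [NormedAddCommGroup H] [InnerProductSpace ℝ H]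

/-- Families of vectors. -/
abbrev Fam (d : ℕ) (H : Type) : Type := PiLp 2 fun _ : Fin d => H

/-- The componentwise involution. -/
noncomputable def Vm (U : W d → H →ₗᵢ[ℝ] H) : Fam d H →L[ℝ] Fam d H where
  toFun f := WithLp.toLp 2 fun a => U (gen a) (f a)
  map_add' f g := by ext a; simp
  map_smul' c f := by ext a; simp
  cont := (PiLp.continuous_toLp 2 _).comp
    (continuous_pi fun a => (U (gen a)).continuous.comp (PiLp.continuous_apply 2 _ a))

/-- The sum over the other directions. -/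
noncomputable def Sm (d : ℕ) (H : Type) [NormedAddCommGroup H] [InnerProductSpace ℝ H] :
    Fam d H →L[ℝ] Fam d H where
  toFun f := WithLp.toLp 2 fun α => ∑ a ∈ univ.erase α, f a
  map_add' f g := by ext a; simp [-sum_erase_eq_sub, sum_add_distrib]
  map_smul' c f := by ext a; simp [-sum_erase_eq_sub, smul_sum]
  cont := (PiLp.continuous_toLp 2 _).comp
    (continuous_pi fun _ => continuous_finsetSum _ fun a _ => PiLp.continuous_apply 2 _ a)

theorem Vm_apply (U : W d → H →ₗᵢ[ℝ] H) (f : Fam d H) (a : Fin d) :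
    Vm U f a = U (gen a) (f a) := rfl

theorem Sm_apply (f : Fam d H) (α : Fin d) : Sm d H f α = ∑ a ∈ univ.erase α, f a := rfl

theorem norm_Vm (U : W d → H →ₗᵢ[ℝ] H) (f : Fam d H) : ‖Vm U f‖ = ‖f‖ := by
  have : ‖Vm U f‖ ^ 2 = ‖f‖ ^ 2 := by
    simp only [PiLp.norm_sq_eq_of_L2, Vm_apply, LinearIsometry.norm_map]
  exact (pow_left_inj₀ (norm_nonneg _) (norm_nonneg _) two_ne_zero).1 this

theorem norm_Sm (f : Fam d H) : ‖Sm d H f‖ ≤ (d : ℝ) ^ 2 * ‖f‖ := by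
  have h1 : ∀ α, ‖Sm d H f α‖ ≤ d * ‖f‖ := fun α => by
    rw [Sm_apply]
    refine (norm_sum_le _ _).trans ((sum_le_sum_of_subset_of_nonneg (subset_univ _)
      fun _ _ _ => norm_nonneg _).trans ?_)
    refine (sum_le_sum fun a _ => PiLp.norm_apply_le f a).trans (le_of_eq ?_)
    simp
  have h2 : ‖Sm d H f‖ ^ 2 ≤ d * (d * ‖f‖) ^ 2 := by
    rw [PiLp.norm_sq_eq_of_L2]
    refine (sum_le_sum fun α _ => pow_le_pow_left₀ (norm_nonneg _) (h1 α) 2).trans (le_of_eq ?_)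
    simp
  have h3 : (d : ℝ) ≤ (d : ℝ) ^ 2 := by exact_mod_cast Nat.le_self_pow two_ne_zero d
  refine (pow_le_pow_iff_left₀ (norm_nonneg _) (by positivity) two_ne_zero).1 (h2.trans ?_)
  calc (d : ℝ) * (d * ‖f‖) ^ 2 ≤ (d : ℝ) ^ 2 * (d * ‖f‖) ^ 2 :=
        mul_le_mul_of_nonneg_right h3 (by positivity)
    _ = ((d : ℝ) ^ 2 * ‖f‖) ^ 2 := by ring

theorem Sm_sa (f h : Fam d H) : ⟪Sm d H f, h⟫_ℝ = ⟪f, Sm d H h⟫_ℝ := by
  simp only [PiLp.inner_apply, Sm_apply, sum_erase_eq_sub (mem_univ _), inner_sub_left,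
    inner_sub_right, sum_sub_distrib, sum_inner, inner_sum]
  rw [sum_comm]

variable {U : W d → H →ₗᵢ[ℝ] H} {θ : ℝ}

theorem Vm_sa (hU : ∀ x y f, U x (U y f) = U (x * y) f) (h1 : ∀ f, U 1 f = f) (f h : Fam d H) :
    ⟪Vm U f, h⟫_ℝ = ⟪f, Vm U h⟫_ℝ := by
  simp only [PiLp.inner_apply, Vm_apply]
  refine sum_congr rfl fun a _ => ?_
  rw [← (U (gen a)).inner_map_map (f a), hU, gen_mul_gen, h1]

theorem T_sa (hU : ∀ x y f, U x (U y f) = U (x * y) f) (h1 : ∀ f, U 1 f = f) (r : ℕ)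
    (f h : Fam d H) :
    ⟪Vm U (((Sm d H * Vm U) ^ r) f), h⟫_ℝ = ⟪f, Vm U (((Sm d H * Vm U) ^ r) h)⟫_ℝ := by
  induction r generalizing h with
  | zero => exact Vm_sa hU h1 f h
  | succ r ih =>
    conv_lhs => rw [pow_succ']
    conv_rhs => rw [pow_succ]
    simp only [mul_apply_eq_comp]
    rw [Vm_sa hU h1, Sm_sa, ih]

/-- Decay of the correlations with the start vector. -/
def Dec (U : W d → H →ₗᵢ[ℝ] H) (θ : ℝ) (g : Fam d H) (C : ℝ) (f : Fam d H) : Prop :=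
  ∀ i j x, |⟪g j, U x (f i)⟫_ℝ| ≤ C * θ ^ len x

theorem dec_V (hU : ∀ x y f, U x (U y f) = U (x * y) f) (h0 : 0 < θ) (h1 : θ ≤ 1)
    {g f : Fam d H} {C : ℝ} (hC : 0 ≤ C) (h : Dec U θ g C f) : Dec U θ g (C * θ⁻¹) (Vm U f) := by
  intro i j x
  rw [Vm_apply, hU, mul_gen]
  refine (h i j _).trans ?_
  rw [mul_assoc]
  refine mul_le_mul_of_nonneg_left ?_ hC
  rw [le_inv_mul_iff₀ h0, ← pow_succ']
  refine pow_le_pow_of_le_one h0.le h1 ?_
  by_cases hx : x.1.head? = some i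
  · exact (len_step_of_eq hx).ge
  · rw [len_step_of_ne hx]
    omega

theorem dec_B (hU : ∀ x y f, U x (U y f) = U (x * y) f) (h0 : 0 < θ) (hd : 1 ≤ d)
    (hc : θ ^ 2 * (d - 1) = 1) {g f : Fam d H} {C : ℝ} (hC : 0 ≤ C) (h : Dec U θ g C f)
    (r : ℕ) (i j : Fin d) (x : W d) :
    |⟪g j, U x (((Sm d H * Vm U) ^ r) f i)⟫_ℝ| ≤
      C * θ⁻¹ ^ r * (if x.1.head? = some i then (1 : ℝ) else 1 + (r : ℝ)) * θ ^ len x := by
  induction r generalizing i x with
  | zero => simpa using h i j x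
  | succ r ih =>
    have hr : (0 : ℝ) ≤ r := Nat.cast_nonneg r
    rw [pow_succ', mul_apply_eq_comp, mul_apply_eq_comp, Sm_apply,
      map_sum, inner_sum]
    refine (abs_sum_le_sum_abs _ _).trans ?_
    have hX : 0 ≤ C * θ⁻¹ ^ (r + 1) * (1 + r) * θ ^ len x := by positivity
    have term : ∀ a, |⟪g j, U x (Vm U (((Sm d H * Vm U) ^ r) f) a)⟫_ℝ| ≤
        (if x.1.head? = some a then C * θ⁻¹ ^ (r + 1) * (1 + r) * θ ^ len x else 0) +
          C * θ⁻¹ ^ r * θ ^ (len x + 1) := fun a => by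
      rw [Vm_apply, hU, mul_gen]
      refine (ih a _).trans ?_
      by_cases hx : x.1.head? = some a
      · rw [if_pos hx, ← len_step_of_eq hx]
        refine le_add_of_le_of_nonneg ?_ (by positivity)
        have e1 : C * θ⁻¹ ^ (r + 1) * (1 + r) * θ ^ (len (step x a) + 1) =
            C * θ⁻¹ ^ r * (1 + r) * θ ^ len (step x a) := by
          rw [pow_succ, pow_succ]
          field_simp
        rw [e1]
        refine mul_le_mul_of_nonneg_right (mul_le_mul_of_nonneg_left ?_ (by positivity))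
          (by positivity)
        split_ifs <;> linarith
      · rw [if_neg hx, len_step_of_ne hx, step_of_ne hx, List.head?_cons, if_pos rfl, zero_add,
          mul_one]
    refine (sum_le_sum fun a _ => term a).trans ?_
    rw [sum_add_distrib, sum_const, card_erase_of_mem (mem_univ _), card_univ, Fintype.card_fin,
      nsmul_eq_mul]
    have e2 : ((d - 1 : ℕ) : ℝ) * (C * θ⁻¹ ^ r * θ ^ (len x + 1)) =
        C * θ⁻¹ ^ (r + 1) * θ ^ len x := by
      rw [Nat.cast_sub hd, Nat.cast_one, pow_succ, pow_succ]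
      have : ((d : ℝ) - 1) * θ = θ⁻¹ := by
        field_simp
        linarith
      rw [← this]
      ring
    rw [e2]
    by_cases hx : x.1.head? = some i
    · rw [if_pos hx, sum_eq_zero, zero_add, mul_one]
      intro a ha
      rw [if_neg]
      rw [hx]
      exact fun e => (mem_erase.1 ha).1 (Option.some.inj e).symm
    · rw [if_neg hx]
      have e3 : ∑ a ∈ univ.erase i, (if x.1.head? = some a then
          C * θ⁻¹ ^ (r + 1) * (1 + r) * θ ^ len x else 0) ≤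
          C * θ⁻¹ ^ (r + 1) * (1 + r) * θ ^ len x := by
        cases x.1.head? with
        | none => simpa using hX
        | some b =>
          simp only [Option.some.injEq, sum_ite_eq]
          split_ifs
          · exact le_rfl
          · exact hX
      push_cast
      linarith

theorem norm_B_dense (hU : ∀ x y f, U x (U y f) = U (x * y) f) (h1 : ∀ f, U 1 f = f)
    (h0 : 0 < θ) (hθ : θ ≤ 1) (hd : 1 ≤ d) (hc : θ ^ 2 * (d - 1) = 1) {g : Fam d H}
    (hg : ∀ i j, ∃ C', ∀ x, |⟪g j, U x (g i)⟫_ℝ| ≤ C' * θ ^ len x) (r : ℕ) :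
    ‖((Sm d H * Vm U) ^ r) g‖ ≤ (1 + r) * θ⁻¹ ^ (r + 1) * ‖g‖ := by
  choose c hc' using hg
  have hr : (0 : ℝ) ≤ r := Nat.cast_nonneg r
  have hC : 0 ≤ ∑ i, ∑ j, |c i j| := sum_nonneg fun _ _ => sum_nonneg fun _ _ => abs_nonneg _
  have d0 : Dec U θ g (∑ i, ∑ j, |c i j|) g := fun i j x => by
    refine (hc' i j x).trans (mul_le_mul_of_nonneg_right ((le_abs_self _).trans ?_)
      (by positivity))
    exact (single_le_sum (f := fun j => |c i j|) (fun _ _ => abs_nonneg _) (mem_univ j)).trans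
      (single_le_sum (f := fun i => ∑ j, |c i j|)
        (fun _ _ => sum_nonneg fun _ _ => abs_nonneg _) (mem_univ i))
  have dn : ∀ n : ℕ, Dec U θ g ((∑ i, ∑ j, |c i j|) * ((1 + r) * θ⁻¹ ^ (r + 1)) ^ n)
      ((fun f => Vm U (((Sm d H * Vm U) ^ r) f))^[n] g) := by
    intro n
    induction n with
    | zero => simpa using d0
    | succ n ih =>
      rw [Function.iterate_succ_apply']
      have a1 : Dec U θ g ((∑ i, ∑ j, |c i j|) * ((1 + r) * θ⁻¹ ^ (r + 1)) ^ n * θ⁻¹ ^ r * (1 + r))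
          (((Sm d H * Vm U) ^ r) ((fun f => Vm U (((Sm d H * Vm U) ^ r) f))^[n] g)) :=
        fun i j x => by
          refine (dec_B hU h0 hd hc (by positivity) ih r i j x).trans ?_
          refine mul_le_mul_of_nonneg_right (mul_le_mul_of_nonneg_left ?_ (by positivity))
            (by positivity)
          split_ifs <;> linarith
      have a2 := dec_V hU h0 hθ (by positivity) a1
      intro i j x
      refine (a2 i j x).trans (le_of_eq ?_)
      ring
  rw [← norm_Vm U]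
  refine sa_bound (fun f => Vm U (((Sm d H * Vm U) ^ r) f)) (T_sa hU h1 r) g
    (C := d * ∑ i, ∑ j, |c i j|) (by positivity) fun n => ?_
  rw [PiLp.inner_apply]
  refine (sum_le_sum (g := fun _ : Fin d =>
    (∑ i, ∑ j, |c i j|) * ((1 + r) * θ⁻¹ ^ (r + 1)) ^ n) fun j _ => ?_).trans (le_of_eq ?_)
  · have := dn n j j 1
    rw [h1, show len (1 : W d) = 0 from rfl, pow_zero, mul_one] at this
    exact (le_abs_self _).trans this
  · rw [sum_const, card_univ, Fintype.card_fin, nsmul_eq_mul, mul_assoc]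

theorem norm_B (hU : ∀ x y f, U x (U y f) = U (x * y) f) (h1 : ∀ f, U 1 f = f)
    (h0 : 0 < θ) (hθ : θ ≤ 1) (hd : 1 ≤ d) (hc : θ ^ 2 * (d - 1) = 1) {D : Submodule ℝ H}
    (hD : ∀ f ∈ D, ∀ g ∈ D, ∃ C', ∀ x, |⟪f, U x g⟫_ℝ| ≤ C' * θ ^ len x) {g : Fam d H}
    (hg : ∀ a, g a ∈ closure (D : Set H)) (r : ℕ) :
    ‖((Sm d H * Vm U) ^ r) g‖ ≤ (1 + r) * θ⁻¹ ^ (r + 1) * ‖g‖ := by
  choose u hu hu' using fun a => mem_closure_iff_seq_limit.1 (hg a)
  have ht : Tendsto (fun n => (WithLp.toLp 2 fun a => u a n : Fam d H)) atTop (𝓝 g) :=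
    ((PiLp.continuous_toLp 2 fun _ : Fin d => H).tendsto g.ofLp).comp (tendsto_pi_nhds.2 hu')
  refine le_of_tendsto_of_tendsto'
    ((((Sm d H * Vm U) ^ r).continuous.tendsto g).comp ht).norm (ht.norm.const_mul _) fun n => ?_
  exact norm_B_dense hU h1 h0 hθ hd hc (fun i j => hD _ (hu j n) _ (hu i n)) r

theorem Sp_mul (hU : ∀ x y f, U x (U y f) = U (x * y) f) (φ : Fin d → H) (x y : W d)
    (p : List (Fin d)) : Sp U φ (x * y) p = U x (Sp U φ y p) := by
  induction p generalizing y with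
  | nil => simp [Sp]
  | cons a p ih => rw [Sp, Sp, map_add, hU, ← mul_step, ih]

theorem Sp_cons (hU : ∀ x y f, U x (U y f) = U (x * y) f) (h1 : ∀ f, U 1 f = f)
    (φ : Fin d → H) (a : Fin d) (p : List (Fin d)) :
    Sp U φ 1 (a :: p) = φ a + U (gen a) (Sp U φ 1 p) := by
  rw [Sp, h1, ← Sp_mul hU, mul_one]
  rfl

/-- The sums over reduced words. -/
noncomputable def Rk (U : W d → H →ₗᵢ[ℝ] H) (φ : Fin d → H) (k : ℕ) : Fam d H :=
  WithLp.toLp 2 fun α => ∑ p ∈ PE (some α) k, Sp U φ 1 p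

theorem Rk_apply (φ : Fin d → H) (k : ℕ) (α : Fin d) :
    Rk U φ k α = ∑ p ∈ PE (some α) k, Sp U φ 1 p := rfl

theorem Rk_eq (hU : ∀ x y f, U x (U y f) = U (x * y) f) (h1 : ∀ f, U 1 f = f) (hd : 1 ≤ d)
    (hc : θ ^ 2 * (d - 1) = 1) (φ : Fin d → H) (k : ℕ) :
    Rk U φ k = ∑ j ∈ range k, (((d : ℝ) - 1) ^ k * (θ ^ 2) ^ (j + 1)) •
      ((Sm d H * Vm U) ^ j) (Sm d H (WithLp.toLp 2 φ)) := by
  induction k with
  | zero =>
    ext α
    rw [Rk_apply, sum_PE_zero]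
    simp [Sp]
  | succ k ih =>
    have e1 : Rk U φ (k + 1) = (Sm d H * Vm U) (Rk U φ k) +
        (((d : ℝ) - 1) ^ k) • Sm d H (WithLp.toLp 2 φ) := by
      ext α
      rw [Rk_apply, sum_PE_succ, PiLp.add_apply, PiLp.smul_apply, mul_apply_eq_comp,
        Sm_apply, Sm_apply, smul_sum, ← sum_add_distrib, dirs_some]
      refine sum_congr rfl fun a _ => ?_
      simp only [Sp_cons hU h1]
      rw [sum_add_distrib, sum_const, card_PE_some, Vm_apply, Rk_apply, map_sum, add_comm,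
        ← Nat.cast_smul_eq_nsmul ℝ, Nat.cast_pow, Nat.cast_sub hd, Nat.cast_one]
    rw [e1, sum_range_succ', ih, map_sum]
    congr 1
    · refine sum_congr rfl fun j _ => ?_
      rw [map_smul, pow_succ' (Sm d H * Vm U), mul_apply_eq_comp _ (_ ^ j)]
      congr 1
      linear_combination (-((d : ℝ) - 1) ^ k * (θ ^ 2) ^ (j + 1)) * hc
    · rw [pow_zero, one_apply_eq_self]
      congr 1
      linear_combination (-((d : ℝ) - 1) ^ k) * hc

end GAm

open GAm in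
theorem stmtGA {d : ℕ} {θ : ℝ} (hd : 3 ≤ d) (h0 : 0 < θ) (hc : θ ^ 2 * (d - 1) = 1) :
    StmtGA d θ := by
  have hd' : (3 : ℝ) ≤ d := by exact_mod_cast hd
  have hθ : θ < 1 := by nlinarith
  have hs : Summable fun j : ℕ => (j : ℝ) ^ 1 * θ ^ j :=
    summable_pow_mul_geometric_of_norm_lt_one 1 (by rw [Real.norm_eq_abs, abs_of_pos h0]; exact hθ)
  obtain ⟨c, hc0, hcs⟩ : ∃ c : ℝ, 0 ≤ c ∧ ∀ k : ℕ,
      ∑ j ∈ range k, ((j : ℝ) + 1) * θ ^ (j + 1) ≤ c := by
    refine ⟨∑' j : ℕ, (j : ℝ) ^ 1 * θ ^ j, tsum_nonneg fun _ => by positivity, fun k => ?_⟩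
    refine le_trans (le_of_eq ?_) (hs.sum_le_tsum (range (k + 1)) fun _ _ => by positivity)
    rw [sum_range_succ']
    simp
  refine ⟨2 * (1 + 2 * (c * d ^ 2)), by positivity, ?_⟩
  intro H _ _ U D hU h1 hD φ hφ k
  have hq : (0 : ℝ) ≤ (d : ℝ) - 1 := by linarith
  have hN : ∑ a, ‖φ a‖ ^ 2 = ‖(WithLp.toLp 2 φ : Fam d H)‖ ^ 2 := by
    rw [PiLp.norm_sq_eq_of_L2]
  rw [hN]
  set N := ‖(WithLp.toLp 2 φ : Fam d H)‖ with hNd
  have hN0 : 0 ≤ N := norm_nonneg _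
  have hψ : ∀ a, Sm d H (WithLp.toLp 2 φ) a ∈ closure (D : Set H) := fun a => by
    rw [Sm_apply]
    exact D.topologicalClosure.sum_mem fun b _ => hφ b
  have hR : ∀ k, ‖Rk U φ k‖ ≤ ((d : ℝ) - 1) ^ k * (c * d ^ 2) * N := fun k => by
    rw [Rk_eq hU h1 (by omega) hc]
    refine (norm_sum_le _ _).trans ((sum_le_sum (g := fun j : ℕ => ((d : ℝ) - 1) ^ k *
      (((j : ℝ) + 1) * θ ^ (j + 1)) * (d ^ 2 * N)) fun j _ => ?_).trans ?_)
    · rw [norm_smul, Real.norm_eq_abs, abs_of_nonneg (by positivity)]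
      have a1 := (norm_B hU h1 h0 hθ.le (by omega) hc hD hψ j).trans
        (mul_le_mul_of_nonneg_left (norm_Sm _) (by positivity))
      refine (mul_le_mul_of_nonneg_left a1 (by positivity)).trans (le_of_eq ?_)
      have a2 : (θ ^ 2) ^ (j + 1) * θ⁻¹ ^ (j + 1) = θ ^ (j + 1) := by
        rw [← mul_pow]
        congr 1
        field_simp
      rw [← a2, ← hNd]
      ring
    · rw [← sum_mul, ← mul_sum]
      calc _ ≤ ((d : ℝ) - 1) ^ k * c * (d ^ 2 * N) :=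
            mul_le_mul_of_nonneg_right (mul_le_mul_of_nonneg_left (hcs k) (by positivity))
              (by positivity)
        _ = _ := by ring
  have hstep : ∀ (k : ℕ) (a : Fin d), ∑ p ∈ PE (some a) k, ‖Sp U φ 1 (a :: p)‖ ^ 2 ≤
      (1 + 2 * (c * d ^ 2)) * ((d : ℝ) - 1) ^ k * N ^ 2 +
        ∑ p ∈ PE (some a) k, ‖Sp U φ 1 p‖ ^ 2 := fun k a => by
    simp only [Sp_cons hU h1, norm_add_sq_real, LinearIsometry.norm_map]
    rw [sum_add_distrib, sum_add_distrib, sum_const, card_PE_some, ← mul_sum, ← inner_sum,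
      ← map_sum, ← Rk_apply, nsmul_eq_mul, Nat.cast_pow, Nat.cast_sub (by omega), Nat.cast_one]
    have a1 : ‖φ a‖ ≤ N := PiLp.norm_apply_le (WithLp.toLp 2 φ : Fam d H) a
    have a2 : ‖Rk U φ k a‖ ≤ ((d : ℝ) - 1) ^ k * (c * d ^ 2) * N :=
      (PiLp.norm_apply_le _ a).trans (hR k)
    have a3 : ⟪φ a, U (gen a) (Rk U φ k a)⟫_ℝ ≤ N * (((d : ℝ) - 1) ^ k * (c * d ^ 2) * N) := by
      refine (real_inner_le_norm _ _).trans ?_
      rw [LinearIsometry.norm_map]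
      exact mul_le_mul a1 a2 (norm_nonneg _) hN0
    have a4 : ((d : ℝ) - 1) ^ k * ‖φ a‖ ^ 2 ≤ ((d : ℝ) - 1) ^ k * N ^ 2 :=
      mul_le_mul_of_nonneg_left (pow_le_pow_left₀ (norm_nonneg _) a1 2) (by positivity)
    nlinarith
  have hQ : ∀ (k : ℕ) (a : Fin d), ∑ p ∈ PE (some a) k, ‖Sp U φ 1 p‖ ^ 2 ≤
      (1 + 2 * (c * d ^ 2)) * k * ((d : ℝ) - 1) ^ k * N ^ 2 := by
    intro k
    induction k with
    | zero => intro a; rw [sum_PE_zero]; simp [Sp]
    | succ k ih =>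
      intro a
      rw [sum_PE_succ]
      refine (sum_le_sum fun b _ => (hstep k b).trans (add_le_add le_rfl (ih b))).trans
        (le_of_eq ?_)
      rw [sum_const, card_dirs_some, nsmul_eq_mul, Nat.cast_sub (by omega)]
      push_cast
      ring
  cases k with
  | zero => rw [sum_PE_zero]; simp [Sp]
  | succ k =>
    rw [sum_PE_succ]
    refine (sum_le_sum fun b _ => (hstep k b).trans (add_le_add le_rfl (hQ k b))).trans ?_
    rw [sum_const, dirs_none, card_univ, Fintype.card_fin, nsmul_eq_mul]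
    have a1 : (0 : ℝ) ≤ (1 + 2 * (c * d ^ 2)) * (k + 1) * ((d : ℝ) - 1) ^ k * N ^ 2 := by positivity
    have a2 : (d : ℝ) ≤ 2 * (d - 1) := by linarith
    have a3 := mul_le_mul_of_nonneg_right a2 a1
    push_cast
    calc _ = d * ((1 + 2 * (c * d ^ 2)) * (k + 1) * ((d : ℝ) - 1) ^ k * N ^ 2) := by ring
      _ ≤ _ := a3
      _ = _ := by ring

end Vale.Agent.P161E
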