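import Vale.Agent.P161E.Spec

/-!
Module GB: decorrelation along paths.
-/

namespace Vale.Agent.P161E

open MeasureTheory ProbabilityTheory Filter Topology Finset Real
open Vale.Agent.P161
open scoped InnerProductSpace

namespace GBm

variable {d : ℕ} {θ : ℝ} {μ : Measure (W d → Bool)}

theorem inner_eq {Ω : Type} [MeasurableSpace Ω] {P : Measure Ω} {F G : Lp ℝ 2 P} {f g : Ω → ℝ}
    (hf : F =ᵐ[P] f) (hg : G =ᵐ[P] g) : ⟪F, G⟫_ℝ = ∫ ω, f ω * g ω ∂P := by
  rw [L2.inner_def]
  refine integral_congr_ae ?_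
  filter_upwards [hf, hg] with ω h1 h2
  rw [h1, h2]
  simp [mul_comm]

theorem norm_sq_eq {Ω : Type} [MeasurableSpace Ω] {P : Measure Ω} {F : Lp ℝ 2 P} {f : Ω → ℝ}
    (hf : F =ᵐ[P] f) : ‖F‖ ^ 2 = ∫ ω, f ω ^ 2 ∂P := by
  rw [← real_inner_self_eq_norm_sq, inner_eq hf hf]
  simp only [sq]

theorem loc_mono {R R' : ℕ} (h : R ≤ R') {f : Om d → ℝ} (hf : Loc R f) : Loc R' f :=
  fun ω ω' h1 h2 => hf ω ω' (fun v hv => h1 v (hv.trans h)) fun j hj => h2 j (hj.trans h)

/-- Classes of bounded local functions of mean zero. -/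
def Dl (μ : Measure (W d → Bool)) [IsProbabilityMeasure μ] : Submodule ℝ (Lp ℝ 2 (PP μ)) where
  carrier := {F | ∃ R f, Measurable f ∧ Bdd f ∧ Loc R f ∧ ∫ ω, f ω ∂PP μ = 0 ∧ F =ᵐ[PP μ] f}
  zero_mem' := ⟨0, fun _ => 0, measurable_const, ⟨0, by simp⟩, fun _ _ _ _ => rfl, by simp,
    Lp.coeFn_zero _ _ _⟩
  add_mem' := by
    rintro F G ⟨R, f, m1, ⟨C, b1⟩, l1, i1, e1⟩ ⟨R', g, m2, ⟨C', b2⟩, l2, i2, e2⟩
    refine ⟨max R R', fun ω => f ω + g ω, m1.add m2,
      ⟨C + C', fun ω => (abs_add_le _ _).trans (add_le_add (b1 ω) (b2 ω))⟩,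
      fun ω ω' h1 h2 => ?_, ?_, ?_⟩
    · simp only [loc_mono (le_max_left R R') l1 ω ω' h1 h2,
        loc_mono (le_max_right R R') l2 ω ω' h1 h2]
    · rw [integral_add (ibdd m1 b1) (ibdd m2 b2), i1, i2, add_zero]
    · filter_upwards [Lp.coeFn_add F G, e1, e2] with ω a1 a2 a3
      rw [a1, Pi.add_apply, a2, a3]
  smul_mem' := by
    rintro c F ⟨R, f, m1, ⟨C, b1⟩, l1, i1, e1⟩
    refine ⟨R, fun ω => c * f ω, m1.const_mul c, ⟨|c| * C, fun ω => ?_⟩,
      fun ω ω' h1 h2 => ?_, ?_, ?_⟩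
    · rw [abs_mul]
      exact mul_le_mul_of_nonneg_left (b1 ω) (abs_nonneg _)
    · simp only [l1 ω ω' h1 h2]
    · rw [integral_const_mul, i1, mul_zero]
    · filter_upwards [Lp.coeFn_smul c F, e1] with ω a1 a2
      rw [a1, Pi.smul_apply, a2, smul_eq_mul]

/-- Reset outside the ball of radius `R`. -/
def res (R : ℕ) (ω : Om d) : Om d :=
  (fun j => if len j.1 ≤ R then ω.1 j else 0, (fun v => if len v ≤ R then ω.2.1 v else true),
    fun j => if len j.1 ≤ R then ω.2.2 j else 0)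

theorem meas_res (R : ℕ) : Measurable (res R : Om d → Om d) := by
  refine (measurable_pi_lambda _ fun j => ?_).prodMk
    ((measurable_pi_lambda _ fun v => ?_).prodMk (measurable_pi_lambda _ fun j => ?_))
  · split_ifs
    · exact (measurable_pi_apply j).comp measurable_fst
    · exact measurable_const
  · split_ifs
    · exact (measurable_pi_apply v).comp measurable_snd.fst
    · exact measurable_const
  · split_ifs
    · exact (measurable_pi_apply j).comp measurable_snd.snd
    · exact measurable_const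

theorem res_res {R R' : ℕ} (h : R ≤ R') (ω : Om d) : res R (res R' ω) = res R ω := by
  refine Prod.ext (funext fun j => ?_) (Prod.ext (funext fun j => ?_) (funext fun j => ?_)) <;>
  · simp only [res]
    split_ifs with h1 h2
    · rfl
    · exact absurd (h1.trans h) h2
    · rfl

theorem loc_res (R : ℕ) (h : Om d → ℝ) : Loc R fun ω => h (res R ω) := by
  intro ω ω' h1 h2
  have : res R ω = res R ω' := by
    refine Prod.ext (funext fun j => ?_) (Prod.ext (funext fun j => ?_) (funext fun j => ?_)) <;>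
      simp only [res] <;> split_ifs with h3
    · exact (h2 j h3).1
    · rfl
    · exact h1 j h3
    · rfl
    · exact (h2 j h3).2
    · rfl
  simp only [this]

/-- The filtration of the balls. -/
def fil (d : ℕ) : Filtration ℕ (inferInstance : MeasurableSpace (Om d)) where
  seq R := MeasurableSpace.comap (res R) inferInstance
  mono' R R' h := by
    have : (res R : Om d → Om d) = res R ∘ res R' := funext fun ω => (res_res h ω).symm
    simp only
    rw [this, ← MeasurableSpace.comap_comp]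
    exact MeasurableSpace.comap_mono (meas_res R).comap_le
  le' R := (meas_res R).comap_le

theorem le_sup_fil : (inferInstance : MeasurableSpace (Om d)) ≤ ⨆ R, fil d R := by
  have key : ∀ {X : Type} [MeasurableSpace X] (R : ℕ) (k : Om d → X), Measurable k →
      (∀ ω, k (res R ω) = k ω) → Measurable[⨆ R, fil d R] k := by
    intro X _ R k hk h
    have h1 : Measurable[fil d R] (res R : Om d → Om d) := comap_measurable _
    have h2 : Measurable[fil d R] k := by
      have := hk.comp h1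
      rwa [show k ∘ res R = k from funext h] at this
    exact h2.mono (le_iSup (fun R => fil d R) R) le_rfl
  have h : @Measurable _ _ (⨆ R, fil d R) inferInstance
      fun ω : Om d => (ω.1, ω.2.1, ω.2.2) := by
    refine Measurable.prodMk (@measurable_pi_lambda _ _ _ (⨆ R, fil d R) _ _ fun j => ?_)
      (Measurable.prodMk (@measurable_pi_lambda _ _ _ (⨆ R, fil d R) _ _ fun v => ?_)
        (@measurable_pi_lambda _ _ _ (⨆ R, fil d R) _ _ fun j => ?_))
    · exact key (len j.1) _ ((measurable_pi_apply j).comp measurable_fst) fun ω => by simp [res]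
    · exact key (len v) _ ((measurable_pi_apply v).comp measurable_snd.fst) fun ω => by simp [res]
    · exact key (len j.1) _ ((measurable_pi_apply j).comp measurable_snd.snd) fun ω => by
        simp [res]
  exact fun s hs => h hs

theorem dense (b : Base d θ μ) [IsProbabilityMeasure μ] {φ : Om d → ℝ} (hm : Measurable φ)
    {C : ℝ} (hb : ∀ᵐ ω ∂PP μ, |φ ω| ≤ C) (h0 : ∫ ω, φ ω ∂PP μ = 0) {F : Lp ℝ 2 (PP μ)}
    (hF : F =ᵐ[PP μ] φ) : F ∈ closure (Dl μ : Set (Lp ℝ 2 (PP μ))) := by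
  have hi : Integrable φ (PP μ) := Integrable.of_bound hm.aestronglyMeasurable C hb
  have hlim := hi.tendsto_ae_condExp (ℱ := fil d)
    (hm.mono le_sup_fil le_rfl).stronglyMeasurable
  have hbd : ∀ R, ∀ᵐ ω ∂PP μ, |((PP μ)[φ | fil d R]) ω| ≤ C := fun R => by
    filter_upwards [b.P.between (fil d R) (PP μ) φ (-C) C ((fil d).le R) hm
      (hb.mono fun ω h => abs_le.1 h)] with ω h
    exact abs_le.2 h
  have hmR : ∀ R, Measurable ((PP μ)[φ | fil d R]) := fun R =>
    (stronglyMeasurable_condExp.mono ((fil d).le R)).measurable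
  have hL : ∀ R, MemLp ((PP μ)[φ | fil d R]) 2 (PP μ) := fun R =>
    MemLp.of_bound (hmR R).aestronglyMeasurable C (hbd R)
  refine mem_closure_of_tendsto (f := fun R => (hL R).toLp _) (b := atTop) ?_
    (Eventually.of_forall fun R => ?_)
  · rw [tendsto_iff_norm_sub_tendsto_zero]
    have h1 : Tendsto (fun R => ∫ ω, (((PP μ)[φ | fil d R]) ω - φ ω) ^ 2 ∂PP μ) atTop
        (𝓝 (∫ _, 0 ∂PP μ)) := by
      refine tendsto_integral_of_dominated_convergence (fun _ => (C + C) ^ 2)
        (fun R => (((hmR R).sub hm).pow_const 2).aestronglyMeasurable) (integrable_const _)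
        (fun R => ?_) ?_
      · filter_upwards [hbd R, hb] with ω a1 a2
        rw [Real.norm_eq_abs, abs_pow]
        exact pow_le_pow_left₀ (abs_nonneg _) ((abs_sub _ _).trans (add_le_add a1 a2)) 2
      · filter_upwards [hlim] with ω a1
        simpa using (a1.sub_const (φ ω)).pow 2
    rw [integral_zero] at h1
    have h2 := h1.sqrt
    rw [sqrt_zero] at h2
    refine h2.congr fun R => ?_
    rw [← norm_sq_eq (F := (hL R).toLp _ - F), sqrt_sq (norm_nonneg _)]
    filter_upwards [Lp.coeFn_sub ((hL R).toLp _) F, (hL R).coeFn_toLp, hF] with ω a1 a2 a3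
    rw [a1, Pi.sub_apply, a2, a3]
  · obtain ⟨h, -, hh⟩ := (stronglyMeasurable_condExp (m := fil d R) (μ := PP μ)
      (f := φ)).measurable.exists_eq_measurable_comp
    have e : (fun ω => max (-C) (min C (((PP μ)[φ | fil d R]) ω))) =ᵐ[PP μ]
        (PP μ)[φ | fil d R] := by
      filter_upwards [hbd R] with ω a1
      rw [min_eq_right (abs_le.1 a1).2, max_eq_right (abs_le.1 a1).1]
    refine ⟨R, fun ω => max (-C) (min C (((PP μ)[φ | fil d R]) ω)),
      measurable_const.max (measurable_const.min (hmR R)), ⟨|C|, fun ω => ?_⟩, ?_, ?_,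
      (hL R).coeFn_toLp.trans e.symm⟩
    · rw [abs_le]
      exact ⟨(neg_le_neg (le_abs_self C)).trans (le_max_left _ _),
        max_le (neg_le_abs C) ((min_le_left _ _).trans (le_abs_self C))⟩
    · rw [hh]
      exact loc_res R fun ω => max (-C) (min C (h ω))
    · rw [integral_congr_ae e, integral_condExp ((fil d).le R), h0]

/-- The shifts acting on square integrable functions. -/
noncomputable def Ush (b : Base d θ μ) (x : W d) : Lp ℝ 2 (PP μ) →ₗᵢ[ℝ] Lp ℝ 2 (PP μ) :=
  Lp.compMeasurePreservingₗᵢ ℝ (sh x) (b.I.mp (lm x))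

theorem Ush_ae (b : Base d θ μ) (x : W d) {F : Lp ℝ 2 (PP μ)} {f : Om d → ℝ}
    (h : F =ᵐ[PP μ] f) : Ush b x F =ᵐ[PP μ] fun ω => f (sh x ω) :=
  (Lp.coeFn_compMeasurePreserving F (b.I.mp (lm x))).trans
    ((b.I.mp (lm x)).quasiMeasurePreserving.ae_eq_comp h)

theorem Sp_ae (b : Base d θ μ) {Φ : Fin d → Lp ℝ 2 (PP μ)} {φ : Fin d → Om d → ℝ}
    (h : ∀ a, Φ a =ᵐ[PP μ] φ a) (x : W d) (p : List (Fin d)) :
    (Sp (Ush b) Φ x p : Lp ℝ 2 (PP μ)) =ᵐ[PP μ] Sf φ x p := by
  induction p generalizing x with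
  | nil => exact Lp.coeFn_zero _ _ _
  | cons a p ih =>
    rw [Sp]
    filter_upwards [Lp.coeFn_add (Ush b x (Φ a)) (Sp (Ush b) Φ (step x a) p), Ush_ae b x (h a),
      ih (step x a)] with ω a1 a2 a3
    rw [a1, Pi.add_apply, a2, a3, Sf]

end GBm

open GBm in
theorem stmtGB {d : ℕ} {θ : ℝ} {μ : Measure (W d → Bool)} (b : Base d θ μ) (hGA : StmtGA d θ)
    (h1 : StmtGB1 d θ μ) : StmtGB d μ := by
  have := b.crit.hμ.1
  obtain ⟨C, hC, h⟩ := hGA
  refine ⟨C, hC, fun φ hm ⟨C', hb⟩ h0 k => ?_⟩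
  have hL : ∀ a, MemLp (φ a) 2 (PP μ) := fun a =>
    MemLp.of_bound (hm a).aestronglyMeasurable C' (hb a)
  have key := h (Lp ℝ 2 (PP μ)) (Ush b) (Dl μ)
    (fun x y F => Lp.ext ((Ush_ae b x (Ush_ae b y (ae_eq_refl _))).trans (by
      simp only [b.I.sh_sh]
      exact (Ush_ae b (x * y) (ae_eq_refl _)).symm)))
    (fun F => Lp.ext ((Ush_ae b 1 (ae_eq_refl _)).trans (by
      simp only [b.I.sh_one]
      exact ae_eq_refl _)))
    (by
      rintro F ⟨R, f, m1, b1, l1, i1, e1⟩ G ⟨R', g, m2, b2, l2, i2, e2⟩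
      obtain ⟨C1, hC1⟩ := h1 (max R R') f g m1 m2 b1 b2 (loc_mono (le_max_left _ _) l1)
        (loc_mono (le_max_right _ _) l2) i1 i2
      exact ⟨C1, fun x => by rw [inner_eq e1 (Ush_ae b x e2)]; exact hC1 x⟩)
    (fun a => (hL a).toLp _) (fun a => dense b (hm a) (hb a) (h0 a) (hL a).coeFn_toLp) k
  simp only [norm_sq_eq (Sp_ae b (fun a => (hL a).coeFn_toLp) 1 _),
    norm_sq_eq (hL _).coeFn_toLp] at key
  exact key

end Vale.Agent.P161E
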