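import Vale.Agent.P161E.I
import Vale.Agent.P161E.GA
import Vale.Agent.P161E.GB

/-!
The converse: above the threshold the free measure is not a factor of IID.
-/

namespace Vale.Agent.P161E

open MeasureTheory Filter Topology Finset Real
open Vale.Agent.P161
open scoped InnerProductSpace Classical

namespace Cv

variable {d : ℕ} {θ θ' : ℝ} {μ ν : Measure (W d → Bool)}

lemma mean0 (hν : IsFreeIsing (T d) θ' ν) (v : W d) : ∫ σ, spin (σ v) ∂ν = 0 := by
  have e : ({v} : Finset (W d)).sym2.filter (fun e => e ∈ (T d).edgeSet) = ∅ := by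
    simp [filter_eq_empty_iff]
  rw [int_eq_sum hν (D := {v}) (by
      rw [coe_singleton]; exact SimpleGraph.Connected.of_subsingleton) (Dep.spin (by simp)), e,
    show ({v} : Finset (W d)).powerset = {∅, {v}} from rfl,
    sum_pair (singleton_ne_empty v).symm]
  simp [cfg, spin]

lemma one_side {x : W d} {y : W d} (h : len y < len x) (hy : y ∈ side (T d) (par x) x) :
    1 ∈ side (T d) (par x) x := by
  induction y using II.par_ind with
  | h1 => exact hy
  | h2 y h1 ih =>
    have := II.len_par h1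
    refine ih (by omega) (side_adj (II.adj_par h1) (fun e => ?_) hy)
    rcases Sym2.eq_iff.1 e with ⟨-, e⟩ | ⟨e, -⟩ <;> have := congrArg len e <;> omega

lemma corr (hT : (T d).IsTree) (hν : IsFreeIsing (T d) θ' ν) (h0 : 0 ≤ θ') (h1 : θ' < 1)
    (x : W d) : ∫ σ, spin (σ 1) * spin (σ x) ∂ν = θ' ^ len x := by
  have := hν.1
  induction x using II.par_ind with
  | h1 => simp [len, one_val]
  | h2 x hx ih =>
    have hl := II.len_par hx
    obtain ⟨n, hn, h⟩ := regress hT II.nb_fin hν h0 h1 (II.adj_par hx).symm {1}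
      (Dep.const _ 1) fun _ => one_pos
    have a1 := h _ (Dep.const _ 1)
    have a2 := h _ (Dep.spin ⟨by simp, one_side (by omega) (mem_side_self _ _)⟩)
    simp only [mul_one, one_mul, mean0 hν, mul_zero, add_zero, zero_add, integral_const,
      probReal_univ, smul_eq_mul] at a1 a2
    obtain ⟨⟨b1, -⟩, b2, -⟩ := mob_den h0 hn
    have : n = 0 := by
      rw [rA, mob, mob, div_add_div _ _ (by linarith) (by linarith), eq_comm, div_eq_zero_iff,
        div_eq_zero_iff] at a1
      rcases a1 with (a1 | a1) | a1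
      · have : n * (1 - θ' ^ 2) = 0 := by linarith
        exact (mul_eq_zero.1 this).resolve_right (by nlinarith)
      · exact absurd a1 (mul_pos (by linarith) (by linarith)).ne'
      · exact absurd a1 two_ne_zero
    rw [a2, ih, this, ← hl, pow_succ']
    simp [rK, mob]

open GAm in
lemma inner_B {H : Type} [NormedAddCommGroup H] [InnerProductSpace ℝ H] {U : W d → H →ₗᵢ[ℝ] H}
    (hU : ∀ x y f, U x (U y f) = U (x * y) f) (hd : 1 ≤ d) {F : H}
    (h : ∀ x, ⟪F, U x F⟫_ℝ = θ' ^ len x) (r : ℕ) (i : Fin d) (x : W d)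
    (hx : ∀ a, a ≠ i → x.1.head? ≠ some a) :
    ⟪F, U x (((Sm d H * Vm U) ^ r) (WithLp.toLp 2 fun _ => F) i)⟫_ℝ =
      ((d : ℝ) - 1) ^ r * θ' ^ (len x + r) := by
  induction r generalizing i x with
  | zero => simpa using h x
  | succ r ih =>
    rw [pow_succ', mul_apply_eq_comp, mul_apply_eq_comp, Sm_apply, map_sum, inner_sum,
      sum_congr rfl fun a ha => by
        rw [Vm_apply, hU, mul_gen, ih a _ (fun c hc => by
          rw [step_of_ne (hx a (mem_erase.1 ha).1)]; simpa using hc.symm),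
          len_step_of_ne (hx a (mem_erase.1 ha).1)],
      sum_const, card_erase_of_mem (mem_univ _), card_univ, Fintype.card_fin, nsmul_eq_mul,
      Nat.cast_sub hd]
    push_cast
    ring

end Cv

open Cv GBm in
theorem converse {d : ℕ} {θ θ' : ℝ} {μ ν : Measure (W d → Bool)} (b : Base d θ μ)
    (hB : StmtGB1 d θ μ) (hT : (T d).IsTree) (hν : IsFreeIsing (T d) θ' ν) (h0 : 0 ≤ θ')
    (h1 : θ' < 1) (h : IsFactorOfIID (T d) ν) : θ' ≤ θ := by
  have := b.crit.hμ.1
  have hd := b.crit.hd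
  have hθ := b.crit.h0
  obtain ⟨Φ, hΦ, hl, he⟩ := h
  have hp : MeasurePreserving (fun (ω : Om d) v => ω.1 (v, 0)) (PP μ)
      (Measure.infinitePi fun _ => volume) :=
    MeasurePreserving.comp (g := fun (τ : Nz d) v => τ (v, 0)) ⟨by fun_prop,
      Measure.map_infinitePi_infinitePi_of_inj fun _ _ e => congrArg Prod.fst e⟩
      measurePreserving_fst
  have hq := (MeasurePreserving.mk hΦ hl).comp hp
  have hi : ∀ k : (W d → Bool) → ℝ, Measurable k →
      ∫ ω, k (Φ fun v => ω.1 (v, 0)) ∂PP μ = ∫ σ, k σ ∂ν := fun k hk => by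
    rw [← hq.map_eq, integral_map hq.measurable.aemeasurable hk.aestronglyMeasurable]; rfl
  have ms : ∀ v : W d, Measurable fun σ : W d → Bool => spin (σ v) := fun v =>
    (Measurable.of_discrete (f := spin)).comp (measurable_pi_apply v)
  have hm : Measurable fun ω : Om d => spin (Φ (fun v => ω.1 (v, 0)) 1) := (ms 1).comp hq.measurable
  have hb : ∀ᵐ ω ∂PP μ, |spin (Φ (fun v => ω.1 (v, 0)) 1)| ≤ 1 :=
    ae_of_all _ fun _ => (spin_abs _).le
  have hL := MemLp.of_bound (p := 2) hm.aestronglyMeasurable 1 hb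
  have hU : ∀ x y F, Ush b x (Ush b y F) = Ush b (x * y) F := fun x y F =>
    Lp.ext ((Ush_ae b x (Ush_ae b y (ae_eq_refl _))).trans (by
      simp only [b.I.sh_sh]
      exact (Ush_ae b (x * y) (ae_eq_refl _)).symm))
  have hc : ∀ x, ⟪hL.toLp _, Ush b x (hL.toLp _)⟫_ℝ = θ' ^ len x := fun x => by
    rw [inner_eq hL.coeFn_toLp (Ush_ae b x hL.coeFn_toLp), ← corr hT hν h0 h1,
      ← hi (fun σ => spin (σ 1) * spin (σ x)) ((ms 1).mul (ms x))]
    refine integral_congr_ae ((hp.quasiMeasurePreserving.ae (he (lm x).symm)).mono fun ω h => ?_)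
    exact congrArg (fun s => _ * spin s) ((congrFun h 1).trans (congrArg _ (mul_one x)))
  have key := fun r => GAm.norm_B (D := Dl μ) (g := WithLp.toLp 2 fun _ => hL.toLp _) hU
    (fun F => Lp.ext ((Ush_ae b 1 (ae_eq_refl _)).trans (by
      simp only [b.I.sh_one]
      exact ae_eq_refl _))) hθ b.crit.h1.le (by omega) b.crit.hc (by
      rintro F ⟨R, f, m1, b1, l1, i1, e1⟩ G ⟨R', g, m2, b2, l2, i2, e2⟩
      obtain ⟨C1, hC1⟩ := hB (max R R') f g m1 m2 b1 b2 (loc_mono (le_max_left _ _) l1)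
        (loc_mono (le_max_right _ _) l2) i1 i2
      exact ⟨C1, fun x => by rw [inner_eq e1 (Ush_ae b x e2)]; exact hC1 x⟩)
    (fun _ => dense b hm hb ((hi _ (ms 1)).trans (mean0 hν 1)) hL.coeFn_toLp) r
  generalize hL.toLp _ = F at hc key
  generalize hN : ‖(WithLp.toLp 2 fun _ => F : GAm.Fam d _)‖ = N at key
  by_contra hlt
  have hq1 : 1 < θ' / θ := (one_lt_div hθ).2 (not_le.1 hlt)
  have a1 : ∀ r : ℕ, 1 ≤ ‖F‖ * θ⁻¹ * N * ((r : ℝ) ^ 0 / (θ' / θ) ^ r + r ^ 1 / (θ' / θ) ^ r) :=
    fun r => by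
      have a2 := (inner_B hU (by omega) hc r ⟨0, by omega⟩ 1 (by simp [one_val])).symm.trans_le
        ((real_inner_le_norm _ _).trans (mul_le_mul_of_nonneg_left
          ((LinearIsometry.norm_map _ _).trans_le ((PiLp.norm_apply_le _ _).trans (key r)))
            (norm_nonneg _)))
      have e : (d : ℝ) - 1 = θ⁻¹ * θ⁻¹ := by field_simp; linarith [b.crit.hc]
      rw [← add_div, ← mul_div_assoc, one_le_div (by positivity),
        ← mul_le_mul_iff_left₀ (pow_pos (inv_pos.2 hθ) r)]
      rw [e, show len (1 : W d) = 0 from rfl, zero_add] at a2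
      calc _ = (θ⁻¹ * θ⁻¹) ^ r * θ' ^ r := by rw [div_eq_mul_inv, mul_pow, mul_pow]; ring
        _ ≤ _ := a2
        _ = _ := by ring
  have a3 := ((tendsto_pow_const_div_const_pow_of_one_lt 0 hq1).add
    (tendsto_pow_const_div_const_pow_of_one_lt 1 hq1)).const_mul (‖F‖ * θ⁻¹ * N)
  have := ge_of_tendsto' a3 a1
  norm_num at this

end Vale.Agent.P161E
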