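import Vale.Agent.P161E.Spec

namespace Vale.Agent.P161E

open MeasureTheory Filter Topology Finset Real

theorem core {d : ℕ} {θ : ℝ} {μ : Measure (W d → Bool)} (b : Base d θ μ) (hE : StmtE d θ μ)
    (hMx : StmtMx d θ μ) (hD : StmtD d θ μ) (hS1 : StmtS1 d θ μ) (hS2 : StmtS2 d θ μ)
    (hG : StmtG) (n : ℕ) : del θ μ n = 0 := by
  have := b.crit.hμ.1
  obtain ⟨L, L0, Ls, hL⟩ := hD
  have hm : ∀ s, Measurable (ms (d := d) θ s 1) := fun s =>
    hE.meas_ms (fun _ => s) measurable_const 1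
  have h1 : ∀ s (ω : Om d), |ms θ s 1 ω| ≤ 1 := fun s ω => (abs_tanh_lt_one _).le
  have h0 : ∀ s, 0 ≤ del θ μ s := fun s => integral_nonneg fun _ => sq_nonneg _
  have key := hG (del θ μ) (fun n => 200 * (eps n ^ 2 * L n))
    (fun n s t => 200 * ∑' u, err θ μ n s t u) h0 (fun n => by have := L0 n; positivity)
    (fun n s t => mul_nonneg (by norm_num) (tsum_nonneg (hS2.nonneg n s t))) (Ls.mul_left 200)
    (fun n s t p a1 a2 a3 a4 => (hS1 n s t _ a1 a2 a3 (hL n s a1 (by linarith) p a4)).trans_eq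
      (by ring))
    (fun n s t a1 a2 => by simpa only [← mul_sum, mul_zero] using (hS2.lim n s t a1 a2).const_mul 200)
    (fun n => ?_) ?_ n
  · simpa using key
  · have e : ms (d := d) θ (n + 1) 1 = ms θ (n + 1 / 2) 1 := funext fun ω => by
      rw [ms, ms, hE.half]
    rw [del, del, e]
    exact b.P.proj _ (PP μ) _ _ 1 (hE.Gs_le _) (hm _) (ae_of_all _ (h1 _))
      ((hE.meas_CE _ _).2.mono (hE.Gs_mono _ _ (by linarith)) le_rfl)
      ((b.P.between _ (PP μ) _ (-1) 1 (hE.Gs_le _) (hm _)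
        (ae_of_all _ fun ω => abs_le.1 (h1 _ ω))).mono fun ω h => abs_le.2 h)
  · have a1 : Tendsto (fun m : ℕ => 2 * (2 : ℝ) ^ (-(m : ℤ))) atTop (𝓝 0) := by
      simpa using (tendsto_pow_atTop_nhds_zero_of_lt_one (r := (2 : ℝ)⁻¹) (by norm_num)
        (by norm_num)).const_mul 2
    have a2 := (a1.pow 2).add (a1.const_mul (2 * d : ℝ))
    rw [zero_pow two_ne_zero, mul_zero, add_zero] at a2
    refine squeeze_zero (fun _ => h0 _) (fun m => ?_) a2
    refine le_trans ?_ (hMx.upm (-m) (-m) (by push_cast; linarith))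
    simpa [del, CE] using b.P.proj (Gs θ (-m)) (PP μ) _ (fun _ => 0) 1 (hE.Gs_le _) (hm (-m))
      (ae_of_all _ (h1 _)) measurable_const (ae_of_all _ fun _ => by simp)

end Vale.Agent.P161E
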