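import Vale.Agent.P161E.Spec

namespace Vale.Agent.P161E

open MeasureTheory ProbabilityTheory Filter Topology Finset Real
open Vale.Agent.P161 (spin obs gain clip coin IsFreeIsing IsFactorOfIID)
open scoped Classical

namespace Dd

noncomputable def k0 (ρ : ℝ) : ℕ := ⌈20 / ρ * log (1 / ρ)⌉₊

lemma k0_le {ρ : ℝ} (h0 : 0 < ρ) (h1 : ρ ≤ 1) : (k0 ρ : ℝ) + 1 ≤ 20 / ρ * log (1 / ρ) + 2 := by
  have h : 0 ≤ 20 / ρ * log (1 / ρ) :=
    mul_nonneg (by positivity) (log_nonneg (one_le_one_div h0 h1))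
  have := Nat.ceil_lt_add_one h
  unfold k0; linarith

lemma k0_spec {ρ : ℝ} (h0 : 0 < ρ) (h1 : ρ ≤ 1) (k : ℕ) (hk : k0 ρ < k) :
    (k + 1 : ℝ) ≤ 5 * ρ * (1 + ρ / 2) ^ k := by
  have e1 : exp (ρ / 10) ≤ 1 + ρ / 5 := by
    have := Real.abs_exp_sub_one_sub_id_le (x := ρ / 10) (by rw [abs_of_pos (by linarith)]; linarith)
    have := (abs_le.1 this).2
    nlinarith
  have e2 : 20 / ρ * log (1 / ρ) ≤ k := (Nat.le_ceil _).trans (by exact_mod_cast hk.le)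
  have e3 : 1 / ρ ^ 2 ≤ (1 + ρ / 5) ^ k := by
    calc 1 / ρ ^ 2 = exp (ρ / 10 * (20 / ρ * log (1 / ρ))) := by
          rw [show ρ / 10 * (20 / ρ * log (1 / ρ)) = (2 : ℕ) * log (1 / ρ) by push_cast; field_simp; ring,
            exp_nat_mul, exp_log (by positivity)]
          field_simp
      _ ≤ exp (ρ / 10 * k) := by gcongr
      _ = exp (ρ / 10) ^ k := by rw [mul_comm, exp_nat_mul]
      _ ≤ _ := by gcongr
  have e4 : 1 + k * (ρ / 5) ≤ (1 + ρ / 5) ^ k := one_add_mul_le_pow (by linarith) k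
  have e5 : (1 + ρ / 5) ^ k * (1 + ρ / 5) ^ k ≤ (1 + ρ / 2) ^ k := by
    rw [← mul_pow]; gcongr; nlinarith
  have e6 : (k + 1 : ℝ) ≤ 5 / ρ * (1 + k * (ρ / 5)) := by
    have : 1 ≤ 5 / ρ := by rw [le_div_iff₀ h0]; linarith
    have e : 5 / ρ * (1 + k * (ρ / 5)) = 5 / ρ + k := by field_simp
    linarith
  calc (k + 1 : ℝ) ≤ 5 / ρ * (1 + k * (ρ / 5)) := e6
    _ = 5 * ρ * ((1 + k * (ρ / 5)) * (1 / ρ ^ 2)) := by field_simp
    _ ≤ 5 * ρ * ((1 + ρ / 5) ^ k * (1 + ρ / 5) ^ k) := by gcongr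
    _ ≤ _ := by gcongr

lemma cut {ν p δ C P : ℝ} (hν : 0 < ν) (hp : 1 ≤ p) (hδ : 0 ≤ δ) (hC : 0 < C)
    (h1 : 1 ≤ √(2 * p / ν) → P = 0) (h2 : P ≤ C * exp (-(√(2 * p / ν) * ν))) :
    √(2 * p / ν) ^ 2 * δ + P ≤ (2 + 4 * C) * ν⁻¹ * (p * δ + exp (-p)) := by
  have hl : √(2 * p / ν) ^ 2 = 2 * p / ν := sq_sqrt (by positivity)
  set l := √(2 * p / ν)
  have hl0 : 0 < l := sqrt_pos.2 (by positivity)
  have hP : P ≤ 4 * C * ν⁻¹ * exp (-p) := by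
    rcases le_or_gt 1 l with h | h
    · rw [h1 h]; positivity
    refine h2.trans ?_
    have a1 : l ^ 2 * ν = 2 * p := by rw [hl]; field_simp
    have a2 : p + l * ν / 2 ≤ l * ν := by nlinarith [mul_pos hl0 hν]
    have a3 : (l * ν / 2) ^ 2 / 2 ≤ exp (l * ν / 2) := by
      have := Real.quadratic_le_exp_of_nonneg (x := l * ν / 2) (by positivity)
      nlinarith [mul_pos hl0 hν]
    have a4 : ν / 4 ≤ exp (l * ν / 2) := by nlinarith
    have a5 : exp (-(l * ν / 2)) ≤ 4 * ν⁻¹ := by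
      rw [exp_neg, inv_le_comm₀ (exp_pos _) (by positivity)]
      refine le_trans (le_of_eq ?_) a4
      field_simp
    calc C * exp (-(l * ν)) ≤ C * exp (-(l * ν / 2) + -p) := by gcongr; linarith
      _ = C * (exp (-(l * ν / 2)) * exp (-p)) := by rw [exp_add]
      _ ≤ C * (4 * ν⁻¹ * exp (-p)) := by gcongr
      _ = _ := by ring
  have : 0 ≤ 4 * C * ν⁻¹ * (p * δ) := by positivity
  have : 0 ≤ 2 * ν⁻¹ * exp (-p) := by positivity
  rw [hl, div_eq_mul_inv]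
  nlinarith

lemma fin {c₀ A B C₃ l m w q k : ℝ} (hc : 0 < c₀) (hA : 0 ≤ A) (hB : 0 ≤ B)
    (hC₃ : C₃ = 40 / c₀ * (l + 1) + 2) (hl : 0 ≤ l) (hm : 0 ≤ m) (hw0 : 0 < w) (hw1 : w ≤ 1)
    (hwq : w ≤ q) (hk0 : 0 ≤ k) (hk : k + 1 ≤ 20 / (c₀ * w / 2) * ((l + 1) * (m + 1)) + 2) :
    w ^ 2 * ((k + 1) * (A + k * (A * q)) + B / (c₀ * w / 2)) ≤
      (C₃ * A + C₃ ^ 2 * A + 2 * B / c₀) * ((m + 1) ^ 2 * q) := by
  have hC₃0 : 0 ≤ C₃ := by rw [hC₃]; positivity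
  have hkw : (k + 1) * w ≤ C₃ * (m + 1) := by
    calc (k + 1) * w ≤ (20 / (c₀ * w / 2) * ((l + 1) * (m + 1)) + 2) * w := by gcongr
      _ = 40 / c₀ * (l + 1) * (m + 1) + 2 * w := by field_simp; ring
      _ ≤ _ := by rw [hC₃]; linarith
  have hkw' : k * w ≤ C₃ * (m + 1) := by linarith
  have hm1 : (m + 1 : ℝ) ≤ (m + 1) ^ 2 := by nlinarith
  have hm2 : (1 : ℝ) ≤ (m + 1) ^ 2 := by nlinarith
  have hq : 0 < q := hw0.trans_le hwq
  calc _ = (k + 1) * w * A * w + (k + 1) * w * (k * w) * A * q + 2 * B / c₀ * 1 * w := by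
        field_simp
    _ ≤ C₃ * (m + 1) ^ 2 * A * q + C₃ * (m + 1) * (C₃ * (m + 1)) * A * q +
          2 * B / c₀ * (m + 1) ^ 2 * q := by
        have hkw2 : (k + 1) * w ≤ C₃ * (m + 1) ^ 2 := hkw.trans (by gcongr)
        have t1 : (k + 1) * w * A * w ≤ C₃ * (m + 1) ^ 2 * A * q :=
          mul_le_mul (mul_le_mul_of_nonneg_right hkw2 hA) hwq hw0.le (by positivity)
        have t2 : (k + 1) * w * (k * w) ≤ C₃ * (m + 1) * (C₃ * (m + 1)) :=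
          mul_le_mul hkw hkw' (by positivity) (by positivity)
        gcongr
    _ = _ := by ring

lemma summ {c₀ A B : ℝ} (hc : 0 < c₀) (hc1 : c₀ ≤ 1) (hA : 0 ≤ A) (hB : 0 ≤ B) (f : ℕ → ℝ)
    (hf : ∀ m, 0 ≤ f m) (h : ∀ m : ℕ, f m ≤ ((2 : ℝ)⁻¹ ^ m) ^ 2 *
      (((k0 (c₀ * 2⁻¹ ^ (m + 1)) : ℝ) + 1) * (A + k0 (c₀ * 2⁻¹ ^ (m + 1)) *
        (A * ((2 : ℝ) ^ (-(1 : ℝ) / 3)) ^ m)) + B / (c₀ * 2⁻¹ ^ (m + 1)))) : Summable f := by
  obtain ⟨q, hq⟩ : ∃ q : ℝ, q = (2 : ℝ) ^ (-(1 : ℝ) / 3) := ⟨_, rfl⟩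
  have hq0 : 0 < q := by rw [hq]; positivity
  have hq1 : q < 1 := hq ▸ Real.rpow_lt_one_of_one_lt_of_neg (by norm_num) (by norm_num)
  have hq2 : (2 : ℝ)⁻¹ ≤ q := by
    rw [← Real.rpow_neg_one, hq]
    exact Real.rpow_le_rpow_of_exponent_le (by norm_num) (by norm_num)
  rw [← hq] at h
  have hlog : 0 ≤ log (2 / c₀) := log_nonneg (by rw [le_div_iff₀ hc]; linarith)
  obtain ⟨C₃, hC₃⟩ : ∃ C₃ : ℝ, C₃ = 40 / c₀ * (log (2 / c₀) + 1) + 2 := ⟨_, rfl⟩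
  have s1 : Summable fun m : ℕ => ((m + 1 : ℕ) : ℝ) ^ 2 * q ^ (m + 1) :=
    (summable_nat_add_iff (f := fun m : ℕ => (m : ℝ) ^ 2 * q ^ m) 1).2
      (summable_pow_mul_geometric_of_norm_lt_one 2
        (by rw [Real.norm_eq_abs, abs_of_pos hq0]; exact hq1))
  refine Summable.of_nonneg_of_le hf (fun m => (h m).trans ?_)
    (s1.mul_left ((C₃ * A + C₃ ^ 2 * A + 2 * B / c₀) / q))
  have hl : log (1 / (c₀ * 2⁻¹ ^ m / 2)) ≤ (log (2 / c₀) + 1) * (m + 1) := by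
    have e : 1 / (c₀ * 2⁻¹ ^ m / 2) = 2 / c₀ * 2 ^ m := by rw [inv_pow]; field_simp
    rw [e, log_mul (by positivity) (by positivity), log_pow]
    have : log 2 ≤ 1 := by linarith [Real.log_le_sub_one_of_pos two_pos]
    have h1 : (m : ℝ) * log 2 ≤ m * 1 := by gcongr
    have h2 : 0 ≤ log (2 / c₀) * m := by positivity
    linarith
  have hρ : c₀ * 2⁻¹ ^ (m + 1) = c₀ * 2⁻¹ ^ m / 2 := by rw [pow_succ]; ring
  have hw1 : (2 : ℝ)⁻¹ ^ m ≤ 1 := pow_le_one₀ (by norm_num) (by norm_num)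
  have hwq : (2 : ℝ)⁻¹ ^ m ≤ q ^ m := pow_le_pow_left₀ (by norm_num) hq2 m
  have hw0 : 0 < (2 : ℝ)⁻¹ ^ m := by positivity
  rw [hρ]
  generalize (2 : ℝ)⁻¹ ^ m = w at *
  have hk := k0_le (ρ := c₀ * w / 2) (by positivity)
    (by linarith [mul_le_one₀ hc1 hw0.le hw1])
  have := fin hc hA hB hC₃ hlog (Nat.cast_nonneg m) hw0 hw1 hwq (Nat.cast_nonneg (k0 (c₀ * w / 2)))
    (hk.trans (by gcongr))
  refine this.trans (le_of_eq ?_)
  push_cast; rw [pow_succ q]; field_simp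

lemma mag {d : ℕ} {θ : ℝ} {μ : Measure (W d → Bool)} (b : Base d θ μ) (hE : StmtE d θ μ)
    (hD2 : StmtD2 d θ μ) {Cu ρ p s : ℝ} {K : ℕ} (hCu : 0 < Cu) (hr : 0 < ρ) (hp : 1 ≤ p)
    (hU : ∀ χ : Om d → ℝ, Measurable χ → (∀ᵐ ω ∂PP μ, 0 ≤ χ ω ∧ χ ω ≤ 4) →
      ∫ ω, χ ω * VK θ (1 + ρ / 2) (Hs θ s ω) K 1 none ^ 2 ∂PP μ ≤
        Cu / ρ ^ 2 * (p * ∫ ω, χ ω ∂PP μ + 4 * exp (-p))) :
    ∑ u ∈ ball K, ∫ ω, As θ s u ω ^ 2 * (ms θ s u ω - mb θ μ s u ω) ^ 2 ∂PP μ ≤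
      (1 + 4 * Cu) / ρ * (p * del θ μ s + exp (-p)) := by
  have := b.crit.hμ.1
  set δ := del θ μ s with hδ
  have hδ0 : 0 ≤ δ := integral_nonneg fun _ => sq_nonneg _
  set E := p * δ + exp (-p) with hEdef
  have hδp : δ ≤ p * δ := le_mul_of_one_le_left hδ0 hp
  have hex := exp_pos (-p)
  have hδE : δ ≤ E := by linarith
  set V : Om d → ℝ := fun ω => VK θ (1 + ρ / 2) (Hs θ s ω) K 1 none with hV
  refine (hD2.mag s (1 + ρ / 2) K (by linarith)).trans ?_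
  set χ : Om d → ℝ := fun ω => (ms θ s 1 ω - mb θ μ s 1 ω) ^ 2 with hχ
  have mχ : Measurable χ := ((hE.meas_ms (fun _ => s) measurable_const 1).sub
    ((hE.meas_mb s 1).1.mono (hE.Gs_le s) le_rfl)).pow_const 2
  have bχ : ∀ ω, 0 ≤ χ ω ∧ χ ω ≤ 4 := fun ω => ⟨sq_nonneg _, by
    have a1 := abs_le.1 ((hE.meas_mb s 1).2 ω)
    have a2 := abs_lt.1 (Real.abs_tanh_lt_one (Hs θ s ω 1 none))
    simp only [hχ, ms]; nlinarith⟩
  have iχ : ∫ ω, χ ω ∂PP μ = δ :=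
    integral_congr_ae ((hE.mb_eq s 1).mono fun ω h => by simp only [hχ, h])
  have mV : Measurable V := (b.F.meas_Acov (fun ω => Hs θ s ω)
    (hE.meas_Hs (fun _ => s) measurable_const)).2.2 _ K 1 none
  obtain ⟨CV, hCV⟩ := b.A.VK_bdd (1 + ρ / 2) K (by linarith)
  have hV0 : ∀ ω, 0 ≤ V ω := fun ω => zero_le_one.trans (b.A.VK_ge _ _ K 1 none (by linarith))
  have i1 : Integrable χ (PP μ) := P161.ibdd mχ (C := 4) fun ω => by
    rw [abs_of_nonneg (bχ ω).1]; exact (bχ ω).2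
  have i2 : Integrable (fun ω => χ ω * V ω ^ 2) (PP μ) :=
    P161.ibdd (mχ.mul (mV.pow_const 2)) (C := 4 * CV ^ 2) fun ω => by
      rw [abs_of_nonneg (mul_nonneg (bχ ω).1 (sq_nonneg _))]
      exact mul_le_mul (bχ ω).2 (pow_le_pow_left₀ (hV0 ω) (hCV _ _ _) 2) (sq_nonneg _)
        (by norm_num)
  calc ∫ ω, χ ω * V ω ∂PP μ ≤ ∫ ω, (ρ⁻¹ * χ ω + ρ * (χ ω * V ω ^ 2)) ∂PP μ := by
        refine integral_mono_of_nonneg (Eventually.of_forall fun ω =>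
          mul_nonneg (bχ ω).1 (hV0 ω)) ((i1.const_mul _).add (i2.const_mul _))
          (Eventually.of_forall fun ω => ?_)
        have : V ω ≤ ρ⁻¹ + ρ * V ω ^ 2 := by
          rw [← sub_nonneg, show ρ⁻¹ + ρ * V ω ^ 2 - V ω =
            ρ⁻¹ * ((ρ * V ω - 1 / 2) ^ 2 + 3 / 4) by field_simp; ring]
          positivity
        calc χ ω * V ω ≤ χ ω * (ρ⁻¹ + ρ * V ω ^ 2) :=
              mul_le_mul_of_nonneg_left this (bχ ω).1
          _ = _ := by ring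
    _ = ρ⁻¹ * δ + ρ * ∫ ω, χ ω * V ω ^ 2 ∂PP μ := by
        rw [integral_add (i1.const_mul _) (i2.const_mul _), integral_const_mul,
          integral_const_mul, iχ]
    _ ≤ ρ⁻¹ * E + ρ * (Cu / ρ ^ 2 * (4 * E)) := by
        gcongr
        refine (hU χ mχ (Eventually.of_forall bχ)).trans ?_
        rw [iχ]; gcongr
        rw [hEdef]; nlinarith
    _ = _ := by field_simp

end Dd

open Dd in
theorem stmtD {d : ℕ} {θ : ℝ} {μ : Measure (W d → Bool)} (b : Base d θ μ) (hE : StmtE d θ μ)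
    (hMx : StmtMx d θ μ) (hMc : StmtMc d θ μ) (hMu : StmtMu d θ μ) (hDa : StmtDa d θ μ)
    (hD1 : StmtD1 d θ μ) (hD2 : StmtD2 d θ μ) : StmtD d θ μ := by
  have := b.crit.hμ.1
  have h0 := b.crit.h0
  have h1 := b.crit.h1
  obtain ⟨Cc, hCc, hMc⟩ := hMc
  obtain ⟨Cu, hCu, hMu⟩ := hMu
  obtain ⟨Ca, hCa, hbd⟩ := hDa.bound
  obtain ⟨C₁, hC₁, hD1⟩ := hD1
  have hθ2 : 0 < 1 - θ ^ 2 := by nlinarith
  set c₀ := (1 - θ ^ 2) * ((1 - θ) / 2 * (θ ^ 2 / 20)) with hc₀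
  have hc0 : 0 < c₀ := by have : 0 < 1 - θ := by linarith
                          positivity
  have hc1 : c₀ ≤ 1 := by
    refine mul_le_one₀ (by nlinarith) (by have : 0 < 1 - θ := by linarith
                                          positivity) ?_
    exact mul_le_one₀ (by linarith) (by positivity) (by nlinarith)
  set ρ : ℤ → ℝ := fun n => c₀ * eps (n - 1) with hρ
  have hρ0 : ∀ n, 0 < ρ n := fun n => mul_pos hc0 (hE.eps_pos _).1
  have hρ1 : ∀ n, ρ n ≤ 1 := fun n => mul_le_one₀ hc1 (hE.eps_pos _).1.le (hE.eps_pos _).2.1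
  set CH : ℤ → ℝ := fun n => cosh (Hb d θ n) ^ 4 with hCH
  have hCH0 : ∀ n, 0 ≤ CH n := fun n => by positivity
  set X : ℤ → ℝ := fun n => if n ≤ 0 then (2 + 4 * Cc) * (2 ^ (-(n : ℝ) / 3))⁻¹ else 1 with hX
  have hX0 : ∀ n, 0 ≤ X n := fun n => by simp only [hX]; split_ifs <;> positivity
  refine ⟨fun n => ((k0 (ρ n) : ℝ) + 1) * (C₁ * (Ca * CH n + k0 (ρ n) * (d * (Ca * CH n * X n)))) +
    (5 * Cu * ((d + 1) * (2 * CH n * (Ca + 1))) + (1 + 4 * Cu)) / ρ n, fun n => ?_, ?_, ?_⟩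
  · have := hρ0 n; have := hCH0 n; have := hX0 n; positivity
  · have hat : 0 ≤ artanh θ := Real.artanh_nonneg h0.le
    have he : ∀ m : ℕ, eps (-m) = 2⁻¹ ^ m := fun m => by
      rw [eps, zpow_neg, zpow_natCast, ← inv_pow,
        min_eq_right (pow_le_one₀ (by norm_num) (by norm_num))]
    refine summ hc0 hc1 (A := C₁ * Ca * CH 0 * (1 + d * (2 + 4 * Cc)))
      (B := 5 * Cu * ((d + 1) * (2 * CH 0 * (Ca + 1))) + (1 + 4 * Cu))
      (by have := hCH0 0; positivity) (by have := hCH0 0; positivity) _ (fun m => ?_) fun m => ?_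
    · have := hρ0 (-m); have := hCH0 (-m); have := hX0 (-m); positivity
    have e1 : ρ (-m) = c₀ * 2⁻¹ ^ (m + 1) := by
      simp only [hρ]
      rw [show -(m : ℤ) - 1 = -((m + 1 : ℕ) : ℤ) by push_cast; ring, he]
    have e2 : X (-m) = (2 + 4 * Cc) * ((2 : ℝ) ^ (-(1 : ℝ) / 3)) ^ m := by
      simp only [hX]
      rw [if_pos (by omega), ← Real.rpow_neg (by norm_num), ← Real.rpow_mul_natCast (by norm_num)]
      congr 2; push_cast; ring
    have e3 : CH (-m) ≤ CH 0 := by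
      simp only [hCH]
      refine pow_le_pow_left₀ (cosh_pos _).le (cosh_le_cosh.2 ?_) 4
      have : (2 : ℝ) ^ (-(m : ℤ)) ≤ 2 ^ (0 : ℤ) := zpow_le_zpow_right₀ (by norm_num) (by omega)
      unfold Hb
      rw [abs_of_nonneg (by positivity), abs_of_nonneg (by positivity)]
      linarith
    have := hCH0 (-m)
    have := hCH0 0
    have := hρ0 (-m)
    beta_reduce
    rw [he, e2, ← e1]
    gcongr
    set q := ((2 : ℝ) ^ (-(1 : ℝ) / 3)) ^ m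
    have hq : 0 ≤ q := by positivity
    set k : ℝ := (k0 (ρ (-m)) : ℝ)
    have hk : 0 ≤ k := Nat.cast_nonneg _
    calc _ ≤ C₁ * (Ca * CH 0 + k * (d * (Ca * CH 0 * ((2 + 4 * Cc) * q)))) := by gcongr
      _ = C₁ * Ca * CH 0 * 1 + k * (C₁ * Ca * CH 0 * (d * (2 + 4 * Cc)) * q) := by ring
      _ ≤ _ := by gcongr <;> [exact le_add_of_nonneg_right (by positivity); linarith]
  intro n s hns hsn p hp K
  set δ := del θ μ s with hδ
  have hδ0 : 0 ≤ δ := integral_nonneg fun _ => sq_nonneg _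
  set E := p * δ + exp (-p) with hEdef
  have hδp : δ ≤ p * δ := le_mul_of_one_le_left hδ0 hp
  have hex := exp_pos (-p)
  have hδE : δ ≤ E := by linarith
  have hE0 : 0 ≤ E := hδ0.trans hδE
  have hr := hρ0 n
  have hch := hCH0 n
  have hx := hX0 n
  obtain ⟨ha0, ha⟩ := hbd n s hsn
  have hP1 : ∀ (a : Fin d) (l : ℝ), 1 ≤ l →
      (PP μ).real {ω | l < |tanh (Hs θ s ω 1 (some a))|} = 0 := by
    intro a l hl
    have : {ω : Om d | l < |tanh (Hs θ s ω 1 (some a))|} = ∅ :=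
      Set.eq_empty_of_forall_notMem fun ω h =>
        absurd (Real.abs_tanh_lt_one _) (not_lt.2 (hl.trans (le_of_lt h)))
    rw [this, measureReal_empty]
  have hac : ∀ a, ∫ ω, phi θ μ s a ω ^ 2 ∂PP μ ≤ Ca * CH n * δ := fun a => by
    have := ha a 1 zero_le_one
    rwa [hP1 a 1 le_rfl, one_pow, one_mul, add_zero] at this
  have haf : ∀ a, ∫ ω, phi θ μ s a ω ^ 2 ∂PP μ ≤ Ca * CH n * X n * E := fun a => by
    simp only [hX]
    split_ifs with hn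
    · refine (ha a _ (sqrt_nonneg (2 * p / 2 ^ (-(n : ℝ) / 3)))).trans ?_
      rw [mul_assoc (Ca * CH n)]
      exact mul_le_mul_of_nonneg_left (cut (by positivity) hp hδ0 hCc (hP1 a _)
        (hMc n s hn hsn a _ (sqrt_nonneg _))) (by positivity)
    · rw [mul_one]; exact (hac a).trans (by gcongr)
  have hU := hMu s (ρ n) hr (fun a => by
    have := hMx.low n s hns a
    have h2 : 0 < 1 - θ := by linarith
    calc ρ n = (1 - θ ^ 2) * ((1 - θ) / 2 * (θ ^ 2 * (eps (n - 1) / 20))) := by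
          simp only [hρ, hc₀]; ring
      _ ≤ _ := by gcongr) K
  set V : Om d → ℝ := fun ω => VK θ (1 + ρ n / 2) (Hs θ s ω) K 1 none with hV
  have hchi : ∀ f : Om d → ℝ, Measurable f → (∀ᵐ ω ∂PP μ, |f ω| ≤ cosh (Hb d θ n) ^ 2) →
      ∫ ω, f ω ^ 2 ∂PP μ ≤ Ca * CH n * δ →
      ∫ ω, chi θ μ s f ω * V ω ^ 2 ∂PP μ ≤ Cu / ρ n ^ 2 * (2 * CH n * (Ca + 1) * E) := by
    intro f hf hb hi
    obtain ⟨c1, c2, c3⟩ := hDa.chi_le s f _ hf hb
    refine (hU _ _ p c1 c2 hp).trans ?_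
    rw [c3, show (cosh (Hb d θ n) ^ 2) ^ 2 = CH n by simp only [hCH]; ring]
    gcongr
    have : p * (2 * ∫ ω, f ω ^ 2 ∂PP μ) ≤ p * (2 * (Ca * CH n * δ)) := by gcongr
    have : 0 ≤ CH n * (p * δ) := by positivity
    have : 0 ≤ CH n * Ca * exp (-p) := by positivity
    rw [hEdef]; nlinarith
  have hpl := hDa.phi_le n s hsn
  have far := hD2.far s (1 + ρ n / 2) (5 * ρ n) K (k0 (ρ n)) (by linarith) (by positivity)
    (k0_spec hr (hρ1 n))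
  have far2 : _ ≤ 5 * Cu * ((d + 1) * (2 * CH n * (Ca + 1))) / ρ n * E := far.trans (by
    calc _ ≤ 5 * ρ n * (Cu / ρ n ^ 2 * (2 * CH n * (Ca + 1) * E) +
            ∑ _a : Fin d, Cu / ρ n ^ 2 * (2 * CH n * (Ca + 1) * E)) := by
          gcongr with a
          · exact hchi _ (hDa.meas s 1 ⟨0, by have := b.crit.hd; omega⟩).2.2.2
              (hpl.mono fun ω h => h.2) ha0
          · exact hchi _ (hDa.meas s 1 a).2.2.1 (hpl.mono fun ω h => h.1 a) (hac a)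
      _ = _ := by rw [sum_const, card_univ, Fintype.card_fin, nsmul_eq_mul]; field_simp; ring)
  have near : ∑ k ∈ (range (K + 1)).filter (fun k => ¬ k0 (ρ n) < k), ∑ p ∈ PE none k,
      ∫ ω, (As θ s (walk 1 p) ω - At θ μ s (walk 1 p) ω) ^ 2 ∂PP μ ≤
      ((k0 (ρ n) : ℝ) + 1) * (C₁ * (Ca * CH n + k0 (ρ n) * (d * (Ca * CH n * X n)))) * E := by
    calc _ ≤ ∑ _k ∈ (range (K + 1)).filter (fun k => ¬ k0 (ρ n) < k),
            C₁ * (Ca * CH n * E + k0 (ρ n) * ∑ _a : Fin d, Ca * CH n * X n * E) := by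
          refine sum_le_sum fun k hk => (hD1 s k).trans ?_
          have : (k : ℝ) ≤ k0 (ρ n) := by exact_mod_cast not_lt.1 (mem_filter.1 hk).2
          gcongr with a
          · exact ha0.trans (by gcongr)
          · exact haf a
      _ ≤ ∑ _k ∈ range (k0 (ρ n) + 1),
            C₁ * (Ca * CH n * E + k0 (ρ n) * ∑ _a : Fin d, Ca * CH n * X n * E) := by
          refine sum_le_sum_of_subset_of_nonneg (fun k hk => ?_) fun _ _ _ => by positivity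
          exact mem_range.2 (Nat.lt_succ_of_le (not_lt.1 (mem_filter.1 hk).2))
      _ = _ := by
          rw [sum_const, sum_const, card_univ, Fintype.card_fin, card_range, nsmul_eq_mul,
            nsmul_eq_mul]
          push_cast; ring
  have mag := Dd.mag b hE hD2 hCu hr hp (hU · 4 p · · hp)
  rw [Dsum, sum_add_distrib, sum_ball, ← sum_filter_add_sum_filter_not _ (k0 (ρ n) < ·)]
  beta_reduce
  rw [add_div, add_mul, add_mul]
  linarith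

end Vale.Agent.P161E
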