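import Vale.Agent.P161E.D2

namespace Vale.Agent.P161E

open MeasureTheory ProbabilityTheory Filter Topology Finset Real
open scoped Classical

namespace D1m

open D2m

variable {d : ℕ} {θ : ℝ} {μ : Measure (W d → Bool)}

theorem exp_diff0 {a c : ℝ} (ha : a ≤ 0) (hc : c ≤ 0) : (exp a - exp c) ^ 2 ≤ (a - c) ^ 2 := by
  wlog h : c ≤ a generalizing a c
  · have := this hc ha (le_of_not_ge h)
    nlinarith
  have h1 : exp a - exp c ≤ exp a * (a - c) := by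
    have := add_one_le_exp (c - a)
    have h2 : exp c = exp a * exp (c - a) := by rw [← exp_add]; ring_nf
    nlinarith [exp_pos a]
  have h2 : 0 ≤ exp a - exp c := sub_nonneg.2 (exp_le_exp.2 h)
  have h3 : exp a ≤ 1 := exp_le_one_iff.2 ha
  exact pow_le_pow_left₀ h2 (h1.trans (mul_le_of_le_one_left (sub_nonneg.2 h) h3)) 2

theorem mb_Sf (b : Base d θ μ) {φ : Fin d → Om d → ℝ} (h : ∀ a, MB μ (φ a)) (p : List (Fin d))
    (x : W d) : MB μ (Sf φ x p) := by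
  induction p generalizing x with
  | nil => exact MB.const 0
  | cons a p ih => exact ((h a).sh b x).add (ih _)

theorem ptw (b : Base d θ μ) (hDa : StmtDa d θ μ) (s : ℝ) {p : List (Fin d)}
    (hp : p.IsChain (· ≠ ·)) (a0 : Fin d) : ∀ᵐ ω ∂PP μ,
    (As θ s (walk 1 p) ω - At θ μ s (walk 1 p) ω) ^ 2 ≤
      2 * (θ ^ 2) ^ p.length * phi0 θ μ s ω ^ 2 +
        2 * (θ ^ 2) ^ p.length * Sf (phi θ μ s) 1 p ω ^ 2 := by
  have := b.crit.hμ.1
  have hs : s ≤ (⌈s⌉ : ℤ) + 1 := (Int.le_ceil s).trans (by linarith)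
  have m0 := (mb_ell hDa s 1 a0).2.1
  have m1 := mb_La hDa s p 1
  have e1 : ∀ ω, As θ s (walk 1 p) ω = θ ^ p.length * exp (ell0 θ s 1 ω + La θ s 1 p ω) := by
    intro ω
    have := b.A.Acov_pos (Hs θ s ω) 1 []
    simp only [Acov, Kp, mul_one] at this
    rw [As, word_walk hp, Acov, Kp_La b, exp_add, ell0, ms, exp_log this]; ring
  filter_upwards [hDa.phi_sh s] with ω h4
  have h0 : ell0 θ s 1 ω + La θ s 1 p ω ≤ 0 :=
    add_nonpos (hDa.ell_le ⌈s⌉ s hs 1 a0 ω).2.2 (La_le hDa s ω p 1)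
  have h8 : ell0 θ s 1 ω + La θ s 1 p ω - (CE θ μ s (ell0 θ s 1) ω + Lt θ μ s 1 p ω) =
      phi0 θ μ s ω + Sf (phi θ μ s) 1 p ω := by rw [← La_Sf h4, phi0]; ring
  rw [At, word_walk hp, len_walk hp, e1]
  set a := ell0 θ s 1 ω + La θ s 1 p ω
  set c := CE θ μ s (ell0 θ s 1) ω + Lt θ μ s 1 p ω
  have h7 := exp_diff0 h0 (min_le_left 0 c)
  have h9 : (a - min 0 c) ^ 2 ≤ (a - c) ^ 2 := by
    rcases le_total 0 c with h | h
    · rw [min_eq_left h]; nlinarith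
    · rw [min_eq_right h]
  have h10 : (a - c) ^ 2 ≤ 2 * phi0 θ μ s ω ^ 2 + 2 * Sf (phi θ μ s) 1 p ω ^ 2 := by
    rw [h8]; nlinarith [sq_nonneg (phi0 θ μ s ω - Sf (phi θ μ s) 1 p ω)]
  have h11 := mul_le_mul_of_nonneg_left (h7.trans (h9.trans h10)) (sq_nonneg (θ ^ p.length))
  refine le_trans (le_of_eq ?_) (h11.trans (le_of_eq ?_)) <;> ring

theorem card_le (b : Base d θ μ) (k : ℕ) :
    (θ ^ 2) ^ k * ((PE (none : Option (Fin d)) k).card : ℝ) ≤ d := by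
  have hd := b.crit.hd
  have hd' : (3 : ℝ) ≤ d := by exact_mod_cast hd
  cases k with
  | zero =>
    have := sum_PE_zero (none : Option (Fin d)) fun _ => (1 : ℝ)
    rw [Finset.sum_const, nsmul_eq_mul, mul_one] at this
    rw [this]; linarith
  | succ k =>
    rw [card_PE_none]
    push_cast [Nat.cast_sub (by omega : 1 ≤ d)]
    have h1 : (θ ^ 2) ^ k * ((d : ℝ) - 1) ^ k = 1 := by rw [← mul_pow, b.crit.hc, one_pow]
    have h2 : θ ^ 2 ≤ 1 := pow_le_one₀ b.crit.h0.le b.crit.h1.le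
    calc (θ ^ 2) ^ (k + 1) * (d * ((d : ℝ) - 1) ^ k)
        = θ ^ 2 * d * ((θ ^ 2) ^ k * ((d : ℝ) - 1) ^ k) := by ring
      _ ≤ (d : ℝ) := by rw [h1]; nlinarith

end D1m

open D2m D1m in
theorem stmtD1 {d : ℕ} {θ : ℝ} {μ : Measure (W d → Bool)} (b : Base d θ μ) (hE : StmtE d θ μ)
    (hDa : StmtDa d θ μ) (hGB : StmtGB d μ) : StmtD1 d θ μ := by
  have := b.crit.hμ.1
  obtain ⟨C, hC, hG⟩ := hGB
  have hd' : (3 : ℝ) ≤ d := by exact_mod_cast b.crit.hd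
  refine ⟨2 * d + 2 * C, by positivity, fun s k => ?_⟩
  have a0 : Fin d := ⟨0, by have := b.crit.hd; omega⟩
  have hs : s ≤ (⌈s⌉ : ℤ) + 1 := (Int.le_ceil s).trans (by linarith)
  have m0 := (mb_ell hDa s 1 a0).2.2.2
  have m1 := fun a => (mb_ell hDa s 1 a).2.2.1
  have h1 : ∀ p ∈ PE none k, ∫ ω, (As θ s (walk 1 p) ω - At θ μ s (walk 1 p) ω) ^ 2 ∂PP μ ≤
      2 * (θ ^ 2) ^ k * ∫ ω, phi0 θ μ s ω ^ 2 ∂PP μ +
        2 * (θ ^ 2) ^ k * ∫ ω, Sf (phi θ μ s) 1 p ω ^ 2 ∂PP μ := by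
    intro p hp
    obtain ⟨p1, rfl, -⟩ := mem_PE.1 hp
    have i1 := ((MB.const (2 * (θ ^ 2) ^ p.length)).mul m0.sq).int
    have i2 := ((MB.const (2 * (θ ^ 2) ^ p.length)).mul (mb_Sf b m1 p 1).sq).int
    rw [← integral_const_mul, ← integral_const_mul, ← integral_add i1 i2]
    exact integral_mono_ae ((mb_As hE s _).sub (mb_At hE s _)).sq.int (i1.add i2)
      (D1m.ptw b hDa s p1 a0)
  refine (Finset.sum_le_sum h1).trans ?_
  rw [Finset.sum_add_distrib, Finset.sum_const, nsmul_eq_mul, ← Finset.mul_sum]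
  have h2 := hG (phi θ μ s) (fun a => (m1 a).1)
    ⟨_, fun a => (hDa.phi_le ⌈s⌉ s hs).mono fun ω h => h.1 a⟩ (hDa.mean s) k
  have h3 : (θ ^ 2) ^ k * ((d : ℝ) - 1) ^ k = 1 := by rw [← mul_pow, b.crit.hc, one_pow]
  have h4 := card_le b k
  have n0 : 0 ≤ ∫ ω, phi0 θ μ s ω ^ 2 ∂PP μ := integral_nonneg fun ω => sq_nonneg _
  have n1 : 0 ≤ k * ∑ a, ∫ ω, phi θ μ s a ω ^ 2 ∂PP μ :=
    mul_nonneg (Nat.cast_nonneg _)
      (Finset.sum_nonneg fun a _ => integral_nonneg fun ω => sq_nonneg _)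
  have h5 := mul_le_mul_of_nonneg_left h2 (by positivity : 0 ≤ 2 * (θ ^ 2) ^ k)
  have h6 : 2 * (θ ^ 2) ^ k * (C * k * (d - 1) ^ k * ∑ a, ∫ ω, phi θ μ s a ω ^ 2 ∂PP μ) =
      2 * C * (k * ∑ a, ∫ ω, phi θ μ s a ω ^ 2 ∂PP μ) * ((θ ^ 2) ^ k * ((d : ℝ) - 1) ^ k) := by
    ring
  rw [h6, h3, mul_one] at h5
  have h7 := mul_le_mul_of_nonneg_right h4 n0
  nlinarith [mul_nonneg hC.le n0, mul_nonneg (by linarith : (0 : ℝ) ≤ d) n1]

end Vale.Agent.P161E
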