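import Vale.Agent.P161E.Spec

namespace Vale.Agent.P161E

open MeasureTheory ProbabilityTheory Filter Topology Finset Real
open scoped Classical

namespace D2m

variable {d : ℕ} {θ : ℝ} {μ : Measure (W d → Bool)}

/-- measurable and almost surely bounded -/
def MB (μ : Measure (W d → Bool)) (f : Om d → ℝ) : Prop :=
  Measurable f ∧ ∃ C, ∀ᵐ ω ∂PP μ, |f ω| ≤ C

theorem MB.int [IsProbabilityMeasure μ] {f : Om d → ℝ} (h : MB μ f) : Integrable f (PP μ) := by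
  obtain ⟨h1, C, h2⟩ := h
  exact Integrable.of_bound h1.aestronglyMeasurable C h2

theorem MB.mul {f g : Om d → ℝ} (hf : MB μ f) (hg : MB μ g) : MB μ fun ω => f ω * g ω := by
  obtain ⟨h1, C, h2⟩ := hf
  obtain ⟨h3, C', h4⟩ := hg
  refine ⟨h1.mul h3, C * C', ?_⟩
  filter_upwards [h2, h4] with ω a b
  rw [abs_mul]
  exact mul_le_mul a b (abs_nonneg _) ((abs_nonneg _).trans a)

theorem MB.add {f g : Om d → ℝ} (hf : MB μ f) (hg : MB μ g) : MB μ fun ω => f ω + g ω := by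
  obtain ⟨h1, C, h2⟩ := hf
  obtain ⟨h3, C', h4⟩ := hg
  refine ⟨h1.add h3, C + C', ?_⟩
  filter_upwards [h2, h4] with ω a b
  exact (abs_add_le _ _).trans (add_le_add a b)

theorem MB.const (c : ℝ) : MB μ fun _ => c :=
  ⟨measurable_const, |c|, Eventually.of_forall fun _ => le_rfl⟩

theorem MB.sub {f g : Om d → ℝ} (hf : MB μ f) (hg : MB μ g) : MB μ fun ω => f ω - g ω := by
  have := hf.add ((MB.const (-1)).mul hg)
  simpa only [neg_mul, one_mul, ← sub_eq_add_neg] using this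

theorem MB.sq {f : Om d → ℝ} (hf : MB μ f) : MB μ fun ω => f ω ^ 2 := by
  simpa only [pow_two] using hf.mul hf

theorem MB.sum {ι : Type} (S : Finset ι) {f : ι → Om d → ℝ} (hf : ∀ i ∈ S, MB μ (f i)) :
    MB μ fun ω => ∑ i ∈ S, f i ω := by
  induction S using Finset.induction_on with
  | empty => simpa using MB.const 0
  | insert a S ha ih =>
    simp only [Finset.sum_insert ha]
    exact (hf a (mem_insert_self _ _)).add (ih fun i hi => hf i (mem_insert_of_mem hi))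

theorem MB.sh (b : Base d θ μ) {f : Om d → ℝ} (hf : MB μ f) (x : W d) :
    MB μ fun ω => f (sh x ω) := by
  obtain ⟨h1, C, h2⟩ := hf
  exact ⟨h1.comp (b.I.mp _).measurable, C, (b.I.mp _).quasiMeasurePreserving.ae h2⟩

theorem MB.ce (b : Base d θ μ) (hE : StmtE d θ μ) {f : Om d → ℝ} (hf : MB μ f) (s : ℝ) :
    MB μ (CE θ μ s f) := by
  have := b.crit.hμ.1
  obtain ⟨h1, C, h2⟩ := hf
  refine ⟨(hE.meas_CE s f).1, C, ?_⟩
  filter_upwards [b.P.between (Gs θ s) (PP μ) f (-C) C (hE.Gs_le s) h1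
    (h2.mono fun ω h => abs_le.1 h)] with ω h using abs_le.2 h

theorem int_sh (b : Base d θ μ) {f : Om d → ℝ} (hf : Measurable f) (x : W d) :
    ∫ ω, f (sh x ω) ∂PP μ = ∫ ω, f ω ∂PP μ := by
  conv_rhs => rw [← (b.I.mp (lm x)).map_eq]
  rw [integral_map (b.I.mp _).measurable.aemeasurable hf.aestronglyMeasurable]
  rfl

theorem dual (b : Base d θ μ) (hE : StmtE d θ μ) {f g : Om d → ℝ} (hf : MB μ f) (hg : MB μ g)
    (s : ℝ) : ∫ ω, f ω * CE θ μ s g ω ∂PP μ = ∫ ω, CE θ μ s f ω * g ω ∂PP μ := by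
  have := b.crit.hμ.1
  obtain ⟨h1, C, h2⟩ := hf
  obtain ⟨h3, C', h4⟩ := hg
  exact b.P.dual (Gs θ s) (PP μ) f g (max C C') (hE.Gs_le s) h1 h3
    (h2.mono fun ω h => h.trans (le_max_left _ _)) (h4.mono fun ω h => h.trans (le_max_right _ _))

theorem mb_Kp (b : Base d θ μ) (hE : StmtE d θ μ) (s : ℝ) (x : W d) (p : List (Fin d)) :
    MB μ fun ω => Kp θ (Hs θ s ω) x p :=
  ⟨(b.F.meas_Acov (Hs θ s) (hE.meas_Hs (fun _ => s) measurable_const)).1 x p, θ ^ p.length,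
    Eventually.of_forall fun ω => by rw [abs_of_pos (b.A.Kp_pos _ _ _)]; exact b.A.Kp_le _ _ _⟩

theorem mb_As (hE : StmtE d θ μ) (s : ℝ) (u : W d) : MB μ (As θ s u) :=
  ⟨hE.meas_As (fun _ => s) measurable_const u, 1, Eventually.of_forall (hE.As_le s u)⟩

theorem mb_At (hE : StmtE d θ μ) (s : ℝ) (u : W d) : MB μ (At θ μ s u) :=
  ⟨((hE.meas_At s u).1).mono (hE.Gs_le s) le_rfl, 1, Eventually.of_forall (hE.meas_At s u).2⟩

theorem mb_ms (hE : StmtE d θ μ) (s : ℝ) (u : W d) : MB μ (ms θ s u) :=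
  ⟨hE.meas_ms (fun _ => s) measurable_const u, 1,
    Eventually.of_forall fun _ => (Real.abs_tanh_lt_one _).le⟩

theorem mb_mb (hE : StmtE d θ μ) (s : ℝ) (u : W d) : MB μ (mb θ μ s u) :=
  ⟨((hE.meas_mb s u).1).mono (hE.Gs_le s) le_rfl, 1, Eventually.of_forall (hE.meas_mb s u).2⟩

theorem mb_VK (b : Base d θ μ) (hE : StmtE d θ μ) (s : ℝ) {r : ℝ} (hr : 0 ≤ r) (K : ℕ) :
    MB μ fun ω => VK θ r (Hs θ s ω) K 1 none := by
  obtain ⟨C, hC⟩ := b.A.VK_bdd r K hr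
  exact ⟨(b.F.meas_Acov (Hs θ s) (hE.meas_Hs (fun _ => s) measurable_const)).2.2 r K 1 none, C,
    Eventually.of_forall fun ω => by
      rw [abs_of_nonneg (zero_le_one.trans (b.A.VK_ge _ _ _ _ _ hr))]; exact hC _ _ _⟩

theorem Kp_sh (b : Base d θ μ) (hE : StmtE d θ μ) (s : ℝ) (x : W d) (p : List (Fin d))
    (ω : Om d) : Kp θ (Hs θ s (sh x ω)) 1 p = Kp θ (Hs θ s ω) x p := by
  rw [hE.Hs_sh, b.A.Kp_shift, mul_one]

theorem As_split (b : Base d θ μ) {s : ℝ} {ω : Om d} (h : Rec θ (bs s ω) (Hs θ s ω))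
    (p : List (Fin d)) (j : ℕ) : Acov θ (Hs θ s ω) 1 p ≤
      Kp θ (Hs θ s ω) (walk 1 (p.take j)) (p.take j).reverse *
        Kp θ (Hs θ s ω) (walk 1 (p.take j)) (p.drop j) := by
  have h1 : Acov θ (Hs θ s ω) 1 p = Acov θ (Hs θ s ω) 1 (p.take j) *
      Kp θ (Hs θ s ω) (walk 1 (p.take j)) (p.drop j) := by
    conv_lhs => rw [← List.take_append_drop j p]
    rw [Acov, b.A.Kp_append, Acov, mul_assoc]
  rw [h1, b.A.symm _ _ h]
  exact mul_le_mul_of_nonneg_right (b.A.Acov_le _ _ _) (b.A.Kp_pos _ _ _).le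

theorem rev_mem {k : ℕ} {p : List (Fin d)} (h : p ∈ PE none k) : p.reverse ∈ PE none k := by
  rw [mem_PE] at h ⊢
  exact ⟨chain_reverse h.1, by simpa using h.2.1, by simp⟩

theorem mag_one (b : Base d θ μ) (hE : StmtE d θ μ) (s : ℝ) (u : W d) :
    ∫ ω, As θ s u ω ^ 2 * (ms θ s u ω - mb θ μ s u ω) ^ 2 ∂PP μ ≤
      ∫ ω, Kp θ (Hs θ s ω) 1 (word u).reverse ^ 2 * (ms θ s 1 ω - mb θ μ s 1 ω) ^ 2 ∂PP μ := by
  have := b.crit.hμ.1
  have hg := (mb_Kp b hE s 1 (word u).reverse).sq.mul ((mb_ms hE s 1).sub (mb_mb hE s 1)).sq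
  rw [← int_sh b hg.1 u]
  have e1 : ∀ ω, ms θ s 1 (sh u ω) = ms θ s u ω := fun ω => by simp [ms, hE.Hs_sh]
  refine integral_mono_ae ((mb_As hE s u).sq.mul ((mb_ms hE s u).sub (mb_mb hE s u)).sq).int
    (hg.sh b u).int ?_
  filter_upwards [hE.recur s, hE.mb_eq s u, (b.I.mp (lm u)).quasiMeasurePreserving.ae
    (hE.mb_eq s 1), hE.CE_sh s u _ (mb_ms hE s 1).1 (mb_ms hE s 1).2] with ω h1 h2 h3 h4
  simp only [e1] at h4
  have h5 : mb θ μ s 1 (sh u ω) = mb θ μ s u ω := by rw [h2, h4]; exact h3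
  rw [e1, h5, Kp_sh b hE]
  refine mul_le_mul_of_nonneg_right (pow_le_pow_left₀ (b.A.Acov_pos _ _ _).le ?_ 2) (sq_nonneg _)
  rw [b.A.symm _ _ h1, walk_word]
  exact b.A.Acov_le _ _ _

theorem mag (b : Base d θ μ) (hE : StmtE d θ μ) (s r : ℝ) (K : ℕ) (hr : 1 ≤ r) :
    ∑ u ∈ ball K, ∫ ω, As θ s u ω ^ 2 * (ms θ s u ω - mb θ μ s u ω) ^ 2 ∂PP μ ≤
      ∫ ω, (ms θ s 1 ω - mb θ μ s 1 ω) ^ 2 * VK θ r (Hs θ s ω) K 1 none ∂PP μ := by
  have := b.crit.hμ.1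
  have hm := ((mb_ms hE s 1).sub (mb_mb hE s 1)).sq
  refine (Finset.sum_le_sum fun u _ => mag_one b hE s u).trans ?_
  rw [sum_ball]
  simp only [b.A.VK_eq, Finset.mul_sum]
  rw [integral_finsetSum _ fun k _ => (MB.sum _ fun p _ =>
    hm.mul ((MB.const _).mul (mb_Kp b hE s 1 p).sq)).int]
  refine Finset.sum_le_sum fun k _ => ?_
  rw [integral_finsetSum _ fun p _ => (hm.mul ((MB.const _).mul (mb_Kp b hE s 1 p).sq)).int,
    Finset.sum_bij' (t := PE none k) (g := fun p => ∫ ω, Kp θ (Hs θ s ω) 1 p ^ 2 *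
      (ms θ s 1 ω - mb θ μ s 1 ω) ^ 2 ∂PP μ) (fun p _ => p.reverse) (fun p _ => p.reverse)
      (fun p hp => rev_mem hp) (fun p hp => rev_mem hp) (fun p _ => p.reverse_reverse)
      (fun p _ => p.reverse_reverse) (fun p hp => by rw [word_walk (mem_PE.1 hp).1])]
  refine Finset.sum_le_sum fun p _ => integral_mono ((mb_Kp b hE s 1 p).sq.mul hm).int
    (hm.mul ((MB.const _).mul (mb_Kp b hE s 1 p).sq)).int fun ω => ?_
  simp only
  rw [mul_comm]
  exact mul_le_mul_of_nonneg_left (le_mul_of_one_le_left (sq_nonneg _) (one_le_pow₀ hr))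
    (sq_nonneg _)

/-- sum of the logarithms along a path -/
noncomputable def La (θ s : ℝ) : W d → List (Fin d) → Om d → ℝ
  | _, [], _ => 0
  | x, a :: p, ω => ell θ s x a ω + La θ s (step x a) p ω

theorem mb_ell (hDa : StmtDa d θ μ) (s : ℝ) (x : W d) (a : Fin d) :
    MB μ (ell θ s x a) ∧ MB μ (ell0 θ s x) ∧ MB μ (phi θ μ s a) ∧ MB μ (phi0 θ μ s) := by
  have hs : s ≤ (⌈s⌉ : ℤ) + 1 := (Int.le_ceil s).trans (by linarith)
  have h1 := hDa.ell_le ⌈s⌉ s hs x a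
  have h2 := hDa.phi_le ⌈s⌉ s hs
  obtain ⟨m1, m2, m3, m4⟩ := hDa.meas s x a
  have h0 := sq_nonneg (cosh (Hb d θ ⌈s⌉))
  exact ⟨⟨m1, _, Eventually.of_forall fun ω => abs_le.2 ⟨(h1 ω).1.1, (h1 ω).1.2.trans h0⟩⟩,
    ⟨m2, _, Eventually.of_forall fun ω => abs_le.2 ⟨(h1 ω).2.1, (h1 ω).2.2.trans h0⟩⟩,
    ⟨m3, _, h2.mono fun ω h => h.1 a⟩, ⟨m4, _, h2.mono fun ω h => h.2⟩⟩

theorem mb_La (hDa : StmtDa d θ μ) (s : ℝ) (p : List (Fin d)) (x : W d) : MB μ (La θ s x p) := by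
  induction p generalizing x with
  | nil => exact MB.const 0
  | cons a p ih => exact (mb_ell hDa s x a).1.add (ih _)

theorem Kp_La (b : Base d θ μ) (s : ℝ) (ω : Om d) (p : List (Fin d)) (x : W d) :
    Kp θ (Hs θ s ω) x p = θ ^ p.length * exp (La θ s x p ω) := by
  induction p generalizing x with
  | nil => simp [Kp, La]
  | cons a p ih =>
    rw [Kp, La, ih, exp_add, ell, exp_log (b.A.kap_pos _), List.length_cons]; ring

theorem Lt_La (b : Base d θ μ) (hDa : StmtDa d θ μ) (s : ℝ) (p : List (Fin d)) (x : W d) :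
    Lt θ μ s x p =ᵐ[PP μ] CE θ μ s (La θ s x p) := by
  have := b.crit.hμ.1
  induction p generalizing x with
  | nil =>
    have : CE θ μ s (La θ s x []) = 0 := condExp_zero
    rw [this]; rfl
  | cons a p ih =>
    filter_upwards [ih (step x a), condExp_add (mb_ell hDa s x a).1.int
      (mb_La hDa s p (step x a)).int (Gs θ s)] with ω h1 h2
    rw [Lt, h1]
    exact h2.symm

theorem La_Sf {s : ℝ} {ω : Om d} (h : ∀ x a,
    ell θ s x a ω - CE θ μ s (ell θ s x a) ω = phi θ μ s a (sh x ω)) (p : List (Fin d)) (x : W d) :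
    La θ s x p ω - Lt θ μ s x p ω = Sf (phi θ μ s) x p ω := by
  induction p generalizing x with
  | nil => simp [La, Lt, Sf]
  | cons a p ih => rw [La, Lt, Sf, ← ih, ← h]; ring

theorem Sf_rep (φ : Fin d → Om d → ℝ) (ω : Om d) (p : List (Fin d)) (x : W d) :
    ∃ t : ℕ → ℝ, Sf φ x p ω = ∑ j ∈ range p.length, t j ∧
      ∀ j, t j ^ 2 ≤ ∑ a, φ a (sh (walk x (p.take j)) ω) ^ 2 := by
  induction p generalizing x with
  | nil => exact ⟨0, by simp [Sf], fun j => by simp; positivity⟩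
  | cons a p ih =>
    obtain ⟨t, h1, h2⟩ := ih (step x a)
    refine ⟨fun j => Nat.casesOn j (φ a (sh x ω)) t, ?_, fun j => ?_⟩
    · rw [Sf, h1, List.length_cons, Finset.sum_range_succ', add_comm]
      rfl
    · cases j with
      | zero =>
        exact Finset.single_le_sum (f := fun a => φ a (sh x ω) ^ 2) (fun _ _ => sq_nonneg _)
          (mem_univ a)
      | succ j => exact h2 j

theorem Sf_sq (φ : Fin d → Om d → ℝ) (ω : Om d) (p : List (Fin d)) (c : ℝ) :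
    (c + Sf φ 1 p ω) ^ 2 ≤ (p.length + 1) *
      (c ^ 2 + ∑ j ∈ range p.length, ∑ a, φ a (sh (walk 1 (p.take j)) ω) ^ 2) := by
  obtain ⟨t, h1, h2⟩ := Sf_rep φ ω p 1
  have h3 := sq_sum_le_card_mul_sum_sq (s := range (p.length + 1))
    (f := fun j => (Nat.casesOn j c t : ℝ))
  rw [Finset.sum_range_succ', Finset.sum_range_succ', card_range] at h3
  push_cast at h3
  rw [h1, add_comm c]
  refine h3.trans (mul_le_mul_of_nonneg_left ?_ (by positivity))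
  rw [add_comm]
  exact add_le_add le_rfl (Finset.sum_le_sum fun j _ => h2 j)

theorem exp_diff (a c : ℝ) : (exp a - exp c) ^ 2 ≤ (exp a ^ 2 + exp c ^ 2) * (a - c) ^ 2 := by
  wlog h : c ≤ a generalizing a c
  · have := this c a (le_of_not_ge h)
    nlinarith
  have h1 : exp a - exp c ≤ exp a * (a - c) := by
    have := add_one_le_exp (c - a)
    have h2 : exp c = exp a * exp (c - a) := by rw [← exp_add]; ring_nf
    nlinarith [exp_pos a]
  have h2 : 0 ≤ exp a - exp c := sub_nonneg.2 (exp_le_exp.2 h)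
  have h3 := pow_le_pow_left₀ h2 h1 2
  nlinarith [sq_nonneg (exp c * (a - c))]

theorem La_le (hDa : StmtDa d θ μ) (s : ℝ) (ω : Om d) (p : List (Fin d)) (x : W d) :
    La θ s x p ω ≤ 0 := by
  have hs : s ≤ (⌈s⌉ : ℤ) + 1 := (Int.le_ceil s).trans (by linarith)
  induction p generalizing x with
  | nil => exact le_rfl
  | cons a p ih => exact add_nonpos (hDa.ell_le ⌈s⌉ s hs x a ω).1.2 (ih _)

theorem ptw (b : Base d θ μ) (hE : StmtE d θ μ) (hDa : StmtDa d θ μ) (s : ℝ) {p : List (Fin d)}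
    (hp : p.IsChain (· ≠ ·)) (a0 : Fin d) : ∀ᵐ ω ∂PP μ,
    (As θ s (walk 1 p) ω - At θ μ s (walk 1 p) ω) ^ 2 ≤
      (As θ s (walk 1 p) ω ^ 2 + CE θ μ s (fun ω => As θ s (walk 1 p) ω ^ 2) ω) *
        ((p.length + 1) * (phi0 θ μ s ω ^ 2 +
          ∑ j ∈ range p.length, ∑ a, phi θ μ s a (sh (walk 1 (p.take j)) ω) ^ 2)) := by
  have := b.crit.hμ.1
  have hs : s ≤ (⌈s⌉ : ℤ) + 1 := (Int.le_ceil s).trans (by linarith)
  have m0 := (mb_ell hDa s 1 a0).2.1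
  have m1 := mb_La hDa s p 1
  have e1 : ∀ ω, As θ s (walk 1 p) ω = θ ^ p.length * exp (ell0 θ s 1 ω + La θ s 1 p ω) := by
    intro ω
    have := b.A.Acov_pos (Hs θ s ω) 1 []
    simp only [Acov, Kp, mul_one] at this
    rw [As, word_walk hp, Acov, Kp_La b, exp_add, ell0, ms, exp_log this]; ring
  obtain ⟨mm, C, hC⟩ := m0.add m1
  have hj := b.P.jensen (Gs θ s) (PP μ) _ C (fun x => (θ ^ p.length * exp x) ^ 2) (hE.Gs_le s) mm hC
    ((convexOn_exp.smul (pow_nonneg b.crit.h0.le _)).pow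
      (fun x _ => mul_nonneg (pow_nonneg b.crit.h0.le _) (exp_pos x).le) 2) (by fun_prop)
  have hb := b.P.between (Gs θ s) (PP μ) _ (-C) 0 (hE.Gs_le s) mm (hC.mono fun ω h =>
    ⟨(abs_le.1 h).1, add_nonpos (hDa.ell_le ⌈s⌉ s hs 1 a0 ω).2.2 (La_le hDa s ω p 1)⟩)
  filter_upwards [hj, hb, condExp_add m0.int m1.int (Gs θ s), Lt_La b hDa s p 1, hDa.phi_sh s]
    with ω h1 h0 h2 h3 h4
  simp only [← e1] at h1
  have h5 : ((PP μ)[fun ω => ell0 θ s 1 ω + La θ s 1 p ω | Gs θ s]) ω =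
      CE θ μ s (ell0 θ s 1) ω + Lt θ μ s 1 p ω := by rw [h3]; exact h2
  rw [h5] at h1 h0
  have h6 := Sf_sq (phi θ μ s) ω p (phi0 θ μ s ω)
  rw [← La_Sf h4] at h6
  rw [At, word_walk hp, len_walk hp, min_eq_right h0.2]
  have h7 := exp_diff (ell0 θ s 1 ω + La θ s 1 p ω) (CE θ μ s (ell0 θ s 1) ω + Lt θ μ s 1 p ω)
  have h8 : ell0 θ s 1 ω + La θ s 1 p ω - (CE θ μ s (ell0 θ s 1) ω + Lt θ μ s 1 p ω) =
      phi0 θ μ s ω + (La θ s 1 p ω - Lt θ μ s 1 p ω) := by rw [phi0]; ring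
  rw [h8] at h7
  have h9 := mul_le_mul_of_nonneg_left h7 (sq_nonneg (θ ^ p.length))
  refine le_trans ?_ (mul_le_mul (add_le_add le_rfl h1) h6 (sq_nonneg _)
    (add_nonneg (sq_nonneg _) ((sq_nonneg _).trans h1)))
  rw [e1]
  refine le_trans (le_of_eq ?_) (h9.trans (le_of_eq ?_)) <;> ring

theorem pair (b : Base d θ μ) (hE : StmtE d θ μ) {X f : Om d → ℝ} (hX : MB μ X) (hf : MB μ f)
    (s : ℝ) (x : W d) :
    ∫ ω, (X ω + CE θ μ s X ω) * f (sh x ω) ^ 2 ∂PP μ = ∫ ω, X ω * chi θ μ s f (sh x ω) ∂PP μ := by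
  have := b.crit.hμ.1
  have h1 := hf.sq.sh b x
  simp only [add_mul, chi, mul_add]
  rw [integral_add (hX.mul h1).int ((hX.ce b hE s).mul h1).int,
    integral_add (hX.mul h1).int (hX.mul ((hf.sq.ce b hE s).sh b x)).int, ← dual b hE hX h1]
  congr 1
  refine integral_congr_ae ?_
  filter_upwards [hE.CE_sh s x _ hf.sq.1 hf.sq.2] with ω h
  rw [h]

theorem mb_chi (hDa : StmtDa d θ μ) {f : Om d → ℝ} (hf : MB μ f) (s : ℝ) :
    MB μ (chi θ μ s f) ∧ ∀ᵐ ω ∂PP μ, 0 ≤ chi θ μ s f ω := by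
  obtain ⟨h1, C, h2⟩ := hf
  obtain ⟨h3, h4, -⟩ := hDa.chi_le s f C h1 h2
  exact ⟨⟨h3, _, h4.mono fun ω h => by rw [abs_of_nonneg h.1]; exact h.2⟩, h4.mono fun ω h => h.1⟩

theorem shift_le (b : Base d θ μ) (hE : StmtE d θ μ) {χ : Om d → ℝ} (hχ : MB μ χ)
    (h0 : ∀ᵐ ω ∂PP μ, 0 ≤ χ ω) (s : ℝ) {p : List (Fin d)} (hp : p.IsChain (· ≠ ·)) (j : ℕ) :
    ∫ ω, As θ s (walk 1 p) ω ^ 2 * χ (sh (walk 1 (p.take j)) ω) ∂PP μ ≤
      ∫ ω, Kp θ (Hs θ s ω) 1 (p.take j).reverse ^ 2 * Kp θ (Hs θ s ω) 1 (p.drop j) ^ 2 * χ ω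
        ∂PP μ := by
  have := b.crit.hμ.1
  have hg := ((mb_Kp b hE s 1 (p.take j).reverse).sq.mul (mb_Kp b hE s 1 (p.drop j)).sq).mul hχ
  rw [← int_sh b hg.1 (walk 1 (p.take j))]
  refine integral_mono_ae ((mb_As hE s _).sq.mul (hχ.sh b _)).int (hg.sh b _).int ?_
  filter_upwards [hE.recur s, (b.I.mp (lm (walk 1 (p.take j)))).quasiMeasurePreserving.ae h0]
    with ω h1 h2
  refine mul_le_mul_of_nonneg_right ?_ h2
  rw [Kp_sh b hE, Kp_sh b hE, ← mul_pow]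
  unfold As
  rw [word_walk hp]
  exact pow_le_pow_left₀ (b.A.Acov_pos _ _ _).le (As_split b h1 p j) 2

/-- weighted products of two path weights -/
noncomputable def FF (θ : ℝ) (μ : Measure (W d → Bool)) (s r : ℝ) (χ : Om d → ℝ)
    (p q : List (Fin d)) : ℝ :=
  ∫ ω, χ ω * ((r ^ p.length * Kp θ (Hs θ s ω) 1 p ^ 2) * (r ^ q.length * Kp θ (Hs θ s ω) 1 q ^ 2))
    ∂PP μ

theorem FF_nonneg {s r : ℝ} (hr : 0 ≤ r) {χ : Om d → ℝ} (h0 : ∀ᵐ ω ∂PP μ, 0 ≤ χ ω)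
    (p q : List (Fin d)) : 0 ≤ FF θ μ s r χ p q :=
  integral_nonneg_of_ae (h0.mono fun ω h => by positivity)

theorem FF_sum (b : Base d θ μ) (hE : StmtE d θ μ) (s r : ℝ) {χ : Om d → ℝ} (hχ : MB μ χ) (K : ℕ) :
    ∑ k ∈ range (K + 1), ∑ p ∈ PE none k, ∑ k' ∈ range (K + 1), ∑ q ∈ PE none k',
      FF θ μ s r χ p q = ∫ ω, χ ω * VK θ r (Hs θ s ω) K 1 none ^ 2 ∂PP μ := by
  have := b.crit.hμ.1
  have m : ∀ (k k' : ℕ) p q, MB μ fun ω => χ ω *
      ((r ^ k * Kp θ (Hs θ s ω) 1 p ^ 2) * (r ^ k' * Kp θ (Hs θ s ω) 1 q ^ 2)) := fun k k' p q =>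
    hχ.mul (((MB.const _).mul (mb_Kp b hE s 1 p).sq).mul ((MB.const _).mul (mb_Kp b hE s 1 q).sq))
  simp only [b.A.VK_eq, pow_two (∑ _ ∈ _, _), Finset.sum_mul, Finset.mul_sum]
  rw [integral_finsetSum _ fun k _ => (MB.sum _ fun p _ => MB.sum _ fun k' _ =>
    MB.sum _ fun q _ => m _ _ _ _).int]
  refine Finset.sum_congr rfl fun k _ => ?_
  rw [integral_finsetSum _ fun p _ => (MB.sum _ fun k' _ => MB.sum _ fun q _ => m _ _ _ _).int]
  refine Finset.sum_congr rfl fun p hp => ?_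
  rw [integral_finsetSum _ fun k' _ => (MB.sum _ fun q _ => m _ _ _ _).int]
  refine Finset.sum_congr rfl fun k' _ => ?_
  rw [integral_finsetSum _ fun q _ => (m _ _ _ _).int]
  refine Finset.sum_congr rfl fun q hq => ?_
  rw [FF, (mem_PE.1 hp).2.1, (mem_PE.1 hq).2.1]
  congr 1
  funext ω
  ring

theorem shift_FF (b : Base d θ μ) (hE : StmtE d θ μ) {χ : Om d → ℝ} (hχ : MB μ χ)
    (h0 : ∀ᵐ ω ∂PP μ, 0 ≤ χ ω) (s r : ℝ) (hr : 0 ≤ r) {p : List (Fin d)} (hp : p.IsChain (· ≠ ·))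
    (j : ℕ) : r ^ p.length * ∫ ω, As θ s (walk 1 p) ω ^ 2 * χ (sh (walk 1 (p.take j)) ω) ∂PP μ ≤
      FF θ μ s r χ (p.take j).reverse (p.drop j) := by
  refine (mul_le_mul_of_nonneg_left (shift_le b hE hχ h0 s hp j) (pow_nonneg hr _)).trans
    (le_of_eq ?_)
  rw [FF, ← integral_const_mul]
  congr 1
  funext ω
  have : p.length = (p.take j).reverse.length + (p.drop j).length := by
    rw [List.length_reverse, ← List.length_append, List.take_append_drop]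
  rw [this, pow_add]
  ring

theorem far_one (b : Base d θ μ) (hE : StmtE d θ μ) (hDa : StmtDa d θ μ) (s r c : ℝ) (hr : 0 ≤ r)
    (hc : 0 ≤ c) {p : List (Fin d)} (hp : p.IsChain (· ≠ ·))
    (hk : (p.length + 1 : ℝ) ≤ c * r ^ p.length) :
    ∫ ω, (As θ s (walk 1 p) ω - At θ μ s (walk 1 p) ω) ^ 2 ∂PP μ ≤
      c * (∑ j ∈ range (p.length + 1),
          FF θ μ s r (chi θ μ s (phi0 θ μ s)) (p.take j).reverse (p.drop j) +
        ∑ a, ∑ j ∈ range (p.length + 1),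
          FF θ μ s r (chi θ μ s (phi θ μ s a)) (p.take j).reverse (p.drop j)) := by
  have := b.crit.hμ.1
  have a0 : Fin d := ⟨0, by have := b.crit.hd; omega⟩
  have mX := (mb_As (μ := μ) hE s (walk 1 p)).sq
  have mY := mX.add (mX.ce b hE s)
  have m0 := (mb_ell hDa s 1 a0).2.2.2
  have m1 := fun a => (mb_ell hDa s 1 a).2.2.1
  have m2 := fun j a => ((m1 a).sh b (walk 1 (p.take j))).sq
  have h1 := integral_mono_ae ((mb_As hE s _).sub (mb_At hE s _)).sq.int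
    (mY.mul ((MB.const _).mul (m0.sq.add (MB.sum _ fun j _ => MB.sum _ fun a _ => m2 j a)))).int
    (ptw b hE hDa s hp a0)
  refine h1.trans ?_
  simp only [mul_left_comm _ ((p.length : ℝ) + 1)]
  rw [integral_const_mul]
  simp only [mul_add _ (phi0 θ μ s _ ^ 2), Finset.mul_sum]
  rw [integral_add (mY.mul m0.sq).int
      (MB.sum _ fun j _ => MB.sum _ fun a _ => mY.mul (m2 j a)).int,
    integral_finsetSum _ fun j _ => (MB.sum _ fun a _ => mY.mul (m2 j a)).int]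
  have e0 := pair b hE mX m0 s 1
  simp only [b.I.sh_one] at e0
  rw [e0, Finset.sum_congr rfl fun j _ => integral_finsetSum _ fun a _ => (mY.mul (m2 j a)).int]
  simp only [pair b hE mX (m1 _) s]
  have c0 := mb_chi hDa m0 s
  have c1 := fun a => mb_chi hDa (m1 a) s
  have n0 : 0 ≤ ∫ ω, As θ s (walk 1 p) ω ^ 2 * chi θ μ s (phi0 θ μ s) ω ∂PP μ :=
    integral_nonneg_of_ae (c0.2.mono fun ω h => by positivity)
  have n1 : ∀ j a, 0 ≤ ∫ ω, As θ s (walk 1 p) ω ^ 2 *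
      chi θ μ s (phi θ μ s a) (sh (walk 1 (p.take j)) ω) ∂PP μ := fun j a =>
    integral_nonneg_of_ae (((b.I.mp (lm _)).quasiMeasurePreserving.ae (c1 a).2).mono
      fun ω h => mul_nonneg (sq_nonneg _) h)
  refine (mul_le_mul_of_nonneg_right hk (add_nonneg n0
    (Finset.sum_nonneg fun j _ => Finset.sum_nonneg fun a _ => n1 j a))).trans ?_
  rw [mul_assoc, mul_add (r ^ _)]
  refine mul_le_mul_of_nonneg_left (add_le_add ?_ ?_) hc
  · have := shift_FF b hE c0.1 c0.2 s r hr hp 0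
    simp only [List.take_zero, walk_nil, b.I.sh_one] at this
    exact this.trans (Finset.single_le_sum (f := fun j => FF θ μ s r (chi θ μ s (phi0 θ μ s))
      (p.take j).reverse (p.drop j)) (fun j _ => FF_nonneg hr c0.2 _ _)
      (mem_range.2 (Nat.succ_pos _)))
  · rw [Finset.sum_comm, Finset.mul_sum]
    refine Finset.sum_le_sum fun a _ => ?_
    rw [Finset.mul_sum, Finset.sum_range_succ]
    exact le_add_of_le_of_nonneg
      (Finset.sum_le_sum fun j _ => shift_FF b hE (c1 a).1 (c1 a).2 s r hr hp j)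
      (FF_nonneg hr (c1 a).2 _ _)

end D2m

open D2m in
theorem stmtD2 {d : ℕ} {θ : ℝ} {μ : Measure (W d → Bool)} (b : Base d θ μ) (hE : StmtE d θ μ)
    (hDa : StmtDa d θ μ) : StmtD2 d θ μ := by
  refine ⟨fun s r c K k₀ hr hc hk => ?_, fun s r K hr => mag b hE s r K hr⟩
  have hr0 : 0 ≤ r := zero_le_one.trans hr
  have a0 : Fin d := ⟨0, by have := b.crit.hd; omega⟩
  have c0 := mb_chi hDa (mb_ell hDa s 1 a0).2.2.2 s
  have c1 := fun a => mb_chi hDa (mb_ell hDa s 1 a).2.2.1 s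
  have h1 : ∀ k ∈ (range (K + 1)).filter (k₀ < ·), ∑ p ∈ PE none k,
      ∫ ω, (As θ s (walk 1 p) ω - At θ μ s (walk 1 p) ω) ^ 2 ∂PP μ ≤
      ∑ p ∈ PE none k, c * (∑ j ∈ range (k + 1),
          FF θ μ s r (chi θ μ s (phi0 θ μ s)) (p.take j).reverse (p.drop j) +
        ∑ a, ∑ j ∈ range (k + 1),
          FF θ μ s r (chi θ μ s (phi θ μ s a)) (p.take j).reverse (p.drop j)) := by
    intro k hk'
    refine Finset.sum_le_sum fun p hp => ?_
    obtain ⟨p1, rfl, -⟩ := mem_PE.1 hp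
    exact far_one b hE hDa s r c hr0 hc p1 (hk _ (mem_filter.1 hk').2)
  refine (Finset.sum_le_sum h1).trans ((Finset.sum_le_sum_of_subset_of_nonneg
    (Finset.filter_subset _ _) fun k _ _ => Finset.sum_nonneg fun p _ => mul_nonneg hc
      (add_nonneg (Finset.sum_nonneg fun j _ => FF_nonneg hr0 c0.2 _ _)
        (Finset.sum_nonneg fun a _ => Finset.sum_nonneg fun j _ =>
          FF_nonneg hr0 (c1 a).2 _ _))).trans ?_)
  simp only [← Finset.mul_sum, Finset.sum_add_distrib]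
  refine mul_le_mul_of_nonneg_left (add_le_add ?_ ?_) hc
  · rw [← FF_sum b hE s r c0.1 K]
    exact b.A.transport _ K (FF_nonneg hr0 c0.2)
  · rw [Finset.sum_congr rfl fun k _ => Finset.sum_comm, Finset.sum_comm]
    refine Finset.sum_le_sum fun a _ => ?_
    rw [← FF_sum b hE s r (c1 a).1 K]
    exact b.A.transport _ K (FF_nonneg hr0 (c1 a).2)

end Vale.Agent.P161E
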