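import Vale.Agent.P161E.Spec

namespace Vale.Agent.P161E

open MeasureTheory ProbabilityTheory Filter Topology Finset Real
open Vale.Agent.P161 (spin obs gain clip coin IsFreeIsing IsFactorOfIID)
open scoped Classical

namespace Da

variable {d : ℕ} {θ : ℝ} {μ : Measure (W d → Bool)}

lemma meas_tanh : Measurable tanh := by
  have : tanh = fun x => sinh x / cosh x := funext tanh_eq_sinh_div_cosh
  rw [this]; fun_prop

lemma tanh_mono {x y : ℝ} (h : x ≤ y) : tanh x ≤ tanh y := by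
  rw [← artanh_le_artanh_iff (abs_lt.1 (abs_tanh_lt_one x)) (abs_lt.1 (abs_tanh_lt_one y)),
    artanh_tanh, artanh_tanh]
  exact h

lemma abs_tanh_le {h M : ℝ} (hM : |h| ≤ M) : |tanh h| ≤ tanh M := by
  rw [abs_le, ← tanh_neg]
  exact ⟨tanh_mono (abs_le.1 hM).1, tanh_mono (abs_le.1 hM).2⟩

noncomputable def L (θ' n : ℝ) : ℝ := log ((1 - n ^ 2) / (1 - θ' ^ 2 * n ^ 2))

lemma meas_L (θ' : ℝ) : Measurable (L θ') := by unfold L; fun_prop

lemma L_bd (hA : StmtA d θ) {θ' M n : ℝ} (h0 : 0 ≤ θ') (h1 : θ' < 1) (hn : |n| ≤ tanh M) :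
    -cosh M ^ 2 ≤ L θ' n ∧ L θ' n ≤ 0 := by
  have hn1 : n ^ 2 < 1 := (sq_lt_one_iff_abs_lt_one n).2 (hn.trans_lt (tanh_lt_one M))
  have hθ : θ' ^ 2 < 1 := by nlinarith
  have h2 := hA.loglip θ' M n 0 h0 h1 hn (by rw [abs_zero]; exact (abs_nonneg _).trans hn)
  have h3 : |L θ' n| ≤ cosh M ^ 2 * n ^ 2 := by simpa [L] using h2
  have h4 : 0 < 1 - θ' ^ 2 * n ^ 2 := by nlinarith [sq_nonneg n, sq_nonneg θ']
  refine ⟨?_, log_nonpos (div_nonneg (by linarith) h4.le) ((div_le_one h4).2 ?_)⟩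
  · have := (abs_le.1 h3).1
    nlinarith [sq_nonneg (cosh M)]
  · nlinarith [sq_nonneg n]

lemma L_abs (hA : StmtA d θ) {θ' M n : ℝ} (h0 : 0 ≤ θ') (h1 : θ' < 1) (hn : |n| ≤ tanh M) :
    |L θ' n| ≤ cosh M ^ 2 :=
  abs_le.2 ⟨(L_bd hA h0 h1 hn).1, (L_bd hA h0 h1 hn).2.trans (sq_nonneg _)⟩

section
variable {Ω : Type} (m : MeasurableSpace Ω) [m0 : MeasurableSpace Ω] (P : Measure Ω)
  [IsProbabilityMeasure P]

lemma iae {f : Ω → ℝ} (hf : Measurable f) {C : ℝ} (h : ∀ᵐ ω ∂P, |f ω| ≤ C) : Integrable f P :=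
  Integrable.of_bound hf.aestronglyMeasurable C h

lemma mce (hm : m ≤ m0) (f : Ω → ℝ) : Measurable (P[f | m]) :=
  (stronglyMeasurable_condExp.mono hm).measurable

lemma ce_abs (hP : StmtP) (hm : m ≤ m0) {f : Ω → ℝ} (hf : Measurable f) {C : ℝ}
    (h : ∀ᵐ ω ∂P, |f ω| ≤ C) : ∀ᵐ ω ∂P, |(P[f | m]) ω| ≤ C :=
  (hP.between m P f (-C) C hm hf (h.mono fun _ h => abs_le.1 h)).mono fun _ h => abs_le.2 h

/-- replacing the conditional expectation of `L n` by `L` of the conditional expectation -/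
lemma step1 (hP : StmtP) (hA : StmtA d θ) (hm : m ≤ m0) {θ' M : ℝ} (h0 : 0 ≤ θ') (h1 : θ' < 1)
    {n : Ω → ℝ} (hn : Measurable n) (hb : ∀ ω, |n ω| ≤ tanh M) :
    ∫ ω, (L θ' (n ω) - (P[fun ω => L θ' (n ω) | m]) ω) ^ 2 ∂P ≤
      cosh M ^ 4 * ∫ ω, (n ω - (P[n | m]) ω) ^ 2 * (n ω + (P[n | m]) ω) ^ 2 ∂P := by
  have hM1 := (tanh_lt_one M).le
  let nb : Ω → ℝ := fun ω => if |(P[n | m]) ω| ≤ tanh M then (P[n | m]) ω else n ω * 0
  have hce := ce_abs m P hP hm hn (ae_of_all _ hb)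
  have mm : Measurable[m] (P[n | m]) := stronglyMeasurable_condExp.measurable
  have mnb : Measurable[m] nb := by
    have : nb = fun ω => if |(P[n | m]) ω| ≤ tanh M then (P[n | m]) ω else 0 := by
      funext ω; simp only [nb, mul_zero]
    rw [this]
    exact Measurable.ite (mm (measurableSet_le measurable_id.abs measurable_const)) mm
      measurable_const
  have hnb : ∀ ω, |nb ω| ≤ tanh M := fun ω => by
    simp only [nb]
    split_ifs with h
    · exact h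
    · rw [mul_zero, abs_zero]; exact (abs_nonneg _).trans (hb ω)
  refine (hP.proj m P _ (fun ω => L θ' (nb ω)) (cosh M ^ 2) hm ((meas_L θ').comp hn)
    (ae_of_all _ fun ω => L_abs hA h0 h1 (hb ω)) ((meas_L θ').comp mnb)
    (ae_of_all _ fun ω => L_abs hA h0 h1 (hnb ω))).trans ?_
  rw [← integral_const_mul]
  refine integral_mono_of_nonneg (ae_of_all _ fun _ => sq_nonneg _) (Integrable.const_mul
    (iae P (((hn.sub (mce m P hm n)).pow_const 2).mul ((hn.add (mce m P hm n)).pow_const 2))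
      (C := 16) ?_) _) ?_
  · filter_upwards [hce] with ω h
    have a1 := abs_le.1 ((hb ω).trans hM1)
    have a2 := abs_le.1 (h.trans hM1)
    have a3 : (n ω - (P[n | m]) ω) ^ 2 ≤ 4 := by nlinarith
    have a4 : (n ω + (P[n | m]) ω) ^ 2 ≤ 4 := by nlinarith
    change |(n ω - (P[n | m]) ω) ^ 2 * (n ω + (P[n | m]) ω) ^ 2| ≤ 16
    rw [abs_of_nonneg (by positivity)]
    nlinarith [sq_nonneg (n ω - (P[n | m]) ω), sq_nonneg (n ω + (P[n | m]) ω)]
  · filter_upwards [hce] with ω h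
    have e : nb ω = (P[n | m]) ω := if_pos h
    have h2 := hA.loglip θ' M (n ω) (nb ω) h0 h1 (hb ω) (hnb ω)
    have h3 := pow_le_pow_left₀ (abs_nonneg _) h2 2
    rw [sq_abs, mul_pow, sq_abs, e] at h3
    refine le_of_eq_of_le (by rw [e]; rfl) (h3.trans (le_of_eq ?_))
    ring

lemma tail {n χ : Ω → ℝ} (hn : Measurable n) (hb : ∀ ω, |n ω| ≤ 1) (hχ : Measurable χ)
    (hχb : ∀ᵐ ω ∂P, 0 ≤ χ ω ∧ χ ω ≤ 4) {l : ℝ} :
    ∫ ω, χ ω * n ω ^ 2 ∂P ≤ l ^ 2 * ∫ ω, χ ω ∂P + 4 * P.real {ω | l < |n ω|} := by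
  have hs : MeasurableSet {ω | l < |n ω|} := measurableSet_lt measurable_const hn.abs
  have i1 : Integrable χ P := iae P hχ (C := 4)
    (hχb.mono fun ω h => by rw [abs_of_nonneg h.1]; exact h.2)
  have i2 : Integrable ({ω | l < |n ω|}.indicator fun _ => (4 : ℝ)) P :=
    (integrable_const _).indicator hs
  have e : 4 * P.real {ω | l < |n ω|} = ∫ ω, {ω | l < |n ω|}.indicator (fun _ => (4 : ℝ)) ω ∂P := by
    rw [integral_indicator hs, setIntegral_const, smul_eq_mul, mul_comm]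
  rw [e, ← integral_const_mul, ← integral_add (i1.const_mul _) i2]
  refine integral_mono_of_nonneg (hχb.mono fun ω h => mul_nonneg h.1 (sq_nonneg _))
    ((i1.const_mul _).add i2) (hχb.mono fun ω h => ?_)
  have a1 : n ω ^ 2 ≤ 1 := (sq_le_one_iff_abs_le_one _).2 (hb ω)
  by_cases hω : l < |n ω|
  · simp only [Set.indicator_of_mem (show ω ∈ {ω | l < |n ω|} from hω)]
    nlinarith [mul_nonneg (sq_nonneg l) h.1, h.1, h.2, sq_nonneg (n ω)]
  · simp only [Set.indicator_of_notMem (show ω ∉ {ω | l < |n ω|} from hω)]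
    have a2 : n ω ^ 2 ≤ l ^ 2 := by
      rw [← sq_abs]; exact pow_le_pow_left₀ (abs_nonneg _) (not_lt.1 hω) 2
    nlinarith [h.1]

lemma step0 (hP : StmtP) (hm : m ≤ m0) {n : Ω → ℝ} (hn : Measurable n) (hb : ∀ ω, |n ω| ≤ 1) :
    ∫ ω, (n ω - (P[n | m]) ω) ^ 2 * (n ω + (P[n | m]) ω) ^ 2 ∂P ≤
      4 * ∫ ω, (n ω - (P[n | m]) ω) ^ 2 ∂P := by
  have hce := ce_abs m P hP hm hn (ae_of_all _ hb)
  rw [← integral_const_mul]
  refine integral_mono_of_nonneg (ae_of_all _ fun _ => by positivity) (Integrable.const_mul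
    (iae P ((hn.sub (mce m P hm n)).pow_const 2) (C := 4) ?_) _) ?_
  · filter_upwards [hce] with ω h
    rw [abs_of_nonneg (sq_nonneg _)]
    change (n ω - (P[n | m]) ω) ^ 2 ≤ 4
    nlinarith [abs_le.1 (hb ω), abs_le.1 h]
  · filter_upwards [hce] with ω h
    have a4 : (n ω + (P[n | m]) ω) ^ 2 ≤ 4 := by nlinarith [abs_le.1 (hb ω), abs_le.1 h]
    nlinarith [sq_nonneg (n ω - (P[n | m]) ω)]

lemma step2 (hP : StmtP) (hm : m ≤ m0) {n : Ω → ℝ} (hn : Measurable n) (hb : ∀ ω, |n ω| ≤ 1)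
    (l : ℝ) : ∫ ω, (n ω - (P[n | m]) ω) ^ 2 * (n ω + (P[n | m]) ω) ^ 2 ∂P ≤
      4 * (l ^ 2 * ∫ ω, (n ω - (P[n | m]) ω) ^ 2 ∂P) + 16 * P.real {ω | l < |n ω|} := by
  have hce := ce_abs m P hP hm hn (ae_of_all _ hb)
  set D : Ω → ℝ := fun ω => (n ω - (P[n | m]) ω) ^ 2 with hD
  have mD : Measurable D := (hn.sub (mce m P hm n)).pow_const 2
  have bD : ∀ᵐ ω ∂P, 0 ≤ D ω ∧ D ω ≤ 4 := hce.mono fun ω h =>
    ⟨sq_nonneg _, by simp only [hD]; nlinarith [abs_le.1 (hb ω), abs_le.1 h]⟩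
  have bD' : ∀ᵐ ω ∂P, |D ω| ≤ 4 := bD.mono fun ω h => by rw [abs_of_nonneg h.1]; exact h.2
  have m2 : Measurable fun ω => n ω ^ 2 := hn.pow_const 2
  have b2 : ∀ ω, |n ω ^ 2| ≤ 1 := fun ω => by
    rw [abs_of_nonneg (sq_nonneg _)]; exact (sq_le_one_iff_abs_le_one _).2 (hb ω)
  have b2' : ∀ᵐ ω ∂P, |n ω ^ 2| ≤ 4 := ae_of_all _ fun ω => (b2 ω).trans (by norm_num)
  have h1 := tail P hn hb mD bD (l := l)
  have h2 := tail P hn hb (mce m P hm D) (hP.between m P D 0 4 hm mD bD) (l := l)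
  rw [integral_condExp hm, ← hP.dual m P D _ 4 hm mD m2 bD' b2'] at h2
  have hj := hP.jensen m P n 1 (fun x => x ^ 2) hm hn (ae_of_all _ hb)
    (Even.convexOn_pow even_two) (continuous_pow 2)
  have hc2 := ce_abs m P hP hm m2 (ae_of_all _ b2)
  have i1 : Integrable (fun ω => D ω * n ω ^ 2) P := iae P (mD.mul m2) (C := 4 * 1)
    (bD'.mono fun ω h => by rw [abs_mul]; exact mul_le_mul h (b2 ω) (abs_nonneg _) (by norm_num))
  have i2 : Integrable (fun ω => D ω * (P[fun ω => n ω ^ 2 | m]) ω) P :=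
    iae P (mD.mul (mce m P hm _)) (C := 4 * 1) (by
      filter_upwards [bD', hc2] with ω h h'
      rw [abs_mul]; exact mul_le_mul h h' (abs_nonneg _) (by norm_num))
  have h3 : ∫ ω, D ω * (n ω + (P[n | m]) ω) ^ 2 ∂P ≤
      ∫ ω, (2 * (D ω * n ω ^ 2) + 2 * (D ω * (P[fun ω => n ω ^ 2 | m]) ω)) ∂P := by
    refine integral_mono_of_nonneg (bD.mono fun ω h => mul_nonneg h.1 (sq_nonneg _))
      ((i1.const_mul _).add (i2.const_mul _)) ?_
    filter_upwards [bD, hj] with ω h h'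
    have a1 : (n ω + (P[n | m]) ω) ^ 2 ≤ 2 * n ω ^ 2 + 2 * (P[fun ω => n ω ^ 2 | m]) ω := by
      nlinarith [sq_nonneg (n ω - (P[n | m]) ω)]
    nlinarith [mul_le_mul_of_nonneg_left a1 h.1]
  rw [integral_add (i1.const_mul _) (i2.const_mul _), integral_const_mul, integral_const_mul] at h3
  linarith

end

lemma int_comp {Ω : Type} [MeasurableSpace Ω] {P : Measure Ω} {S : Ω → Ω}
    (hS : MeasurePreserving S P P) {G : Ω → ℝ} (hG : Measurable G) :
    ∫ ω, G (S ω) ∂P = ∫ ω, G ω ∂P := by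
  rw [← integral_map hS.measurable.aemeasurable hG.aestronglyMeasurable, hS.map_eq]

lemma ell0_eq (s : ℝ) (x : W d) : ell0 θ s x = fun ω => L 0 (ms θ s x ω) := by
  funext ω; simp [ell0, L]

lemma le_ceil (s : ℝ) : s ≤ (⌈s⌉ : ℤ) + 1 := (Int.le_ceil s).trans (by linarith)

variable (b : Base d θ μ) (hE : StmtE d θ μ)
include hE

lemma mH (s : ℝ) (z : W d) (α : Option (Fin d)) :
    Measurable fun ω : Om d => tanh (Hs θ s ω z α) :=
  meas_tanh.comp (hE.meas_Hs (fun _ => s) measurable_const z α)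

lemma mell (s : ℝ) (x : W d) (a : Fin d) : Measurable (ell θ s x a) :=
  (meas_L θ).comp (mH hE s _ _)

lemma mell0 (s : ℝ) (x : W d) : Measurable (ell0 θ s x) := by
  rw [ell0_eq]; exact (meas_L 0).comp (mH hE s _ _)

include b

lemma ell_le (n : ℤ) (s : ℝ) (hs : s ≤ n + 1) (x : W d) (a : Fin d) (ω : Om d) :
    -cosh (Hb d θ n) ^ 2 ≤ ell θ s x a ω ∧ ell θ s x a ω ≤ 0 :=
  L_bd b.A b.crit.h0.le b.crit.h1 (abs_tanh_le (hE.Hs_le n s hs ω _ _))

lemma ell0_le (n : ℤ) (s : ℝ) (hs : s ≤ n + 1) (x : W d) (ω : Om d) :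
    -cosh (Hb d θ n) ^ 2 ≤ ell0 θ s x ω ∧ ell0 θ s x ω ≤ 0 := by
  rw [ell0_eq]
  exact L_bd b.A le_rfl one_pos (abs_tanh_le (hE.Hs_le n s hs ω _ _))

lemma ell_abs (s : ℝ) (x : W d) (a : Fin d) :
    ∀ᵐ ω ∂PP μ, |ell θ s x a ω| ≤ cosh (Hb d θ ⌈s⌉) ^ 2 :=
  ae_of_all _ fun ω => abs_le.2 ⟨(ell_le b hE _ s (le_ceil s) x a ω).1,
    (ell_le b hE _ s (le_ceil s) x a ω).2.trans (sq_nonneg _)⟩

lemma del_sh (s : ℝ) (u : W d) : ∫ ω, (ms θ s u ω - mb θ μ s u ω) ^ 2 ∂PP μ = del θ μ s := by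
  have e : ms θ s u = fun ω => ms θ s 1 (sh u ω) := by
    funext ω; simp only [ms, hE.Hs_sh, mul_one]
  have h1 := hE.CE_sh s u (ms θ s 1) (mH hE s 1 none)
    ⟨1, ae_of_all _ fun ω => (abs_tanh_lt_one _).le⟩
  have hm : Measurable fun ω => (ms θ s 1 ω - CE θ μ s (ms θ s 1) ω) ^ 2 :=
    ((mH hE s 1 none).sub (hE.meas_CE s _).1).pow_const 2
  rw [del, ← int_comp (b.I.mp (lm u)) hm]
  refine integral_congr_ae ?_
  filter_upwards [hE.mb_eq s u, h1] with ω h2 h3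
  rw [h2, e, h3]
  rfl

lemma dn_le : ∃ C : ℝ, 0 ≤ C ∧ ∀ s a,
    ∫ ω, (tanh (Hs θ s ω (step 1 a) (some a)) -
      CE θ μ s (fun ω => tanh (Hs θ s ω (step 1 a) (some a))) ω) ^ 2 ∂PP μ ≤ C * del θ μ s := by
  have := b.crit.hμ.1
  obtain ⟨Ψ, C, hΨ, hl⟩ := b.A.lip
  refine ⟨2 * C ^ 2, by positivity, fun s a => ?_⟩
  have hY : ∀ ω, |Ψ (mb θ μ s (step 1 a) ω, mb θ μ s 1 ω)| ≤ |Ψ 0| + C + 1 := fun ω => by
    have h1 := hΨ.dist_le_mul (mb θ μ s (step 1 a) ω, mb θ μ s 1 ω) 0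
    have h2 : dist (mb θ μ s (step 1 a) ω, mb θ μ s 1 ω) 0 ≤ 1 := by
      rw [dist_zero_right, Prod.norm_def]
      exact max_le ((hE.meas_mb s _).2 ω) ((hE.meas_mb s _).2 ω)
    have h3 := mul_le_mul_of_nonneg_left h2 C.2
    have h4 := abs_sub_abs_le_abs_sub (Ψ (mb θ μ s (step 1 a) ω, mb θ μ s 1 ω)) (Ψ 0)
    rw [Real.dist_eq] at h1
    simp only [NNReal.val_eq_coe] at h3
    linarith
  refine (b.P.proj (Gs θ s) (PP μ) _ (fun ω => Ψ (mb θ μ s (step 1 a) ω, mb θ μ s 1 ω))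
    (|Ψ 0| + C + 1) (hE.Gs_le s) (mH hE s _ _) (ae_of_all _ fun ω =>
      (abs_tanh_lt_one _).le.trans (le_add_of_nonneg_left (by positivity)))
    (hΨ.continuous.measurable.comp ((hE.meas_mb s _).1.prodMk (hE.meas_mb s _).1))
    (ae_of_all _ hY)).trans ?_
  have i1 : ∀ u, Integrable (fun ω => (ms θ s u ω - mb θ μ s u ω) ^ 2) (PP μ) := fun u =>
    iae _ (((mH hE s u none).sub ((hE.meas_mb s u).1.mono (hE.Gs_le s) le_rfl)).pow_const 2)
      (C := 4) (ae_of_all _ fun ω => by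
        have a1 : |ms θ s u ω| ≤ 1 := (abs_tanh_lt_one _).le
        rw [abs_of_nonneg (sq_nonneg _)]
        change (ms θ s u ω - mb θ μ s u ω) ^ 2 ≤ 4
        nlinarith [abs_le.1 a1, abs_le.1 ((hE.meas_mb s u).2 ω)])
  have e : 2 * (C : ℝ) ^ 2 * del θ μ s = ∫ ω, (C : ℝ) ^ 2 *
      ((ms θ s (step 1 a) ω - mb θ μ s (step 1 a) ω) ^ 2 + (ms θ s 1 ω - mb θ μ s 1 ω) ^ 2)
        ∂PP μ := by
    rw [integral_const_mul, integral_add (i1 _) (i1 _), del_sh b hE, del_sh b hE]; ring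
  rw [e]
  refine integral_mono_of_nonneg (ae_of_all _ fun _ => sq_nonneg _)
    (((i1 _).add (i1 _)).const_mul _) ?_
  filter_upwards [hE.recur s] with ω h
  have h1 := hl _ _ h (step 1 a) a
  rw [step_step] at h1
  have h2 := hΨ.dist_le_mul (ms θ s (step 1 a) ω, ms θ s 1 ω)
    (mb θ μ s (step 1 a) ω, mb θ μ s 1 ω)
  have h3 := pow_le_pow_left₀ dist_nonneg h2 2
  rw [Real.dist_eq, sq_abs, mul_pow] at h3
  simp only [h1]
  refine h3.trans (mul_le_mul_of_nonneg_left ?_ (sq_nonneg _))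
  rw [Prod.dist_eq, Real.dist_eq, Real.dist_eq]
  rcases le_total |ms θ s (step 1 a) ω - mb θ μ s (step 1 a) ω| |ms θ s 1 ω - mb θ μ s 1 ω| with
    h4 | h4
  · rw [max_eq_right h4, sq_abs]; exact le_add_of_nonneg_left (sq_nonneg _)
  · rw [max_eq_left h4, sq_abs]; exact le_add_of_nonneg_right (sq_nonneg _)

end Da

open Da in
theorem stmtDa {d : ℕ} {θ : ℝ} {μ : Measure (W d → Bool)} (b : Base d θ μ) (hE : StmtE d θ μ) :
    StmtDa d θ μ := by
  have := b.crit.hμ.1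
  refine ⟨fun s x a => ⟨mell hE s x a, mell0 hE s x, (mell hE s 1 a).sub (hE.meas_CE s _).1,
    (mell0 hE s 1).sub (hE.meas_CE s _).1⟩,
    fun n s hs x a ω => ⟨ell_le b hE n s hs x a ω, ell0_le b hE n s hs x ω⟩,
    fun n s hs => ?_, fun s a => ?_, fun s => ?_, fun s f C hf hC => ?_, ?_⟩
  · have h1 := ae_all_iff.2 fun a => b.P.between (Gs θ s) (PP μ) _ _ _ (hE.Gs_le s)
      (mell hE s 1 a) (ae_of_all _ (ell_le b hE n s hs 1 a))
    have h2 := b.P.between (Gs θ s) (PP μ) _ _ _ (hE.Gs_le s) (mell0 hE s 1)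
      (ae_of_all _ (ell0_le b hE n s hs 1))
    filter_upwards [h1, h2] with ω h1 h2
    refine ⟨fun a => ?_, ?_⟩
    · have h3 := ell_le b hE n s hs 1 a ω
      have h4 := h1 a
      simp only [phi, CE]
      exact abs_le.2 ⟨by linarith [h3.1, h4.2], by linarith [h3.2, h4.1]⟩
    · have h3 := ell0_le b hE n s hs 1 ω
      simp only [phi0, CE]
      exact abs_le.2 ⟨by linarith [h3.1, h2.2], by linarith [h3.2, h2.1]⟩
  · simp only [phi, CE]
    rw [integral_sub (iae _ (mell hE s 1 a) (ell_abs b hE s 1 a)) integrable_condExp,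
      integral_condExp (hE.Gs_le s), sub_self]
  · refine ae_all_iff.2 fun x => ae_all_iff.2 fun a => ?_
    have e : ell θ s x a = fun ω => ell θ s 1 a (sh x ω) := by
      funext ω; simp only [ell, hE.Hs_sh, mul_step, mul_one]
    filter_upwards [hE.CE_sh s x _ (mell hE s 1 a) ⟨_, ell_abs b hE s 1 a⟩] with ω h
    rw [e, h]
    rfl
  · have m2 : Measurable fun ω => f ω ^ 2 := hf.pow_const 2
    have b2 : ∀ᵐ ω ∂PP μ, 0 ≤ f ω ^ 2 ∧ f ω ^ 2 ≤ C ^ 2 := hC.mono fun ω h =>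
      ⟨sq_nonneg _, by rw [← sq_abs]; exact pow_le_pow_left₀ (abs_nonneg _) h 2⟩
    refine ⟨m2.add (hE.meas_CE s _).1, ?_, ?_⟩
    · filter_upwards [b2, b.P.between (Gs θ s) (PP μ) _ _ _ (hE.Gs_le s) m2 b2] with ω h1 h2
      simp only [chi, CE]
      exact ⟨by linarith [h1.1, h2.1], by linarith [h1.2, h2.2]⟩
    · simp only [chi, CE]
      rw [integral_add (iae _ m2 (C := C ^ 2) (b2.mono fun ω h => by
        rw [abs_of_nonneg h.1]; exact h.2)) integrable_condExp, integral_condExp (hE.Gs_le s),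
        two_mul]
  · obtain ⟨C, hC0, hC⟩ := dn_le b hE
    refine ⟨4 * C + 16, by positivity, fun n s hs => ?_⟩
    have hd : 0 ≤ del θ μ s := integral_nonneg fun _ => sq_nonneg _
    have hc : 0 ≤ cosh (Hb d θ n) ^ 4 := by positivity
    refine ⟨?_, fun a l _ => ?_⟩
    · have h1 := step1 (Gs θ s) (PP μ) b.P b.A (hE.Gs_le s) le_rfl one_pos (mH hE s 1 none)
        fun ω => abs_tanh_le (hE.Hs_le n s hs ω 1 none)
      have h2 := step0 (Gs θ s) (PP μ) b.P (hE.Gs_le s) (mH hE s 1 none)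
        fun ω => (abs_tanh_lt_one _).le
      have h3 : ∫ ω, phi0 θ μ s ω ^ 2 ∂PP μ ≤ cosh (Hb d θ n) ^ 4 * (4 * del θ μ s) := by
        simp only [phi0, CE, ell0_eq]
        exact h1.trans (mul_le_mul_of_nonneg_left h2 hc)
      nlinarith [mul_nonneg hc hd, mul_nonneg hC0 (mul_nonneg hc hd)]
    · have h1 := step1 (Gs θ s) (PP μ) b.P b.A (hE.Gs_le s) b.crit.h0.le b.crit.h1
        (mH hE s (step 1 a) (some a)) fun ω => abs_tanh_le (hE.Hs_le n s hs ω _ _)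
      have h2 := step2 (Gs θ s) (PP μ) b.P (hE.Gs_le s) (mH hE s (step 1 a) (some a))
        (fun ω => (abs_tanh_lt_one _).le) l
      have h4 : (PP μ).real {ω | l < |tanh (Hs θ s ω (step 1 a) (some a))|} =
          (PP μ).real {ω | l < |tanh (Hs θ s ω 1 (some a))|} := by
        have h5 := (b.I.mp (lm (step 1 a))).measure_preimage
          (measurableSet_lt (measurable_const (a := l)) (mH hE s 1 (some a)).abs).nullMeasurableSet
        rw [Measure.real, Measure.real, ← h5]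
        congr 2
        ext ω
        have h6 : Hs θ s (act (lm (step 1 a)) ω) 1 = Hs θ s ω (step 1 a) := by
          have := congrFun (hE.Hs_sh s (step 1 a) ω) 1
          rwa [mul_one] at this
        simp only [Set.mem_preimage, Set.mem_ofPred_eq, h6]
      rw [h4] at h2
      have h5 := mul_le_mul_of_nonneg_left (hC s a) (sq_nonneg l)
      have h6 : 0 ≤ (PP μ).real {ω | l < |tanh (Hs θ s ω 1 (some a))|} := measureReal_nonneg
      have h3 : ∫ ω, phi θ μ s a ω ^ 2 ∂PP μ ≤ cosh (Hb d θ n) ^ 4 * (4 * (l ^ 2 * (C * del θ μ s)) +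
          16 * (PP μ).real {ω | l < |tanh (Hs θ s ω 1 (some a))|}) :=
        h1.trans (mul_le_mul_of_nonneg_left (h2.trans (add_le_add_left
          (mul_le_mul_of_nonneg_left h5 (by norm_num)) _)) hc)
      refine h3.trans ?_
      have h7 := mul_nonneg hc (mul_nonneg (sq_nonneg l) hd)
      have h8 := mul_nonneg hC0 (mul_nonneg hc h6)
      nlinarith

end Vale.Agent.P161E
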