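import Vale.Agent.P161E.Tree
import Vale.Agent.P161.Main
import Vale.Agent.P161.Exist

namespace Vale.Agent.P161E

open MeasureTheory ProbabilityTheory Filter Topology Finset Real
open Vale.Agent.P161 (spin obs gain clip coin IsFreeIsing IsFactorOfIID)
open scoped Classical

variable {d : ℕ}

/-! Deterministic field systems -/

noncomputable def Gf (θ h : ℝ) : ℝ := artanh (θ * tanh h)

noncomputable def kap (θ h : ℝ) : ℝ := (1 - tanh h ^ 2) / (1 - θ ^ 2 * tanh h ^ 2)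

/-- `H z α` is the field at `z` coming from `z` itself and the branches other than `α`. -/
def Rec (θ : ℝ) (b : W d → ℝ) (H : W d → Option (Fin d) → ℝ) : Prop :=
  ∀ z α, H z α = b z + ∑ c ∈ dirs α, Gf θ (H (step z c) (some c))

noncomputable def Kp (θ : ℝ) (H : W d → Option (Fin d) → ℝ) : W d → List (Fin d) → ℝ
  | _, [] => 1
  | x, a :: p => θ * kap θ (H (step x a) (some a)) * Kp θ H (step x a) p

noncomputable def Acov (θ : ℝ) (H : W d → Option (Fin d) → ℝ) (x : W d) (p : List (Fin d)) : ℝ :=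
  (1 - tanh (H x none) ^ 2) * Kp θ H x p

noncomputable def VK (θ r : ℝ) (H : W d → Option (Fin d) → ℝ) : ℕ → W d → Option (Fin d) → ℝ
  | 0, _, _ => 1
  | K + 1, x, α => 1 + ∑ c ∈ dirs α,
      r * θ ^ 2 * (kap θ (H (step x c) (some c)) ^ 2 * VK θ r H K (step x c) (some c))

/-! Fields of an array of observations -/

abbrev I (d : ℕ) := W d × ℤ

noncomputable def lim0 (a : ℕ → ℝ) : ℝ :=
  if ∃ l, Tendsto a atTop (𝓝 l) then limUnder atTop a else 0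

noncomputable def bR (y : I d → ℝ) (R : ℕ) (z : W d) : ℝ :=
  ∑ n ∈ Icc (-(R : ℤ)) R, artanh (y (z, n) / 2)

noncomputable def hR (θ : ℝ) (y : I d → ℝ) : ℕ → W d → Option (Fin d) → ℝ
  | 0, _, _ => 0
  | R + 1, z, α => bR y R z + ∑ c ∈ dirs α, Gf θ (hR θ y R (step z c) (some c))

/-- The observations seen by `hR θ y R z α`. -/
def Vis : ℕ → W d → Option (Fin d) → Set (I d)
  | 0, _, _ => ∅
  | R + 1, z, α => {j | j.1 = z ∧ j.2 ∈ Icc (-(R : ℤ)) R} ∪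
      ⋃ c ∈ dirs α, Vis R (step z c) (some c)

noncomputable def bI (y : I d → ℝ) (z : W d) : ℝ := lim0 fun R => bR y R z

noncomputable def HI (θ : ℝ) (y : I d → ℝ) (z : W d) (α : Option (Fin d)) : ℝ :=
  lim0 fun R => hR θ y R z α

def Conv (θ : ℝ) (y : I d → ℝ) : Prop :=
  ∀ z α, ∃ l, Tendsto (fun R => hR θ y R z α) atTop (𝓝 l)

def AdmY (β : ℝ) (y : I d → ℝ) : Prop :=
  (∀ j, |y j| ≤ 1) ∧ ∀ z (S : Finset ℤ), ∑ n ∈ S, |y (z, n)| ≤ β

/-! The probability spaces -/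

abbrev Nz (d : ℕ) := I d → unitInterval

/-- spins and observation noise -/
abbrev O0 (d : ℕ) := (W d → Bool) × Nz d

/-- times, spins and observation noise -/
abbrev Om (d : ℕ) := Nz d × O0 d

noncomputable def PU (d : ℕ) : Measure (Nz d) := Measure.infinitePi fun _ => volume

instance : IsProbabilityMeasure (PU d) := by unfold PU; infer_instance

noncomputable def P0 (μ : Measure (W d → Bool)) : Measure (O0 d) := μ.prod (PU d)

instance (μ : Measure (W d → Bool)) [IsProbabilityMeasure μ] : IsProbabilityMeasure (P0 μ) := by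
  unfold P0; infer_instance

noncomputable def PP (μ : Measure (W d → Bool)) : Measure (Om d) := (PU d).prod (P0 μ)

instance (μ : Measure (W d → Bool)) [IsProbabilityMeasure μ] : IsProbabilityMeasure (PP μ) := by
  unfold PP; infer_instance

structure Crit (d : ℕ) (θ : ℝ) (μ : Measure (W d → Bool)) : Prop where
  hd : 3 ≤ d
  h0 : 0 < θ
  h1 : θ < 1
  hc : θ ^ 2 * (d - 1) = 1
  hμ : IsFreeIsing (T d) θ μ

/-! Quenched quantities: strengths `e`, observed set `B`, array `a` -/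

noncomputable def Yq (e : I d → ℝ) (ω : O0 d) (j : I d) : ℝ := spin (ω.1 j.1) * obs (e j) (ω.2 j)

noncomputable def yA (e : I d → ℝ) (B : Set (I d)) (a : I d → ℝ) (j : I d) : ℝ :=
  e j * B.indicator a j

noncomputable def HA (θ : ℝ) (e : I d → ℝ) (B : Set (I d)) (a : I d → ℝ) :
    W d → Option (Fin d) → ℝ := HI θ (yA e B a)

noncomputable def mA (θ : ℝ) (e : I d → ℝ) (B : Set (I d)) (a : I d → ℝ) (z : W d) : ℝ :=
  tanh (HA θ e B a z none)

noncomputable def AA (θ : ℝ) (e : I d → ℝ) (B : Set (I d)) (a : I d → ℝ) (u : W d) : ℝ :=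
  Acov θ (HA θ e B a) 1 (word u)

noncomputable def cdf (m y : ℝ) : unitInterval :=
  Set.projIcc 0 1 zero_le_one ((1 + (y + m / 2 * (y ^ 2 - 1) / 2)) / 2)

noncomputable def inn (θ : ℝ) (e : I d → ℝ) (B : Set (I d)) (a : I d → ℝ) (j : I d) :
    unitInterval := cdf (e j * mA θ e B a j.1) (a j)

def Bnd (β : ℝ) (e : I d → ℝ) (B : Set (I d)) : Prop :=
  (∀ j, 0 ≤ e j ∧ e j ≤ 1) ∧ ∀ z (S : Finset ℤ), ∑ n ∈ S, B.indicator e (z, n) ≤ β

noncomputable def tlp (θ : ℝ) (e : W d → ℝ) : W d → List (Fin d) → ℝ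
  | _, [] => 1
  | x, a :: p => θ ^ 2 * (1 - (1 - θ ^ 2) / 48 * e (step x a) ^ 2) * tlp θ e (step x a) p

/-! Annealed quantities -/

noncomputable def eps (n : ℤ) : ℝ := min 1 (2 ^ n)

noncomputable def tim (τ : Nz d) (j : I d) : ℝ := j.2 + τ j

noncomputable def str (τ : Nz d) (j : I d) : ℝ := if (τ j : ℝ) < 1 / 2 then eps j.2 else 0

def Bs (τ : Nz d) (s : ℝ) : Set (I d) := {j | tim τ j < s}

noncomputable def Ya (ω : Om d) : I d → ℝ := Yq (str ω.1) ω.2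

noncomputable def bs (s : ℝ) (ω : Om d) : W d → ℝ := bI (yA (str ω.1) (Bs ω.1 s) (Ya ω))

noncomputable def Hs (θ s : ℝ) (ω : Om d) : W d → Option (Fin d) → ℝ :=
  HA θ (str ω.1) (Bs ω.1 s) (Ya ω)

noncomputable def ms (θ s : ℝ) (z : W d) (ω : Om d) : ℝ := tanh (Hs θ s ω z none)

noncomputable def As (θ s : ℝ) (u : W d) (ω : Om d) : ℝ := Acov θ (Hs θ s ω) 1 (word u)

noncomputable def gI (θ : ℝ) (ω : Om d) (j : I d) : unitInterval :=
  inn θ (str ω.1) (Bs ω.1 (tim ω.1 j)) (Ya ω) j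

noncomputable def Zs (θ s : ℝ) (ω : Om d) (j : I d) : unitInterval × unitInterval :=
  if tim ω.1 j < s then (ω.1 j, gI θ ω j) else (1, 0)

@[reducible] noncomputable def Gs (θ s : ℝ) : MeasurableSpace (Om d) :=
  MeasurableSpace.comap (Zs θ s) inferInstance

/-- conditional expectation given the innovations before time `s` -/
noncomputable def CE (θ : ℝ) (μ : Measure (W d → Bool)) (s : ℝ) (f : Om d → ℝ) : Om d → ℝ :=
  (PP μ)[f | Gs θ s]

noncomputable def del (θ : ℝ) (μ : Measure (W d → Bool)) (s : ℝ) : ℝ :=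
  ∫ ω, (ms θ s 1 ω - CE θ μ s (ms θ s 1) ω) ^ 2 ∂PP μ

/-- bound for the fields up to time `n + 1` -/
noncomputable def Hb (d : ℕ) (θ : ℝ) (n : ℤ) : ℝ := 2 * 2 ^ n + d * artanh θ

/-! Symmetries and gauge coordinates -/

def exI (γ : T d ≃g T d) (j : I d) : I d := (γ j.1, j.2)

def act0 (γ : T d ≃g T d) (ω : O0 d) : O0 d := (fun v => ω.1 (γ v), fun j => ω.2 (exI γ j))

def act (γ : T d ≃g T d) (ω : Om d) : Om d := (fun j => ω.1 (exI γ j), act0 γ ω.2)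

/-- the configuration seen from `x` -/
def sh (x : W d) : Om d → Om d := act (lm x)

def par (v : W d) : W d := ⟨v.1.tail, v.2.tail⟩

noncomputable def Xi (σ : W d → Bool) (v : W d) : Bool :=
  if v = 1 then σ v else σ v == σ (par v)

def DepOn0 {α : Type} (S : Set (W d)) (R : Set (I d)) (f : O0 d → α) : Prop :=
  ∀ ω ω' : O0 d, (∀ v ∈ S, Xi ω.1 v = Xi ω'.1 v) → (∀ j ∈ R, ω.2 j = ω'.2 j) → f ω = f ω'

def DepOn {α : Type} (S : Set (W d)) (R : Set (I d)) (f : Om d → α) : Prop :=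
  ∀ ω ω' : Om d, (∀ v ∈ S, Xi ω.2.1 v = Xi ω'.2.1 v) →
    (∀ j ∈ R, ω.1 j = ω'.1 j ∧ ω.2.2 j = ω'.2.2 j) → f ω = f ω'

def Loc (R : ℕ) (f : Om d → ℝ) : Prop :=
  ∀ ω ω' : Om d, (∀ v, len v ≤ R → ω.2.1 v = ω'.2.1 v) →
    (∀ j : I d, len j.1 ≤ R → ω.1 j = ω'.1 j ∧ ω.2.2 j = ω'.2.2 j) → f ω = f ω'

def Bdd {α : Type} (f : α → ℝ) : Prop := ∃ C, ∀ a, |f a| ≤ C

/-! Symmetric channels -/

structure Nish {Ω ι : Type} [MeasurableSpace Ω] (P : Measure Ω) (Z : Ω → ι → ℝ) (X : Ω → ℝ) :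
    Prop where
  mZ : Measurable Z
  mX : Measurable X
  bdd : Bdd X
  eq : ∀ F : (ι → ℝ) × ℝ → ℝ, Measurable F → Bdd F →
    ∫ ω, F (-Z ω, -X ω) ∂P = ∫ ω, F (Z ω, X ω) * exp (-2 * X ω) ∂P

structure Nish0 {Ω : Type} [MeasurableSpace Ω] (P : Measure Ω) (X : Ω → ℝ) : Prop where
  mX : Measurable X
  bdd : Bdd X
  eq : ∀ F : ℝ → ℝ, Measurable F → Bdd F →
    ∫ ω, F (-X ω) ∂P = ∫ ω, F (X ω) * exp (-2 * X ω) ∂P

noncomputable def xx {Ω : Type} [MeasurableSpace Ω] (P : Measure Ω) (X : Ω → ℝ) : ℝ :=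
  ∫ ω, tanh (X ω) ^ 2 ∂P

/-! The structure at the root, in gauge coordinates -/

noncomputable def hg (θ s : ℝ) (z : W d) (α : Option (Fin d)) (ω : Om d) : ℝ :=
  spin (ω.2.1 z) * Hs θ s ω z α

noncomputable def bg (s : ℝ) (ω : Om d) : ℝ := spin (ω.2.1 1) * bs s ω 1

noncomputable def gc (θ s : ℝ) (c : Fin d) (ω : Om d) : ℝ :=
  spin (Xi ω.2.1 (gen c)) * Gf θ (hg θ s (gen c) (some c) ω)

noncomputable def UK (θ r s : ℝ) (K : ℕ) (z : W d) (c : Fin d) (ω : Om d) : ℝ :=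
  kap θ (Hs θ s ω z (some c)) ^ 2 * VK θ r (Hs θ s ω) K z (some c)

noncomputable def piece (θ r s : ℝ) (K : ℕ) : Option (Fin d) → Om d → ℝ × ℝ
  | none => fun ω => (bg s ω, 0)
  | some c => fun ω => (gc θ s c ω, UK θ r s K (gen c) c ω)

/-! Sums along paths -/

noncomputable def Sp {H : Type} [NormedAddCommGroup H] [InnerProductSpace ℝ H]
    (Uu : W d → H →ₗᵢ[ℝ] H) (φ : Fin d → H) : W d → List (Fin d) → H
  | _, [] => 0
  | x, a :: p => Uu x (φ a) + Sp Uu φ (step x a) p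

noncomputable def Sf (φ : Fin d → Om d → ℝ) : W d → List (Fin d) → Om d → ℝ
  | _, [], _ => 0
  | x, a :: p, ω => φ a (sh x ω) + Sf φ (step x a) p ω

/-! The surrogates -/

noncomputable def ell (θ s : ℝ) (x : W d) (a : Fin d) (ω : Om d) : ℝ :=
  log (kap θ (Hs θ s ω (step x a) (some a)))

noncomputable def ell0 (θ s : ℝ) (x : W d) (ω : Om d) : ℝ := log (1 - ms θ s x ω ^ 2)

noncomputable def phi (θ : ℝ) (μ : Measure (W d → Bool)) (s : ℝ) (a : Fin d) (ω : Om d) : ℝ :=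
  ell θ s 1 a ω - CE θ μ s (ell θ s 1 a) ω

noncomputable def phi0 (θ : ℝ) (μ : Measure (W d → Bool)) (s : ℝ) (ω : Om d) : ℝ :=
  ell0 θ s 1 ω - CE θ μ s (ell0 θ s 1) ω

noncomputable def chi (θ : ℝ) (μ : Measure (W d → Bool)) (s : ℝ) (f : Om d → ℝ) (ω : Om d) : ℝ :=
  f ω ^ 2 + CE θ μ s (fun ω => f ω ^ 2) ω

noncomputable def Lt (θ : ℝ) (μ : Measure (W d → Bool)) (s : ℝ) :
    W d → List (Fin d) → Om d → ℝ
  | _, [], _ => 0
  | x, a :: p, ω => CE θ μ s (ell θ s x a) ω + Lt θ μ s (step x a) p ω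

noncomputable def mb (θ : ℝ) (μ : Measure (W d → Bool)) (s : ℝ) (u : W d) (ω : Om d) : ℝ :=
  clip (CE θ μ s (ms θ s u) ω)

noncomputable def At (θ : ℝ) (μ : Measure (W d → Bool)) (s : ℝ) (u : W d) (ω : Om d) : ℝ :=
  θ ^ len u * exp (min 0 (CE θ μ s (ell0 θ s 1) ω + Lt θ μ s 1 (word u) ω))

noncomputable def Dsum (θ : ℝ) (μ : Measure (W d → Bool)) (s : ℝ) (K : ℕ) : ℝ :=
  ∑ u ∈ ball K, (∫ ω, (As θ s u ω - At θ μ s u ω) ^ 2 ∂PP μ +
    ∫ ω, As θ s u ω ^ 2 * (ms θ s u ω - mb θ μ s u ω) ^ 2 ∂PP μ)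

noncomputable def err (θ : ℝ) (μ : Measure (W d → Bool)) (n : ℤ) (s t : ℝ) (u : W d) : ℝ :=
  ∫ ω, if s ≤ tim ω.1 (u, n) ∧ tim ω.1 (u, n) < t then
    (As θ (tim ω.1 (u, n)) u ω - As θ s u ω) ^ 2 +
      As θ (tim ω.1 (u, n)) u ω ^ 2 * (ms θ (tim ω.1 (u, n)) u ω - ms θ s u ω) ^ 2
    else 0 ∂PP μ

end Vale.Agent.P161E
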