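import Vale.Agent.P161E.F

namespace Vale.Agent.P161E

open MeasureTheory Filter Topology Finset Real
open Vale.Agent.P161 (spin obs clip)
open scoped Classical

namespace Ea

variable {d : ℕ} {θ : ℝ} {μ : Measure (W d → Bool)}

lemma eps_pos (n : ℤ) : 0 < eps n ∧ eps n ≤ 1 ∧ eps n ≤ 2 ^ n :=
  ⟨lt_min one_pos (by positivity), min_le_left _ _, min_le_right _ _⟩

lemma meas_tim (j : I d) : Measurable fun τ : Nz d => tim τ j := by unfold tim; fun_prop

lemma meas_str (j : I d) : Measurable fun τ : Nz d => str τ j :=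
  Measurable.ite (measurableSet_lt (by fun_prop) measurable_const) measurable_const measurable_const

lemma meas_clip : Measurable clip := by unfold clip; fun_prop

lemma meas_Ya : Measurable (Ya : Om d → I d → ℝ) := measurable_pi_lambda _ fun j =>
  ((Measurable.of_discrete (f := spin)).comp (by fun_prop : Measurable fun ω : Om d =>
    ω.2.1 j.1)).mul (P161.measurable_obs.comp (f := fun ω : Om d => (str ω.1 j, ω.2.2 j))
      (((meas_str j).comp measurable_fst).prodMk (by fun_prop)))

lemma meas_y {S : Nz d → ℝ} (hS : Measurable S) :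
    Measurable fun p : Nz d × (I d → ℝ) => yA (str p.1) (Bs p.1 (S p.1)) p.2 :=
  measurable_pi_lambda _ fun j => ((meas_str j).comp measurable_fst).mul
    (Measurable.ite (measurableSet_lt ((meas_tim j).comp measurable_fst) (hS.comp measurable_fst))
      (by fun_prop) measurable_const)

lemma meas_pair : Measurable fun ω : Om d => (ω.1, Ya ω) := measurable_fst.prodMk meas_Ya

lemma meas_Hs (b : Base d θ μ) {S : Nz d → ℝ} (hS : Measurable S) (z : W d)
    (α : Option (Fin d)) : Measurable fun ω : Om d => Hs θ (S ω.1) ω z α :=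
  (b.F.meas_HI z α).comp ((meas_y hS).comp meas_pair)

noncomputable def Zf (θ s : ℝ) (p : Nz d × (I d → ℝ)) (j : I d) : unitInterval × unitInterval :=
  if tim p.1 j < s then (p.1 j, inn θ (str p.1) (Bs p.1 (tim p.1 j)) p.2 j) else (1, 0)

lemma meas_inn (b : Base d θ μ) (j : I d) :
    Measurable fun p : Nz d × (I d → ℝ) => inn θ (str p.1) (Bs p.1 (tim p.1 j)) p.2 j :=
  b.C.meas_cdf.comp (f := fun p : Nz d × (I d → ℝ) =>
    (str p.1 j * mA θ (str p.1) (Bs p.1 (tim p.1 j)) p.2 j.1, p.2 j))
    ((((meas_str j).comp measurable_fst).mul (Fa.meas_tanh.comp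
      ((b.F.meas_HI j.1 none).comp (meas_y (meas_tim j))))).prodMk (by fun_prop))

lemma meas_Zf (b : Base d θ μ) (s : ℝ) : Measurable (Zf (d := d) θ s) :=
  measurable_pi_lambda _ fun j => Measurable.ite
    (measurableSet_lt ((meas_tim j).comp measurable_fst) measurable_const)
    ((by fun_prop : Measurable fun p : Nz d × (I d → ℝ) => p.1 j).prodMk (meas_inn b j))
    measurable_const

lemma meas_Zs (b : Base d θ μ) (s : ℝ) : Measurable (Zs θ s : Om d → _) :=
  (meas_Zf b s).comp meas_pair

lemma geo (n : ℤ) (S : Finset ℤ) : ∑ k ∈ S, (if k ≤ n then (2 : ℝ) ^ k else 0) ≤ 2 * 2 ^ n := by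
  have h := (hasSum_geometric_two).mul_right ((2 : ℝ) ^ n)
  rw [← sum_filter]
  refine le_trans (le_of_eq ?_) (sum_le_hasSum ((S.filter (· ≤ n)).image fun k => (n - k).toNat)
    (fun _ _ => by positivity) h)
  rw [sum_image fun k hk l hl e => by
    simp only [coe_filter, Set.mem_ofPred_eq] at hk hl; omega]
  refine sum_congr rfl fun k hk => ?_
  rw [one_div, inv_pow, ← zpow_natCast, Int.toNat_of_nonneg (sub_nonneg.2 (mem_filter.1 hk).2),
    ← zpow_neg, ← zpow_add₀ two_ne_zero]
  congr 1; ring

lemma bnd (n : ℤ) (s : ℝ) (τ : Nz d) (h : s ≤ n + 1) : Bnd (2 * 2 ^ n) (str τ) (Bs τ s) := by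
  have h1 : ∀ j, 0 ≤ str τ j ∧ str τ j ≤ eps j.2 := fun j => by
    unfold str; split_ifs <;> simp [(eps_pos _).1.le]
  refine ⟨fun j => ⟨(h1 j).1, (h1 j).2.trans (eps_pos _).2.1⟩, fun z S =>
    le_trans (sum_le_sum fun k _ => ?_) (geo n S)⟩
  by_cases hk : (z, k) ∈ Bs τ s
  · have : (k : ℝ) < n + 1 := by
      have h2 : (k : ℝ) + τ (z, k) < s := hk
      linarith [(τ (z, k)).2.1]
    have : k < n + 1 := by exact_mod_cast this
    rw [Set.indicator_of_mem hk, if_pos (by omega)]
    exact (h1 _).2.trans (eps_pos _).2.2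
  · rw [Set.indicator_of_notMem hk]; positivity

lemma adm (b : Base d θ μ) {n : ℤ} {s : ℝ} (h : s ≤ n + 1) (ω : Om d) :
    AdmY (2 * 2 ^ n) (yA (str ω.1) (Bs ω.1 s) (Ya ω)) :=
  b.F.adm _ _ _ _ (bnd n s _ h) (b.F.Yq_le _ _)

lemma gI_act (b : Base d θ μ) (γ : T d ≃g T d) (ω : Om d) (j : I d) :
    gI θ (act γ ω) j = gI θ ω (exI γ j) :=
  congrArg (fun x => cdf (str ω.1 (exI γ j) * tanh x) (Ya ω (exI γ j)))
    (b.F.HI_aut (yA (str ω.1) (Bs ω.1 (tim ω.1 (exI γ j))) (Ya ω)) γ j.1)

lemma Zs_act (b : Base d θ μ) (s : ℝ) (γ : T d ≃g T d) (ω : Om d) :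
    Zs θ s (act γ ω) = fun j => Zs θ s ω (exI γ j) := by
  funext j
  rw [Zs, Zs, gI_act b]; rfl

lemma meas_CE (s : ℝ) (f : Om d → ℝ) : Measurable[Gs θ s] (CE θ μ s f) :=
  stronglyMeasurable_condExp.measurable

lemma upd_y {s : ℝ} {i : I d} (τ : Nz d) (ω : O0 d) {r r' : unitInterval}
    (h : s ≤ (i.2 : ℝ) + r) (h' : s ≤ (i.2 : ℝ) + r') :
    yA (str (Function.update τ i r)) (Bs (Function.update τ i r) s) (Ya (Function.update τ i r, ω)) =
      yA (str (Function.update τ i r')) (Bs (Function.update τ i r') s)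
        (Ya (Function.update τ i r', ω)) := by
  funext j
  by_cases hj : j = i
  · subst hj
    simp [yA, Bs, tim, h.not_gt, h'.not_gt]
  · simp [yA, Bs, tim, Set.indicator_apply, str, Ya, Yq, hj]

end Ea

open Ea in
theorem stmtE {d : ℕ} {θ : ℝ} {μ : Measure (W d → Bool)} (b : Base d θ μ) (hB : StmtB d θ μ) :
    StmtE d θ μ := by
  have := b.crit.hμ.1
  have hm : ∀ s z, Measurable (ms (d := d) θ s z) := fun s z =>
    Fa.meas_tanh.comp (meas_Hs b (S := fun _ => s) measurable_const z none)
  exact {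
    eps_pos := eps_pos
    meas_Hs := fun _ => meas_Hs b
    meas_ms := fun S hS z => Fa.meas_tanh.comp (meas_Hs b hS z none)
    meas_As := fun S hS u => (b.F.meas_Acov _ (meas_Hs b hS)).2.1 _ _
    meas_bs := fun s z => (b.F.meas_bI z).comp
      ((meas_y (S := fun _ => s) measurable_const).comp meas_pair)
    meas_tim := meas_tim
    meas_str := meas_str
    meas_Ya := meas_Ya
    meas_gI := measurable_pi_lambda _ fun j => (meas_inn b j).comp meas_pair
    meas_Zs := meas_Zs b
    bnd := bnd
    Hs_le := fun n s h ω => b.F.HI_le _ _ (adm b h ω)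
    bs_le := fun n s h ω => b.F.bI_le _ _ (adm b h ω)
    recur := fun s => by
      have hH := meas_Hs b (S := fun _ => s) measurable_const
      refine ae_all_iff.2 fun z => ae_all_iff.2 fun α => (Measure.ae_prod_iff_ae_ae
        (measurableSet_eq_fun (hH z α) (((b.F.meas_bI z).comp ((meas_y (S := fun _ => s)
          measurable_const).comp meas_pair)).add (Finset.measurable_sum _ fun c _ =>
            b.A.Gf_cont.measurable.comp (hH _ _))))).2 (ae_of_all _ fun τ => ?_)
      exact (hB.recur _ _ _ (bnd ⌈s⌉ s τ (by linarith [Int.le_ceil s]))).mono fun ω h => h z α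
    Hs_sh := fun s x ω => funext fun z => funext fun α =>
      b.F.HI_lm (yA (str ω.1) (Bs ω.1 s) (Ya ω)) x z α
    gI_act := gI_act b
    Gs_le := fun s => (meas_Zs b s).comap_le
    Gs_mono := fun s t h => by
      have hg : Measurable fun (z : I d → unitInterval × unitInterval) (j : I d) =>
          if (j.2 : ℝ) + (z j).1 < s then z j else (1, 0) :=
        measurable_pi_lambda _ fun j => Measurable.ite (measurableSet_lt (by fun_prop)
          measurable_const) (measurable_pi_apply j) measurable_const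
      refine Measurable.comap_le (m₁ := Gs θ t) ?_
      refine Eq.mpr (congrArg _ ?_) (hg.comp (comap_measurable (Zs θ t)))
      funext ω j
      by_cases h1 : tim ω.1 j < t
      · simp only [Function.comp, Zs, if_pos h1]; rfl
      · simp [Zs, h1, show ¬ tim ω.1 j < s from fun h2 => h1 (h2.trans_le h)]
    meas_CE := fun s f => ⟨(meas_CE s f).mono (meas_Zs b s).comap_le le_rfl, meas_CE s f⟩
    CE_sh := fun s x f hf ⟨C, hC⟩ => b.P.comp (PP μ) (Zs θ s) (sh x) (sh x⁻¹)
      (fun z j => z (exI (lm x) j)) (fun z j => z (exI (lm x⁻¹) j)) f (meas_Zs b s) (b.I.mp _)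
      (b.I.mp _) (fun ω => by rw [b.I.sh_sh, inv_mul_cancel, b.I.sh_one])
      (fun ω => by rw [b.I.sh_sh, mul_inv_cancel, b.I.sh_one]) (by fun_prop) (by fun_prop)
      (Zs_act b s _) (Zs_act b s _) (Integrable.of_bound hf.aestronglyMeasurable C hC)
    factor := fun s f hf h1 => by
      obtain ⟨h, hh, rfl⟩ := hf.exists_eq_measurable_comp
      refine ⟨fun p => clip (h (Zf θ s p)), meas_clip.comp (hh.comp (meas_Zf b s)),
        fun _ => P161.clip_abs _, fun ω => ?_⟩
      rw [← P161.clip_eq (h1 ω), Function.comp]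
      congr 2
      funext j
      rw [Zs, Zf]
      split_ifs with hj
      · simp only [gI, inn, mA]
        rw [b.F.HA_mask _ (Bs ω.1 _) (Bs ω.1 s) _ fun l (hl : _ < _) => hl.trans hj,
          Set.indicator_of_mem (show j ∈ Bs ω.1 s from hj)]
      · rfl
    upd := fun s i τ ω r r' h h' => by
      refine ⟨congrArg (HI θ) (upd_y τ ω h h'), funext fun j => ?_⟩
      by_cases hj : j = i
      · subst hj
        simp [Zs, tim, h.not_gt, h'.not_gt]
      · have e : ∀ r, tim (Function.update τ i r) j = tim τ j := fun r => by simp [tim, hj]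
        simp only [Zs, e, gI, inn, mA, HA]
        split_ifs with h2
        · rw [upd_y τ ω (h2.le.trans h) (h2.le.trans h')]
          simp [str, Ya, Yq, hj]
        · rfl
    half := fun n ω => by
      refine congrArg (HI θ) (funext fun j => ?_)
      by_cases h : (ω.1 j : ℝ) < 1 / 2
      · have : j ∈ Bs ω.1 (n + 1) ↔ j ∈ Bs ω.1 (n + 1 / 2) := by
          refine ⟨fun h1 : (j.2 : ℝ) + _ < _ => ?_, fun h1 : (j.2 : ℝ) + _ < _ => ?_⟩
          · have : (j.2 : ℝ) < n + 1 := by linarith [(ω.1 j).2.1]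
            have : j.2 < n + 1 := by exact_mod_cast this
            have : (j.2 : ℝ) ≤ n := by exact_mod_cast Int.lt_add_one_iff.1 this
            show (j.2 : ℝ) + _ < _
            linarith
          · show (j.2 : ℝ) + _ < _
            linarith
        simp only [yA, Set.indicator_apply, this]
      · simp only [yA, str, if_neg h, zero_mul]
    mb_eq := fun s u => (b.P.between _ (PP μ) _ (-1) 1 (meas_Zs b s).comap_le (hm s u)
      (ae_of_all _ fun ω => abs_le.1 (abs_tanh_lt_one _).le)).mono fun ω h =>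
        P161.clip_eq (abs_le.2 h)
    meas_mb := fun s u => ⟨meas_clip.comp (meas_CE s _), fun _ => P161.clip_abs _⟩
    meas_At := fun s u => by
      have hL : ∀ p x, Measurable[Gs θ s] (Lt θ μ s x p) := fun p => by
        induction p with
        | nil => exact fun _ => measurable_const
        | cons a p ih => exact fun x => (meas_CE s _).add (ih _)
      refine ⟨(measurable_exp.comp (measurable_const.min ((meas_CE s _).add (hL _ _)))).const_mul _,
        fun ω => ?_⟩
      rw [At, abs_of_nonneg (mul_nonneg (pow_nonneg b.crit.h0.le _) (exp_pos _).le)]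
      exact mul_le_one₀ (pow_le_one₀ b.crit.h0.le b.crit.h1.le) (exp_pos _).le
        (exp_le_one_iff.2 (min_le_left _ _))
    As_le := fun s u ω => by
      rw [As, abs_of_pos (b.A.Acov_pos _ _ _)]
      exact (b.A.Acov_le _ _ _).trans ((b.A.Kp_le _ _ _).trans
        (pow_le_one₀ b.crit.h0.le b.crit.h1.le)) }

end Vale.Agent.P161E
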