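import Vale.Agent.P161E.Spec

namespace Vale.Agent.P161E

open MeasureTheory Filter Topology Finset Real
open Vale.Agent.P161 (spin obs)
open scoped Classical

namespace Fa

variable {d : ℕ} {θ : ℝ}

lemma lim0_eq {a : ℕ → ℝ} {l : ℝ} (h : Tendsto a atTop (𝓝 l)) : lim0 a = l := by
  rw [lim0, if_pos ⟨l, h⟩, h.limUnder_eq]

lemma lim0_spin (s : Bool) (a : ℕ → ℝ) : lim0 (fun R => spin s * a R) = spin s * lim0 a := by
  by_cases h : ∃ l, Tendsto a atTop (𝓝 l)
  · obtain ⟨l, h⟩ := h
    rw [lim0_eq h, lim0_eq (h.const_mul _)]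
  · rw [lim0, lim0, if_neg h, if_neg, mul_zero]
    rintro ⟨l, hl⟩
    refine h ⟨spin s * l, ?_⟩
    simpa [← mul_assoc] using hl.const_mul (spin s)

lemma lim0_le {a : ℕ → ℝ} {C : ℝ} (h : ∀ n, |a n| ≤ C) : |lim0 a| ≤ C := by
  by_cases h' : ∃ l, Tendsto a atTop (𝓝 l)
  · obtain ⟨l, h'⟩ := h'
    rw [lim0_eq h']
    exact le_of_tendsto' h'.abs h
  · rw [lim0, if_neg h', abs_zero]
    exact (abs_nonneg _).trans (h 0)

lemma meas_lim0 {Ω : Type} [MeasurableSpace Ω] {f : ℕ → Ω → ℝ} (hf : ∀ n, Measurable (f n)) :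
    Measurable fun ω => lim0 fun n => f n ω :=
  Measurable.ite (StronglyMeasurable.measurableSet_exists_tendsto fun n => (hf n).stronglyMeasurable)
    (StronglyMeasurable.limUnder fun n => (hf n).stronglyMeasurable).measurable measurable_const

lemma artanh_spin (s : Bool) (x : ℝ) : artanh (spin s * x) = spin s * artanh x := by
  cases s
  · simp only [spin, Bool.false_eq_true, if_false, neg_mul, one_mul]
    rw [artanh, artanh, ← log_inv, ← sqrt_inv, inv_div, sub_neg_eq_add, ← sub_eq_add_neg]
  · simp [spin]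

lemma meas_artanh : Measurable artanh := by unfold artanh; fun_prop

lemma meas_tanh : Measurable tanh := by
  have : tanh = fun x => sinh x / cosh x := funext tanh_eq_sinh_div_cosh
  rw [this]; fun_prop

lemma meas_bR (R : ℕ) (z : W d) : Measurable fun y : I d → ℝ => bR y R z :=
  Finset.measurable_sum _ fun _ _ => meas_artanh.comp ((measurable_pi_apply _).div_const _)

lemma meas_hR (hA : StmtA d θ) (R : ℕ) (z : W d) (α : Option (Fin d)) :
    Measurable fun y : I d → ℝ => hR θ y R z α := by
  induction R generalizing z α with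
  | zero => exact measurable_const
  | succ R ih =>
    exact (meas_bR R z).add (Finset.measurable_sum _ fun _ _ => hA.Gf_cont.measurable.comp (ih _ _))

lemma bR_spin (s : Bool) (y : I d → ℝ) (R : ℕ) (z : W d) :
    bR (fun j => spin s * y j) R z = spin s * bR y R z := by
  simp only [bR, mul_sum, mul_div_assoc, artanh_spin]

lemma hR_spin (hA : StmtA d θ) (s : Bool) (y : I d → ℝ) (R : ℕ) (z : W d) (α : Option (Fin d)) :
    hR θ (fun j => spin s * y j) R z α = spin s * hR θ y R z α := by
  have hG : ∀ h, Gf θ (spin s * h) = spin s * Gf θ h := fun h => by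
    cases s <;> simp [spin, hA.Gf_neg]
  induction R generalizing z α with
  | zero => simp [hR]
  | succ R ih => simp only [hR, ih, hG, bR_spin, mul_add, mul_sum]

lemma hR_dep {y y' : I d → ℝ} (R : ℕ) (z : W d) (α : Option (Fin d))
    (h : ∀ j ∈ Vis R z α, y j = y' j) : hR θ y R z α = hR θ y' R z α := by
  induction R generalizing z α with
  | zero => rfl
  | succ R ih =>
    rw [hR, hR, bR, bR]
    congr 1
    · exact sum_congr rfl fun n hn => by rw [h (z, n) (Or.inl ⟨rfl, hn⟩)]
    · exact sum_congr rfl fun c hc => by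
        rw [ih (step z c) (some c) fun j hj => h j (Or.inr (Set.mem_biUnion hc hj))]

lemma vis_mono (z : W d) (α : Option (Fin d)) : Monotone fun R => Vis R z α := by
  refine monotone_nat_of_le_succ fun R => ?_
  induction R generalizing z α with
  | zero => exact Set.empty_subset _
  | succ R ih =>
    refine Set.union_subset_union (fun j hj => ⟨hj.1, ?_⟩) (Set.iUnion₂_mono fun c _ => ih _ _)
    have := hj.2
    simp only [mem_Icc] at this ⊢
    push_cast
    omega

lemma vis_reach {R : ℕ} {z : W d} {α : Option (Fin d)} {j : I d} (h : j ∈ Vis R z α) :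
    Reach z α j.1 := by
  induction R generalizing z α with
  | zero => exact h.elim
  | succ R ih =>
    rcases h with h | h
    · rw [h.1]; exact Reach.refl _ _
    · obtain ⟨c, hc, h⟩ := Set.mem_iUnion₂.1 h
      exact Reach.step (mem_dirs.1 hc) (ih h)

lemma reach_vis {z u : W d} {α : Option (Fin d)} (h : Reach z α u) (n : ℤ) :
    ∃ R, (u, n) ∈ Vis R z α := by
  induction h with
  | refl z α => exact ⟨n.natAbs + 1, Or.inl ⟨rfl, by simp only [mem_Icc]; omega⟩⟩
  | step hc _ ih =>
    obtain ⟨R, h⟩ := ih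
    exact ⟨R + 1, Or.inr (Set.mem_biUnion (mem_coe.2 (mem_dirs.2 hc)) h)⟩

lemma summ (hC : StmtC) {β : ℝ} {y : I d → ℝ} (h : AdmY β y) (z : W d) :
    Summable fun n => artanh (y (z, n) / 2) :=
  Summable.of_norm_bounded (summable_of_sum_le (fun _ => abs_nonneg _) (h.2 z))
    fun _ => hC.artanh_le _ (h.1 _)

lemma tend_bR (hC : StmtC) {β : ℝ} {y : I d → ℝ} (h : AdmY β y) (z : W d) :
    Tendsto (fun R => bR y R z) atTop (𝓝 (∑' n, artanh (y (z, n) / 2))) :=
  Tendsto.comp (g := fun S : Finset ℤ => ∑ n ∈ S, artanh (y (z, n) / 2)) (summ hC h z).hasSum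
    (tendsto_Icc_neg (R := ℤ))

lemma bI_eq (hC : StmtC) {β : ℝ} {y : I d → ℝ} (h : AdmY β y) (z : W d) :
    bI y z = ∑' n, artanh (y (z, n) / 2) := lim0_eq (tend_bR hC h z)

lemma bR_le (hC : StmtC) {β : ℝ} {y : I d → ℝ} (h : AdmY β y) (R : ℕ) (z : W d) :
    |bR y R z| ≤ β :=
  (abs_sum_le_sum_abs _ _).trans ((sum_le_sum fun _ _ => hC.artanh_le _ (h.1 _)).trans (h.2 z _))

lemma hR_le (hA : StmtA d θ) (hC : StmtC) {β : ℝ} {y : I d → ℝ} (h : AdmY β y) (R : ℕ) (z : W d)
    (α : Option (Fin d)) : |hR θ y R z α| ≤ β + d * artanh θ := by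
  have a0 : 0 ≤ artanh θ := (abs_nonneg _).trans (hA.Gf_le' 0)
  cases R with
  | zero =>
    have := h.2 z ∅
    rw [hR, abs_zero]; rw [sum_empty] at this; positivity
  | succ R =>
    refine (abs_add_le _ _).trans (add_le_add (bR_le hC h R z) ((abs_sum_le_sum_abs _ _).trans
      ((sum_le_card_nsmul _ _ _ fun _ _ => hA.Gf_le' _).trans ?_)))
    rw [nsmul_eq_mul]
    gcongr
    simpa using card_le_univ (dirs α)

lemma tendsto_HI {y : I d → ℝ} (h : Conv θ y) (z : W d) (α : Option (Fin d)) :
    Tendsto (fun R => hR θ y R z α) atTop (𝓝 (HI θ y z α)) := by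
  obtain ⟨l, hl⟩ := h z α
  rwa [HI, lim0_eq hl]

lemma hR_zero (hA : StmtA d θ) (R : ℕ) (z : W d) (α : Option (Fin d)) :
    hR θ (fun _ => 0) R z α = 0 := by
  have : Gf θ 0 = 0 := by simpa using hA.Gf_le 0
  induction R generalizing z α with
  | zero => rfl
  | succ R ih => simp [hR, bR, ih, this]

lemma ex_dir (γ : T d ≃g T d) (z : W d) (a : Fin d) : ∃ b, step (γ z) b = γ (step z a) :=
  γ.map_adj_iff.2 ⟨a, rfl⟩

noncomputable def dir (γ : T d ≃g T d) (z : W d) (a : Fin d) : Fin d := (ex_dir γ z a).choose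

lemma dir_spec (γ : T d ≃g T d) (z : W d) (a : Fin d) : step (γ z) (dir γ z a) = γ (step z a) :=
  (ex_dir γ z a).choose_spec

lemma dir_inj (γ : T d ≃g T d) (z : W d) : Function.Injective (dir γ z) := fun a b h =>
  step_injective z (γ.injective (by rw [← dir_spec, h, dir_spec]))

lemma dir_step (γ : T d ≃g T d) (z : W d) (a : Fin d) : dir γ (step z a) a = dir γ z a :=
  step_injective (γ (step z a)) (by rw [dir_spec, step_step, ← dir_spec, step_step])

lemma hR_aut (y : I d → ℝ) (γ : T d ≃g T d) (R : ℕ) (z : W d) (α : Option (Fin d)) :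
    hR θ (fun j => y (exI γ j)) R z α = hR θ y R (γ z) (α.map (dir γ z)) := by
  induction R generalizing z α with
  | zero => rfl
  | succ R ih =>
    rw [hR, hR]
    congr 1
    refine sum_bijective (dir γ z) (Finite.injective_iff_bijective.1 (dir_inj γ z)) (fun c => ?_)
      fun c _ => by rw [ih, dir_spec, Option.map_some, dir_step]
    cases α <;> simp [(dir_inj γ z).eq_iff]

lemma hR_lm (y : I d → ℝ) (x : W d) (R : ℕ) (z : W d) (α : Option (Fin d)) :
    hR θ (fun j => y (exI (lm x) j)) R z α = hR θ y R (x * z) α := by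
  induction R generalizing z α with
  | zero => rfl
  | succ R ih => simp only [hR, ih, mul_step]; rfl

lemma yA_le {β : ℝ} {e : I d → ℝ} {B : Set (I d)} {a : I d → ℝ} (h : Bnd β e B)
    (ha : ∀ j, |a j| ≤ 1) (j : I d) : |yA e B a j| ≤ B.indicator e j := by
  by_cases hj : j ∈ B
  · rw [yA, Set.indicator_of_mem hj, Set.indicator_of_mem hj, abs_mul, abs_of_nonneg (h.1 j).1]
    exact mul_le_of_le_one_right (h.1 j).1 (ha j)
  · simp [yA, hj]

lemma meas_HA (hA : StmtA d θ) (e : I d → ℝ) (B : Set (I d)) (z : W d) (α : Option (Fin d)) :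
    Measurable fun a => HA θ e B a z α := by
  refine (meas_lim0 fun R => meas_hR hA R z α).comp (measurable_pi_lambda _ fun j => ?_)
  by_cases hj : j ∈ B <;> simp only [yA, hj, Set.indicator_of_mem, Set.indicator_of_notMem,
    not_false_eq_true] <;> fun_prop

end Fa

open Fa in
theorem stmtF {d : ℕ} {θ : ℝ} (hA : StmtA d θ) (hC : StmtC) : StmtF d θ where
  meas_hR := meas_hR hA
  meas_HI z α := meas_lim0 fun R => meas_hR hA R z α
  meas_bI z := meas_lim0 fun R => meas_bR R z
  hR_spin := hR_spin hA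
  HI_spin s y z α := by simp only [HI, hR_spin hA, lim0_spin]
  bI_spin s y z := by simp only [bI, bR_spin, lim0_spin]
  hR_dep _ _ := hR_dep
  vis_mono := vis_mono
  vis_union z α := Set.ext fun j => ⟨fun h => by
    obtain ⟨R, h⟩ := Set.mem_iUnion.1 h
    exact vis_reach h, fun h => Set.mem_iUnion.2 (reach_vis h j.2)⟩
  HI_dep y y' z α h := congrArg lim0 (funext fun R => hR_dep R z α fun j hj => h j (vis_reach hj))
  bI_dep y y' z h := by simp only [bI, bR, h]
  HI_single y β z α hy h := by
    rw [bI_eq hC hy]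
    refine lim0_eq ((tendsto_add_atTop_iff_nat 1).1 ((tend_bR hC hy z).congr fun R => ?_))
    have : Gf θ 0 = 0 := by simpa using hA.Gf_le 0
    rw [hR, sum_eq_zero, add_zero]
    intro c _
    rw [hR_dep (y' := fun _ => 0) R _ _ fun j hj => h j fun e =>
      reach_step.1 (e ▸ vis_reach hj) (Reach.refl _ _), hR_zero hA, this]
  hR_le _ _ := hR_le hA hC
  HI_le _ _ h z α := lim0_le fun R => hR_le hA hC h R z α
  bI_le _ _ h z := lim0_le fun R => bR_le hC h R z
  tendsto_HI _ := tendsto_HI
  recur β y hy hc z α := by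
    rw [bI_eq hC hy]
    exact tendsto_nhds_unique ((tendsto_add_atTop_iff_nat 1).2 (tendsto_HI hc z α))
      ((tend_bR hC hy z).add (tendsto_finsetSum _ fun c _ =>
        (hA.Gf_cont.tendsto _).comp (tendsto_HI hc _ _)))
  bI_add β y y' i hy' hi h z := by
    have hle : ∀ j, |y j| ≤ |y' j| := fun j => by
      by_cases hj : j = i
      · rw [hj, hi, abs_zero]; exact abs_nonneg _
      · rw [h j hj]
    have hy : AdmY β y := ⟨fun j => (hle j).trans (hy'.1 j),
      fun z S => (sum_le_sum fun _ _ => hle _).trans (hy'.2 z S)⟩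
    rw [bI_eq hC hy, bI_eq hC hy', ← tsum_ite_eq i.2 (fun _ =>
      if z = i.1 then artanh (y' i / 2) else 0), ← (summ hC hy z).tsum_add
        (hasSum_ite_eq _ _).summable]
    refine tsum_congr fun n => ?_
    by_cases hj : (z, n) = i
    · subst hj; simp [hi]
    · rw [h _ hj]
      split_ifs with a1 a2
      · exact (hj (Prod.ext a2 a1)).elim
      all_goals rw [add_zero]
  hR_lm := hR_lm
  HI_lm y x z α := by simp only [HI, hR_lm]
  HI_aut y γ z := by simp only [HI, hR_aut, Option.map_none]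
  bI_aut _ _ _ := rfl
  Yq_le e ω j := by rw [Yq, abs_mul, P161.spin_abs, one_mul]; exact P161.obs_abs _ _
  meas_Yq e := measurable_pi_lambda _ fun j =>
    ((Measurable.of_discrete (f := spin)).comp ((measurable_pi_apply _).comp measurable_fst)).mul
      (P161.measurable_obs.comp (f := fun ω : O0 d => (e j, ω.2 j)) (measurable_const.prodMk
        ((measurable_pi_apply j).comp measurable_snd)))
  adm β e B a h ha := ⟨fun j => (yA_le h ha j).trans (Set.indicator_le' (fun j _ => (h.1 j).2)
    (fun _ _ => zero_le_one) j), fun z S => (sum_le_sum fun _ _ => yA_le h ha _).trans (h.2 z S)⟩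
  bnd_mono β e B B' h hB := ⟨h.1, fun z S => le_trans (sum_le_sum fun n _ =>
    Set.indicator_le_indicator_of_subset hB (fun j => (h.1 j).1) (z, n)) (h.2 z S)⟩
  HA_mask e B B' a h := by
    rw [HA, HA]
    congr 1
    funext j
    by_cases hj : j ∈ B <;> simp [yA, hj, Set.indicator_of_mem (h _)]
  meas_HA := meas_HA hA
  meas_Acov H hH := by
    have hK : ∀ p x, Measurable fun ω => Kp θ (H ω) x p := fun p => by
      induction p with
      | nil => exact fun _ => measurable_const
      | cons a p ih => exact fun x => ((hA.kap_cont.measurable.comp (hH _ _)).const_mul θ).mul (ih _)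
    refine ⟨fun x p => hK p x, fun x p =>
      (((meas_tanh.comp (hH _ _)).pow_const 2).const_sub 1).mul (hK p x), fun r K => ?_⟩
    induction K with
    | zero => exact fun _ _ => measurable_const
    | succ K ih =>
      exact fun x α => (Finset.measurable_sum _ fun c _ => (((hA.kap_cont.measurable.comp
        (hH _ _)).pow_const 2).mul (ih _ _)).const_mul _).const_add 1
  meas_inn e B j := hC.meas_cdf.comp (((meas_tanh.comp (meas_HA hA e B _ _)).const_mul _).prodMk
    (measurable_pi_apply j))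

end Vale.Agent.P161E
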