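import Vale.Agent.P161E.Spec

namespace Vale.Agent.P161E

open MeasureTheory ProbabilityTheory Filter Topology Finset Real
open Vale.Agent.P161 (spin obs gain clip coin ibdd IsFactorOfIID)
open scoped Classical

namespace FF

variable {d : ℕ} {θ : ℝ} {μ : Measure (W d → Bool)}

noncomputable def Zf (θ : ℝ) (ω : Om d) : Nz d × Nz d := (ω.1, gI θ ω)

def Af (γ : T d ≃g T d) (z : Nz d × Nz d) : Nz d × Nz d :=
  (fun j => z.1 (exI γ j), fun j => z.2 (exI γ j))

lemma meas_Af (γ : T d ≃g T d) : Measurable (Af γ) := by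
  unfold Af
  fun_prop

lemma meas_Zf (hE : StmtE d θ μ) : Measurable (Zf θ : Om d → _) := measurable_fst.prodMk hE.meas_gI

lemma map_Zf (b : Base d θ μ) (hJ : StmtJ d θ μ) (hE : StmtE d θ μ) :
    (PP μ).map (Zf θ) = (PU d).prod (PU d) := by
  haveI := b.crit.hμ.1
  ext s hs
  rw [Measure.map_apply (meas_Zf hE) hs, PP, Measure.prod_apply (meas_Zf hE hs),
    Measure.prod_apply hs]
  refine lintegral_congr_ae ?_
  filter_upwards [b.I.inj] with τ hτ
  have h1 := hJ.law (str τ) (tim τ) hτ fun j =>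
    ⟨_, hE.bnd j.2 (tim τ j) τ (by unfold tim; linarith [(τ j).2.2])⟩
  have m : Measurable fun ω : O0 d => gI θ (τ, ω) := hE.meas_gI.comp measurable_prodMk_left
  rw [← h1]
  exact (Measure.map_apply m (measurable_prodMk_left hs)).symm

lemma Gs_le_Z (hE : StmtE d θ μ) (s : ℝ) :
    Gs θ s ≤ MeasurableSpace.comap (Zf θ : Om d → _) inferInstance := by
  have m : Measurable fun (z : Nz d × Nz d) (j : I d) =>
      if tim z.1 j < s then (z.1 j, z.2 j) else ((1 : unitInterval), (0 : unitInterval)) :=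
    measurable_pi_lambda _ fun j => Measurable.ite
      (measurableSet_lt ((hE.meas_tim j).comp measurable_fst) measurable_const) (by fun_prop)
      measurable_const
  exact (m.comp (comap_measurable (Zf θ))).comap_le

lemma exists_psi (b : Base d θ μ) (hE : StmtE d θ μ) (hInfo : StmtInfo d θ μ)
    (h : ∀ n : ℕ, del θ μ n = 0) : ∃ Ψ : Nz d × Nz d → Bool, Measurable Ψ ∧
      ∀ᵐ ω ∂PP μ, ω.2.1 1 = Ψ (Zf θ ω) := by
  haveI := b.crit.hμ.1
  have hm : MeasurableSpace.comap (Zf θ : Om d → _) inferInstance ≤ _ := (meas_Zf hE).comap_le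
  have mf : Measurable fun ω : Om d => spin (ω.2.1 1) :=
    (Measurable.of_discrete (f := spin)).comp ((measurable_pi_apply _).comp measurable_snd.fst)
  set g := (PP μ)[fun ω : Om d => spin (ω.2.1 1) |
    MeasurableSpace.comap (Zf θ : Om d → _) inferInstance] with hg
  have gs : StronglyMeasurable[MeasurableSpace.comap (Zf θ : Om d → _) inferInstance] g :=
    stronglyMeasurable_condExp
  have gm : Measurable g := (gs.mono hm).measurable
  have sq0 : ∀ {u v : Om d → ℝ}, Measurable u → Measurable v → (∀ᵐ ω ∂PP μ, |u ω| ≤ 1) →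
      (∀ᵐ ω ∂PP μ, |v ω| ≤ 1) → ∫ ω, (u ω - v ω) ^ 2 ∂PP μ = 0 → u =ᵐ[PP μ] v := by
    intro u v hu hv h1 h2 h3
    have hi : Integrable (fun ω => (u ω - v ω) ^ 2) (PP μ) := by
      refine Integrable.of_bound ((hu.sub hv).pow_const 2).aestronglyMeasurable (2 ^ 2) ?_
      filter_upwards [h1, h2] with ω a1 a2
      rw [norm_pow]
      exact pow_le_pow_left₀ (norm_nonneg _) ((abs_sub _ _).trans (by linarith)) 2
    filter_upwards [(integral_eq_zero_iff_of_nonneg (fun ω => sq_nonneg _) hi).1 h3] with ω hω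
    exact sub_eq_zero.1 (pow_eq_zero_iff two_ne_zero |>.1 hω)
  have k : ∀ n : ℕ, ∫ ω, (spin (ω.2.1 1) - g ω) ^ 2 ∂PP μ ≤
      ∫ ω, (spin (ω.2.1 1) - ms θ n 1 ω) ^ 2 ∂PP μ := by
    intro n
    have e1 := hE.mb_eq n 1
    have e2 : ms θ n 1 =ᵐ[PP μ] CE θ μ n (ms θ n 1) :=
      sq0 (hE.meas_ms (fun _ => n) measurable_const 1) (hE.meas_CE _ _).1
        (ae_of_all _ fun ω => (abs_tanh_lt_one _).le)
        (e1.mono fun ω hω => hω ▸ (hE.meas_mb n 1).2 ω) (h n)
    refine (b.P.proj _ (PP μ) _ (mb θ μ n 1) 1 hm mf (ae_of_all _ fun ω => (P161.spin_abs _).le)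
      ((hE.meas_mb n 1).1.mono (Gs_le_Z hE n) le_rfl)
      (ae_of_all _ (hE.meas_mb n 1).2)).trans (le_of_eq (integral_congr_ae ?_))
    filter_upwards [e1, e2] with ω a1 a2
    rw [a1, a2]
  have k0 : ∫ ω, (spin (ω.2.1 1) - g ω) ^ 2 ∂PP μ = 0 :=
    le_antisymm (ge_of_tendsto' hInfo k) (integral_nonneg fun _ => sq_nonneg _)
  have gb : ∀ᵐ ω ∂PP μ, |g ω| ≤ 1 := (b.P.between _ (PP μ) _ (-1) 1 hm mf
    (ae_of_all _ fun ω => abs_le.1 (P161.spin_abs _).le)).mono fun ω hω => abs_le.2 hω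
  obtain ⟨G, hG, e⟩ := gs.measurable.exists_eq_measurable_comp
  refine ⟨fun z => decide (0 < G z), measurable_to_bool ?_, ?_⟩
  · have : (fun z => decide (0 < G z)) ⁻¹' {true} = {z | 0 < G z} := by ext; simp
    rw [this]
    exact measurableSet_lt measurable_const hG
  · filter_upwards [sq0 mf gm (ae_of_all _ fun ω => (P161.spin_abs _).le) gb k0] with ω hω
    have : G (Zf θ ω) = spin (ω.2.1 1) := by rw [hω, e]; rfl
    rw [this]
    cases ω.2.1 1 <;> simp [spin]

def kk (j : I d) : W d × ℕ := (j.1, Encodable.encode j.2)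

noncomputable def pr (U : W d → unitInterval) : Nz d × Nz d :=
  (fun j => (P161.pair U).1 (kk j), fun j => (P161.pair U).2 (kk j))

lemma mp_pr : MeasurePreserving (pr : (W d → unitInterval) → _)
    (Measure.infinitePi fun _ : W d => (volume : Measure unitInterval)) ((PU d).prod (PU d)) := by
  have hk : Function.Injective (kk : I d → _) := fun a c e =>
    Prod.ext (congrArg Prod.fst e :) (Encodable.encode_injective (congrArg Prod.snd e :))
  have h1 : MeasurePreserving (fun (w : W d × ℕ → unitInterval) (j : I d) => w (kk j))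
      (P161.PN (W d)) (PU d) := ⟨by fun_prop, Measure.map_infinitePi_infinitePi_of_inj hk⟩
  exact (h1.prod h1).comp ⟨P161.measurable_pair, P161.map_pair⟩

end FF

open FF in
theorem stmtFin {d : ℕ} {θ : ℝ} {μ : Measure (W d → Bool)} (b : Base d θ μ) (hJ : StmtJ d θ μ)
    (hE : StmtE d θ μ) (hInfo : StmtInfo d θ μ) : StmtFin d θ μ := by
  intro h
  haveI := b.crit.hμ.1
  obtain ⟨Ψ, hΨ, h1⟩ := exists_psi b hE hInfo h
  have h2 : ∀ γ : T d ≃g T d, ∀ᵐ ω ∂PP μ, ω.2.1 (γ 1) = Ψ (Af γ (Zf θ ω)) := fun γ => by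
    filter_upwards [(b.I.mp γ).quasiMeasurePreserving.ae h1] with ω hω
    have : Zf θ (act γ ω) = Af γ (Zf θ ω) := Prod.ext rfl (funext fun j => hE.gI_act γ ω j)
    rw [← this]
    exact hω
  have m0 : Measurable fun (z : Nz d × Nz d) v => Ψ (Af (lm v) z) :=
    measurable_pi_lambda _ fun v => hΨ.comp (meas_Af _)
  have mZ := meas_Zf hE
  refine ⟨fun U v => Ψ (Af (lm v) (pr U)), m0.comp mp_pr.measurable, ?_, fun g => ?_⟩
  · have e := Measure.map_map
      (μ := Measure.infinitePi fun _ : W d => (volume : Measure unitInterval)) m0 mp_pr.measurable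
    rw [mp_pr.map_eq, ← map_Zf b hJ hE, Measure.map_map m0 mZ] at e
    refine e.symm.trans ?_
    have e2 : (fun (z : Nz d × Nz d) v => Ψ (Af (lm v) z)) ∘ Zf θ =ᵐ[PP μ] fun ω => ω.2.1 := by
      filter_upwards [ae_all_iff.2 fun v => h2 (lm v)] with ω hω
      funext v
      have := hω v
      rw [lm_apply, mul_one] at this
      exact this.symm
    rw [Measure.map_congr e2]
    exact (measurePreserving_fst.comp measurePreserving_snd).map_eq
  · have h3 : ∀ᵐ z ∂(PU d).prod (PU d), ∀ v,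
        Ψ (Af ((lm v).trans g.symm) z) = Ψ (Af (lm (g.symm v)) z) := by
      refine ae_all_iff.2 fun v => ?_
      rw [← map_Zf b hJ hE]
      refine (ae_map_iff mZ.aemeasurable
        (measurableSet_eq_fun (hΨ.comp (meas_Af _)) (hΨ.comp (meas_Af _)))).2 ?_
      filter_upwards [h2 ((lm v).trans g.symm), h2 (lm (g.symm v))] with ω a1 a2
      simp only [Function.comp_def]
      rw [← a1, ← a2]
      simp
    filter_upwards [mp_pr.quasiMeasurePreserving.ae h3] with U hU
    funext v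
    exact hU v

end Vale.Agent.P161E
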