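import Vale.Agent.P161E.Spec

/-!
Module G: the Osgood-Gronwall argument.
-/

namespace Vale.Agent.P161E

open Filter Topology Finset Real

namespace Gm

theorem gronwall {δ : ℝ → ℝ} {L s t p : ℝ} {E : ℝ → ℝ → ℝ} (hδ : ∀ s, 0 ≤ δ s) (hL : 0 ≤ L)
    (hE : ∀ s t, 0 ≤ E s t) (hst : s ≤ t) (hp : 0 ≤ p)
    (h : ∀ u v, s ≤ u → u ≤ v → v ≤ t → δ v ≤ δ u + (v - u) * L * (p * δ u + exp (-p)) + E u v)
    (hlim : Tendsto (fun N : ℕ => ∑ j ∈ range (2 ^ N),
      E (s + j * ((t - s) / 2 ^ N)) (s + (j + 1) * ((t - s) / 2 ^ N))) atTop (𝓝 0)) :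
    δ t ≤ exp ((t - s) * L * p) * (δ s + (t - s) * L * exp (-p)) := by
  have key : ∀ N : ℕ, δ t ≤ exp ((t - s) * L * p) * (δ s + (t - s) * L * exp (-p) +
      ∑ j ∈ range (2 ^ N), E (s + j * ((t - s) / 2 ^ N)) (s + (j + 1) * ((t - s) / 2 ^ N))) := by
    intro N
    set a : ℝ := (t - s) / 2 ^ N with ha
    have ha0 : 0 ≤ a := div_nonneg (by linarith) (by positivity)
    have ha1 : ((2 ^ N : ℕ) : ℝ) * a = t - s := by
      rw [ha]
      push_cast
      field_simp
    have ind : ∀ j : ℕ, j ≤ 2 ^ N → δ (s + j * a) ≤ exp (j * a * L * p) *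
        (δ s + j * a * L * exp (-p) + ∑ i ∈ range j, E (s + i * a) (s + (i + 1) * a)) := by
      intro j
      induction j with
      | zero => intro _; simp
      | succ j ih =>
        intro hj
        have ih' := ih (by omega)
        have hj' : ((j + 1 : ℕ) : ℝ) ≤ ((2 ^ N : ℕ) : ℝ) := by exact_mod_cast hj
        have hj0 : (0 : ℝ) ≤ j := Nat.cast_nonneg j
        have h1 := h (s + j * a) (s + (j + 1) * a) (by nlinarith) (by nlinarith) (by
          have := mul_le_mul_of_nonneg_right hj' ha0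
          push_cast at this ha1 ⊢
          linarith)
        have e1 : s + (j + 1) * a - (s + j * a) = a := by ring
        rw [e1] at h1
        have h2 : 1 + a * L * p ≤ exp (a * L * p) := by
          have := add_one_le_exp (a * L * p)
          linarith
        have h3 : 1 ≤ exp ((j + 1) * a * L * p) := one_le_exp (by positivity)
        have h4 : exp ((j + 1) * a * L * p) = exp (a * L * p) * exp (j * a * L * p) := by
          rw [← exp_add]
          congr 1
          ring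
        have h5 : 0 ≤ a * L * exp (-p) + E (s + j * a) (s + (j + 1) * a) :=
          add_nonneg (by positivity) (hE _ _)
        have h6 : (1 + a * L * p) * δ (s + j * a) ≤ exp (a * L * p) * (exp (j * a * L * p) *
            (δ s + j * a * L * exp (-p) + ∑ i ∈ range j, E (s + i * a) (s + (i + 1) * a))) :=
          mul_le_mul h2 ih' (hδ _) (exp_pos _).le
        rw [← mul_assoc, ← h4] at h6
        have h7 := mul_le_mul_of_nonneg_right h3 h5
        rw [sum_range_succ]
        push_cast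
        nlinarith
    have := ind (2 ^ N) le_rfl
    rw [ha1] at this
    simpa using this
  have h2 : Tendsto (fun N : ℕ => exp ((t - s) * L * p) * (δ s + (t - s) * L * exp (-p) +
      ∑ j ∈ range (2 ^ N), E (s + j * ((t - s) / 2 ^ N)) (s + (j + 1) * ((t - s) / 2 ^ N))))
      atTop (𝓝 (exp ((t - s) * L * p) * (δ s + (t - s) * L * exp (-p) + 0))) :=
    (tendsto_const_nhds.add hlim).const_mul _
  rw [add_zero] at h2
  exact ge_of_tendsto' h2 key

theorem zero_of_exp {x c b : ℝ} (hx : 0 ≤ x) (hb : 0 < b)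
    (h : ∀ p : ℝ, 1 ≤ p → x ≤ c * exp (-(b * p))) : x = 0 := by
  have h1 : Tendsto (fun p : ℝ => c * exp (-(b * p))) atTop (𝓝 (c * 0)) :=
    (tendsto_exp_neg_atTop_nhds_zero.comp (tendsto_id.const_mul_atTop hb)).const_mul c
  rw [mul_zero] at h1
  exact le_antisymm (ge_of_tendsto h1 ((eventually_ge_atTop 1).mono h)) hx

end Gm

open Gm in
theorem stmtG : StmtG := by
  intro δ Λ E hδ hΛ hE hsum hstep hlim hhalf hzero
  have gr : ∀ (n : ℤ) (s t p : ℝ), n ≤ s → s ≤ t → t ≤ n + 1 / 2 → 1 ≤ p →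
      δ t ≤ exp ((t - s) * Λ n * p) * (δ s + (t - s) * Λ n * exp (-p)) :=
    fun n s t p h1 h2 h3 h4 => gronwall hδ (hΛ n) (hE n) h2 (by linarith)
      (fun u v a1 a2 a3 => hstep n u v p (h1.trans a1) a2 (a3.trans h3) h4) (hlim n s t h1 h2)
  have small : ∀ (n : ℤ) (s t : ℝ), n ≤ s → s ≤ t → t ≤ n + 1 / 2 → (t - s) * Λ n < 1 →
      δ s = 0 → δ t = 0 := by
    intro n s t h1 h2 h3 h4 h5
    refine zero_of_exp (c := (t - s) * Λ n) (b := 1 - (t - s) * Λ n) (hδ t) (by linarith)
      fun p hp => ?_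
    have := gr n s t p h1 h2 h3 hp
    rw [h5, zero_add, mul_left_comm, ← exp_add] at this
    refine this.trans (le_of_eq ?_)
    congr 2
    ring
  have up : ∀ n : ℤ, δ n = 0 → δ (n + 1) = 0 := by
    intro n hn
    obtain ⟨K, hK⟩ := exists_nat_gt (Λ n)
    have hK0 : (0 : ℝ) < K := (hΛ n).trans_lt hK
    have ind : ∀ j : ℕ, j ≤ K → δ (n + j * (1 / (2 * K))) = 0 := by
      intro j
      induction j with
      | zero => intro _; simpa using hn
      | succ j ih =>
        intro hj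
        have hj' : ((j + 1 : ℕ) : ℝ) ≤ K := by exact_mod_cast hj
        have hj0 : (0 : ℝ) ≤ j := Nat.cast_nonneg j
        have ha : (0 : ℝ) < 1 / (2 * K) := by positivity
        have ha1 : (K : ℝ) * (1 / (2 * K)) = 1 / 2 := by field_simp
        refine small n (n + j * (1 / (2 * K))) _ (by nlinarith) (by push_cast; nlinarith) ?_ ?_
          (ih (by omega))
        · have := mul_le_mul_of_nonneg_right hj' ha.le
          linarith
        · push_cast
          have e1 : (n : ℝ) + (j + 1) * (1 / (2 * K)) - (n + j * (1 / (2 * K))) = 1 / (2 * K) := by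
            ring
          rw [e1]
          nlinarith [mul_lt_mul_of_pos_right hK ha]
    have h1 := ind K le_rfl
    have ha1 : (K : ℝ) * (1 / (2 * K)) = 1 / 2 := by field_simp
    rw [ha1] at h1
    exact le_antisymm (h1 ▸ hhalf n) (hδ _)
  have tail : ∀ᶠ m : ℕ in atTop, ∑' i : ℕ, Λ (-((i + m : ℕ) : ℤ)) < 1 :=
    (tendsto_sum_nat_add fun m : ℕ => Λ (-(m : ℤ))).eventually (gt_mem_nhds one_pos)
  obtain ⟨m0, hm0⟩ := eventually_atTop.1 tail
  have low : ∀ m : ℕ, m0 ≤ m → δ (-(m : ℝ)) = 0 := by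
    intro m hm
    have hS : ∀ k : ℕ, ∑ i ∈ range k, Λ (-((i + (m + 1) : ℕ) : ℤ)) ≤ 1 := fun k =>
      (((summable_nat_add_iff (m + 1)).2 hsum).sum_le_tsum (range k) fun _ _ => hΛ _).trans
        (hm0 (m + 1) (by omega)).le
    refine zero_of_exp (c := 1 / 2) (b := 1 / 2) (hδ _) (by norm_num) fun p hp => ?_
    have ind : ∀ k : ℕ, δ (-(m : ℝ)) ≤
        exp ((∑ i ∈ range k, Λ (-((i + (m + 1) : ℕ) : ℤ))) / 2 * p) *
          (δ (-((k + m : ℕ) : ℝ)) + (∑ i ∈ range k, Λ (-((i + (m + 1) : ℕ) : ℤ))) / 2 *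
            exp (-p)) := by
      intro k
      induction k with
      | zero => simp
      | succ k ih =>
        have hS0 : 0 ≤ ∑ i ∈ range k, Λ (-((i + (m + 1) : ℕ) : ℤ)) :=
          sum_nonneg fun _ _ => hΛ _
        rw [sum_range_succ]
        set S := ∑ i ∈ range k, Λ (-((i + (m + 1) : ℕ) : ℤ))
        have h1 := hhalf (-((k + (m + 1) : ℕ) : ℤ))
        have h2 := gr (-((k + (m + 1) : ℕ) : ℤ)) ((-((k + (m + 1) : ℕ) : ℤ) : ℤ) : ℝ)
          (((-((k + (m + 1) : ℕ) : ℤ) : ℤ) : ℝ) + 1 / 2) p le_rfl (by linarith) le_rfl hp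
        have hL := hΛ (-((k + (m + 1) : ℕ) : ℤ))
        set L := Λ (-((k + (m + 1) : ℕ) : ℤ))
        have e1 : ((-((k + (m + 1) : ℕ) : ℤ) : ℤ) : ℝ) + 1 = -((k + m : ℕ) : ℝ) := by
          push_cast
          ring
        have e2 : ((-((k + (m + 1) : ℕ) : ℤ) : ℤ) : ℝ) = -((k + 1 + m : ℕ) : ℝ) := by
          push_cast
          ring
        rw [e1] at h1
        rw [add_sub_cancel_left] at h2
        have h3 := h1.trans h2
        rw [e2] at h3
        have h4 : exp ((S + L) / 2 * p) = exp (S / 2 * p) * exp (1 / 2 * L * p) := by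
          rw [← exp_add]
          congr 1
          ring
        have h5 : 1 ≤ exp (1 / 2 * L * p) := one_le_exp (by positivity)
        have h6 : 0 ≤ S / 2 * exp (-p) := by positivity
        have h7 := mul_le_mul_of_nonneg_right h5 h6
        refine ih.trans ?_
        rw [h4, mul_assoc (exp (S / 2 * p))]
        refine mul_le_mul_of_nonneg_left ?_ (exp_pos _).le
        nlinarith
    have bd : ∀ k : ℕ, δ (-(m : ℝ)) ≤
        exp (1 / 2 * p) * (δ (-((k + m : ℕ) : ℝ)) + 1 / 2 * exp (-p)) := fun k => by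
      have hS0 : 0 ≤ ∑ i ∈ range k, Λ (-((i + (m + 1) : ℕ) : ℤ)) := sum_nonneg fun _ _ => hΛ _
      have h1 := hS k
      have h2 := hδ (-((k + m : ℕ) : ℝ))
      refine (ind k).trans (mul_le_mul (exp_le_exp.2 (by nlinarith)) ?_ (by positivity)
        (exp_pos _).le)
      have := exp_pos (-p)
      nlinarith
    have h2 : Tendsto (fun k : ℕ => exp (1 / 2 * p) * (δ (-((k + m : ℕ) : ℝ)) + 1 / 2 * exp (-p)))
        atTop (𝓝 (exp (1 / 2 * p) * (0 + 1 / 2 * exp (-p)))) :=
      ((hzero.comp (tendsto_add_atTop_nat m)).add tendsto_const_nhds).const_mul _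
    refine (ge_of_tendsto' h2 bd).trans (le_of_eq ?_)
    rw [zero_add, mul_left_comm, ← exp_add]
    congr 2
    ring
  intro n
  obtain ⟨m, hm1, hm2⟩ : ∃ m : ℕ, m0 ≤ m ∧ -(m : ℤ) ≤ n :=
    ⟨m0 + n.natAbs, by omega, by omega⟩
  induction n, hm2 using Int.leInduction with
  | base => simpa using low m hm1
  | succ n _ ih => simpa using up n ih

end Vale.Agent.P161E
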