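import Vale.Agent.P161E.Spec

/-!
Module GB1: decay of correlations of local functions.
-/

namespace Vale.Agent.P161E

open MeasureTheory ProbabilityTheory Filter Topology Real
open Vale.Agent.P161

namespace GB1m

variable {d : ℕ} {θ : ℝ} {μ : Measure (W d → Bool)}

theorem drop_suffix (p : List (Fin d)) (x : W d) (k : ℕ) (h : p.length ≤ k) :
    x.1.drop k <:+ (walk x p).1 := by
  induction p generalizing x k with
  | nil => exact List.drop_suffix _ _
  | cons a p ih =>
    rw [walk_cons]
    rw [List.length_cons] at h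
    by_cases hx : x.1.head? = some a
    · obtain ⟨k, rfl⟩ : ∃ j, k = j + 1 := ⟨k - 1, by omega⟩
      have := ih (step x a) k (by omega)
      rwa [step_of_eq hx, List.drop_tail] at this
    · have := ih (step x a) (k + 1) (by omega)
      rwa [step_of_ne hx, List.drop_succ_cons] at this

theorem meas_spin : Measurable spin := measurable_from_top

theorem meas_sig (v : W d) : Measurable fun ω : Om d => ω.2.1 v :=
  (measurable_pi_apply v).comp measurable_snd.fst

theorem int_coin (h0 : 0 < θ) (h1 : θ < 1) : ∫ s, spin s ∂coin θ = θ := by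
  have := coin_prob h0.le h1
  rw [integral_fintype Integrable.of_finite, Fintype.sum_bool, Measure.real, Measure.real,
    coin_apply, coin_apply, ENNReal.toReal_ofReal (by simp [spin]; linarith),
    ENNReal.toReal_ofReal (by simp [spin]; linarith)]
  simp [spin]
  ring

theorem int_Xi (b : Base d θ μ) {y : W d} (hy : y ≠ 1) :
    ∫ ω, spin (Xi ω.2.1 y) ∂PP μ = θ := by
  have := b.crit.hμ.1
  have h1 : MeasurePreserving (fun ω : Om d => ω.2.1) (PP μ) μ :=
    (measurePreserving_fst (μ := μ) (ν := PU d)).comp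
      (measurePreserving_snd (μ := PU d) (ν := P0 μ))
  have h2 : Measurable fun σ : W d → Bool => Xi σ y := (measurable_pi_apply y).comp b.I.meas_Xi
  have h3 : MeasurePreserving (fun ω : Om d => Xi ω.2.1 y) (PP μ) (coin θ) :=
    (⟨h2, b.I.law_Xi y hy⟩ : MeasurePreserving (fun σ : W d → Bool => Xi σ y) μ (coin θ)).comp h1
  rw [← int_coin b.crit.h0 b.crit.h1, ← h3.map_eq,
    integral_map h3.measurable.aemeasurable meas_spin.aestronglyMeasurable]

theorem loc_dep (b : Base d θ μ) {R : ℕ} {f : Om d → ℝ} (hf : Loc R f) (y : W d)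
    (k : Bool → ℝ) : DepOn ({v | len v ≤ R} ∪ {v | v.1 <:+ y.1}) {j | len j.1 ≤ R}
      fun ω => f ω * k (ω.2.1 y) := by
  intro ω ω' h1 h2
  have e1 : f ω = f ω' := hf ω ω' (fun v hv => b.I.dep_spin _ _ v fun w hw =>
    h1 w (Or.inl (hw.length_le.trans hv))) h2
  have e2 : ω.2.1 y = ω'.2.1 y := b.I.dep_spin _ _ y fun w hw => h1 w (Or.inr hw)
  simp only [e1, e2]

theorem int_bd [IsProbabilityMeasure μ] {F : Om d → ℝ} {C : ℝ} (h : ∀ ω, |F ω| ≤ C) :
    |∫ ω, F ω ∂PP μ| ≤ C := by
  have := norm_integral_le_of_norm_le_const (μ := PP μ) (f := F) (C := C)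
    (Eventually.of_forall h)
  simpa using this

theorem spin_decay (b : Base d θ μ) {R : ℕ} {f : Om d → ℝ} (hm : Measurable f) {C : ℝ}
    (hC : ∀ ω, |f ω| ≤ C) (hf : Loc R f) (n : ℕ) (y : W d) (hy : len y = R + n) :
    |∫ ω, f ω * spin (ω.2.1 y) ∂PP μ| ≤ C * θ ^ n := by
  have := b.crit.hμ.1
  induction n generalizing y with
  | zero =>
    rw [pow_zero, mul_one]
    exact int_bd fun ω => by rw [abs_mul, spin_abs, mul_one]; exact hC ω
  | succ n ih =>
    have hy1 : y ≠ 1 := fun e => by
      rw [e, show len (1 : W d) = 0 from rfl] at hy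
      omega
    have hp : len (par y) = R + n := by
      have : len (par y) = len y - 1 := List.length_tail
      omega
    have m1 : Measurable fun ω : Om d => spin (Xi ω.2.1 y) :=
      meas_spin.comp (((measurable_pi_apply y).comp b.I.meas_Xi).comp measurable_snd.fst)
    have m2 : Measurable fun ω : Om d => f ω * spin (ω.2.1 (par y)) :=
      hm.mul (meas_spin.comp (meas_sig _))
    have hi : IndepFun (fun ω : Om d => spin (Xi ω.2.1 y))
        (fun ω : Om d => f ω * spin (ω.2.1 (par y))) (PP μ) := by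
      refine b.I.indep {y} _ ∅ _ _ _ ?_ (Set.empty_disjoint _) m1 m2
        (fun ω ω' h _ => by simp only [h y rfl]) (loc_dep b hf (par y) spin)
      rw [Set.disjoint_singleton_left]
      rintro (h | h)
      · have : len y ≤ R := h
        omega
      · have : len y ≤ len (par y) := h.length_le
        omega
    have e : ∀ ω : Om d, f ω * spin (ω.2.1 y) =
        spin (Xi ω.2.1 y) * (f ω * spin (ω.2.1 (par y))) := fun ω => by
      rw [b.I.spin_par _ y hy1]
      ring
    simp only [e]
    rw [hi.integral_fun_mul_eq_mul_integral m1.aestronglyMeasurable m2.aestronglyMeasurable,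
      int_Xi b hy1, abs_mul, abs_of_pos b.crit.h0, pow_succ']
    have := mul_le_mul_of_nonneg_left (ih (par y) hp) b.crit.h0.le
    linarith

/-- The spins seen relative to the spin at `y`. -/
def rel (y : W d) (s : Bool) (ω : Om d) : Om d :=
  (ω.1, (fun u => (ω.2.1 u == ω.2.1 y) == s), ω.2.2)

theorem meas_rel (y : W d) (s : Bool) : Measurable (rel y s) := by
  refine measurable_fst.prodMk ((measurable_pi_lambda _ fun u => ?_).prodMk measurable_snd.snd)
  exact (measurable_of_finite fun p : Bool × Bool => (p.1 == p.2) == s).comp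
    ((meas_sig u).prodMk (meas_sig y))

theorem rel_self (y : W d) (ω : Om d) : rel y (ω.2.1 y) ω = ω := by
  refine Prod.ext rfl (Prod.ext (funext fun u => ?_) rfl)
  simp only [rel]
  cases ω.2.1 u <;> cases ω.2.1 y <;> rfl

theorem beq_of_spin {a b a' b' : Bool} (h : spin a * spin b = spin a' * spin b') :
    (b == a) = (b' == a') := by
  cases a <;> cases b <;> cases a' <;> cases b' <;> first | rfl | (norm_num [spin] at h)

theorem rel_dep (b : Base d θ μ) {R : ℕ} {g : Om d → ℝ} (hg : Loc R g) (x y : W d)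
    (hy : y.1 = x.1.drop R) (s : Bool) :
    DepOn {v | y.1 <:+ v.1 ∧ v ≠ y} {j | y.1 <:+ j.1.1} fun ω => g (sh x (rel y s ω)) := by
  intro ω ω' h1 h2
  have hs : ∀ v, len v ≤ R → y.1 <:+ (x * v).1 := fun v hv => by
    rw [hy, mul_def]
    exact drop_suffix _ _ _ (by rwa [length_word])
  refine hg _ _ (fun v hv => ?_) fun j hj => h2 (exI (lm x) j) (hs j.1 hj)
  have := beq_of_spin (b.I.dep_pair ω.2.1 ω'.2.1 y (x * v) (hs v hv)
    fun w a1 a2 => h1 w ⟨a1, a2⟩)
  change ((ω.2.1 (x * v) == ω.2.1 y) == s) = ((ω'.2.1 (x * v) == ω'.2.1 y) == s)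
  rw [this]

end GB1m

open GB1m in
theorem stmtGB1 {d : ℕ} {θ : ℝ} {μ : Measure (W d → Bool)} (b : Base d θ μ) :
    StmtGB1 d θ μ := by
  have := b.crit.hμ.1
  intro R f g mf mg ⟨Cf, hf⟩ ⟨Cg, hg⟩ lf lg f0 _
  have h0 := b.crit.h0
  have h1 := b.crit.h1
  have hCf : 0 ≤ Cf := (abs_nonneg _).trans (hf (fun _ => 0, fun _ => true, fun _ => 0))
  have hCg : 0 ≤ Cg := (abs_nonneg _).trans (hg (fun _ => 0, fun _ => true, fun _ => 0))
  refine ⟨Cf * Cg / θ ^ (2 * R), fun x => ?_⟩
  rcases le_or_gt (len x) (2 * R) with hx | hx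
  · refine (int_bd (C := Cf * Cg) fun ω => ?_).trans ?_
    · rw [abs_mul]
      exact mul_le_mul (hf _) (hg _) (abs_nonneg _) hCf
    · rw [div_mul_eq_mul_div, le_div_iff₀ (by positivity)]
      exact mul_le_mul_of_nonneg_left (pow_le_pow_of_le_one h0.le h1.le hx) (by positivity)
  obtain ⟨n, hn⟩ : ∃ n, len x = 2 * R + (n + 1) := ⟨len x - 2 * R - 1, by omega⟩
  let y : W d := ⟨x.1.drop R, x.2.drop R⟩
  have hy : len y = R + (n + 1) := by
    have : len y = len x - R := List.length_drop
    omega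
  have ms : Measurable (sh x : Om d → Om d) := (b.I.mp (lm x)).measurable
  have mG : ∀ s, Measurable fun ω => g (sh x (rel y s ω)) := fun s =>
    mg.comp (ms.comp (meas_rel y s))
  have mk : ∀ c : ℝ, Measurable fun ω : Om d => f ω * ((1 + c * spin (ω.2.1 y)) / 2) := fun c =>
    mf.mul ((((meas_spin.comp (meas_sig y)).const_mul c).const_add 1).div_const 2)
  have bk : ∀ (s : Bool) (ω : Om d), |f ω * ((1 + spin s * spin (ω.2.1 y)) / 2)| ≤ Cf :=
    fun s ω => by
      rw [abs_mul]
      refine (mul_le_of_le_one_right (abs_nonneg _) ?_).trans (hf ω)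
      cases s <;> cases ω.2.1 y <;> norm_num [spin]
  have hi : ∀ s : Bool, ∫ ω, f ω * ((1 + spin s * spin (ω.2.1 y)) / 2) * g (sh x (rel y s ω)) ∂PP μ =
      spin s / 2 * (∫ ω, f ω * spin (ω.2.1 y) ∂PP μ) * ∫ ω, g (sh x (rel y s ω)) ∂PP μ := by
    intro s
    have ind : IndepFun (fun ω : Om d => f ω * ((1 + spin s * spin (ω.2.1 y)) / 2))
        (fun ω => g (sh x (rel y s ω))) (PP μ) := by
      refine b.I.indep _ _ _ _ _ _ ?_ ?_ (mk _) (mG s)
        (loc_dep b lf y fun t => (1 + spin s * spin t) / 2) (rel_dep b lg x y rfl s)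
      · rw [Set.disjoint_left]
        rintro v (h | h) ⟨a1, a2⟩
        · have a3 : len y ≤ len v := a1.length_le
          have a4 : len v ≤ R := h
          omega
        · exact a2 (W.ext (List.IsSuffix.eq_of_length_le h a1.length_le))
      · rw [Set.disjoint_left]
        intro j h a1
        have a3 : len y ≤ len j.1 := List.IsSuffix.length_le a1
        have a4 : len j.1 ≤ R := h
        omega
    rw [ind.integral_fun_mul_eq_mul_integral (mk _).aestronglyMeasurable
      (mG s).aestronglyMeasurable]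
    congr 1
    have e : ∀ ω : Om d, f ω * ((1 + spin s * spin (ω.2.1 y)) / 2) =
        1 / 2 * f ω + spin s / 2 * (f ω * spin (ω.2.1 y)) := fun ω => by ring
    simp only [e]
    have i2 : Integrable (fun ω : Om d => f ω * spin (ω.2.1 y)) (PP μ) :=
      ibdd (mf.mul (meas_spin.comp (meas_sig y))) (C := Cf) fun ω => by
        rw [abs_mul, spin_abs, mul_one]
        exact hf ω
    rw [integral_add ((ibdd mf hf).const_mul _) (i2.const_mul _),
      integral_const_mul, integral_const_mul, f0, mul_zero, zero_add]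
  have e : ∀ ω : Om d, f ω * g (sh x ω) =
      f ω * ((1 + spin true * spin (ω.2.1 y)) / 2) * g (sh x (rel y true ω)) +
      f ω * ((1 + spin false * spin (ω.2.1 y)) / 2) * g (sh x (rel y false ω)) := fun ω => by
    conv_lhs => rw [← rel_self y ω]
    rw [show f (rel y (ω.2.1 y) ω) = f ω by rw [rel_self]]
    cases ω.2.1 y <;> simp [spin]
  have ib : ∀ s : Bool, Integrable (fun ω => f ω * ((1 + spin s * spin (ω.2.1 y)) / 2) *
      g (sh x (rel y s ω))) (PP μ) := fun s =>
    ibdd ((mk _).mul (mG s)) (C := Cf * Cg) fun ω => by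
      rw [abs_mul]
      exact mul_le_mul (bk s ω) (hg _) (abs_nonneg _) hCf
  simp only [e]
  rw [integral_add (ib true) (ib false), hi, hi]
  have a1 := spin_decay b mf hf lf (n + 1) y hy
  have a2 : ∀ s : Bool, |spin s / 2 * (∫ ω, f ω * spin (ω.2.1 y) ∂PP μ) *
      ∫ ω, g (sh x (rel y s ω)) ∂PP μ| ≤ 1 / 2 * (Cf * θ ^ (n + 1)) * Cg := fun s => by
    rw [abs_mul, abs_mul, abs_div, spin_abs, abs_two]
    exact mul_le_mul (mul_le_mul_of_nonneg_left a1 (by norm_num)) (int_bd fun ω => hg _)
      (abs_nonneg _) (by positivity)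
  refine (abs_add_le _ _).trans ((add_le_add (a2 true) (a2 false)).trans (le_of_eq ?_))
  rw [hn, pow_add θ (2 * R)]
  field_simp
  ring

end Vale.Agent.P161E
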