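import Vale.Agent.P161E.Spec

namespace Vale.Agent.P161E

open MeasureTheory ProbabilityTheory Filter Topology Finset Real
open Vale.Agent.P161 (spin obs gain clip coin IsFreeIsing)
open scoped Classical

namespace II

variable {d : ℕ}

lemma ne_one_iff {v : W d} : v ≠ 1 ↔ ∃ a l, v.1 = a :: l := by
  constructor
  · intro h
    cases e : v.1 with
    | nil => exact absurd (W.ext e) h
    | cons a l => exact ⟨a, l, rfl⟩
  · rintro ⟨a, l, e⟩ rfl
    simp [one_val] at e

lemma len_par {v : W d} (h : v ≠ 1) : len (par v) + 1 = len v := by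
  obtain ⟨a, l, e⟩ := ne_one_iff.1 h
  simp [len, par, e]

lemma par_ind {p : W d → Prop} (h1 : p 1) (h2 : ∀ v, v ≠ 1 → p (par v) → p v) (v : W d) :
    p v := by
  induction hn : len v using Nat.strong_induction_on generalizing v with
  | _ n ih =>
    by_cases h : v = 1
    · rw [h]; exact h1
    · exact h2 v h (ih _ (by have := len_par h; omega) _ rfl)

lemma adj_par {v : W d} (h : v ≠ 1) : (T d).Adj v (par v) := by
  obtain ⟨a, l, e⟩ := ne_one_iff.1 h
  exact ⟨a, W.ext (step_of_eq (by simp [e]))⟩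

lemma adj_iff {u v : W d} (h : (T d).Adj u v) : (u ≠ 1 ∧ v = par u) ∨ (v ≠ 1 ∧ u = par v) := by
  obtain ⟨a, rfl⟩ := h
  by_cases e : u.1.head? = some a
  · refine Or.inl ⟨?_, W.ext (step_of_eq e)⟩
    rintro rfl
    simp [one_val] at e
  · exact Or.inr ⟨ne_one_iff.2 ⟨a, _, step_of_ne e⟩, W.ext (by simp [par, step_of_ne e])⟩

lemma conn_of {S : Set (W d)} (h1 : (1 : W d) ∈ S) (hp : ∀ v ∈ S, par v ∈ S) :
    ((T d).induce S).Connected := by
  have key : ∀ v (hv : v ∈ S), ((T d).induce S).Reachable ⟨v, hv⟩ ⟨1, h1⟩ := by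
    intro v
    induction v using par_ind with
    | h1 => exact fun _ => SimpleGraph.Reachable.refl _
    | h2 v h ih =>
      intro hv
      have ha : ((T d).induce S).Adj ⟨v, hv⟩ ⟨par v, hp v hv⟩ := adj_par h
      exact ha.reachable.trans (ih _)
  haveI : Nonempty S := ⟨⟨1, h1⟩⟩
  exact ⟨fun a b => (key a.1 a.2).trans (key b.1 b.2).symm⟩

lemma conn : (T d).Connected := by
  have key : ∀ v : W d, (T d).Reachable v 1 := fun v => by
    induction v using par_ind with
    | h1 => exact SimpleGraph.Reachable.refl _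
    | h2 v h ih => exact (adj_par h).reachable.trans ih
  haveI : Nonempty (W d) := ⟨1⟩
  exact ⟨fun a b => (key a).trans (key b).symm⟩

lemma nb_fin (v : W d) : ((T d).neighborSet v).Finite :=
  (Set.finite_range (step v)).subset fun _ h => h

lemma par_ball {K : ℕ} {v : W d} (h : v ∈ ball K) : par v ∈ ball K := by
  rw [mem_ball] at h ⊢
  simp only [len, par, List.length_tail] at h ⊢
  omega

lemma one_ball (K : ℕ) : (1 : W d) ∈ ball K := mem_ball.2 (by simp [len, one_val])

noncomputable def sgl (ξ : W d → Bool) : (l : List (Fin d)) → l.IsChain (· ≠ ·) → Bool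
  | [], _ => ξ 1
  | a :: l, h => ξ ⟨a :: l, h⟩ == sgl ξ l h.tail

noncomputable def Sg (ξ : W d → Bool) (v : W d) : Bool := sgl ξ v.1 v.2

lemma Sg_one (ξ : W d → Bool) : Sg ξ 1 = ξ 1 := rfl

lemma Sg_ne (ξ : W d → Bool) {v : W d} (h : v ≠ 1) : Sg ξ v = (ξ v == Sg ξ (par v)) := by
  obtain ⟨l, hl⟩ := v
  cases l with
  | nil => exact absurd rfl h
  | cons a l => rfl

lemma Xi_one (σ : W d → Bool) : Xi σ 1 = σ 1 := if_pos rfl

lemma Xi_ne (σ : W d → Bool) {v : W d} (h : v ≠ 1) : Xi σ v = (σ v == σ (par v)) := if_neg h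

lemma Xi_Sg (ξ : W d → Bool) : Xi (Sg ξ) = ξ := by
  funext v
  by_cases h : v = 1
  · rw [h, Xi_one, Sg_one]
  · rw [Xi_ne _ h, Sg_ne _ h]
    cases ξ v <;> cases Sg ξ (par v) <;> rfl

lemma sig_eq (σ : W d → Bool) {v : W d} (h : v ≠ 1) : σ v = (Xi σ v == σ (par v)) := by
  rw [Xi_ne _ h]
  cases σ v <;> cases σ (par v) <;> rfl

lemma spin_par (σ : W d → Bool) {v : W d} (h : v ≠ 1) :
    spin (σ v) = spin (Xi σ v) * spin (σ (par v)) := by
  rw [Xi_ne _ h]
  cases σ v <;> cases σ (par v) <;> simp [spin]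

lemma meas_beq {Ω : Type} [MeasurableSpace Ω] {f g : Ω → Bool} (hf : Measurable f)
    (hg : Measurable g) : Measurable fun ω => f ω == g ω :=
  (Measurable.of_discrete (f := fun p : Bool × Bool => p.1 == p.2)).comp (hf.prodMk hg)

lemma meas_Xi : Measurable (Xi : (W d → Bool) → W d → Bool) := by
  refine measurable_pi_lambda _ fun v => ?_
  by_cases h : v = 1
  · simp only [h, Xi_one]; exact measurable_pi_apply _
  · simp only [Xi_ne _ h]; exact meas_beq (measurable_pi_apply _) (measurable_pi_apply _)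

lemma meas_Sg : Measurable (Sg : (W d → Bool) → W d → Bool) := by
  refine measurable_pi_lambda _ fun v => ?_
  induction v using par_ind with
  | h1 => exact measurable_pi_apply 1
  | h2 v h ih => simp only [Sg_ne _ h]; exact meas_beq (measurable_pi_apply _) ih

lemma cyl_Xi (K : ℕ) (σ η : W d → Bool) :
    (∀ v ∈ ball K, Xi σ v = η v) ↔ ∀ v ∈ ball K, σ v = Sg η v := by
  constructor
  · intro h v
    induction v using par_ind with
    | h1 => exact fun hv => by rw [Sg_one, ← h 1 hv, Xi_one]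
    | h2 v hv ih =>
      intro hb
      rw [sig_eq σ hv, Sg_ne _ hv, h v hb, ih (par_ball hb)]
  · intro h v hb
    rw [← congrFun (Xi_Sg η) v]
    by_cases hv : v = 1
    · rw [hv, Xi_one, Xi_one, h 1 (one_ball K)]
    · rw [Xi_ne _ hv, Xi_ne _ hv, h v hb, h _ (par_ball hb)]

lemma edges_ball (K : ℕ) : (ball K : Finset (W d)).sym2.filter (fun e => e ∈ (T d).edgeSet) =
    ((ball K).erase 1).image fun v => s(v, par v) := by
  ext e
  induction e using Sym2.ind with
  | _ x y =>
    simp only [mem_filter, mk_mem_sym2_iff, SimpleGraph.mem_edgeSet, mem_image, mem_erase]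
    constructor
    · rintro ⟨⟨hx, hy⟩, h⟩
      rcases adj_iff h with ⟨h1, rfl⟩ | ⟨h1, rfl⟩
      · exact ⟨x, ⟨h1, hx⟩, rfl⟩
      · exact ⟨y, ⟨h1, hy⟩, Sym2.eq_swap⟩
    · rintro ⟨v, ⟨h1, hv⟩, e⟩
      rcases Sym2.eq_iff.1 e with ⟨rfl, rfl⟩ | ⟨rfl, rfl⟩
      · exact ⟨⟨hv, par_ball hv⟩, adj_par h1⟩
      · exact ⟨⟨par_ball hv, hv⟩, (adj_par h1).symm⟩

lemma ext_ball {μ ν : Measure (W d → Bool)} [IsProbabilityMeasure μ] [IsProbabilityMeasure ν]
    (h : ∀ (K : ℕ) (η : W d → Bool),
      μ.real {σ | ∀ v ∈ ball K, σ v = η v} = ν.real {σ | ∀ v ∈ ball K, σ v = η v}) : μ = ν := by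
  refine P161.ext_cyl fun F η => ?_
  have h1 : F ⊆ ball (F.sup len) := fun v hv => mem_ball.2 (le_sup hv)
  have hd : P161.Dep (ball (F.sup len) : Finset (W d))
      ({σ : W d → Bool | ∀ v ∈ F, σ v = η v}.indicator (1 : (W d → Bool) → ℝ)) := by
    intro σ σ' hs
    have : (∀ v ∈ F, σ v = η v) ↔ ∀ v ∈ F, σ' v = η v :=
      forall₂_congr fun v hv => by rw [hs v (h1 hv)]
    simp only [Set.indicator_apply, Set.mem_ofPred_eq, this, Pi.one_apply]
  rw [← integral_indicator_one (P161.measurableSet_cyl F η),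
    ← integral_indicator_one (P161.measurableSet_cyl F η), hd.eq_sum,
    integral_finsetSum _ fun T _ => (integrable_const _).indicator (P161.measurableSet_cyl _ _),
    integral_finsetSum _ fun T _ => (integrable_const _).indicator (P161.measurableSet_cyl _ _)]
  refine sum_congr rfl fun T _ => ?_
  rw [integral_indicator_const _ (P161.measurableSet_cyl _ _),
    integral_indicator_const _ (P161.measurableSet_cyl _ _), h]

noncomputable def cn (θ : ℝ) (v : W d) : Measure Bool := coin (if v = 1 then 0 else θ)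

variable {θ : ℝ} {μ : Measure (W d → Bool)}

lemma cn_prob (h : Crit d θ μ) (v : W d) : IsProbabilityMeasure (cn θ v) := by
  unfold cn
  split_ifs
  · exact P161.coin_prob le_rfl one_pos
  · exact P161.coin_prob h.h0.le h.h1

lemma map_Xi (h : Crit d θ μ) : μ.map Xi = Measure.infinitePi (cn θ) := by
  have := h.hμ.1
  have := cn_prob h
  have := Measure.isProbabilityMeasure_map (μ := μ) meas_Xi.aemeasurable
  refine ext_ball fun K η => ?_
  have e : {σ : W d → Bool | ∀ v ∈ ball K, σ v = η v} =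
      Set.pi (ball K : Finset (W d)) fun v => {η v} := by
    ext σ; simp
  rw [map_measureReal_apply meas_Xi (P161.measurableSet_cyl _ _)]
  have e2 : Xi ⁻¹' {σ : W d → Bool | ∀ v ∈ ball K, σ v = η v} =
      {σ | ∀ v ∈ ball K, σ v = Sg η v} := Set.ext fun σ => cyl_Xi K σ η
  rw [e2, h.hμ.2 _ (conn_of (mem_coe.2 (one_ball K)) fun v hv => mem_coe.2 (par_ball hv)),
    edges_ball, prod_image, e, measureReal_def,
    Measure.infinitePi_pi _ fun _ _ => measurableSet_singleton _, ENNReal.toReal_prod,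
    ← mul_prod_erase _ _ (one_ball K)]
  · congr 1
    · rw [cn, if_pos rfl, P161.coin_apply, ENNReal.toReal_ofReal (by norm_num)]
      norm_num
    · refine prod_congr rfl fun v hv => ?_
      have hv1 := (mem_erase.1 hv).1
      have e3 : spin (Sg η v) * spin (Sg η (par v)) = spin (η v) := by
        rw [spin_par _ hv1, Xi_Sg, mul_assoc, P161.spin_sq, mul_one]
      rw [cn, if_neg hv1, P161.coin_apply, ENNReal.toReal_ofReal, ← e3]
      · rfl
      · rcases P161.spin_cases (η v) with a | a <;> rw [a] <;> linarith [h.h0, h.h1]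
  · intro v hv w hw e
    rcases Sym2.eq_iff.1 e with ⟨e1, _⟩ | ⟨e1, e2⟩
    · exact e1
    · have a := len_par (mem_erase.1 (mem_coe.1 hv)).1
      have b := len_par (mem_erase.1 (mem_coe.1 hw)).1
      rw [← e1] at b
      rw [e2] at a
      omega

noncomputable def rs {ι X : Type} (S : Set ι) (x0 : X) (ω : ι → X) (i : ι) : X :=
  if i ∈ S then ω i else x0

lemma meas_rs {ι X : Type} [MeasurableSpace X] (S : Set ι) (x0 : X) :
    Measurable[⨆ i ∈ S, MeasurableSpace.comap (fun ω : ι → X => ω i) inferInstance]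
      (rs S x0) := by
  refine @measurable_pi_lambda _ _ _ (_) _ _ fun i => ?_
  by_cases h : i ∈ S
  · simp only [rs, if_pos h]
    exact (comap_measurable fun ω : ι → X => ω i).mono
      (le_iSup₂ (f := fun i (_ : i ∈ S) =>
        MeasurableSpace.comap (fun ω : ι → X => ω i) inferInstance) i h) le_rfl
  · simp only [rs, if_neg h]
    exact measurable_const

lemma meas_rs' {ι X : Type} [MeasurableSpace X] (S : Set ι) (x0 : X) : Measurable (rs S x0) :=
  (meas_rs S x0).mono (iSup₂_le fun i _ => (measurable_pi_apply i).comap_le) le_rfl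

lemma indep_rs {ι X : Type} [MeasurableSpace X] (ν : ι → Measure X)
    [∀ i, IsProbabilityMeasure (ν i)] {S S' : Set ι} (h : Disjoint S S') (x0 : X) :
    IndepFun (rs S x0) (rs S' x0) (Measure.infinitePi ν) := by
  have h1 := (iIndepFun_infinitePi (P := ν) (X := fun _ ω => ω) fun _ => measurable_id).iIndep
  exact indep_of_indep_of_le (indep_iSup_of_disjoint
    (fun i => (measurable_pi_apply i).comap_le) h1 h) (meas_rs S x0).comap_le
    (meas_rs S' x0).comap_le

lemma indep_prod {Ω Ω' A A' B B' : Type} [MeasurableSpace Ω] [MeasurableSpace Ω']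
    [MeasurableSpace A] [MeasurableSpace A'] [MeasurableSpace B] [MeasurableSpace B']
    {P : Measure Ω} {Q : Measure Ω'} [IsProbabilityMeasure P] [IsProbabilityMeasure Q]
    {a : Ω → A} {a' : Ω → A'} {b : Ω' → B} {b' : Ω' → B'} (ha : Measurable a)
    (ha' : Measurable a') (hb : Measurable b) (hb' : Measurable b') (h : IndepFun a a' P)
    (h' : IndepFun b b' Q) : IndepFun (Prod.map a b) (Prod.map a' b') (P.prod Q) := by
  rw [indepFun_iff_measure_inter_preimage_eq_mul]
  intro s t hs ht
  have m1 : Measurable fun u => Q (b ⁻¹' (Prod.mk u ⁻¹' s)) :=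
    measurable_measure_prodMk_left ((measurable_id.prodMap hb) hs)
  have m2 : Measurable fun u => Q (b' ⁻¹' (Prod.mk u ⁻¹' t)) :=
    measurable_measure_prodMk_left ((measurable_id.prodMap hb') ht)
  rw [Measure.prod_apply (((ha.prodMap hb) hs).inter ((ha'.prodMap hb') ht)),
    Measure.prod_apply ((ha.prodMap hb) hs), Measure.prod_apply ((ha'.prodMap hb') ht)]
  refine Eq.trans (lintegral_congr fun x => h'.measure_inter_preimage_eq_mul _ _
    (measurable_prodMk_left (x := a x) hs) (measurable_prodMk_left (x := a' x) ht)) ?_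
  exact lintegral_mul_eq_lintegral_mul_lintegral_of_indepFun'' (m1.comp ha).aemeasurable
    (m2.comp ha').aemeasurable (h.comp m1 m2)

noncomputable def rσ (S : Set (W d)) (σ : W d → Bool) : W d → Bool := Sg (rs S true (Xi σ))

lemma meas_rσ (S : Set (W d)) : Measurable (rσ S) := meas_Sg.comp ((meas_rs' _ _).comp meas_Xi)

lemma Xi_rσ {S : Set (W d)} (σ : W d → Bool) {v : W d} (h : v ∈ S) :
    Xi σ v = Xi (rσ S σ) v := by rw [rσ, Xi_Sg, rs, if_pos h]

lemma indep_rσ (h : Crit d θ μ) {S S' : Set (W d)} (hS : Disjoint S S') :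
    IndepFun (rσ S) (rσ S') μ := by
  have := cn_prob h
  have h1 := (indep_rs (cn θ) hS true).comp meas_Sg meas_Sg
  rw [← map_Xi h, indepFun_iff_measure_inter_preimage_eq_mul] at h1
  rw [indepFun_iff_measure_inter_preimage_eq_mul]
  intro s t hs ht
  have m := meas_Sg.comp (meas_rs' S true)
  have m' := meas_Sg.comp (meas_rs' S' true)
  have h2 := h1 s t hs ht
  rw [Measure.map_apply meas_Xi ((m hs).inter (m' ht)), Measure.map_apply meas_Xi (m hs),
    Measure.map_apply meas_Xi (m' ht)] at h2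
  exact h2

lemma indep_PU {R R' : Set (I d)} (hR : Disjoint R R') :
    IndepFun (rs R (0 : unitInterval)) (rs R' 0) (PU d) := indep_rs _ hR 0

lemma indep_P0 (h : Crit d θ μ) {S S' : Set (W d)} {R R' : Set (I d)} (hS : Disjoint S S')
    (hR : Disjoint R R') : IndepFun (Prod.map (rσ S) (rs R (0 : unitInterval)))
      (Prod.map (rσ S') (rs R' (0 : unitInterval))) (P0 μ) := by
  have := h.hμ.1
  exact indep_prod (meas_rσ _) (meas_rσ _) (meas_rs' _ _) (meas_rs' _ _) (indep_rσ h hS)
    (indep_PU hR)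

lemma exI_inj (γ : T d ≃g T d) : Function.Injective (exI γ) := fun _ _ e =>
  Prod.ext (γ.injective (congrArg Prod.fst e)) (congrArg Prod.snd e :)

lemma mpU (γ : T d ≃g T d) :
    MeasurePreserving (fun (w : Nz d) j => w (exI γ j)) (PU d) (PU d) :=
  ⟨by fun_prop, Measure.map_infinitePi_infinitePi_of_inj (exI_inj γ)⟩

lemma mpσ (h : Crit d θ μ) (γ : T d ≃g T d) :
    MeasurePreserving (fun (σ : W d → Bool) v => σ (γ v)) μ μ :=
  ⟨by fun_prop, P161.ising_inv conn nb_fin h.hμ γ⟩

lemma mp0 (h : Crit d θ μ) (γ : T d ≃g T d) : MeasurePreserving (act0 γ) (P0 μ) (P0 μ) := by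
  have := h.hμ.1
  exact (mpσ h γ).prod (mpU γ)

lemma law_Xi (h : Crit d θ μ) (v : W d) : μ.map (fun σ => Xi σ v) = cn θ v := by
  have := cn_prob h
  rw [← Measure.infinitePi_map_eval (cn θ) v, ← map_Xi h,
    Measure.map_map (measurable_pi_apply v) meas_Xi]
  rfl

lemma lt_one : ∀ᵐ τ ∂PU d, ∀ j, (τ j : ℝ) < 1 := by
  refine ae_all_iff.2 fun j => ?_
  have h2 : ∀ᵐ u ∂(volume : Measure unitInterval), u ≠ 1 := Measure.ae_ne _ 1
  rw [← Measure.infinitePi_map_eval (fun _ : I d => (volume : Measure unitInterval)) j] at h2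
  exact (ae_of_ae_map (measurable_pi_apply j).aemeasurable h2).mono fun w hw =>
    lt_of_le_of_ne (w j).2.2 fun e => hw (Subtype.ext e)

lemma inj : ∀ᵐ τ ∂PU d, Function.Injective (tim τ) := by
  have h : ∀ᵐ w ∂PU d, ∀ a b : I d, a ≠ b → w a ≠ w b := by
    refine ae_all_iff.2 fun a => ae_all_iff.2 fun b => ?_
    by_cases hab : a = b
    · simp [hab]
    have h1 := Measure.infinitePi_map_eval_prod
      (P := fun _ : I d => (volume : Measure unitInterval)) hab
    have h2 : ∀ᵐ p ∂((volume : Measure unitInterval).prod (volume : Measure unitInterval)),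
        p.1 ≠ p.2 := by
      refine (Measure.ae_prod_iff_ae_ae
        (measurableSet_eq_fun measurable_fst measurable_snd).compl).2 ?_
      exact Eventually.of_forall fun x => (Measure.ae_ne _ x).mono fun y hy => hy.symm
    rw [← h1] at h2
    exact (ae_of_ae_map (by fun_prop) h2).mono fun w hw _ => hw
  filter_upwards [h, lt_one] with w hw h1
  refine fun a b hab => by_contra fun hne => hw a b hne (Subtype.ext ?_)
  unfold tim at hab
  have h2 : a.2 < b.2 + 1 := by
    exact_mod_cast (show (a.2 : ℝ) < b.2 + 1 by linarith [(w a).2.1, h1 b])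
  have h3 : b.2 < a.2 + 1 := by
    exact_mod_cast (show (b.2 : ℝ) < a.2 + 1 by linarith [(w b).2.1, h1 a])
  have h4 : a.2 = b.2 := by omega
  rw [h4] at hab
  linarith

lemma suf_par {x u : W d} (hu : u ≠ 1) : x.1 <:+ u.1 ↔ x = u ∨ x.1 <:+ (par u).1 := by
  obtain ⟨a, l, e⟩ := ne_one_iff.1 hu
  have e2 : (par u).1 = l := by simp [par, e]
  rw [W.ext_iff, e2, e, List.suffix_cons_iff]

end II

open II in
theorem stmtI {d : ℕ} {θ : ℝ} {μ : Measure (W d → Bool)} (h : Crit d θ μ) : StmtI d θ μ where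
  indep := by
    intro α β _ _ S S' R R' f g hS hR hf hg df dg
    have := h.hμ.1
    have h1 := (indep_prod (meas_rs' _ _) (meas_rs' _ _)
      ((meas_rσ _).prodMap (meas_rs' _ _)) ((meas_rσ _).prodMap (meas_rs' _ _)) (indep_PU hR)
      (indep_P0 h hS hR)).comp hf hg
    refine h1.congr (Eventually.of_forall fun ω => ?_) (Eventually.of_forall fun ω => ?_)
    · exact (df _ _ (fun v hv => Xi_rσ _ hv) fun j hj => ⟨(if_pos hj).symm, (if_pos hj).symm⟩).symm
    · exact (dg _ _ (fun v hv => Xi_rσ _ hv) fun j hj => ⟨(if_pos hj).symm, (if_pos hj).symm⟩).symm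
  indep0 := by
    intro α β _ _ S S' R R' f g hS hR hf hg df dg
    have h1 := (indep_P0 h hS hR).comp hf hg
    refine h1.congr (Eventually.of_forall fun ω => ?_) (Eventually.of_forall fun ω => ?_)
    · exact (df _ _ (fun v hv => Xi_rσ _ hv) fun j hj => (if_pos hj).symm).symm
    · exact (dg _ _ (fun v hv => Xi_rσ _ hv) fun j hj => (if_pos hj).symm).symm
  meas_Xi := meas_Xi
  law_spin := fun v => by
    have h1 := law_Xi h 1
    simp only [Xi_one, cn, if_pos] at h1
    rw [← h1]
    conv_rhs => rw [← (mpσ h (lm v)).map_eq]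
    rw [Measure.map_map (measurable_pi_apply 1) (mpσ h (lm v)).measurable]
    congr 1
  law_Xi := fun v hv => by rw [law_Xi h, cn, if_neg hv]
  spin_par := fun σ v hv => spin_par σ hv
  par_gen := fun c => W.ext (by simp [par, gen_val, one_val])
  dep_spin := by
    intro σ σ' u
    induction u using par_ind with
    | h1 => exact fun hh => by simpa only [Xi_one] using hh 1 (List.suffix_refl _)
    | h2 u hu ih =>
      intro hh
      rw [sig_eq σ hu, sig_eq σ' hu, hh u (List.suffix_refl _),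
        ih fun v hv => hh v ((suf_par hu).2 (Or.inr hv))]
  dep_pair := by
    intro σ σ' x u hx hh
    induction u using par_ind with
    | h1 =>
      obtain rfl : x = 1 := W.ext (List.suffix_nil.1 hx)
      simp
    | h2 u hu ih =>
      by_cases e : u = x
      · simp [e]
      · have h1 := ((suf_par hu).1 hx).resolve_left (Ne.symm e)
        rw [spin_par σ hu, spin_par σ' hu, hh u hx e]
        linear_combination spin (Xi σ' u) * ih h1
  mem_sub := fun c u => by
    rw [sub, Set.mem_ofPred_eq, word, List.head?_reverse, List.getLast?_eq_some_iff, gen_val]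
    exact exists_congr fun _ => eq_comm
  mp0 := mp0 h
  mp := fun γ => by
    have := h.hμ.1
    exact (mpU γ).prod (mp0 h γ)
  sh_sh := fun x y ω => by
    simp only [sh, act, act0, exI, lm_apply, mul_assoc]
  sh_one := fun ω => by
    simp only [sh, act, act0, exI, lm_apply, one_mul]
  inj := inj
  lt_one := lt_one

end Vale.Agent.P161E
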