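import Vale.Agent.P161E.Th

namespace Vale.Agent.P161E

open MeasureTheory ProbabilityTheory Filter Topology Finset Real
open Vale.Agent.P161 (spin obs clip obs_abs measurable_obs clip_abs clip_eq)

namespace Info

variable {d : ℕ} {θ : ℝ} {μ : Measure (W d → Bool)}

noncomputable def ind (u : unitInterval) : ℝ := if (u : ℝ) < 1 / 2 then 1 else 0

noncomputable def XX (j : I d) (ω : Om d) : ℝ := ind (ω.1 j) * obs 1 (ω.2.2 j)

lemma meas_ind : Measurable ind :=
  Measurable.ite (measurableSet_lt (by fun_prop) measurable_const) measurable_const measurable_const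

lemma meas_obs1 : Measurable (obs 1) := measurable_obs.comp (measurable_prodMk_left (x := 1))

lemma meas_XX (j : I d) : Measurable (XX j) :=
  (meas_ind.comp (by fun_prop)).mul (meas_obs1.comp (by fun_prop))

lemma XX_abs (j : I d) (ω : Om d) : |XX j ω| ≤ 1 := by
  have := obs_abs 1 (ω.2.2 j)
  unfold XX ind
  split_ifs <;> simp [this]

lemma int_ind : ∫ u, ind u = 1 / 2 := by
  have e : ind = (Set.Iio (⟨1 / 2, by norm_num, by norm_num⟩ : unitInterval)).indicator 1 := by
    funext u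
    simp only [ind, Set.indicator, Set.mem_Iio, ← Subtype.coe_lt_coe, Pi.one_apply]
  rw [e, integral_indicator_one measurableSet_Iio, Measure.real, unitInterval.volume_Iio,
    ENNReal.toReal_ofReal (by norm_num)]

lemma int_eval (j : I d) {f : unitInterval → ℝ} (hf : Measurable f) :
    ∫ τ, f (τ j) ∂PU d = ∫ u, f u := by
  have h := measurePreserving_eval_infinitePi (fun _ : I d => (volume : Measure unitInterval)) j
  rw [← h.map_eq, integral_map h.measurable.aemeasurable hf.aestronglyMeasurable]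
  rfl

lemma mean (b : Base d θ μ) (j : I d) : ∫ ω, XX j ω ∂PP μ = 1 / 12 := by
  have := b.crit.hμ.1
  have h1 := integral_prod_mul (μ := PU d) (ν := P0 μ) (fun τ => ind (τ j))
    (fun ω => obs 1 (ω.2 j))
  have h2 := integral_prod_mul (μ := μ) (ν := PU d) (fun _ => (1 : ℝ)) (fun w => obs 1 (w j))
  simp only [one_mul, integral_const, probReal_univ, smul_eq_mul] at h2
  unfold XX PP
  rw [h1, int_eval j meas_ind, P0, h2, int_eval j meas_obs1, b.C.mean, int_ind]
  norm_num

lemma lln (b : Base d θ μ) {n : ℕ} (hn : 1 ≤ n) :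
    ∫ ω, ((1 : ℝ) - 12 / (n : ℝ) * ∑ k ∈ range n, XX ((1 : W d), (k : ℤ)) ω) ^ 2 ∂PP μ ≤
      (144 : ℝ) / n := by
  have := b.crit.hμ.1
  have hn' : (0 : ℝ) < n := by exact_mod_cast hn
  have hv := IndepFun.variance_sum (μ := PP μ) (X := fun k : ℕ => XX ((1 : W d), (k : ℤ)))
    (s := range n) (fun k _ => MemLp.of_bound (meas_XX _).aestronglyMeasurable 1
      (Eventually.of_forall (XX_abs _))) (fun k _ l _ hkl => by
      refine b.I.indep ∅ ∅ {((1 : W d), (k : ℤ))} {((1 : W d), (l : ℤ))} _ _ (by simp)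
        (by simpa using hkl) (meas_XX _) (meas_XX _) ?_ ?_ <;>
      · intro ω ω' _ h
        obtain ⟨h1, h2⟩ := h _ rfl
        simp only [XX, h1, h2])
  have h1 : ∑ k ∈ range n, variance (XX ((1 : W d), (k : ℤ))) (PP μ) ≤ n := by
    refine (sum_le_card_nsmul _ _ 1 fun k _ => ?_).trans (by simp)
    have := variance_le_sq_of_bounded (μ := PP μ) (a := -1) (b := 1)
      (Eventually.of_forall fun ω => abs_le.1 (XX_abs ((1 : W d), (k : ℤ)) ω))
      (meas_XX _).aemeasurable
    linarith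
  have hm : Measurable (∑ k ∈ range n, XX ((1 : W d), (k : ℤ))) :=
    by
    rw [Finset.sum_fn]
    exact Finset.measurable_sum _ fun k _ => meas_XX _
  rw [variance_eq_integral hm.aemeasurable] at hv
  have h2 : ∫ ω, (∑ k ∈ range n, XX ((1 : W d), (k : ℤ))) ω ∂PP μ = n / 12 := by
    simp only [Finset.sum_apply]
    rw [integral_finsetSum _ fun k _ => Th.ibdd _ (meas_XX _) (XX_abs _)]
    simp only [mean b, sum_const, card_range, nsmul_eq_mul]
    ring
  rw [h2] at hv
  have h3 : ∀ ω, ((1 : ℝ) - 12 / (n : ℝ) * ∑ k ∈ range n, XX ((1 : W d), (k : ℤ)) ω) ^ 2 =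
      (12 / (n : ℝ)) ^ 2 * ((∑ k ∈ range n, XX ((1 : W d), (k : ℤ))) ω - n / 12) ^ 2 := fun ω => by
    rw [Finset.sum_apply]; field_simp; ring
  simp only [h3]
  rw [integral_const_mul, hv]
  calc _ ≤ (12 / (n : ℝ)) ^ 2 * n := mul_le_mul_of_nonneg_left h1 (sq_nonneg _)
    _ = _ := by field_simp; norm_num

lemma spin_abs (s : Bool) : |spin s| = 1 := by unfold spin; split_ifs <;> simp

lemma meas_spin : Measurable spin := measurable_from_top

lemma proj {Ω : Type} [MeasurableSpace Ω] (P : Measure Ω) [IsProbabilityMeasure P]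
    {σ m l : Ω → ℝ} {C : ℝ} (m1 : Measurable σ) (m2 : Measurable m) (m3 : Measurable l)
    (b1 : ∀ ω, |σ ω| ≤ 1) (b2 : ∀ ω, |m ω| ≤ 1) (b3 : ∀ ω, |l ω| ≤ C)
    (h : ∫ ω, σ ω * (m ω - l ω) ∂P = ∫ ω, m ω * (m ω - l ω) ∂P) :
    ∫ ω, (σ ω - m ω) ^ 2 ∂P ≤ ∫ ω, (σ ω - l ω) ^ 2 ∂P := by
  have L : ∀ {f : Ω → ℝ} {K : ℝ}, Measurable f → (∀ ω, |f ω| ≤ K) → MemLp f 2 P := fun hf hK =>
    MemLp.of_bound hf.aestronglyMeasurable _ (Eventually.of_forall hK)
  have l1 := L m1 b1
  have l2 := L m2 b2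
  have l3 := L m3 b3
  have i1 : Integrable (fun ω => σ ω * (m ω - l ω)) P := l1.integrable_mul (l2.sub l3)
  have i2 : Integrable (fun ω => m ω * (m ω - l ω)) P := l2.integrable_mul (l2.sub l3)
  have i3 : Integrable (fun ω => (σ ω - m ω) ^ 2) P := (l1.sub l2).integrable_sq
  have i4 : Integrable (fun ω => (σ ω - l ω) ^ 2) P := (l1.sub l3).integrable_sq
  have i5 : Integrable (fun ω => 2 * (σ ω * (m ω - l ω) - m ω * (m ω - l ω))) P :=
    (i1.sub i2).const_mul 2
  have := integral_mono (i3.add i5) i4 fun ω => by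
    simp only [Pi.add_apply]
    nlinarith [sq_nonneg (m ω - l ω)]
  rw [integral_add' i3 i5, integral_const_mul, integral_sub i1 i2, h] at this
  simpa using this

/-- the posterior mean is the best predictor -/
lemma best (b : Base d θ μ) (hB : StmtB d θ μ) {β : ℝ} {e : I d → ℝ} {B : Set (I d)}
    (h : Bnd β e B) (L : (I d → ℝ) → ℝ) (hL : Measurable L) {C : ℝ} (hC : ∀ a, |L a| ≤ C) :
    ∫ ω, (spin (ω.1 1) - mA θ e B (Yq e ω) 1) ^ 2 ∂P0 μ ≤
      ∫ ω, (spin (ω.1 1) - L (B.indicator (Yq e ω))) ^ 2 ∂P0 μ := by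
  have := b.crit.hμ.1
  have hM : Measurable fun a => mA θ e B a 1 := Th.meas_tanh.comp (b.F.meas_HA e B 1 none)
  have hM1 : ∀ a, |mA θ e B a 1| ≤ 1 := fun a => (Real.abs_tanh_lt_one _).le
  have hF : ∀ a, |mA θ e B a 1 - L a| ≤ 1 + C := fun a =>
    (abs_sub _ _).trans (add_le_add (hM1 a) (hC a))
  have h1 := hB.test0 β e B h 1 (fun a => mA θ e B a 1 - L a) (hM.sub hL) ⟨_, hF⟩
  have hmask : ∀ a, mA θ e B (B.indicator a) 1 = mA θ e B a 1 := fun a => by
    unfold mA; rw [b.F.HA_mask e B B a subset_rfl]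
  simp only [hmask] at h1
  have hY : Measurable fun ω : O0 d => B.indicator (Yq e ω) := by
    refine measurable_pi_lambda _ fun j => ?_
    by_cases hj : j ∈ B
    · simp only [Set.indicator_of_mem hj]
      exact (measurable_pi_apply j).comp (b.F.meas_Yq e)
    · simp only [Set.indicator_of_notMem hj]
      exact measurable_const
  have m1 : Measurable fun ω : O0 d => spin (ω.1 1) := meas_spin.comp (by fun_prop)
  have m2 : Measurable fun ω : O0 d => mA θ e B (Yq e ω) 1 := hM.comp (b.F.meas_Yq e)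
  have m3 : Measurable fun ω : O0 d => L (B.indicator (Yq e ω)) := hL.comp hY
  have b1 : ∀ ω : O0 d, |spin (ω.1 1)| ≤ 1 := fun ω => (spin_abs _).le
  have b2 : ∀ ω : O0 d, |mA θ e B (Yq e ω) 1| ≤ 1 := fun ω => hM1 _
  have b3 : ∀ ω : O0 d, |L (B.indicator (Yq e ω))| ≤ C := fun ω => hC _
  exact proj _ m1 m2 m3 b1 b2 b3 h1

lemma quench (b : Base d θ μ) (hB : StmtB d θ μ) (hE : StmtE d θ μ) (n : ℕ) (τ : Nz d) :
    ∫ ω, (spin (ω.1 1) - ms θ n 1 (τ, ω)) ^ 2 ∂P0 μ ≤
      ∫ ω, ((1 : ℝ) - 12 / (n : ℝ) * ∑ k ∈ range n, XX ((1 : W d), (k : ℤ)) (τ, ω)) ^ 2 ∂P0 μ := by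
  have hb := hE.bnd n n τ (by push_cast; linarith)
  have hclip : Measurable clip := by unfold clip; fun_prop
  refine (best b hB hb (fun a => 12 / (n : ℝ) * ∑ k ∈ range n,
    ind (τ (1, (k : ℤ))) * clip (a (1, (k : ℤ)))) ?_ (C := 12 / (n : ℝ) * n) fun a => ?_).trans
    (le_of_eq (integral_congr_ae (Eventually.of_forall fun ω => ?_)))
  · exact (Finset.measurable_sum _ fun k _ =>
      (hclip.comp (measurable_pi_apply _)).const_mul _).const_mul _
  · rw [abs_mul, abs_of_nonneg (by positivity)]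
    refine mul_le_mul_of_nonneg_left ((abs_sum_le_sum_abs _ _).trans
      ((sum_le_card_nsmul _ _ 1 fun k _ => ?_).trans (by simp))) (by positivity)
    have := clip_abs (a (1, (k : ℤ)))
    unfold ind
    split_ifs <;> simp [this]
  · have e : ∀ k ∈ range n, ind (τ (1, (k : ℤ))) *
        clip ((Bs τ n).indicator (Yq (str τ) ω) (1, (k : ℤ))) =
        spin (ω.1 1) * XX ((1 : W d), (k : ℤ)) (τ, ω) := fun k hk => by
      unfold XX ind
      split_ifs with h
      · have hk' : (k : ℝ) + 1 ≤ n := by exact_mod_cast mem_range.1 hk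
        have hm : ((1 : W d), (k : ℤ)) ∈ Bs τ n := by
          simp only [Bs, tim, Set.mem_setOf_eq]
          push_cast; linarith
        have hs : str τ (1, (k : ℤ)) = 1 := by
          simp only [str, if_pos h, eps]
          exact min_eq_left (one_le_zpow₀ (by norm_num) (by omega))
        rw [Set.indicator_of_mem hm, clip_eq (b.F.Yq_le _ _ _)]
        simp only [Yq, hs, one_mul]
      · simp
    simp only
    rw [sum_congr rfl e, ← mul_sum]
    unfold spin
    split_ifs <;> ring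

end Info

open Info in
theorem stmtInfo {d : ℕ} {θ : ℝ} {μ : Measure (W d → Bool)} (b : Base d θ μ) (hB : StmtB d θ μ)
    (hE : StmtE d θ μ) : StmtInfo d θ μ := by
  have := b.crit.hμ.1
  have lim : Tendsto (fun n : ℕ => (144 : ℝ) / n) atTop (𝓝 0) :=
    tendsto_const_div_atTop_nhds_zero_nat 144
  refine squeeze_zero' (Eventually.of_forall fun n => integral_nonneg fun _ => sq_nonneg _) ?_ lim
  filter_upwards [eventually_ge_atTop 1] with n hn
  refine le_trans ?_ (lln b hn)
  have i1 : Integrable (fun ω : Om d => (spin (ω.2.1 1) - ms θ n 1 ω) ^ 2) (PP μ) := by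
    refine Th.ibdd _ (((meas_spin.comp (by fun_prop)).sub
      (hE.meas_ms (fun _ => n) measurable_const 1)).pow_const 2) (C := 2 ^ 2) fun ω => ?_
    rw [abs_pow]
    refine pow_le_pow_left₀ (abs_nonneg _) ((abs_sub _ _).trans ?_) 2
    have : |ms θ n 1 ω| ≤ 1 := (Real.abs_tanh_lt_one _).le
    linarith [spin_abs (ω.2.1 1)]
  have i2 : Integrable (fun ω : Om d =>
      ((1 : ℝ) - 12 / (n : ℝ) * ∑ k ∈ range n, XX ((1 : W d), (k : ℤ)) ω) ^ 2) (PP μ) := by
    refine Th.ibdd _ ((((Finset.measurable_sum _ fun k _ => meas_XX _).const_mul _).const_sub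
      _).pow_const 2) (C := (1 + 12 / (n : ℝ) * n) ^ 2) fun ω => ?_
    rw [abs_pow]
    refine pow_le_pow_left₀ (abs_nonneg _) ((abs_sub _ _).trans ?_) 2
    rw [abs_one, abs_mul, abs_of_nonneg (by positivity : (0 : ℝ) ≤ 12 / (n : ℝ))]
    refine add_le_add le_rfl (mul_le_mul_of_nonneg_left ((abs_sum_le_sum_abs _ _).trans
      ((sum_le_card_nsmul _ _ 1 fun k _ => XX_abs _ _).trans (by simp))) (by positivity))
  unfold PP at *
  rw [integral_prod _ i1, integral_prod _ i2]
  exact integral_mono i1.integral_prod_left i2.integral_prod_left fun τ => quench b hB hE n τ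

end Vale.Agent.P161E
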