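import Vale.Agent.P161E.Spec

/-!
Module Iso: every regular tree is isomorphic to the word tree, and the transfer.
-/

namespace Vale.Agent.P161E

open MeasureTheory Filter Topology Finset
open Vale.Agent.P161
open scoped Classical

namespace Isom

section Transfer

variable {V V' : Type} {G : SimpleGraph V} {G' : SimpleGraph V'} {θ : ℝ}

theorem ising_map {μ : Measure (V → Bool)} (hμ : IsFreeIsing G θ μ) (g : G' ≃g G) :
    IsFreeIsing G' θ (μ.map fun σ v => σ (g v)) := by
  have := hμ.1
  have hm : Measurable fun (σ : V → Bool) v => σ (g v) := by fun_prop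
  refine ⟨Measure.isProbabilityMeasure_map hm.aemeasurable, fun D hD η => ?_⟩
  rw [map_measureReal_apply hm (measurableSet_cyl D η)]
  have e : (fun (σ : V → Bool) v => σ (g v)) ⁻¹' {σ | ∀ v ∈ D, σ v = η v} =
      {σ | ∀ v ∈ D.map g.toEquiv.toEmbedding, σ v = η (g.symm v)} := by
    ext σ
    simp only [Set.mem_preimage, Set.mem_ofPred_eq, Finset.mem_map]
    constructor
    · rintro h _ ⟨w, hw, rfl⟩
      exact (h w hw).trans (congrArg η (g.symm_apply_apply w).symm)
    · intro h w hw
      exact (h _ ⟨w, hw, rfl⟩).trans (congrArg η (g.symm_apply_apply w))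
  have hD' : (G.induce ((D.map g.toEquiv.toEmbedding : Finset V) : Set V)).Connected := by
    refine SimpleGraph.Connected.map (G := G'.induce (D : Set V'))
      ⟨fun z => ⟨g z, mem_coe.2 (mem_map.2 ⟨z, z.2, rfl⟩)⟩, fun h => g.map_adj_iff.2 h⟩ ?_ hD
    rintro ⟨z, hz⟩
    obtain ⟨w, hw, rfl⟩ := mem_map.1 (mem_coe.1 hz)
    exact ⟨⟨w, hw⟩, rfl⟩
  rw [e, hμ.2 _ hD']
  congr 1
  symm
  refine prod_equiv (P143.s2 g.toEquiv) (fun e => ?_) fun e _ => ?_
  · simp only [mem_filter, P143.s2_edge]
    refine and_congr_left fun _ => ?_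
    induction e using Sym2.ind with
    | _ x y => simp only [P143.s2_mk, mk_mem_sym2_iff, mem_map_equiv, Equiv.symm_apply_apply]
  · induction e using Sym2.ind with
    | _ x y => simp

theorem factor_map {μ : Measure (V → Bool)} (g : G' ≃g G)
    (h : IsFactorOfIID G' (μ.map fun σ v => σ (g v))) : IsFactorOfIID G μ := by
  obtain ⟨Φ, mΦ, h1, h2⟩ := h
  have m1 : Measurable fun (U : V → unitInterval) u => U (g u) := by fun_prop
  have m2 : Measurable fun (σ : V' → Bool) v => σ (g.symm v) := by fun_prop
  have m3 : Measurable fun (σ : V → Bool) v => σ (g v) := by fun_prop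
  have hP : (Measure.infinitePi fun _ : V => (volume : Measure unitInterval)).map
      (fun U u => U (g u)) = Measure.infinitePi fun _ : V' => (volume : Measure unitInterval) :=
    Measure.map_infinitePi_infinitePi_of_inj (P := fun _ : V => (volume : Measure unitInterval))
      g.injective
  refine ⟨fun U v => Φ (fun u => U (g u)) (g.symm v), m2.comp (mΦ.comp m1), ?_, fun γ => ?_⟩
  · have e1 := Measure.map_map (μ := Measure.infinitePi fun _ : V =>
      (volume : Measure unitInterval)) (m2.comp mΦ) m1
    rw [hP, ← Measure.map_map m2 mΦ, h1, Measure.map_map m2 m3] at e1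
    refine e1.symm.trans ?_
    have e2 : ((fun (σ : V' → Bool) v => σ (g.symm v)) ∘ fun (σ : V → Bool) v => σ (g v)) = id := by
      funext σ v
      simp
    rw [e2, Measure.map_id]
  · have h3 := h2 (g.trans (γ.trans g.symm))
    rw [← hP] at h3
    filter_upwards [ae_of_ae_map m1.aemeasurable h3] with U hU
    funext v
    have e1 : ∀ u, (g.trans (γ.trans g.symm)).symm u = g.symm (γ.symm (g u)) := fun _ => rfl
    simp only [e1, RelIso.apply_symm_apply] at hU
    rw [hU]
    simp

end Transfer

variable {V : Type} {G : SimpleGraph V} {d : ℕ}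

/-- An enumeration of the neighbours of `v`. -/
def Enum (G : SimpleGraph V) (v : V) (e : Fin d → V) : Prop :=
  Function.Injective e ∧ ∀ w, G.Adj v w ↔ ∃ a, e a = w

theorem exists_enum (hd : ∀ v, (G.neighborSet v).ncard = d) (h1 : 1 ≤ d) (v : V) :
    ∃ e : Fin d → V, Enum G v e := by
  have hf : (G.neighborSet v).Finite := Set.finite_of_ncard_pos (by rw [hd]; exact h1)
  have := hf.to_subtype
  have hc : Nat.card (G.neighborSet v) = d := hd v
  let e := (Finite.equivFinOfCardEq hc).symm
  refine ⟨fun a => e a, Subtype.val_injective.comp e.injective, fun w => ⟨fun h => ?_, ?_⟩⟩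
  · exact ⟨e.symm ⟨w, h⟩, by simp⟩
  · rintro ⟨a, rfl⟩
    exact (e a).2

theorem exists_enum' (hd : ∀ v, (G.neighborSet v).ncard = d) (h1 : 1 ≤ d) (v : V) (a : Fin d)
    (w : V) : ∃ e : Fin d → V, Enum G v e ∧ (G.Adj v w → e a = w) := by
  obtain ⟨e, he⟩ := exists_enum hd h1 v
  by_cases h : G.Adj v w
  · obtain ⟨c, hc⟩ := (he.2 w).1 h
    refine ⟨fun x => e (Equiv.swap a c x), ⟨he.1.comp (Equiv.swap a c).injective,
      fun z => (he.2 z).trans ⟨?_, ?_⟩⟩, fun _ => by simp [hc]⟩
    · rintro ⟨x, rfl⟩
      exact ⟨Equiv.swap a c x, by simp⟩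
    · rintro ⟨x, rfl⟩
      exact ⟨_, rfl⟩
  · exact ⟨e, he, fun h' => absurd h' h⟩

/-- The position and the enumeration of the neighbours reached by a word. -/
def psi (o : V) (e0 : Fin d → V) (E : V → Fin d → V → Fin d → V) :
    List (Fin d) → V × (Fin d → V)
  | [] => (o, e0)
  | a :: l => ((psi o e0 E l).2 a, E ((psi o e0 E l).2 a) a (psi o e0 E l).1)

/-- The positions along a word. -/
def sup (o : V) (e0 : Fin d → V) (E : V → Fin d → V → Fin d → V) : List (Fin d) → List V
  | [] => [o]
  | a :: l => (psi o e0 E l).2 a :: sup o e0 E l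

theorem exists_iso (hT : G.IsTree) (hd : ∀ v, (G.neighborSet v).ncard = d) (h1 : 1 ≤ d) :
    Nonempty (T d ≃g G) := by
  obtain ⟨o⟩ := hT.connected.nonempty
  obtain ⟨e0, he0⟩ := exists_enum hd h1 o
  choose E hE hE' using exists_enum' hd h1
  have en : ∀ l, Enum G (psi o e0 E l).1 (psi o e0 E l).2 := fun l => by
    cases l with
    | nil => exact he0
    | cons a l => exact hE _ _ _
  have adj : ∀ l a, G.Adj (psi o e0 E l).1 ((psi o e0 E l).2 a) := fun l a =>
    ((en l).2 _).2 ⟨a, rfl⟩
  have back : ∀ l a, (psi o e0 E (a :: l)).2 a = (psi o e0 E l).1 := fun l a =>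
    hE' _ _ _ (adj l a).symm
  have st : ∀ (u : W d) a, (psi o e0 E (step u a).1).1 = (psi o e0 E u.1).2 a := by
    intro u a
    by_cases h : u.1.head? = some a
    · rw [step_of_eq h]
      obtain ⟨l, hl⟩ := u
      cases l with
      | nil => simp at h
      | cons c l =>
        obtain rfl : c = a := by simpa using h
        exact (back l c).symm
    · rw [step_of_ne h]
      rfl
  have path : ∀ l : List (Fin d), l.IsChain (· ≠ ·) → ∃ p : G.Walk (psi o e0 E l).1 o,
      p.IsPath ∧ p.support = sup o e0 E l ∧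
        ∀ a, (∀ c ∈ l.head?, a ≠ c) → (psi o e0 E l).2 a ∉ p.support := by
    intro l
    induction l with
    | nil =>
      refine fun _ => ⟨SimpleGraph.Walk.nil, SimpleGraph.Walk.IsPath.nil, rfl, fun a _ h => ?_⟩
      exact (adj [] a).ne' (List.mem_singleton.1 h)
    | cons c l ih =>
      intro hl
      obtain ⟨p, p1, p2, p3⟩ := ih hl.tail
      have q1 : (SimpleGraph.Walk.cons (adj l c).symm p).IsPath :=
        (SimpleGraph.Walk.cons_isPath_iff _ _).2 ⟨p1, p3 c (List.isChain_cons.1 hl).1⟩
      refine ⟨SimpleGraph.Walk.cons (adj l c).symm p, q1,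
        (SimpleGraph.Walk.support_cons (adj l c).symm p).trans (by rw [p2]; rfl),
        fun a ha h => ?_⟩
      have q2 := hT.isAcyclic.eq_snd_of_adj_start q1 (adj (c :: l) a) h
      rw [SimpleGraph.Walk.snd_cons, ← back l c] at q2
      exact ha c rfl ((en (c :: l)).1 q2)
  have sinj : ∀ l l' : List (Fin d), sup o e0 E l = sup o e0 E l' → l = l' := by
    intro l
    induction l with
    | nil =>
      intro l' h
      cases l' with
      | nil => rfl
      | cons a l' =>
        have := (List.cons.inj h).2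
        cases l' <;> simp [sup] at this
    | cons c l ih =>
      intro l' h
      cases l' with
      | nil =>
        have := (List.cons.inj h).2
        cases l <;> simp [sup] at this
      | cons a l' =>
        obtain rfl := ih l' (List.cons.inj h).2
        rw [(en l).1 (List.cons.inj h).1]
  have inj : Function.Injective fun u : W d => (psi o e0 E u.1).1 := by
    intro u u' h
    obtain ⟨p, p1, p2, -⟩ := path u.1 u.2
    obtain ⟨q, q1, q2, -⟩ := path u'.1 u'.2
    have h' : (psi o e0 E u.1).1 = (psi o e0 E u'.1).1 := h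
    have e := (hT.existsUnique_path _ _).unique ((SimpleGraph.Walk.isPath_copy p h' rfl).2 p1) q1
    refine W.ext (sinj _ _ ?_)
    rw [← p2, ← q2, ← e, SimpleGraph.Walk.support_copy]
  have surj : Function.Surjective fun u : W d => (psi o e0 E u.1).1 := by
    have key : ∀ (v w : V) (p : G.Walk v w), (∃ u : W d, (psi o e0 E u.1).1 = v) →
        ∃ u : W d, (psi o e0 E u.1).1 = w := by
      intro v w p
      induction p with
      | nil => exact id
      | cons h p ih =>
        rintro ⟨u, rfl⟩
        obtain ⟨a, ha⟩ := ((en u.1).2 _).1 h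
        exact ih ⟨step u a, (st u a).trans ha⟩
    intro v
    obtain ⟨p⟩ := hT.connected.preconnected o v
    exact key o v p ⟨1, rfl⟩
  refine ⟨⟨Equiv.ofBijective _ ⟨inj, surj⟩, fun {u v} => ?_⟩⟩
  change G.Adj (psi o e0 E u.1).1 (psi o e0 E v.1).1 ↔ ∃ a, step u a = v
  rw [(en u.1).2]
  exact exists_congr fun a => by rw [← st]; exact inj.eq_iff

end Isom

open Isom in
theorem stmtIso : StmtIso := by
  intro V G d θ hT hd h1 h μ hμ
  obtain ⟨g⟩ := exists_iso hT hd h1
  exact factor_map g (h _ (ising_map hμ g))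

end Vale.Agent.P161E
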