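import Vale.Agent.P161E.Spec

namespace Vale.Agent.P161E

open MeasureTheory ProbabilityTheory Filter Topology Finset Real
open Vale.Agent.P161 (spin obs gain clip coin ibdd)
open scoped Classical

namespace JJ

variable {d : ℕ} {θ : ℝ} {μ : Measure (W d → Bool)}

lemma updU (i : I d) {F : Nz d → ℝ} (hF : Measurable F) {C : ℝ} (hC : ∀ g, |F g| ≤ C) :
    ∫ g, F g ∂PU d = ∫ g, ∫ u, F (Function.update g i u) ∂volume ∂PU d := by
  have hm : Measurable fun p : Nz d × unitInterval => Function.update p.1 i p.2 :=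
    measurable_update'
  conv_lhs => rw [PU, ← P161.map_update volume i]
  rw [integral_map hm.aemeasurable hF.aestronglyMeasurable, integral_prod]
  · rfl
  · exact ibdd (hF.comp hm) fun _ => hC _

lemma upd0 [IsProbabilityMeasure μ] (i : I d) {F : O0 d → ℝ} (hF : Measurable F)
    {C : ℝ} (hC : ∀ ω, |F ω| ≤ C) :
    ∫ ω, F ω ∂P0 μ = ∫ ω, ∫ u, F (ω.1, Function.update ω.2 i u) ∂volume ∂P0 μ := by
  have m : Measurable fun p : O0 d × unitInterval => F (p.1.1, Function.update p.1.2 i p.2) :=
    hF.comp (measurable_fst.fst.prodMk (measurable_update'.comp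
      (measurable_fst.snd.prodMk measurable_snd)))
  have m2 : Measurable fun ω : O0 d => ∫ u, F (ω.1, Function.update ω.2 i u) ∂volume :=
    m.stronglyMeasurable.integral_prod_right'.measurable
  have b2 : ∀ ω : O0 d, |∫ u, F (ω.1, Function.update ω.2 i u) ∂volume| ≤ C := fun ω => by
    simpa using norm_integral_le_of_norm_le_const (μ := (volume : Measure unitInterval))
      (f := fun u => F (ω.1, Function.update ω.2 i u)) (C := C) (ae_of_all _ fun u => hC _)
  unfold P0
  rw [integral_prod _ (ibdd hF hC), integral_prod _ (ibdd m2 b2)]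
  refine integral_congr_ae (ae_of_all _ fun σ => ?_)
  exact updU i (F := fun w => F (σ, w)) (hF.comp measurable_prodMk_left) fun _ => hC _

lemma mix' (hC : StmtC) {e m : ℝ} {F : ℝ → ℝ} (h0 : 0 ≤ e) (h1 : e ≤ 1) (hm : |m| ≤ 1)
    (hF : Measurable F) (hb : Bdd F) :
    (1 + m) / 2 * (∫ u, F (obs e u)) + (1 - m) / 2 * (∫ u, F (-obs e u)) =
      ∫ u, F (obs (e * m) u) := by
  obtain ⟨D, hD⟩ := hb
  have he : |e| ≤ 1 := abs_le.2 ⟨by linarith, h1⟩
  have hem : |e * m| ≤ 1 := by
    rw [abs_mul]; exact mul_le_one₀ he (abs_nonneg _) hm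
  have a := hC.law e (fun y => F (-y)) he (hF.comp measurable_neg) ⟨D, fun _ => hD _⟩
  have c := intervalIntegral.integral_comp_neg (a := (-1 : ℝ)) (b := 1)
    fun y => F y * ((1 + e * -y / 2) / 2)
  simp only [neg_neg] at c
  have iF : IntervalIntegrable F volume (-1) 1 :=
    (intervalIntegrable_const (c := D)).mono_fun' hF.aestronglyMeasurable
      (ae_of_all _ fun y => hD y)
  have i1 : IntervalIntegrable (fun y => F y * ((1 + e * y / 2) / 2)) volume (-1) 1 :=
    iF.mul_continuousOn (by fun_prop)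
  have i2 : IntervalIntegrable (fun y => F y * ((1 + e * -y / 2) / 2)) volume (-1) 1 :=
    iF.mul_continuousOn (by fun_prop)
  rw [a, c, hC.law e F he hF ⟨D, hD⟩, hC.law _ F hem hF ⟨D, hD⟩,
    ← intervalIntegral.integral_const_mul, ← intervalIntegral.integral_const_mul,
    ← intervalIntegral.integral_add (i1.const_mul _) (i2.const_mul _)]
  congr 1
  funext y
  ring

lemma meas_ind (B : Set (I d)) : Measurable fun a : I d → ℝ => B.indicator a := by
  refine measurable_pi_lambda _ fun j => ?_
  by_cases h : j ∈ B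
  · simp only [Set.indicator_of_mem h]; exact measurable_pi_apply j
  · simp only [Set.indicator_of_notMem h]; exact measurable_const

lemma meas_tanh : Measurable tanh := by
  have : tanh = fun x => sinh x / cosh x := funext tanh_eq_sinh_div_cosh
  rw [this]
  fun_prop

lemma ind_update {B : Set (I d)} {i : I d} (hi : i ∉ B) (e : I d → ℝ) (ω : O0 d)
    (u : unitInterval) :
    B.indicator (Yq e (ω.1, Function.update ω.2 i u)) = B.indicator (Yq e ω) := by
  refine Set.indicator_congr fun j hj => ?_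
  simp only [Yq, Function.update_of_ne (ne_of_mem_of_not_mem hj hi)]

lemma innov_aux (b : Base d θ μ) (hB : StmtB d θ μ) {β : ℝ} {e : I d → ℝ} {B : Set (I d)}
    {i : I d} (hb : Bnd β e B) (hi : i ∉ B) (φ : (I d → ℝ) × unitInterval → ℝ)
    (hφ : Measurable φ) (hφb : Bdd φ) :
    ∫ ω, φ (B.indicator (Yq e ω), inn θ e B (Yq e ω) i) ∂P0 μ =
      ∫ ω, ∫ r, φ (B.indicator (Yq e ω), r) ∂volume ∂P0 μ := by
  haveI := b.crit.hμ.1
  obtain ⟨D, hD⟩ := hφb
  have mY := b.F.meas_Yq e
  have mA' : Measurable fun ω => B.indicator (Yq e ω) := (meas_ind B).comp mY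
  have mM : Measurable fun a => mA θ e B a i.1 := meas_tanh.comp (b.F.meas_HA e B _ _)
  have hM : ∀ a, mA θ e B (B.indicator a) i.1 = mA θ e B a i.1 := fun a => by
    rw [mA, b.F.HA_mask e B B a subset_rfl, mA]
  set G : Bool → (I d → ℝ) → ℝ := fun s a =>
    ∫ u, φ (a, cdf (e i * mA θ e B a i.1) (spin s * obs (e i) u)) ∂volume with hG
  have mo : Measurable fun u => obs (e i) u := P161.measurable_obs.comp measurable_prodMk_left
  have mG : ∀ s, Measurable (G s) := fun s =>
    (hφ.comp (measurable_fst.prodMk (b.C.meas_cdf.comp ((measurable_const.mul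
      (mM.comp measurable_fst)).prodMk (measurable_const.mul (mo.comp measurable_snd)))))
      ).stronglyMeasurable.integral_prod_right'.measurable
  have bG : ∀ s a, |G s a| ≤ D := fun s a => by
    simpa using norm_integral_le_of_norm_le_const (μ := (volume : Measure unitInterval))
      (f := fun u => φ (a, cdf (e i * mA θ e B a i.1) (spin s * obs (e i) u))) (C := D)
      (ae_of_all _ fun u => hD _)
  have bF : ∀ a, |(G true a - G false a) / 2| ≤ D := fun a => by
    have h1 := abs_le.1 (bG true a)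
    have h2 := abs_le.1 (bG false a)
    rw [abs_le]; constructor <;> linarith [h1.1, h1.2, h2.1, h2.2]
  have bF0 : ∀ a, |(G true a + G false a) / 2| ≤ D := fun a => by
    have h1 := abs_le.1 (bG true a)
    have h2 := abs_le.1 (bG false a)
    rw [abs_le]; constructor <;> linarith [h1.1, h1.2, h2.1, h2.2]
  have mF : Measurable fun a => (G true a - G false a) / 2 := ((mG _).sub (mG _)).div_const 2
  have mF0 : Measurable fun a => (G true a + G false a) / 2 := ((mG _).add (mG _)).div_const 2
  have t0 := hB.test0 β e B hb i.1 _ mF ⟨D, bF⟩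
  have s1 : ∀ ω : O0 d, ∫ u, φ (B.indicator (Yq e (ω.1, Function.update ω.2 i u)),
      inn θ e B (Yq e (ω.1, Function.update ω.2 i u)) i) ∂volume =
      (G true (B.indicator (Yq e ω)) + G false (B.indicator (Yq e ω))) / 2 + spin (ω.1 i.1) *
        ((G true (B.indicator (Yq e ω)) - G false (B.indicator (Yq e ω))) / 2) := by
    intro ω
    have : ∫ u, φ (B.indicator (Yq e (ω.1, Function.update ω.2 i u)),
        inn θ e B (Yq e (ω.1, Function.update ω.2 i u)) i) ∂volume =
        G (ω.1 i.1) (B.indicator (Yq e ω)) := by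
      refine integral_congr_ae (ae_of_all _ fun u => ?_)
      simp only [inn]
      rw [← hM, ind_update hi]
      simp only [Yq, Function.update_self]
    rw [this]
    cases ω.1 i.1 <;> simp only [spin] <;> norm_num <;> ring
  have ms : Measurable fun ω : O0 d => spin (ω.1 i.1) :=
    (Measurable.of_discrete (f := spin)).comp ((measurable_pi_apply _).comp measurable_fst)
  have bm : ∀ {x y : ℝ}, |x| ≤ 1 → |y| ≤ D → |x * y| ≤ D := fun hx hy => by
    rw [abs_mul]
    exact (mul_le_of_le_one_left (abs_nonneg _) hx).trans hy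
  have i0 := ibdd (P := P0 μ) (mF0.comp mA') fun ω => bF0 _
  have i1 := ibdd (P := P0 μ) (ms.mul (mF.comp mA')) fun ω => bm (P161.spin_abs _).le (bF _)
  have i2 := ibdd (P := P0 μ) ((mM.comp mY).mul (mF.comp mA'))
    fun ω => bm (abs_tanh_lt_one _).le (bF _)
  rw [upd0 i (F := fun ω => φ (B.indicator (Yq e ω), inn θ e B (Yq e ω) i))
    (hφ.comp (mA'.prodMk ((b.F.meas_inn e B i).comp mY))) fun _ => hD _,
    integral_congr_ae (ae_of_all _ s1)]
  refine (integral_add i0 i1).trans ?_
  refine (congrArg _ t0).trans ((integral_add i0 i2).symm.trans ?_)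
  refine integral_congr_ae (ae_of_all _ fun ω => ?_)
  have hm : |mA θ e B (Yq e ω) i.1| ≤ 1 := (abs_tanh_lt_one _).le
  have hem : |e i * mA θ e B (Yq e ω) i.1| ≤ 1 := by
    rw [abs_mul, abs_of_nonneg (hb.1 i).1]; exact mul_le_one₀ (hb.1 i).2 (abs_nonneg _) hm
  have k := mix' b.C (hb.1 i).1 (hb.1 i).2 hm
    (F := fun y => φ (B.indicator (Yq e ω), cdf (e i * mA θ e B (Yq e ω) i.1) y))
    (hφ.comp (measurable_const.prodMk (b.C.meas_cdf.comp measurable_prodMk_left)))
    ⟨D, fun _ => hD _⟩
  simp only [b.C.cdf_obs _ _ hem] at k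
  simp only [Function.comp_def, Pi.mul_apply]
  rw [← k]
  simp only [hG, hM, spin, if_true, one_mul, Bool.false_eq_true, if_false, neg_mul]
  ring

lemma jump_aux (b : Base d θ μ) (hB : StmtB d θ μ) {β : ℝ} {e : I d → ℝ} {B : Set (I d)}
    {i : I d} (hb : Bnd β e (insert i B)) (hi : i ∉ B) : ∀ᵐ ω ∂P0 μ,
    mA θ e (insert i B) (Yq e ω) 1 = mA θ e B (Yq e ω) 1 + e i * AA θ e B (Yq e ω) i.1 *
      gain (e i * mA θ e B (Yq e ω) i.1) (inn θ e B (Yq e ω) i) := by
  have hb0 := b.F.bnd_mono β e _ B hb (Set.subset_insert i B)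
  filter_upwards [hB.recur β e _ hb, hB.recur β e _ hb0] with ω r1 r0
  have hy := b.F.Yq_le e ω
  have e1 : yA e (insert i B) (Yq e ω) i = e i * Yq e ω i := by
    rw [yA, Set.indicator_of_mem (Set.mem_insert i B)]
  have e2 : ∀ j, j ≠ i → yA e B (Yq e ω) j = yA e (insert i B) (Yq e ω) j := fun j hj => by
    simp only [yA, Set.indicator_apply, Set.mem_insert_iff, hj, false_or]
  have he : |e i| ≤ 1 := by rw [abs_of_nonneg (hb.1 i).1]; exact (hb.1 i).2
  have hey : |e i * Yq e ω i| ≤ 1 := by
    rw [abs_mul]; exact mul_le_one₀ he (abs_nonneg _) (hy i)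
  have hem : |e i * mA θ e B (Yq e ω) i.1| ≤ 1 := by
    rw [abs_mul]; exact mul_le_one₀ he (abs_nonneg _) (abs_tanh_lt_one _).le
  have k := b.A.jump _ _ _ _ i.1 (e i * Yq e ω i / 2) r0 r1
    (by rw [abs_div, abs_two]; linarith)
    (fun z => by
      rw [b.F.bI_add β _ _ i (b.F.adm β e _ _ hb hy)
        (by rw [yA, Set.indicator_of_notMem hi, mul_zero]) e2 z, e1])
    fun x a hx => (b.F.HI_dep _ _ _ _ fun j hj => e2 j fun h => hx (h ▸ hj)).symm
  rw [gain, inn, b.C.obs_cdf _ _ hem (hy i)]
  refine k.trans ?_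
  simp only [mA, AA]
  congr 1
  rw [show e i * tanh (HA θ e B (Yq e ω) i.1 none) / 2 * Yq e ω i =
    tanh (HA θ e B (Yq e ω) i.1 none) * (e i * Yq e ω i / 2) by ring]
  ring

lemma law_aux (b : Base d θ μ) (hB : StmtB d θ μ) {e t : I d → ℝ} (ht : Function.Injective t)
    (hb : ∀ j, ∃ β, Bnd β e {l | t l < t j}) :
    (P0 μ).map (fun ω j => inn θ e {l | t l < t j} (Yq e ω) j) = PU d := by
  haveI := b.crit.hμ.1
  have mY := b.F.meas_Yq e
  have mg : Measurable fun (a : I d → ℝ) j => inn θ e {l | t l < t j} a j :=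
    measurable_pi_lambda _ fun j => b.F.meas_inn e _ j
  refine Measure.eq_infinitePi _ fun s T hT => ?_
  have mS : ∀ s : Finset (I d), MeasurableSet (Set.pi (s : Set (I d)) T) := fun s =>
    MeasurableSet.pi s.countable_toSet fun j _ => hT j
  have mgY : Measurable fun ω j => inn θ e {l | t l < t j} (Yq e ω) j := mg.comp mY
  rw [Measure.map_apply mgY (mS s)]
  suffices h : (P0 μ).real ((fun ω j => inn θ e {l | t l < t j} (Yq e ω) j) ⁻¹'
      Set.pi (s : Set (I d)) T) = ∏ j ∈ s, volume.real (T j) by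
    rw [← ENNReal.toReal_eq_toReal_iff' (measure_ne_top _ _)
      (ENNReal.prod_ne_top fun _ _ => measure_ne_top _ _), ENNReal.toReal_prod]
    exact h
  induction s using Finset.induction_on_max_value t with
  | empty => simp
  | insert i s hi hmax ih =>
    obtain ⟨β, hβ⟩ := hb i
    have hlt : ∀ j ∈ s, t j < t i := fun j hj =>
      lt_of_le_of_ne (hmax j hj) fun h => hi (ht h ▸ hj)
    set S := (fun (a : I d → ℝ) j => inn θ e {l | t l < t j} a j) ⁻¹' Set.pi (s : Set (I d)) T
      with hS
    have mS' : MeasurableSet S := mg (mS s)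
    have k := innov_aux b hB hβ (i := i) (lt_irrefl (t i)) ((S ×ˢ T i).indicator 1)
      (measurable_one.indicator (mS'.prod (hT i)))
      ⟨1, fun p => by by_cases hp : p ∈ S ×ˢ T i <;> simp [hp]⟩
    have hmask : ∀ ω, {l | t l < t i}.indicator (Yq e ω) ∈ S ↔ Yq e ω ∈ S := fun ω => by
      simp only [hS, Set.mem_preimage, Set.mem_pi, mem_coe]
      refine forall₂_congr fun j hj => ?_
      have hsub : {l | t l < t j} ⊆ {l | t l < t i} := fun l (hl : t l < t j) =>
        hl.trans (hlt j hj)
      rw [inn, inn, mA, mA, b.F.HA_mask e _ _ _ hsub,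
        Set.indicator_of_mem (show j ∈ {l | t l < t i} from hlt j hj)]
    rw [prod_insert hi, ← ih, ← integral_indicator_one (mgY (mS _)),
      ← integral_indicator_one (mgY (mS _)), ← integral_const_mul]
    refine Eq.trans (integral_congr_ae (ae_of_all _ fun ω => ?_)) (k.trans
      (integral_congr_ae (ae_of_all _ fun ω => ?_)))
    · simp only [Set.indicator_apply, Set.mem_prod, hmask, Pi.one_apply]
      simp only [coe_insert, Set.insert_pi, Set.mem_preimage, Set.mem_inter_iff, hS, and_comm,
        Function.eval]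
    · by_cases hω : Yq e ω ∈ S
      · have : ∀ r, (S ×ˢ T i).indicator (1 : (I d → ℝ) × unitInterval → ℝ)
            ({l | t l < t i}.indicator (Yq e ω), r) = (T i).indicator 1 r := fun r => by
          simp only [Set.indicator_apply, Set.mem_prod, hmask, hω, true_and, Pi.one_apply]
        simp only [this]
        rw [integral_indicator_one (hT i), Set.indicator_of_mem (by exact hω)]
        simp
      · have : ∀ r, (S ×ˢ T i).indicator (1 : (I d → ℝ) × unitInterval → ℝ)
            ({l | t l < t i}.indicator (Yq e ω), r) = 0 := fun r => by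
          simp only [Set.indicator_apply, Set.mem_prod, hmask, hω, false_and, if_false]
        simp only [this]
        rw [Set.indicator_of_notMem (by exact hω)]
        simp

end JJ

theorem stmtJ {d : ℕ} {θ : ℝ} {μ : Measure (W d → Bool)} (b : Base d θ μ) (hB : StmtB d θ μ) :
    StmtJ d θ μ where
  innov := fun _ _ _ _ hb hi φ hφ hφb => JJ.innov_aux b hB hb hi φ hφ hφb
  jump := fun _ _ _ _ hb hi => JJ.jump_aux b hB hb hi
  law := fun _ _ ht hb => JJ.law_aux b hB ht hb

end Vale.Agent.P161E
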