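import Vale.Agent.P161E.Th

namespace Vale.Agent.P161E

open MeasureTheory ProbabilityTheory Filter Topology Finset Real
open Vale.Agent.P161 (spin)

namespace Mc

lemma cosh_le {T H t h : ℝ} (ht0 : 0 ≤ t) (ht : t ≤ T) (hh : |h| ≤ H) :
    cosh (t * h) ≤ 1 + (T ^ 2 / 2 * cosh H ^ 2 * exp (T ^ 2 * H ^ 2 / 2)) * tanh h ^ 2 := by
  have hH : 0 ≤ H := (abs_nonneg _).trans hh
  have h1 : h ^ 2 ≤ H ^ 2 := sq_le_sq.2 (by rwa [abs_of_nonneg hH])
  have h2 : t ^ 2 ≤ T ^ 2 := pow_le_pow_left₀ ht0 ht 2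
  have h3 : cosh h ^ 2 ≤ cosh H ^ 2 :=
    pow_le_pow_left₀ (cosh_pos _).le (Real.cosh_le_cosh.2 (by rwa [abs_of_nonneg hH])) 2
  have h4 : h ^ 2 ≤ tanh h ^ 2 * cosh H ^ 2 :=
    (Th.sq_le_tanh h).trans (mul_le_mul_of_nonneg_left h3 (sq_nonneg _))
  obtain ⟨y, hy⟩ : ∃ y, y = (t * h) ^ 2 / 2 := ⟨_, rfl⟩
  have hy0 : 0 ≤ y := by rw [hy]; positivity
  have hy1 : y ≤ T ^ 2 * H ^ 2 / 2 := by
    rw [hy, mul_pow]
    have := mul_le_mul h2 h1 (sq_nonneg _) (sq_nonneg _)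
    linarith
  have hy2 : y ≤ T ^ 2 / 2 * cosh H ^ 2 * tanh h ^ 2 := by
    rw [hy, mul_pow]
    have := mul_le_mul h2 h4 (sq_nonneg _) (sq_nonneg _)
    linarith
  have e1 : cosh (t * h) ≤ exp y := hy ▸ Real.cosh_le_exp_half_sq _
  have e2 : exp y ≤ 1 + y * exp y := by
    have := Real.add_one_le_exp (-y)
    have h5 : exp (-y) * exp y = 1 := by rw [← exp_add]; simp
    nlinarith [exp_pos y]
  have e3 : y * exp y ≤ (T ^ 2 / 2 * cosh H ^ 2 * tanh h ^ 2) * exp (T ^ 2 * H ^ 2 / 2) :=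
    mul_le_mul hy2 (exp_le_exp.2 hy1) (exp_pos _).le (hy0.trans hy2)
  linarith

variable {d : ℕ} {θ : ℝ} {μ : Measure (W d → Bool)}

lemma int_cosh (b : Base d θ μ) (hR : StmtR d θ μ) (s t : ℝ) (z : W d) (α : Option (Fin d)) :
    Integrable (fun ω => cosh (t * hg θ s z α ω)) (PP μ) := by
  have := b.crit.hμ.1
  obtain ⟨C, hC⟩ := (hR.nish_hg s z α).bdd
  refine Th.ibdd _ (Real.continuous_cosh.measurable.comp ((hR.meas_hg s z α).const_mul t))
    (C := cosh (|t| * C)) fun ω => ?_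
  rw [abs_of_pos (cosh_pos _)]
  refine Real.cosh_le_cosh.2 ?_
  rw [abs_mul, abs_mul, abs_abs]
  exact mul_le_mul_of_nonneg_left ((hC ω).trans (le_abs_self _)) (abs_nonneg _)

/-- one step of the recursion -/
lemma one_step (b : Base d θ μ) (hR : StmtR d θ μ) {s β t M : ℝ} (ht : 0 ≤ t)
    (hβ : ∀ ω : Om d, |bg s ω| ≤ β)
    (h : ∀ a, ∫ ω, cosh (θ * (t + 1) * hg θ s 1 (some a) ω) ∂PP μ ≤ exp M) (a : Fin d) :
    ∫ ω, cosh (t * hg θ s 1 (some a) ω) ∂PP μ ≤ exp (t * β + (d - 1 : ℕ) * M) := by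
  have := b.crit.hμ.1
  have h0 := b.crit.h0
  refine (b.N.cosh_le _ _ t (hR.nish_hg s 1 (some a)) ht).1.trans ?_
  have hi : iIndepFun (fun o ω => (piece θ 1 s 0 o ω).1) (PP μ) :=
    (hR.indep 1 s 0).comp (fun _ => Prod.fst) fun _ => measurable_fst
  have hm := hi.mgf_sum (t := t) (fun o => (hR.meas_piece 1 s 0 o).fst)
    (insertNone (dirs (some a)))
  have e1 : ∫ ω, exp (t * hg θ s 1 (some a) ω) ∂PP μ =
      mgf (∑ o ∈ insertNone (dirs (some a)), fun ω => (piece θ 1 s 0 o ω).1) (PP μ) t := by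
    refine integral_congr_ae ?_
    filter_upwards [hR.recur s] with ω hω
    rw [hω, Finset.sum_apply, Finset.sum_insertNone]
    rfl
  rw [e1, hm, Finset.prod_insertNone, exp_add]
  have e2 : mgf (fun ω => (piece θ 1 s 0 none ω).1) (PP μ) t ≤ exp (t * β) := by
    have : ∫ ω, exp (t * bg s ω) ∂PP μ ≤ ∫ _ω, exp (t * β) ∂PP μ := by
      refine integral_mono_of_nonneg (Eventually.of_forall fun ω => (exp_pos _).le)
        (integrable_const _) (Eventually.of_forall fun ω => ?_)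
      exact exp_le_exp.2 (mul_le_mul_of_nonneg_left ((le_abs_self _).trans (hβ ω)) ht)
    simp only [integral_const, probReal_univ, smul_eq_mul, one_mul] at this
    exact this
  have e3 : ∀ c, mgf (fun ω => (piece θ 1 s 0 (some c) ω).1) (PP μ) t ≤ exp M := fun c => by
    refine (b.N.cosh_le _ _ t (hR.nish_gc s c) ht).2.trans ?_
    refine le_trans ?_ (h c)
    have e4 : ∫ ω, cosh (θ * (t + 1) * hg θ s 1 (some c) ω) ∂PP μ =
        ∫ ω, cosh (θ * (t + 1) * hg θ s (gen c) (some c) ω) ∂PP μ := by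
      have hmp := b.I.mp (lm (gen c))
      rw [← hmp.map_eq, integral_map hmp.measurable.aemeasurable]
      · simp only [hR.hg_sh, hmp.map_eq]; rfl
      · exact (Real.continuous_cosh.measurable.comp
          ((hR.meas_hg s 1 (some c)).const_mul _)).aestronglyMeasurable
    rw [e4]
    refine integral_mono_of_nonneg (Eventually.of_forall fun ω => (cosh_pos _).le)
      (int_cosh b hR s _ _ _) (Eventually.of_forall fun ω => Real.cosh_le_cosh.2 ?_)
    rw [abs_mul, abs_mul, abs_mul, abs_of_pos h0, abs_of_nonneg (by linarith : 0 ≤ t + 1)]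
    have := mul_le_mul_of_nonneg_left (hR.gc_le s c ω) (by linarith : 0 ≤ t + 1)
    linarith
  refine mul_le_mul e2 ?_ (prod_nonneg fun _ _ => mgf_nonneg) (exp_pos _).le
  refine (prod_le_prod (fun _ _ => mgf_nonneg) fun c _ => e3 c).trans ?_
  rw [prod_const, card_dirs_some, ← Real.exp_nat_mul]

/-- the recursion solved -/
lemma solve {θ m β C₀ Q : ℝ} (B : ℝ → ℝ → Prop) (h0 : 0 < θ) (h1 : θ < 1) (hm : θ ^ 2 * m = 1)
    (hβ : 0 ≤ β) (hQ1 : C₀ ≤ Q * θ ^ 3) (hQ2 : θ / (1 - θ) + 1 ≤ (1 - θ) * Q) (hQ : 0 ≤ Q)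
    (mono : ∀ t M M', M ≤ M' → B t M → B t M')
    (base : ∀ t, 0 ≤ t → t ≤ θ / (1 - θ) + 1 → B t (C₀ * β))
    (st : ∀ t M, 0 ≤ t → B (θ * (t + 1)) M → B t (t * β + m * M)) (ν : ℝ) (hν : θ ≤ ν) :
    B (θ / (1 - θ) + ν) (Q * β * ν ^ 3) := by
  have hs : 0 ≤ θ / (1 - θ) := div_nonneg h0.le (by linarith)
  have hfix : θ * (θ / (1 - θ) + 1) = θ / (1 - θ) := by
    have : 1 - θ ≠ 0 := by linarith
    field_simp; ring
  have small : ∀ ν, θ ≤ ν → ν ≤ 1 → B (θ / (1 - θ) + ν) (Q * β * ν ^ 3) := fun ν hν h => by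
    refine mono _ _ _ ?_ (base _ (by linarith) (by linarith))
    have : θ ^ 3 ≤ ν ^ 3 := pow_le_pow_left₀ h0.le hν 3
    have h2 := mul_le_mul_of_nonneg_left this hQ
    nlinarith [mul_le_mul_of_nonneg_right (hQ1.trans h2) hβ]
  have key : ∀ j : ℕ, ∀ ν, θ ≤ ν → ν * θ ^ j ≤ 1 → B (θ / (1 - θ) + ν) (Q * β * ν ^ 3) := by
    intro j
    induction j with
    | zero => intro ν hν h; exact small ν hν (by simpa using h)
    | succ j ih =>
      intro ν hν h
      by_cases h2 : ν ≤ 1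
      · exact small ν hν h2
      push Not at h2
      have h3 := ih (θ * ν) (by nlinarith) (by rw [pow_succ] at h; linarith)
      have h4 : θ / (1 - θ) + θ * ν = θ * (θ / (1 - θ) + ν + 1) := by linarith
      rw [h4] at h3
      refine mono _ _ _ ?_ (st _ _ (by linarith) h3)
      have h5 : m * (Q * β * (θ * ν) ^ 3) = θ * (Q * β * ν ^ 3) := by
        have : m * (Q * β * (θ * ν) ^ 3) = (θ ^ 2 * m) * (θ * (Q * β * ν ^ 3)) := by ring
        rw [this, hm, one_mul]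
      have h6 : ν ≤ ν ^ 3 := by nlinarith [mul_pos (sub_pos.2 h2) (by nlinarith : 0 < ν * (ν + 1))]
      have h7 : θ / (1 - θ) + ν ≤ (θ / (1 - θ) + 1) * ν ^ 3 := by nlinarith
      have h8 : (θ / (1 - θ) + 1) * ν ^ 3 ≤ (1 - θ) * Q * ν ^ 3 :=
        mul_le_mul_of_nonneg_right hQ2 (by positivity)
      rw [h5]
      nlinarith [mul_le_mul_of_nonneg_right (h7.trans h8) hβ]
  obtain ⟨j, hj⟩ := exists_pow_lt_of_lt_one (show 0 < 1 / ν from one_div_pos.2 (by linarith)) h1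
  refine key j ν hν ?_
  rw [lt_div_iff₀ (by linarith)] at hj
  linarith

end Mc

open Mc in
theorem stmtMc {d : ℕ} {θ : ℝ} {μ : Measure (W d → Bool)} (b : Base d θ μ) (hR : StmtR d θ μ)
    (hMx : StmtMx d θ μ) : StmtMc d θ μ := by
  have := b.crit.hμ.1
  have h0 := b.crit.h0
  have h1 := b.crit.h1
  have hd := b.crit.hd
  obtain ⟨T, hT⟩ : ∃ T, T = θ / (1 - θ) + 1 := ⟨_, rfl⟩
  obtain ⟨C₁, hC₁⟩ : ∃ C₁, C₁ = T ^ 2 / 2 * cosh (Hb d θ 0) ^ 2 * exp (T ^ 2 * Hb d θ 0 ^ 2 / 2) :=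
    ⟨_, rfl⟩
  have hC0 : 0 ≤ C₁ := by rw [hC₁]; positivity
  have hs : 0 ≤ θ / (1 - θ) := div_nonneg h0.le (by linarith)
  obtain ⟨Q, hQ, hQ1, hQ2⟩ : ∃ Q, 0 ≤ Q ∧ C₁ * d ≤ Q * θ ^ 3 ∧ θ / (1 - θ) + 1 ≤ (1 - θ) * Q := by
    have p1 : 0 < 1 - θ := by linarith
    refine ⟨C₁ * d / θ ^ 3 + (θ / (1 - θ) + 1) / (1 - θ), by positivity, ?_, ?_⟩
    · rw [add_mul, div_mul_cancel₀ _ (by positivity)]
      exact le_add_of_nonneg_right (by positivity)
    · rw [mul_add, mul_div_cancel₀ _ p1.ne']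
      exact le_add_of_nonneg_left (by positivity)
  refine ⟨2 * exp (2 * Q), by positivity, fun n s hn hs' a l hl => ?_⟩
  have hβ : (0 : ℝ) ≤ 2 * 2 ^ n := by positivity
  obtain ⟨ν, hν⟩ : ∃ ν : ℝ, ν = 2 ^ (-(n : ℝ) / 3) := ⟨_, rfl⟩
  have hν1 : 1 ≤ ν := by
    rw [hν]
    refine Real.one_le_rpow (by norm_num) ?_
    have : (n : ℝ) ≤ 0 := by exact_mod_cast hn
    linarith
  have hν3 : 2 ^ n * ν ^ 3 = 1 := by
    rw [hν, ← Real.rpow_natCast, ← Real.rpow_mul (by norm_num), ← Real.rpow_intCast,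
      ← Real.rpow_add (by norm_num)]
    norm_num
  have key := solve (θ := θ) (m := ((d - 1 : ℕ) : ℝ)) (β := 2 * 2 ^ n) (C₀ := C₁ * d) (Q := Q)
    (fun t M => ∀ a, ∫ ω, cosh (t * hg θ s 1 (some a) ω) ∂PP μ ≤ exp M) h0 h1
    (by rw [Nat.cast_sub (by omega), Nat.cast_one]; exact b.crit.hc) hβ hQ1 hQ2 hQ
    (fun t M M' hM h a => (h a).trans (exp_le_exp.2 hM)) ?_
    (fun t M ht h a => one_step b hR ht (hR.bg_le n s hs') h a) ν (by linarith) a
  · rw [← hν]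
    have e : Q * (2 * 2 ^ n) * ν ^ 3 = 2 * Q := by
      have : Q * (2 * 2 ^ n) * ν ^ 3 = 2 * Q * (2 ^ n * ν ^ 3) := by ring
      rw [this, hν3, mul_one]
    rw [e] at key
    have mk := mul_meas_ge_le_integral_of_nonneg
      (Eventually.of_forall fun ω => (cosh_pos ((θ / (1 - θ) + ν) * hg θ s 1 (some a) ω)).le)
      (int_cosh b hR s (θ / (1 - θ) + ν) 1 (some a)) (exp (l * ν) / 2)
    have sub : (PP μ).real {ω | l < |tanh (Hs θ s ω 1 (some a))|} ≤
        (PP μ).real {ω | exp (l * ν) / 2 ≤ cosh ((θ / (1 - θ) + ν) * hg θ s 1 (some a) ω)} := by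
      refine measureReal_mono fun ω hω => ?_
      have q1 : l ≤ |hg θ s 1 (some a) ω| := by
        have : |hg θ s 1 (some a) ω| = |Hs θ s ω 1 (some a)| := by
          unfold hg spin; split_ifs <;> simp
        rw [this]
        exact (le_of_lt hω).trans (Th.abs_tanh_le _)
      have q2 : cosh (l * ν) ≤ cosh ((θ / (1 - θ) + ν) * hg θ s 1 (some a) ω) := by
        refine Real.cosh_le_cosh.2 ?_
        rw [abs_mul, abs_mul, abs_of_nonneg hl, abs_of_nonneg (by linarith : 0 ≤ ν),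
          abs_of_nonneg (by linarith : 0 ≤ θ / (1 - θ) + ν)]
        nlinarith [mul_nonneg hs (hl.trans q1)]
      refine le_trans ?_ q2
      rw [Real.cosh_eq]
      linarith [exp_pos (-(l * ν))]
    have q3 : exp (l * ν) / 2 * (PP μ).real {ω | l < |tanh (Hs θ s ω 1 (some a))|} ≤
        exp (2 * Q) := (mul_le_mul_of_nonneg_left sub (by positivity)).trans (mk.trans key)
    have q4 : exp (-(l * ν)) * exp (l * ν) = 1 := by rw [← exp_add]; simp
    have q5 := mul_le_mul_of_nonneg_left q3 (exp_pos (-(l * ν))).le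
    have q6 : exp (-(l * ν)) * (exp (l * ν) / 2 *
        (PP μ).real {ω | l < |tanh (Hs θ s ω 1 (some a))|}) =
        (PP μ).real {ω | l < |tanh (Hs θ s ω 1 (some a))|} / 2 := by
      rw [← mul_assoc, ← mul_div_assoc, q4]; ring
    rw [q6] at q5
    linarith
  · intro t ht0 ht c
    have hs0 : s ≤ ((0 : ℤ) : ℝ) + 1 := by
      have : (n : ℝ) ≤ 0 := by exact_mod_cast hn
      push_cast; linarith
    have e1 : ∫ ω, cosh (t * hg θ s 1 (some c) ω) ∂PP μ ≤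
        ∫ ω, (1 + C₁ * tanh (hg θ s 1 (some c) ω) ^ 2) ∂PP μ := by
      refine integral_mono (int_cosh b hR s t _ _) ((integrable_const _).add
        ((Th.int_tanh_sq _ (hR.meas_hg s 1 _)).const_mul _)) fun ω => ?_
      rw [hC₁]
      exact cosh_le ht0 (hT ▸ ht) (hR.hg_le 0 s hs0 1 _ ω)
    rw [integral_add (integrable_const _) ((Th.int_tanh_sq _ (hR.meas_hg s 1 _)).const_mul _),
      integral_const_mul] at e1
    have e2 := mul_le_mul_of_nonneg_left (hMx.up n s hs' c) hC0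
    have e3 := Real.add_one_le_exp (C₁ * d * (2 * 2 ^ n))
    simp only [integral_const, probReal_univ, smul_eq_mul, mul_one] at e1
    unfold xx at e2
    linarith

end Vale.Agent.P161E
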