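import Vale.Agent.P161E.D2

namespace Vale.Agent.P161E

open MeasureTheory ProbabilityTheory Filter Topology Finset Real
open scoped Classical

namespace Mu1m

open D2m

variable {d : ℕ} {θ : ℝ} {μ : Measure (W d → Bool)}

theorem num1 {ι : Type} (D : ι → Finset ι) (q ρ : ℝ) (m : ℕ → ι → ℝ → ℝ) (hρ : 0 < ρ)
    (hρ1 : ρ ≤ 1 / 2) (hq0 : 0 ≤ q) (hq : q ≤ 1) (hD : ∀ a, (D a).card * q = 1 + ρ / 2)
    (hA : ∀ a l, 0 ≤ l → m 0 a l ≤ exp l) (h1 : ∀ K a l, 0 ≤ l → 1 ≤ m K a l)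
    (hC : ∀ K a l, 0 ≤ l → m (K + 1) a l ≤ exp l * ∏ c ∈ D a, m K c (l * q) -
      ρ * ∑ c ∈ D a, (m K c (l * q) - 1)) (K : ℕ) :
    ∀ a l, 0 ≤ l → l * (2 + 16 / ρ) ^ 2 ≤ 2 → m K a l ≤ 1 + 8 / ρ * l := by
  have hM : 16 ≤ 8 / ρ := by rw [le_div_iff₀ hρ]; linarith
  have hM2 : 16 / ρ = 2 * (8 / ρ) := by ring
  have hMρ : 8 / ρ * ρ = 8 := by field_simp
  rw [hM2]
  generalize 8 / ρ = M at hM hMρ
  have he : ∀ l, 0 ≤ l → l * (2 + 2 * M) ^ 2 ≤ 2 → l * (2 + 2 * M) ≤ 1 ∧ exp l - 1 ≤ 2 * l := by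
    intro l h0 hl
    have a1 : l * (2 + 2 * M) ≤ 1 := by nlinarith [mul_nonneg h0 (show 0 ≤ M by linarith)]
    have a2 : l ≤ 1 := by nlinarith
    have := (abs_le.1 (abs_exp_sub_one_le (x := l) (by rwa [abs_of_nonneg h0]))).2
    rw [abs_of_nonneg h0] at this
    exact ⟨a1, this⟩
  induction K with
  | zero =>
    intro a l h0 hl
    have := hA a l h0
    nlinarith [(he l h0 hl).2]
  | succ K ih =>
    intro a l h0 hl
    obtain ⟨e1, e2⟩ := he l h0 hl
    have ht : 0 ≤ l * q := mul_nonneg h0 hq0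
    have ht' : l * q * (2 + 2 * M) ^ 2 ≤ 2 :=
      (mul_le_mul_of_nonneg_right (mul_le_of_le_one_right h0 hq) (sq_nonneg _)).trans hl
    set A := ∑ c ∈ D a, (m K c (l * q) - 1) with hA'
    have a0 : 0 ≤ A := Finset.sum_nonneg fun c _ => sub_nonneg.2 (h1 _ _ _ ht)
    have a1 : A ≤ M * l * (1 + ρ / 2) := by
      have := Finset.sum_le_card_nsmul (D a) (fun c => m K c (l * q) - 1) (M * (l * q))
        fun c _ => by linarith [ih c _ ht ht']
      rw [nsmul_eq_mul] at this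
      rw [← hD a]
      linarith
    have a2 : ∏ c ∈ D a, m K c (l * q) ≤ exp A := by
      have := prod_one_add_le_exp_sum (D a) (f := fun c => m K c (l * q) - 1)
        fun c => sub_nonneg.2 (h1 _ _ _ ht)
      simpa only [add_sub_cancel] using this
    have e0 : 0 ≤ exp l - 1 := sub_nonneg.2 (one_le_exp h0)
    have a3 : exp l * ∏ c ∈ D a, m K c (l * q) ≤ exp (exp l - 1 + A) := by
      rw [exp_add]
      exact mul_le_mul (by linarith [add_one_le_exp (exp l - 1)]) a2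
        (Finset.prod_nonneg fun c _ => zero_le_one.trans (h1 _ _ _ ht)) (exp_pos _).le
    have hMl : 0 ≤ M * l := mul_nonneg (by linarith) h0
    have s1 : exp l - 1 + A ≤ l * (2 + 2 * M) := by nlinarith
    have s2 := (abs_le.1 (abs_exp_sub_one_sub_id_le (x := exp l - 1 + A)
      (by rw [abs_of_nonneg (by linarith)]; linarith))).2
    have s3 : (exp l - 1 + A) ^ 2 ≤ 2 * l := by
      have := pow_le_pow_left₀ (by linarith) s1 2
      nlinarith
    have s4 : (1 - ρ) * A ≤ M * l - 4 * l := by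
      have := mul_le_mul_of_nonneg_left a1 (show 0 ≤ 1 - ρ by linarith)
      have h5 : M * l * ρ = 8 * l := by rw [mul_right_comm, hMρ]
      nlinarith [mul_nonneg hMl (sq_nonneg ρ)]
    linarith [hC K a l h0]

theorem num2 {ι : Type} (D : ι → Finset ι) (q ρ : ℝ) (m : ℕ → ι → ℝ → ℝ) (hρ : 0 < ρ)
    (hρ1 : ρ ≤ 1 / 2) (hq0 : 0 ≤ q) (hq : q ≤ 5 / 8) (hD : ∀ a, (D a).card * q = 1 + ρ / 2)
    (hA : ∀ a l, 0 ≤ l → m 0 a l ≤ exp l) (h1 : ∀ K a l, 0 ≤ l → 1 ≤ m K a l)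
    (hC : ∀ K a l, 0 ≤ l → m (K + 1) a l ≤ exp l * ∏ c ∈ D a, m K c (l * q) -
      ρ * ∑ c ∈ D a, (m K c (l * q) - 1)) (K : ℕ) :
    ∀ a l, 0 ≤ l → m K a l ≤ exp (8 / ρ * l + 12 * (2 + 16 / ρ) ^ 2 * l ^ 2) := by
  have hM : 16 ≤ 8 / ρ := by rw [le_div_iff₀ hρ]; linarith
  have hMρ : 8 / ρ * ρ = 8 := by field_simp
  have hs := num1 D q ρ m hρ hρ1 hq0 (by linarith) hD hA h1 hC
  have hH : 0 ≤ (2 + 16 / ρ) ^ 2 := sq_nonneg _
  generalize (2 + 16 / ρ) ^ 2 = H at hs hH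
  generalize 8 / ρ = M at hM hMρ hs
  induction K with
  | zero =>
    intro a l h0
    refine (hA a l h0).trans (exp_le_exp.2 ?_)
    nlinarith [mul_nonneg hH (sq_nonneg l)]
  | succ K ih =>
    intro a l h0
    by_cases hl : l * H ≤ 2
    · refine (hs _ a l h0 hl).trans ?_
      nlinarith [mul_nonneg hH (sq_nonneg l), add_one_le_exp (M * l + 12 * H * l ^ 2)]
    · have ht : 0 ≤ l * q := mul_nonneg h0 hq0
      have a0 : 0 ≤ ρ * ∑ c ∈ D a, (m K c (l * q) - 1) :=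
        mul_nonneg hρ.le (Finset.sum_nonneg fun c _ => sub_nonneg.2 (h1 _ _ _ ht))
      have a1 := Finset.prod_le_prod (s := D a) (fun c _ => zero_le_one.trans (h1 K c _ ht))
        fun c _ => ih c _ ht
      rw [Finset.prod_const] at a1
      have a2 : exp l * ∏ c ∈ D a, m K c (l * q) ≤
          exp (l + (D a).card * (M * (l * q) + 12 * H * (l * q) ^ 2)) := by
        rw [exp_add, exp_nat_mul]
        exact mul_le_mul_of_nonneg_left a1 (exp_pos _).le
      refine ((hC K a l h0).trans ((sub_le_self _ a0).trans a2)).trans (exp_le_exp.2 ?_)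
      have e1 : ((D a).card : ℝ) * (M * (l * q) + 12 * H * (l * q) ^ 2) =
          M * l + 4 * l + 12 * H * l ^ 2 * ((1 + ρ / 2) * q) := by
        rw [← hD a]
        have : M * l * ((D a).card * q) = M * l + 4 * l := by rw [hD a]; linear_combination l / 2 * hMρ
        linear_combination this
      have e2 : (1 + ρ / 2) * q ≤ 25 / 32 := by nlinarith
      have e3 := mul_le_mul_of_nonneg_left e2 (show 0 ≤ 12 * H * l ^ 2 by positivity)
      have e4 := mul_le_mul_of_nonneg_left (le_of_not_ge hl) h0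
      rw [e1]
      nlinarith

theorem exp_sum_ge {ι : Type} (S : Finset ι) (x : ι → ℝ) (hx : ∀ i, 0 ≤ x i) (l : ℝ) (hl : 0 ≤ l) :
    exp l + ∑ i ∈ S, (exp (x i) - 1) ≤ exp (l + ∑ i ∈ S, x i) := by
  induction S using Finset.induction_on with
  | empty => simp
  | insert a S ha ih =>
    rw [Finset.sum_insert ha, Finset.sum_insert ha, add_left_comm l, exp_add (x a)]
    have h1 := one_le_exp (hx a)
    have h2 := one_le_exp (add_nonneg hl (Finset.sum_nonneg fun i (_ : i ∈ S) => hx i))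
    nlinarith [mul_nonneg (sub_nonneg.2 h1) (sub_nonneg.2 h2)]

theorem ptw {ι : Type} (S : Finset ι) (x : ι → ℝ) (hx : ∀ i, 0 ≤ x i) {l κ : ℝ} (hl : 0 ≤ l)
    (h0 : 0 ≤ κ) (h1 : κ ≤ 1) : exp (κ * (l + ∑ i ∈ S, x i)) ≤
      exp (l + ∑ i ∈ S, x i) - ∑ i ∈ S, (1 - κ) * (exp (x i) - 1) := by
  have a1 := convexOn_exp.2 (Set.mem_univ (l + ∑ i ∈ S, x i)) (Set.mem_univ 0) h0
    (sub_nonneg.2 h1) (by ring)
  simp only [smul_eq_mul, mul_zero, add_zero, exp_zero, mul_one] at a1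
  have a2 := exp_sum_ge S x hx l hl
  have a3 := one_le_exp hl
  rw [← Finset.mul_sum]
  nlinarith

theorem UK_bd (b : Base d θ μ) (s : ℝ) {r : ℝ} (hr : 0 ≤ r) (K : ℕ) :
    ∃ C, ∀ (z : W d) c ω, 0 ≤ UK θ r s K z c ω ∧ UK θ r s K z c ω ≤ C := by
  obtain ⟨C, hC⟩ := b.A.VK_bdd r K hr
  refine ⟨C, fun z c ω => ?_⟩
  have h1 := zero_le_one.trans (b.A.VK_ge r (Hs θ s ω) K z (some c) hr)
  exact ⟨mul_nonneg (sq_nonneg _) h1, (mul_le_of_le_one_left h1
    (pow_le_one₀ (b.A.kap_pos _).le (b.A.kap_le_one _))).trans (hC _ _ _)⟩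

theorem mb_exp {f : Om d → ℝ} (hf : MB μ f) : MB μ fun ω => exp (f ω) := by
  obtain ⟨h1, C, h2⟩ := hf
  exact ⟨h1.exp, exp C, h2.mono fun ω h => by
    rw [abs_of_pos (exp_pos _)]; exact exp_le_exp.2 (abs_le.1 h).2⟩

theorem mb_UK (b : Base d θ μ) (hR : StmtR d θ μ) (s : ℝ) {r : ℝ} (hr : 0 ≤ r) (K : ℕ) (z : W d)
    (c : Fin d) : MB μ (UK θ r s K z c) := by
  obtain ⟨C, hC⟩ := UK_bd b s hr K
  exact ⟨hR.meas_UK r s K z c, C, Eventually.of_forall fun ω => by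
    rw [abs_of_nonneg (hC z c ω).1]; exact (hC z c ω).2⟩

theorem meas_tanh : Measurable tanh := by
  have : tanh = fun x => sinh x / cosh x := funext tanh_eq_sinh_div_cosh
  rw [this]
  exact measurable_sinh.div measurable_cosh

theorem mb_tanh {f : Om d → ℝ} (hf : Measurable f) : MB μ fun ω => tanh (f ω) ^ 2 :=
  MB.sq ⟨meas_tanh.comp hf, 1,
    Eventually.of_forall fun _ => (abs_tanh_lt_one _).le⟩

theorem indep_rest (hR : StmtR d θ μ) (r s : ℝ) (K : ℕ) (S : Finset (Fin d)) {c c' : Fin d}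
    (hc : c ≠ c') (hS : c' ∉ S) {g : ℝ → ℝ} (hg : Measurable g) :
    IndepFun (gc θ s c') (fun ω => (bg s ω + ∑ e ∈ S, gc θ s e ω, g (UK θ r s K (gen c) c ω)))
      (PP μ) := by
  have h1 := (hR.indep r s K).indepFun_finset {some c'} (univ.erase (some c'))
    (by simp) (hR.meas_piece r s K)
  have m1 : ∀ e : S, some (e : Fin d) ∈ univ.erase (some c') := fun e => by
    simpa using fun h : (e : Fin d) = c' => hS (h ▸ e.2)
  have m2 : none ∈ univ.erase (some c') := by simp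
  have m3 : some c ∈ univ.erase (some c') := by simpa using hc
  have h2 := h1.comp (φ := fun x => (x ⟨some c', mem_singleton_self _⟩).1)
    (ψ := fun x => ((x ⟨none, m2⟩).1 + ∑ e : S, (x ⟨some e, m1 e⟩).1, g (x ⟨some c, m3⟩).2))
    (measurable_pi_apply _).fst (((measurable_pi_apply _).fst.add
      (Finset.measurable_sum _ fun e _ => (measurable_pi_apply _).fst)).prodMk
        (hg.comp (measurable_pi_apply _).snd))
  simp only [← Finset.sum_coe_sort S]
  exact h2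

theorem anti (b : Base d θ μ) (hR : StmtR d θ μ) (s : ℝ) {r t : ℝ} (hr : 0 ≤ r) (ht : 0 ≤ t) (K : ℕ)
    (S : Finset (Fin d)) {c c' : Fin d} (hc : c ≠ c') (hS : c' ∉ S) :
    (1 - θ) / 2 * xx (PP μ) (gc θ s c') * ∫ ω, (exp (t * UK θ r s K (gen c) c ω) - 1) ∂PP μ ≤
      ∫ ω, tanh (bg s ω + ∑ e ∈ S, gc θ s e ω + gc θ s c' ω) ^ 2 *
        (exp (t * UK θ r s K (gen c) c ω) - 1) ∂PP μ := by
  have := b.crit.hμ.1
  obtain ⟨C, hC⟩ := UK_bd b s hr K
  have hi := indep_rest hR r s K S hc hS (g := fun u => exp (t * u) - 1) (by fun_prop)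
  have mg : ∀ e, Measurable (gc θ s e) := fun e => (hR.nish_gc s e).mX
  have mr : Measurable fun ω => bg s ω + ∑ e ∈ S, gc θ s e ω :=
    (hR.nish_bg s).mX.add (Finset.measurable_sum _ fun e _ => mg e)
  have mu := (mb_exp ((MB.const t).mul (mb_UK b hR s hr K (gen c) c))).sub (MB.const 1)
  have hu : ∀ ω, 0 ≤ exp (t * UK θ r s K (gen c) c ω) - 1 ∧
      exp (t * UK θ r s K (gen c) c ω) - 1 ≤ exp (t * C) := fun ω =>
    ⟨sub_nonneg.2 (one_le_exp (mul_nonneg ht (hC _ _ _).1)), (sub_le_self _ zero_le_one).trans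
      (exp_le_exp.2 (mul_le_mul_of_nonneg_left (hC _ _ _).2 ht))⟩
  have mF : Measurable fun p : ℝ × ℝ × ℝ =>
      tanh (p.2.1 + p.1) ^ 2 * max 0 (min p.2.2 (exp (t * C))) :=
    ((meas_tanh.comp (by fun_prop)).pow_const 2).mul (by fun_prop)
  have bF : ∀ p : ℝ × ℝ × ℝ,
      |tanh (p.2.1 + p.1) ^ 2 * max 0 (min p.2.2 (exp (t * C)))| ≤ exp (t * C) := by
    intro p
    rw [abs_of_nonneg (mul_nonneg (sq_nonneg _) (le_max_left _ _))]
    exact (mul_le_of_le_one_left (le_max_left _ _)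
      ((sq_le_one_iff_abs_le_one _).2 (abs_tanh_lt_one _).le)).trans
      (max_le (exp_pos _).le (min_le_right _ _))
  have hf := b.P.fubini (PP μ) _ _ _ (mg c') (mr.prodMk mu.1) hi mF ⟨_, bF⟩
  have e : ∀ ω, max 0 (min (exp (t * UK θ r s K (gen c) c ω) - 1) (exp (t * C))) =
      exp (t * UK θ r s K (gen c) c ω) - 1 := fun ω => by
    rw [min_eq_left (hu ω).2, max_eq_right (hu ω).1]
  simp only [e] at hf
  rw [hf, ← integral_const_mul]
  simp only [integral_mul_const]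
  refine integral_mono ((MB.const _).mul mu).int (MB.mul ⟨?_, 1, ?_⟩ mu).int fun ω => ?_
  · exact (StronglyMeasurable.integral_prod_right (f := fun ω' ω =>
      tanh (bg s ω' + ∑ e ∈ S, gc θ s e ω' + gc θ s c' ω) ^ 2)
      (((meas_tanh.comp ((mr.comp measurable_fst).add
        ((mg c').comp measurable_snd))).pow_const 2).stronglyMeasurable)).measurable
  · refine Eventually.of_forall fun ω' => ?_
    simpa using norm_integral_le_of_norm_le_const (μ := PP μ) (C := 1) (f := fun ω =>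
      tanh (bg s ω' + ∑ e ∈ S, gc θ s e ω' + gc θ s c' ω) ^ 2) (Eventually.of_forall fun ω => by
        rw [Real.norm_eq_abs, abs_sq]
        exact (sq_le_one_iff_abs_le_one _).2 (abs_tanh_lt_one _).le)
  · exact mul_le_mul_of_nonneg_right
      (b.N.anti (PP μ) _ _ (hR.nish_gc s c') (hR.gc_tanh s c')) (hu ω).1

theorem gain (b : Base d θ μ) (hR : StmtR d θ μ) (s : ℝ) {r t ρ : ℝ} (hr : 0 ≤ r) (ht : 0 ≤ t)
    (hρ : ∀ a, ρ ≤ (1 - θ ^ 2) * ((1 - θ) / 2 * (θ ^ 2 * xx (PP μ) (hg θ s 1 (some a))))) (K : ℕ)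
    (a c : Fin d) :
    ρ * ∫ ω, (exp (t * UK θ r s K (gen c) c ω) - 1) ∂PP μ ≤
      ∫ ω, (1 - kap θ (hg θ s 1 (some a) ω) ^ 2) * (exp (t * UK θ r s K (gen c) c ω) - 1) ∂PP μ := by
  have := b.crit.hμ.1
  obtain ⟨C, hC⟩ := UK_bd b s hr K
  obtain ⟨c', hc', hcc⟩ := Finset.exists_mem_ne (s := dirs (some a))
    (by rw [card_dirs_some]; have := b.crit.hd; omega) c
  have mu := (mb_exp ((MB.const t).mul (mb_UK b hR s hr K (gen c) c))).sub (MB.const 1)
  have hu : ∀ ω, 0 ≤ exp (t * UK θ r s K (gen c) c ω) - 1 := fun ω =>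
    sub_nonneg.2 (one_le_exp (mul_nonneg ht (hC _ _ _).1))
  have h1 := anti b hR s hr ht K ((dirs (some a)).erase c') hcc.symm (notMem_erase _ _)
  have hθ : 0 ≤ 1 - θ ^ 2 := by nlinarith [b.crit.h0, b.crit.h1]
  have h2 := mul_le_mul_of_nonneg_left h1 hθ
  rw [hR.xx_gc, ← mul_assoc, ← integral_const_mul (1 - θ ^ 2)] at h2
  refine ((mul_le_mul_of_nonneg_right (hρ c') (integral_nonneg hu)).trans h2).trans ?_
  have mk : MB μ fun ω => kap θ (hg θ s 1 (some a) ω) :=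
    ⟨b.A.kap_cont.measurable.comp (hR.meas_hg s 1 _), 1, Eventually.of_forall fun ω => by
      rw [abs_of_pos (b.A.kap_pos _)]; exact b.A.kap_le_one _⟩
  have mg : ∀ e, Measurable (gc θ s e) := fun e => (hR.nish_gc s e).mX
  refine integral_mono_ae ((MB.const _).mul ((mb_tanh (((hR.nish_bg s).mX.add
    (Finset.measurable_sum _ fun e _ => mg e)).add (mg c'))).mul mu)).int
    (((MB.const 1).sub mk.sq).mul mu).int ?_
  filter_upwards [hR.recur s] with ω h
  rw [add_assoc, Finset.sum_erase_add _ _ hc', ← h, ← mul_assoc]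
  refine mul_le_mul_of_nonneg_right ?_ (hu ω)
  nlinarith [b.A.kap_le (hg θ s 1 (some a) ω), b.A.kap_pos (hg θ s 1 (some a) ω),
    b.A.kap_le_one (hg θ s 1 (some a) ω)]

theorem one_step (b : Base d θ μ) (hR : StmtR d θ μ) (s : ℝ) {r l ρ : ℝ} (hr : 0 ≤ r) (hl : 0 ≤ l)
    (hρ : ∀ a, ρ ≤ (1 - θ ^ 2) * ((1 - θ) / 2 * (θ ^ 2 * xx (PP μ) (hg θ s 1 (some a))))) (K : ℕ)
    (a : Fin d) :
    ∫ ω, exp (l * UK θ r s (K + 1) 1 a ω) ∂PP μ ≤
      exp l * ∏ c ∈ dirs (some a), ∫ ω, exp (l * (r * θ ^ 2) * UK θ r s K 1 c ω) ∂PP μ -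
        ρ * ∑ c ∈ dirs (some a), (∫ ω, exp (l * (r * θ ^ 2) * UK θ r s K 1 c ω) ∂PP μ - 1) := by
  have := b.crit.hμ.1
  obtain ⟨C, hC⟩ := UK_bd b s hr K
  set t := l * (r * θ ^ 2) with ht'
  have ht : 0 ≤ t := by positivity
  have mx := fun c => (MB.const t).mul (mb_UK b hR s hr K (gen c) c)
  have mu := fun c => (mb_exp (mx c)).sub (MB.const 1)
  have mk : MB μ fun ω => kap θ (hg θ s 1 (some a) ω) :=
    ⟨b.A.kap_cont.measurable.comp (hR.meas_hg s 1 _), 1, Eventually.of_forall fun ω => by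
      rw [abs_of_pos (b.A.kap_pos _)]; exact b.A.kap_le_one _⟩
  have ms := mb_exp ((MB.const l).add (MB.sum (dirs (some a)) fun c _ => mx c))
  have mw := fun c => ((MB.const 1).sub mk.sq).mul (mu c)
  have e1 : ∀ c, ∫ ω, exp (t * UK θ r s K 1 c ω) ∂PP μ =
      ∫ ω, exp (t * UK θ r s K (gen c) c ω) ∂PP μ := by
    intro c
    simp only [hR.UK_sh]
    exact (int_sh b (mb_exp ((MB.const t).mul (mb_UK b hR s hr K 1 c))).1 _).symm
  have h1 : ∫ ω, exp (l * UK θ r s (K + 1) 1 a ω) ∂PP μ ≤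
      ∫ ω, (exp (l + ∑ c ∈ dirs (some a), t * UK θ r s K (gen c) c ω) -
        ∑ c ∈ dirs (some a), (1 - kap θ (hg θ s 1 (some a) ω) ^ 2) *
          (exp (t * UK θ r s K (gen c) c ω) - 1)) ∂PP μ := by
    refine integral_mono (mb_exp ((MB.const l).mul (mb_UK b hR s hr _ 1 a))).int
      (ms.sub (MB.sum _ fun c _ => mw c)).int fun ω => ?_
    refine le_trans (le_of_eq ?_) (ptw _ _ (fun c => mul_nonneg ht (hC _ _ _).1) hl (sq_nonneg _)
      (pow_le_one₀ (b.A.kap_pos _).le (b.A.kap_le_one _)))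
    simp only [hR.UK_succ, ht', mul_assoc, ← Finset.mul_sum]
    congr 1
    ring
  have h2 : ∫ ω, exp (l + ∑ c ∈ dirs (some a), t * UK θ r s K (gen c) c ω) ∂PP μ =
      exp l * ∏ c ∈ dirs (some a), ∫ ω, exp (t * UK θ r s K (gen c) c ω) ∂PP μ := by
    have hi := (((hR.indep r s K).precomp (Option.some_injective _)).comp (fun _ => Prod.snd)
      fun _ => measurable_snd).mgf_sum (t := t) (fun c => hR.meas_UK r s K (gen c) c)
      (dirs (some a))
    simp only [mgf, Finset.sum_apply, Function.comp_def, piece, Finset.mul_sum] at hi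
    simp only [exp_add]
    rw [integral_const_mul, hi]
  rw [integral_sub ms.int (MB.sum _ fun c _ => mw c).int, h2,
    integral_finsetSum _ fun c _ => (mw c).int] at h1
  simp only [e1]
  refine h1.trans (sub_le_sub_left ?_ _)
  rw [Finset.mul_sum]
  refine Finset.sum_le_sum fun c _ => le_trans (le_of_eq ?_) (gain b hR s hr ht hρ K a c)
  rw [integral_sub (mb_exp (mx c)).int (integrable_const _)]
  simp

end Mu1m

open D2m Mu1m in
theorem stmtMu1 {d : ℕ} {θ : ℝ} {μ : Measure (W d → Bool)} (b : Base d θ μ) (_hE : StmtE d θ μ)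
    (hR : StmtR d θ μ) : StmtMu1 d θ μ := by
  have := b.crit.hμ.1
  refine ⟨3888, by norm_num, fun s ρ hρ h K a l hl => ?_⟩
  have h0 := b.crit.h0
  have h1 := b.crit.h1
  have hc := b.crit.hc
  have hd : (3 : ℝ) ≤ d := by exact_mod_cast b.crit.hd
  have hθ : θ ^ 2 ≤ 1 / 2 := by nlinarith [sq_nonneg θ]
  have hx : xx (PP μ) (hg θ s 1 (some a)) ≤ 1 := by
    have := integral_mono (mb_tanh (μ := μ) (hR.meas_hg s 1 (some a))).int (integrable_const 1)
      fun ω => (sq_le_one_iff_abs_le_one _).2 (abs_tanh_lt_one _).le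
    simpa [xx] using this
  have hx0 : 0 ≤ xx (PP μ) (hg θ s 1 (some a)) := integral_nonneg fun _ => sq_nonneg _
  have hρ1 : ρ ≤ 1 / 2 := by
    have a1 : θ ^ 2 * xx (PP μ) (hg θ s 1 (some a)) ≤ 1 := by nlinarith
    have a2 : (1 - θ) / 2 * (θ ^ 2 * xx (PP μ) (hg θ s 1 (some a))) ≤ 1 / 2 := by nlinarith
    have a3 : 0 ≤ (1 - θ) / 2 * (θ ^ 2 * xx (PP μ) (hg θ s 1 (some a))) :=
      mul_nonneg (by linarith) (by positivity)
    nlinarith [h a, sq_nonneg θ]
  have hr : 0 ≤ 1 + ρ / 2 := by positivity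
  have key := num2 (fun a : Fin d => dirs (some a)) ((1 + ρ / 2) * θ ^ 2) ρ
    (fun K a l => ∫ ω, exp (l * UK θ (1 + ρ / 2) s K 1 a ω) ∂PP μ) hρ hρ1 (by positivity)
    (by nlinarith [sq_nonneg θ])
    (fun a => by
      rw [card_dirs_some, Nat.cast_sub (by have := b.crit.hd; omega)]
      push_cast
      linear_combination (1 + ρ / 2) * hc)
    (fun a l hl => by
      have := integral_mono (mb_exp ((MB.const l).mul (mb_UK b hR s hr 0 1 a))).int
        (integrable_const (exp l)) fun ω => exp_le_exp.2 (mul_le_of_le_one_right hl (by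
          simp only [UK, VK, mul_one]
          exact pow_le_one₀ (b.A.kap_pos _).le (b.A.kap_le_one _)))
      simpa using this)
    (fun K a l hl => by
      obtain ⟨C, hC⟩ := UK_bd b s hr K
      have := integral_mono (integrable_const 1)
        (mb_exp ((MB.const l).mul (mb_UK b hR s hr K 1 a))).int
        fun ω => one_le_exp (mul_nonneg hl (hC _ _ _).1)
      simpa using this)
    (fun K a l hl => one_step b hR s hr hl h K a) K a l hl
  refine key.trans (exp_le_exp.2 (add_le_add (mul_le_mul_of_nonneg_right ?_ hl)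
    (mul_le_mul_of_nonneg_right ?_ (sq_nonneg _))))
  · exact div_le_div_of_nonneg_right (by norm_num) hρ.le
  · have a1 : 2 + 16 / ρ ≤ 18 / ρ := by
      rw [le_div_iff₀ hρ, add_mul, div_mul_cancel₀ _ hρ.ne']; linarith
    have a2 := pow_le_pow_left₀ (by positivity) a1 2
    rw [div_pow] at a2
    rw [show (3888 : ℝ) / ρ ^ 2 = 12 * (18 ^ 2 / ρ ^ 2) by ring]
    linarith

end Vale.Agent.P161E
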