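import Vale.Agent.P161E.Th

namespace Vale.Agent.P161E

open MeasureTheory ProbabilityTheory Filter Topology Finset Real
open Vale.Agent.P161 (spin)

namespace Mx

lemma xx_mem {Ω : Type} [MeasurableSpace Ω] (P : Measure Ω) [IsProbabilityMeasure P] {X : Ω → ℝ}
    (hX : Measurable X) {C : ℝ} (h : ∀ ω, tanh (X ω) ^ 2 ≤ C) : 0 ≤ xx P X ∧ xx P X ≤ C := by
  refine ⟨integral_nonneg fun _ => sq_nonneg _, ?_⟩
  have := integral_mono (Th.int_tanh_sq P hX) (integrable_const C) h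
  simpa [xx] using this

lemma xx_one {Ω : Type} [MeasurableSpace Ω] (P : Measure Ω) [IsProbabilityMeasure P] {X : Ω → ℝ}
    (hX : Measurable X) : 0 ≤ xx P X ∧ xx P X ≤ 1 :=
  xx_mem P hX fun _ => (Real.tanh_sq_lt_one _).le

lemma sums {θ : ℝ} (hN : StmtN θ) {Ω ι : Type} [MeasurableSpace Ω] [DecidableEq ι] (P : Measure Ω)
    [IsProbabilityMeasure P] (X : ι → Ω → ℝ) (hi : iIndepFun X P) (hX : ∀ i, Nish0 P (X i))
    (i0 : ι) (h2 : ∀ i, i ≠ i0 → 2 * xx P (X i) ≤ 1) (S : Finset ι) (hS : i0 ∉ S) :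
    Nish0 P (fun ω => X i0 ω + ∑ i ∈ S, X i ω) ∧
    (1 - xx P (X i0)) * ∏ i ∈ S, (1 - xx P (X i)) ≤ 1 - xx P (fun ω => X i0 ω + ∑ i ∈ S, X i ω) ∧
    1 - 2 * xx P (fun ω => X i0 ω + ∑ i ∈ S, X i ω) ≤
      (1 - 2 * xx P (X i0)) * ∏ i ∈ S, (1 - 2 * xx P (X i)) := by
  induction S using Finset.induction_on with
  | empty => simpa using hX i0
  | insert c S hc ih =>
    have hc0 : c ≠ i0 := fun h => hS (h ▸ mem_insert_self _ _)
    have hS' : i0 ∉ S := fun h => hS (mem_insert_of_mem h)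
    obtain ⟨h1, h3, h4⟩ := ih hS'
    have hind : IndepFun (fun ω => X i0 ω + ∑ i ∈ S, X i ω) (X c) P := by
      have := hi.indepFun_finsetSum_of_notMem (fun i => (hX i).mX) (s := insert i0 S) (i := c)
        (by simp [hc, hc0])
      have e : (∑ j ∈ insert i0 S, X j) = fun ω => X i0 ω + ∑ i ∈ S, X i ω := by
        funext ω; rw [Finset.sum_apply, sum_insert hS']
      rwa [e] at this
    have e : (fun ω => X i0 ω + ∑ i ∈ insert c S, X i ω) =
        fun ω => (X i0 ω + ∑ i ∈ S, X i ω) + X c ω := by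
      funext ω; rw [sum_insert hc]; ring
    obtain ⟨a1, a2, -⟩ := hN.xx_add P _ _ h1 (hX c) hind
    rw [e, prod_insert hc, prod_insert hc]
    refine ⟨hN.add0 P _ _ h1 (hX c) hind, ?_, ?_⟩
    · have := mul_le_mul_of_nonneg_right h3 (sub_nonneg.2 (xx_one P (hX c).mX).2)
      linarith
    · have := mul_le_mul_of_nonneg_right h4 (sub_nonneg.2 (h2 c hc0))
      linarith

lemma pow_low {u : ℝ} {m : ℕ} (hm : 2 ≤ m) (h1 : u ≤ 1) :
    1 - m * u + u ^ 2 ≤ (1 - u) ^ m := by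
  obtain ⟨k, rfl⟩ := Nat.exists_eq_add_of_le hm
  have hb := one_add_mul_le_pow (show (-2 : ℝ) ≤ -u by linarith) k
  have hk : (0 : ℝ) ≤ k := Nat.cast_nonneg k
  have h2 := mul_le_mul_of_nonneg_left hb (sq_nonneg (1 - u))
  have h3 : 0 ≤ k * (u ^ 2 * (2 - u)) := mul_nonneg hk (mul_nonneg (sq_nonneg _) (by linarith))
  rw [pow_add, sub_eq_add_neg 1 u]
  rw [sub_eq_add_neg 1 u] at h2
  push_cast
  nlinarith

lemma pow_up {u : ℝ} {m : ℕ} (h0 : 0 ≤ u) (h1 : u ≤ 1) :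
    (1 - u) ^ m ≤ 1 - m * u + (m * u) ^ 2 / 2 := by
  have a1 : (1 - u) ^ m ≤ exp (-u) ^ m :=
    pow_le_pow_left₀ (by linarith) (by linarith [Real.add_one_le_exp (-u)]) m
  rw [← Real.exp_nat_mul, mul_neg] at a1
  have hy : 0 ≤ m * u := by positivity
  generalize m * u = y at *
  have a2 := Real.quadratic_le_exp_of_nonneg hy
  have a3 : exp (-y) * exp y = 1 := by rw [← exp_add]; simp
  have a4 : 0 < 1 - y + y ^ 2 / 2 := by nlinarith [sq_nonneg (y - 1)]
  have a5 : exp (-y) ≤ 1 - y + y ^ 2 / 2 := by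
    by_contra h
    push Not at h
    have := mul_lt_mul_of_pos_right h (exp_pos y)
    nlinarith [mul_le_mul_of_nonneg_left a2 a4.le, sq_nonneg (y ^ 2)]
  linarith

variable {d : ℕ} {θ : ℝ} {μ : Measure (W d → Bool)}

lemma th_half (b : Base d θ μ) : θ ^ 2 ≤ 1 / 2 := by
  have h := b.crit.hc
  have : (3 : ℝ) ≤ d := by exact_mod_cast b.crit.hd
  nlinarith [sq_nonneg θ]

lemma root (b : Base d θ μ) (hR : StmtR d θ μ) (s : ℝ) (α : Option (Fin d)) :
    (1 - xx (PP μ) (bg s)) * ∏ c ∈ dirs α, (1 - θ ^ 2 * xx (PP μ) (hg θ s 1 (some c))) ≤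
      1 - xx (PP μ) (hg θ s 1 α) ∧ 1 - 2 * xx (PP μ) (hg θ s 1 α) ≤
      (1 - 2 * xx (PP μ) (bg s)) *
        ∏ c ∈ dirs α, (1 - 2 * (θ ^ 2 * xx (PP μ) (hg θ s 1 (some c)))) := by
  have := b.crit.hμ.1
  have hi : iIndepFun (fun o ω => (piece θ 1 s 0 o ω).1) (PP μ) :=
    (hR.indep 1 s 0).comp (fun _ => Prod.fst) fun _ => measurable_fst
  obtain ⟨-, h1, h2⟩ := sums b.N (PP μ) _ hi
    (fun o => by cases o; exacts [hR.nish_bg s, hR.nish_gc s _]) none (fun o ho => by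
      cases o with
      | none => exact absurd rfl ho
      | some c =>
        have h3 := hR.xx_gc s c
        have h4 := xx_one (PP μ) (hR.meas_hg s 1 (some c))
        have h5 := th_half b
        change 2 * xx (PP μ) (gc θ s c) ≤ 1
        nlinarith [sq_nonneg θ]) ((dirs α).map Function.Embedding.some) (by simp)
  have e : xx (PP μ) (fun ω => (piece θ 1 s 0 none ω).1 +
      ∑ i ∈ (dirs α).map Function.Embedding.some, (piece θ 1 s 0 i ω).1) =
      xx (PP μ) (hg θ s 1 α) := by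
    refine integral_congr_ae ?_
    filter_upwards [hR.recur s] with ω hω
    rw [hω, sum_map]
    rfl
  rw [e, prod_map] at h1 h2
  simp only [← hR.xx_gc]
  exact ⟨h1, h2⟩

lemma up (b : Base d θ μ) (hR : StmtR d θ μ) {s β : ℝ} (hβ : 0 ≤ β)
    (hb : ∀ ω : Om d, |bg s ω| ≤ β) (a : Fin d) : θ ^ 2 * xx (PP μ) (hg θ s 1 (some a)) ≤ β ∧
      xx (PP μ) (bg s) ≤ β ^ 2 := by
  have := b.crit.hμ.1
  have hd := b.crit.hd
  have h5 := th_half b
  have hbg := xx_mem (PP μ) (hR.nish_bg s).mX (C := β ^ 2) fun ω =>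
    (Th.tanh_sq_le _).trans (sq_le_sq.2 (by rw [abs_of_nonneg hβ]; exact hb ω))
  have hb1 := xx_one (PP μ) (hR.nish_bg s).mX
  refine ⟨?_, hbg.2⟩
  obtain ⟨a0, -, ha⟩ := exists_max_image univ (fun a => xx (PP μ) (hg θ s 1 (some a))) ⟨a, mem_univ _⟩
  refine (mul_le_mul_of_nonneg_left (ha a (mem_univ _)) (sq_nonneg _)).trans ?_
  have h1 := (root b hR s (some a0)).1
  have hx := xx_one (PP μ) (hR.meas_hg s 1 (some a0))
  have h2 : (1 - θ ^ 2 * xx (PP μ) (hg θ s 1 (some a0))) ^ (d - 1) ≤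
      ∏ c ∈ dirs (some a0), (1 - θ ^ 2 * xx (PP μ) (hg θ s 1 (some c))) := by
    rw [← card_dirs_some a0, ← prod_const]
    refine prod_le_prod (fun _ _ => by nlinarith [sq_nonneg θ]) fun c _ => ?_
    have := mul_le_mul_of_nonneg_left (ha c (mem_univ _)) (sq_nonneg θ)
    linarith
  generalize xx (PP μ) (hg θ s 1 (some a0)) = x at *
  have hu0 : 0 ≤ θ ^ 2 * x := mul_nonneg (sq_nonneg _) hx.1
  have hu1 : θ ^ 2 * x ≤ x / 2 := by nlinarith
  have h3 := pow_low (u := θ ^ 2 * x) (m := d - 1) (by omega) (by linarith)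
  have h4 : ((d - 1 : ℕ) : ℝ) * (θ ^ 2 * x) = x := by
    rw [Nat.cast_sub (by omega), Nat.cast_one, ← mul_assoc, mul_comm _ (θ ^ 2), b.crit.hc, one_mul]
  rw [h4] at h3
  have h6 := mul_le_mul_of_nonneg_left (h3.trans h2) (sub_nonneg.2 hb1.2)
  generalize θ ^ 2 * x = u at *
  have h7 : u ^ 2 ≤ x := by nlinarith
  have h8 : u ^ 2 ≤ β ^ 2 := by nlinarith
  exact (pow_le_pow_iff_left₀ hu0 hβ two_ne_zero).1 h8

end Mx

open Mx in
theorem stmtMx {d : ℕ} {θ : ℝ} {μ : Measure (W d → Bool)} (b : Base d θ μ) (hR : StmtR d θ μ) :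
    StmtMx d θ μ := by
  have := b.crit.hμ.1
  have hd := b.crit.hd
  have hd' : (3 : ℝ) ≤ d := by exact_mod_cast hd
  have h5 := th_half b
  have hc := b.crit.hc
  refine ⟨fun n s hs a => ?_, fun n s hs => ?_, fun n s hs a => ?_⟩
  · have hβ : (0 : ℝ) ≤ 2 * 2 ^ n := by positivity
    have h1 := (up b hR hβ (hR.bg_le n s hs) a).1
    have h2 := mul_le_mul_of_nonneg_left h1 (by linarith : (0 : ℝ) ≤ d - 1)
    rw [← mul_assoc, mul_comm _ (θ ^ 2), hc] at h2
    linarith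
  · have hβ : (0 : ℝ) ≤ 2 * 2 ^ n := by positivity
    have hu := up b hR hβ (hR.bg_le n s hs)
    generalize (2 * 2 ^ n : ℝ) = β at *
    have e : ∫ ω, ms θ s 1 ω ^ 2 ∂PP μ = xx (PP μ) (hg θ s 1 none) := by
      refine integral_congr_ae (Eventually.of_forall fun ω => ?_)
      simp only [ms, hg, spin]
      split_ifs <;> simp
    rw [e]
    have h1 := (root b hR s none).1
    have hb1 := xx_one (PP μ) (hR.nish_bg s).mX
    have hb2 := (hu ⟨0, by omega⟩).2
    by_cases hβ1 : 1 ≤ β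
    · nlinarith [(xx_one (PP μ) (hR.meas_hg s 1 none)).2]
    push Not at hβ1
    have h2 : (1 - β) ^ d ≤
        ∏ c ∈ dirs none, (1 - θ ^ 2 * xx (PP μ) (hg θ s 1 (some c))) := by
      have : (1 - β) ^ d = ∏ _c ∈ dirs (none : Option (Fin d)), (1 - β) := by simp [dirs_none]
      rw [this]
      exact prod_le_prod (fun _ _ => by linarith) fun c _ => by linarith [(hu c).1]
    have h3 := one_add_mul_le_pow (show (-2 : ℝ) ≤ -β by linarith) d
    rw [← sub_eq_add_neg] at h3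
    have h6 := mul_le_mul_of_nonneg_left (h3.trans h2) (sub_nonneg.2 hb1.2)
    nlinarith [mul_nonneg (mul_nonneg (by linarith : (0 : ℝ) ≤ d) hβ) hb1.1]
  · have he : 0 < eps (n - 1) ∧ eps (n - 1) ≤ 1 :=
      ⟨lt_min one_pos (by positivity), min_le_left _ _⟩
    have ht := hR.bg_low n s hs
    generalize eps (n - 1) = e at *
    obtain ⟨a0, -, ha⟩ :=
      exists_min_image univ (fun a => xx (PP μ) (hg θ s 1 (some a))) ⟨a, mem_univ _⟩
    refine le_trans ?_ (ha a (mem_univ _))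
    have h1 := (root b hR s (some a0)).2
    have hx := xx_one (PP μ) (hR.meas_hg s 1 (some a0))
    have hp : ∀ c, 0 ≤ 1 - 2 * (θ ^ 2 * xx (PP μ) (hg θ s 1 (some c))) := fun c => by
      have := xx_one (PP μ) (hR.meas_hg s 1 (some c))
      nlinarith [sq_nonneg θ]
    have h0 : 0 ≤ ∏ c ∈ dirs (some a0), (1 - 2 * (θ ^ 2 * xx (PP μ) (hg θ s 1 (some c)))) :=
      prod_nonneg fun c _ => hp c
    have h2 : ∏ c ∈ dirs (some a0), (1 - 2 * (θ ^ 2 * xx (PP μ) (hg θ s 1 (some c)))) ≤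
        (1 - 2 * (θ ^ 2 * xx (PP μ) (hg θ s 1 (some a0)))) ^ (d - 1) := by
      rw [← card_dirs_some a0, ← prod_const]
      refine prod_le_prod (fun c _ => hp c) fun c _ => ?_
      have := mul_le_mul_of_nonneg_left (ha c (mem_univ _)) (sq_nonneg θ)
      linarith
    have hp0 := hp a0
    generalize xx (PP μ) (hg θ s 1 (some a0)) = x at *
    have h3 := pow_up (u := 2 * (θ ^ 2 * x)) (m := d - 1)
      (by have := mul_nonneg (sq_nonneg θ) hx.1; linarith) (by linarith)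
    have h4 : ((d - 1 : ℕ) : ℝ) * (2 * (θ ^ 2 * x)) = 2 * x := by
      rw [Nat.cast_sub (by omega), Nat.cast_one]
      linear_combination 2 * x * hc
    rw [h4] at h3
    have h6 := h2.trans h3
    generalize ∏ c ∈ dirs (some a0), (1 - 2 * (θ ^ 2 * xx (PP μ) (hg θ s 1 (some c)))) = p at *
    generalize xx (PP μ) (bg s) = t at *
    by_cases h7 : 1 - 2 * t ≤ 0
    · nlinarith [mul_nonneg (neg_nonneg.2 h7) h0]
    push Not at h7
    have h8 := mul_le_mul_of_nonneg_left h6 h7.le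
    have ht0 : 0 ≤ t := le_trans (by positivity) ht
    have h9 : t / 2 ≤ x ^ 2 := by nlinarith [mul_nonneg ht0 (sq_nonneg (2 * x - 1))]
    exact (pow_le_pow_iff_left₀ (by linarith [he.1]) hx.1 two_ne_zero).1 (by nlinarith)

end Vale.Agent.P161E
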