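import Vale.Agent.P161E.Spec

namespace Vale.Agent.P161E

open MeasureTheory ProbabilityTheory Filter Topology Finset Real
open Vale.Agent.P161 (spin obs gain clip coin ibdd)
open scoped Classical

namespace NN

lemma tanh_cont : Continuous tanh := by
  have : tanh = fun x => sinh x / cosh x := funext tanh_eq_sinh_div_cosh
  rw [this]
  exact continuous_sinh.div continuous_cosh fun x => (cosh_pos x).ne'

lemma tanh_meas : Measurable tanh := tanh_cont.measurable

lemma one_add_pos (x : ℝ) : 0 < 1 + tanh x := by linarith [neg_one_lt_tanh x]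

lemma tanh_mul_lt (x y : ℝ) : |tanh x * tanh y| < 1 := by
  rw [abs_mul]
  exact mul_lt_one_of_nonneg_of_lt_one_left (abs_nonneg _) (abs_tanh_lt_one x)
    (abs_tanh_lt_one y).le

lemma tanh_add' (x y : ℝ) : tanh (x + y) = (tanh x + tanh y) / (1 + tanh x * tanh y) := by
  have h := (abs_lt.1 (tanh_mul_lt x y)).1
  have h1 : 1 + tanh x * tanh y ≠ 0 := by linarith
  rw [eq_div_iff h1]
  have a := cosh_pos x
  have b := cosh_pos y
  have c := cosh_pos (x + y)
  simp only [tanh_eq_sinh_div_cosh]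
  field_simp
  rw [sinh_add, cosh_add]
  ring

lemma exp_m2 (x : ℝ) : (1 + tanh x) * exp (-2 * x) = 1 - tanh x := by
  have a := exp_pos x
  have b := exp_pos (-x)
  have e : exp (-2 * x) = exp (-x) * exp (-x) := by rw [← exp_add]; congr 1; ring
  have e2 : exp x * exp (-x) = 1 := by rw [← exp_add]; simp
  rw [tanh_eq, e]
  field_simp
  linear_combination (2 * exp (-x)) * e2

lemma tanh_sq_mono {x y : ℝ} (h : |x| ≤ |y|) : tanh x ^ 2 ≤ tanh y ^ 2 := by
  have e : ∀ z : ℝ, tanh z ^ 2 = 1 - 1 / cosh z ^ 2 := fun z => by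
    have a := cosh_pos z
    rw [tanh_eq_sinh_div_cosh]
    field_simp
    linarith [cosh_sq z]
  rw [e, e]
  have h1 := cosh_le_cosh.2 h
  have : 1 / cosh y ^ 2 ≤ 1 / cosh x ^ 2 :=
    one_div_le_one_div_of_le (pow_pos (cosh_pos x) 2) (pow_le_pow_left₀ (cosh_pos x).le h1 2)
  linarith

lemma tanh_sq_anti (a g : ℝ) : tanh g ^ 2 ≤ tanh (a + g) ^ 2 + tanh (a + -g) ^ 2 := by
  have : |g| ≤ |a + g| ∨ |g| ≤ |a + -g| := by
    by_contra h
    push Not at h
    have h1 : |(a + g) - (a + -g)| ≤ |a + g| + |a + -g| := abs_sub _ _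
    rw [show a + g - (a + -g) = 2 * g by ring, abs_mul, abs_two] at h1
    linarith [h.1, h.2]
  rcases this with h | h
  · linarith [tanh_sq_mono h, sq_nonneg (tanh (a + -g))]
  · linarith [tanh_sq_mono h, sq_nonneg (tanh (a + g))]

lemma exp_bd {x C : ℝ} (h : |x| ≤ C) : |exp (-2 * x)| ≤ exp (2 * C) := by
  rw [abs_of_pos (exp_pos _)]
  exact exp_le_exp.2 (by linarith [neg_abs_le x])

lemma mul_bd {a b C D : ℝ} (h : |a| ≤ C) (h' : |b| ≤ D) : |a * b| ≤ C * D := by
  rw [abs_mul]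
  exact mul_le_mul h h' (abs_nonneg _) ((abs_nonneg _).trans h)

variable {Ω ι E E' : Type} [MeasurableSpace Ω] [MeasurableSpace E] [MeasurableSpace E']
  {P : Measure Ω}

lemma fub [IsProbabilityMeasure P] {X : Ω → E} {Y : Ω → E'} {F : E × E' → ℝ}
    (hX : Measurable X) (hY : Measurable Y) (h : IndepFun X Y P) (hF : Measurable F)
    (hi : Integrable (fun ω => F (X ω, Y ω)) P) :
    ∫ ω, F (X ω, Y ω) ∂P = ∫ ω', ∫ ω, F (X ω, Y ω') ∂P ∂P := by
  have h1 := (indepFun_iff_map_prod_eq_prod_map_map hX.aemeasurable hY.aemeasurable).1 h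
  have := Measure.isProbabilityMeasure_map (μ := P) hX.aemeasurable
  have := Measure.isProbabilityMeasure_map (μ := P) hY.aemeasurable
  have hi' : Integrable F ((P.map X).prod (P.map Y)) := by
    rw [← h1]
    exact (integrable_map_measure hF.aestronglyMeasurable (hX.prodMk hY).aemeasurable).2 hi
  rw [← integral_map (hX.prodMk hY).aemeasurable hF.aestronglyMeasurable, h1,
    integral_prod_symm _ hi', integral_map hY.aemeasurable]
  · refine integral_congr_ae (Eventually.of_forall fun ω' => ?_)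
    exact integral_map hX.aemeasurable
      (hF.comp (measurable_id.prodMk measurable_const)).aestronglyMeasurable
  · exact (hF.stronglyMeasurable.integral_prod_left').aestronglyMeasurable

lemma eq_loc {Z : Ω → ι → ℝ} {X : Ω → ℝ} (h : Nish P Z X) {C D : ℝ} (hC : ∀ ω, |X ω| ≤ C)
    {F : (ι → ℝ) × ℝ → ℝ} (hF : Measurable F) (hD : ∀ p, |p.2| ≤ C → |F p| ≤ D) :
    ∫ ω, F (-Z ω, -X ω) ∂P = ∫ ω, F (Z ω, X ω) * exp (-2 * X ω) ∂P := by
  have hs : MeasurableSet {p : (ι → ℝ) × ℝ | |p.2| ≤ C} :=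
    measurableSet_le (measurable_snd.abs) measurable_const
  have h1 := h.eq ({p : (ι → ℝ) × ℝ | |p.2| ≤ C}.indicator F) (hF.indicator hs) ⟨|D|, fun p => by
    by_cases hp : |p.2| ≤ C
    · rw [Set.indicator_of_mem (by exact hp)]; exact (hD p hp).trans (le_abs_self D)
    · rw [Set.indicator_of_notMem (by exact hp)]; simp⟩
  have e1 : ∀ ω, {p : (ι → ℝ) × ℝ | |p.2| ≤ C}.indicator F (-Z ω, -X ω) = F (-Z ω, -X ω) :=
    fun ω => Set.indicator_of_mem (by simpa using hC ω) _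
  have e2 : ∀ ω, {p : (ι → ℝ) × ℝ | |p.2| ≤ C}.indicator F (Z ω, X ω) = F (Z ω, X ω) :=
    fun ω => Set.indicator_of_mem (by simpa using hC ω) _
  simpa only [e1, e2] using h1

lemma side [IsProbabilityMeasure P] {Z : Ω → ι → ℝ} {X : Ω → ℝ} (h : Nish P Z X) {B : Ω → E}
    (hB : Measurable B) (hi : IndepFun (fun ω => (Z ω, X ω)) B P)
    {F : ((ι → ℝ) × ℝ) × E → ℝ} (hF : Measurable F)
    (hD : ∀ C, ∃ D, ∀ p ω, |p.2| ≤ C → |F (p, B ω)| ≤ D) :
    ∫ ω, F ((-Z ω, -X ω), B ω) ∂P = ∫ ω, F ((Z ω, X ω), B ω) * exp (-2 * X ω) ∂P := by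
  obtain ⟨C, hC⟩ := h.bdd
  obtain ⟨D, hD⟩ := hD C
  have hA : Measurable fun ω => (Z ω, X ω) := h.mZ.prodMk h.mX
  have m1 : Measurable fun q : ((ι → ℝ) × ℝ) × E => F ((-q.1.1, -q.1.2), q.2) :=
    hF.comp (by fun_prop)
  have m2 : Measurable fun q : ((ι → ℝ) × ℝ) × E => F q * exp (-2 * q.1.2) :=
    hF.mul (by fun_prop)
  have a1 := fub hA hB hi m1 (ibdd (m1.comp (hA.prodMk hB)) (C := D) fun ω =>
    hD _ _ (by simpa using hC ω))
  have a2 := fub hA hB hi m2 (ibdd (m2.comp (hA.prodMk hB)) (C := D * exp (2 * C)) fun ω =>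
    mul_bd (hD _ _ (hC ω)) (exp_bd (hC ω)))
  rw [a1, a2]
  refine integral_congr_ae (Eventually.of_forall fun ω' => ?_)
  exact eq_loc h hC (F := fun p => F (p, B ω')) (hF.comp (by fun_prop)) fun p hp => hD p ω' hp

lemma toN {X : Ω → ℝ} (h : Nish0 P X) : Nish P (fun _ (_ : Empty) => (0 : ℝ)) X :=
  ⟨measurable_const, h.mX, h.bdd, fun F hF ⟨C, hC⟩ => by
    have := h.eq (fun x => F (fun _ => 0, x)) (hF.comp (by fun_prop)) ⟨C, fun x => hC _⟩
    have e : -(fun _ : Empty => (0 : ℝ)) = fun _ => 0 := Subsingleton.elim _ _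
    simpa only [e] using this⟩

lemma to0 {Z : Ω → ι → ℝ} {X : Ω → ℝ} (h : Nish P Z X) : Nish0 P X :=
  ⟨h.mX, h.bdd, fun F hF ⟨C, hC⟩ => h.eq (fun p => F p.2) (hF.comp measurable_snd)
    ⟨C, fun _ => hC _⟩⟩

lemma indep_pad {X : Ω → ℝ} {B : Ω → E} (hi : IndepFun X B P) :
    IndepFun (fun ω => ((fun _ : Empty => (0 : ℝ)), X ω)) B P :=
  hi.comp (φ := fun x : ℝ => ((fun _ : Empty => (0 : ℝ)), x)) (ψ := id) (by fun_prop)
    measurable_id

lemma sym2 [IsProbabilityMeasure P] {X : Ω → ℝ} (h : Nish0 P X) {B : Ω → E}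
    (hB : Measurable B) (hi : IndepFun X B P) {F : ℝ × E → ℝ} (hF : Measurable F)
    (hD : ∀ C, ∃ D, ∀ x ω, |x| ≤ C → |F (x, B ω)| ≤ D) :
    ∫ ω, F (X ω, B ω) ∂P =
      ∫ ω, ((1 + tanh (X ω)) * F (X ω, B ω) + (1 - tanh (X ω)) * F (-X ω, B ω)) / 2 ∂P := by
  have t2 : ∀ x, |1 + tanh x| ≤ 2 := fun x => by
    rw [abs_le]; constructor <;> linarith [neg_one_lt_tanh x, tanh_lt_one x]
  have t3 : ∀ x, |1 - tanh x| ≤ 2 := fun x => by
    rw [abs_le]; constructor <;> linarith [neg_one_lt_tanh x, tanh_lt_one x]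
  have a := side (toN h) hB (indep_pad hi)
    (F := fun q => (1 + tanh q.1.2) * F (q.1.2, q.2))
    ((measurable_const.add (tanh_meas.comp (by fun_prop))).mul (hF.comp (by fun_prop)))
    fun C => by
      obtain ⟨D, hD⟩ := hD C
      exact ⟨2 * D, fun p ω hp => mul_bd (t2 _) (hD _ _ hp)⟩
  obtain ⟨C, hC⟩ := h.bdd
  obtain ⟨D, hD⟩ := hD C
  have mX := h.mX
  have m0 : Measurable fun ω => tanh (X ω) := tanh_meas.comp mX
  have m1 : Measurable fun ω => F (X ω, B ω) := hF.comp (by fun_prop)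
  have m2 : Measurable fun ω => F (-X ω, B ω) := hF.comp (by fun_prop)
  have i1 : Integrable (fun ω => (1 + tanh (X ω)) * F (X ω, B ω)) P :=
    ibdd ((measurable_const.add m0).mul m1) fun ω => mul_bd (t2 _) (hD _ _ (hC ω))
  have i2 : Integrable (fun ω => (1 - tanh (X ω)) * F (-X ω, B ω)) P :=
    ibdd ((measurable_const.sub m0).mul m2) fun ω => mul_bd (t3 _) (hD _ _ (by simpa using hC ω))
  have i3 : Integrable (fun ω => (1 - tanh (X ω)) * F (X ω, B ω)) P :=
    ibdd ((measurable_const.sub m0).mul m1) fun ω => mul_bd (t3 _) (hD _ _ (hC ω))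
  have e1 : ∀ ω, (1 + tanh (X ω)) * F (X ω, B ω) * exp (-2 * X ω) =
      (1 - tanh (X ω)) * F (X ω, B ω) := fun ω => by
    rw [← exp_m2]; ring
  simp only [tanh_neg, ← sub_eq_add_neg, e1] at a
  rw [integral_div, integral_add i1 i2, a, ← integral_add i1 i3, ← integral_div]
  exact integral_congr_ae (Eventually.of_forall fun ω => by ring)

lemma sym1 [IsProbabilityMeasure P] {X : Ω → ℝ} (h : Nish0 P X) {F : ℝ → ℝ} (hF : Continuous F) :
    ∫ ω, F (X ω) ∂P = ∫ ω, ((1 + tanh (X ω)) * F (X ω) + (1 - tanh (X ω)) * F (-X ω)) / 2 ∂P :=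
  sym2 h (B := fun _ => (0 : ℝ)) measurable_const (indepFun_const_right _ _)
    (F := fun q => F q.1) (hF.measurable.comp measurable_fst) fun C => by
      obtain ⟨D, hD⟩ := (isCompact_Icc (a := -C) (b := C)).exists_bound_of_continuousOn
        hF.continuousOn
      exact ⟨D, fun x _ hx => hD x (abs_le.1 hx)⟩

lemma icont [IsProbabilityMeasure P] {X : Ω → ℝ} (h : Nish0 P X) {F : ℝ → ℝ}
    (hF : Continuous F) : Integrable (fun ω => F (X ω)) P := by
  obtain ⟨C, hC⟩ := h.bdd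
  obtain ⟨D, hD⟩ := (isCompact_Icc (a := -C) (b := C)).exists_bound_of_continuousOn
    hF.continuousOn
  exact ibdd (hF.measurable.comp h.mX) fun ω => hD _ (abs_le.1 (hC ω))

lemma split [IsProbabilityMeasure P] {t : ℝ} (h0 : 0 ≤ t) (h1 : t < 1) {ξ : Ω → Bool}
    {Y : Ω → E} (hξ : Measurable ξ) (hl : P.map ξ = coin t) (hY : Measurable Y)
    (hi : IndepFun ξ Y P) {K : Bool → E → ℝ} (hK : ∀ b, Measurable (K b)) {D : ℝ}
    (hD : ∀ b ω, |K b (Y ω)| ≤ D) :
    ∫ ω, K (ξ ω) (Y ω) ∂P =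
      (1 + t) / 2 * ∫ ω, K true (Y ω) ∂P + (1 - t) / 2 * ∫ ω, K false (Y ω) ∂P := by
  have m : Measurable fun q : E × Bool => K q.2 q.1 :=
    measurable_from_prod_countable_left fun b => hK b
  have a := fub hY hξ hi.symm m (ibdd (m.comp (hY.prodMk hξ)) fun ω => hD _ _)
  rw [a, ← integral_map (f := fun b => ∫ ω, K b (Y ω) ∂P) hξ.aemeasurable
    (Measurable.of_discrete).aestronglyMeasurable, hl, coin, integral_add_measure,
    integral_smul_measure, integral_smul_measure, integral_dirac, integral_dirac,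
    ENNReal.toReal_ofReal (by linarith), ENNReal.toReal_ofReal (by linarith)]
  · rfl
  · exact (integrable_dirac (by simp)).smul_measure (by simp)
  · exact (integrable_dirac (by simp)).smul_measure (by simp)

lemma add_aux [IsProbabilityMeasure P] {Z Z' : Ω → ι → ℝ} {X X' : Ω → ℝ} (h : Nish P Z X)
    (h' : Nish P Z' X') (hi : IndepFun (fun ω => (Z ω, X ω)) (fun ω => (Z' ω, X' ω)) P) :
    Nish P (fun ω => Z ω + Z' ω) fun ω => X ω + X' ω := by
  obtain ⟨C, hC⟩ := h.bdd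
  obtain ⟨C', hC'⟩ := h'.bdd
  refine ⟨h.mZ.add h'.mZ, h.mX.add h'.mX, ⟨C + C', fun ω =>
    (abs_add_le _ _).trans (add_le_add (hC ω) (hC' ω))⟩, fun F hF ⟨D, hD⟩ => ?_⟩
  have a := side h (h'.mZ.prodMk h'.mX) hi (F := fun q => F (q.1.1 - q.2.1, q.1.2 - q.2.2))
    (hF.comp (by fun_prop)) fun _ => ⟨D, fun _ _ _ => hD _⟩
  have b := side h' (h.mZ.prodMk h.mX) hi.symm
    (F := fun q => F (q.2.1 + q.1.1, q.2.2 + q.1.2) * exp (-2 * q.2.2))
    ((hF.comp (by fun_prop)).mul (by fun_prop))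
    fun _ => ⟨D * exp (2 * C), fun _ ω _ => mul_bd (hD _) (exp_bd (hC ω))⟩
  simp only [← sub_eq_add_neg] at b
  simp only [neg_add, ← sub_eq_add_neg]
  rw [a, b]
  refine integral_congr_ae (Eventually.of_forall fun ω => ?_)
  simp only
  rw [mul_assoc, ← exp_add, mul_add]

lemma spin_t : spin true = 1 := rfl

lemma spin_f : spin false = -1 := rfl

lemma flip_aux {θ : ℝ} (h0 : 0 < θ) (h1 : θ < 1) (hA : StmtA 0 θ) [IsProbabilityMeasure P]
    {Z : Ω → ι → ℝ} {X : Ω → ℝ} {ξ : Ω → Bool} (h : Nish P Z X) (hξ : Measurable ξ)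
    (hl : P.map ξ = coin θ) (hi : IndepFun ξ (fun ω => (Z ω, X ω)) P) :
    Nish P (fun ω j => spin (ξ ω) * Z ω j) fun ω => spin (ξ ω) * Gf θ (X ω) := by
  have ms : Measurable fun ω => spin (ξ ω) := (Measurable.of_discrete (f := spin)).comp hξ
  have mG := hA.Gf_cont.measurable
  have mZ := h.mZ
  have mX := h.mX
  have hG : ∀ b x, |spin b * Gf θ x| ≤ artanh θ := fun b x => by
    rw [abs_mul, P161.spin_abs, one_mul]; exact hA.Gf_le' x
  refine ⟨measurable_pi_lambda _ fun j => ms.mul ((measurable_pi_apply j).comp mZ),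
    ms.mul (mG.comp mX), ⟨_, fun ω => hG _ _⟩, fun F hF ⟨D, hD⟩ => ?_⟩
  obtain ⟨C, hC⟩ := h.bdd
  have m1 : ∀ b, Measurable fun p : (ι → ℝ) × ℝ =>
      F (fun j => spin b * p.1 j, spin b * Gf θ p.2) := fun b =>
    hF.comp ((measurable_pi_lambda _ fun j => by fun_prop).prodMk
      (measurable_const.mul (mG.comp measurable_snd)))
  have m2 : ∀ b, Measurable fun p : (ι → ℝ) × ℝ =>
      F (-fun j => spin b * p.1 j, -(spin b * Gf θ p.2)) := fun b =>
    hF.comp ((measurable_pi_lambda _ fun j => by fun_prop).neg.prodMk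
      (measurable_const.mul (mG.comp measurable_snd)).neg)
  have m3 : ∀ b, Measurable fun p : (ι → ℝ) × ℝ => exp (-2 * (spin b * Gf θ p.2)) := fun b =>
    (measurable_const.mul (measurable_const.mul (mG.comp measurable_snd))).exp
  have s1 := split h0.le h1 hξ hl (mZ.prodMk mX) hi m2 (D := D) fun _ _ => hD _
  have s2 := split h0.le h1 hξ hl (mZ.prodMk mX) hi (fun b => (m1 b).mul (m3 b))
    (D := D * exp (2 * artanh θ)) fun _ _ => mul_bd (hD _) (exp_bd (hG _ _))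
  have n1 := h.eq _ (m1 true) ⟨D, fun _ => hD _⟩
  have n2 := h.eq _ ((m1 true).mul (m3 true)) ⟨_, fun _ => mul_bd (hD _) (exp_bd (hG _ _))⟩
  have e1 : ∀ z : ι → ℝ, (fun j => z j) = z := fun _ => rfl
  have e2 : ∀ z : ι → ℝ, (fun j => -z j) = -z := fun _ => rfl
  simp only [spin_t, spin_f, one_mul, neg_mul, Pi.mul_apply, hA.Gf_neg, e1, e2, neg_neg,
    Pi.neg_apply] at s1 s2 n1 n2
  simp only [neg_mul]
  rw [s1, s2, n1, n2]
  have mF : Measurable fun ω => F (Z ω, Gf θ (X ω)) := hF.comp (mZ.prodMk (mG.comp mX))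
  have b1 : ∀ ω, |exp (-(2 * X ω))| ≤ exp (2 * C) := fun ω => by
    simpa only [neg_mul] using exp_bd (hC ω)
  have b2 : ∀ ω, |exp (-(2 * Gf θ (X ω)))| ≤ exp (2 * artanh θ) := fun ω => by
    simpa only [neg_mul] using exp_bd (hA.Gf_le' (X ω))
  have m4 : Measurable fun ω => exp (-(2 * X ω)) := by fun_prop
  have m5 : Measurable fun ω => exp (-(2 * Gf θ (X ω))) :=
    (measurable_const.mul (mG.comp mX)).neg.exp
  have i0 : Integrable (fun ω => F (Z ω, Gf θ (X ω))) P := ibdd mF fun _ => hD _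
  have i1 : Integrable (fun ω => F (Z ω, Gf θ (X ω)) * exp (-(2 * X ω))) P :=
    ibdd (mF.mul m4) fun ω => mul_bd (hD _) (b1 ω)
  have i2 : Integrable (fun ω => F (Z ω, Gf θ (X ω)) * exp (-(2 * Gf θ (X ω)))) P :=
    ibdd (mF.mul m5) fun ω => mul_bd (hD _) (b2 ω)
  have i3 : Integrable (fun ω => F (Z ω, Gf θ (X ω)) * exp (-(2 * Gf θ (X ω))) *
      exp (-(2 * X ω))) P :=
    ibdd ((mF.mul m5).mul m4) fun ω => mul_bd (mul_bd (hD _) (b2 ω)) (b1 ω)
  rw [← integral_const_mul, ← integral_const_mul, ← integral_const_mul, ← integral_const_mul,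
    ← integral_add (i1.const_mul _) (i0.const_mul _),
    ← integral_add (i2.const_mul _) (i3.const_mul _)]
  refine integral_congr_ae (Eventually.of_forall fun ω => ?_)
  have x1 := exp_m2 (X ω)
  have x2 := exp_m2 (Gf θ (X ω))
  have p1 := one_add_pos (X ω)
  have p2 := one_add_pos (Gf θ (X ω))
  rw [hA.tanh_Gf] at x2 p2
  simp only [neg_mul] at x1 x2
  have y1 : exp (-(2 * X ω)) = (1 - tanh (X ω)) / (1 + tanh (X ω)) := by
    rw [← x1]; field_simp
  have y2 : exp (-(2 * Gf θ (X ω))) = (1 - θ * tanh (X ω)) / (1 + θ * tanh (X ω)) := by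
    rw [← x2]; field_simp
  simp only
  rw [y1, y2]
  field_simp
  ring

lemma bayes_aux [IsProbabilityMeasure P] {Z : Ω → ι → ℝ} {X : Ω → ℝ} {s : Ω → Bool}
    (h : Nish P Z X) (hs : Measurable s) (hl : P.map s = coin 0)
    (hi : IndepFun s (fun ω => (Z ω, X ω)) P) (F : (ι → ℝ) → ℝ) (hF : Measurable F)
    (hb : Bdd F) : ∫ ω, spin (s ω) * F (fun j => spin (s ω) * Z ω j) ∂P =
      ∫ ω, tanh (spin (s ω) * X ω) * F (fun j => spin (s ω) * Z ω j) ∂P := by
  obtain ⟨D, hD⟩ := hb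
  obtain ⟨C, hC⟩ := h.bdd
  have mZ := h.mZ
  have mX := h.mX
  have m0 : ∀ b, Measurable fun p : (ι → ℝ) × ℝ => F (fun j => spin b * p.1 j) := fun b =>
    hF.comp (measurable_pi_lambda _ fun j => by fun_prop)
  have m1 : ∀ b, Measurable fun p : (ι → ℝ) × ℝ => spin b * F (fun j => spin b * p.1 j) :=
    fun b => measurable_const.mul (m0 b)
  have m2 : ∀ b, Measurable fun p : (ι → ℝ) × ℝ =>
      tanh (spin b * p.2) * F (fun j => spin b * p.1 j) := fun b =>
    (tanh_meas.comp (by fun_prop)).mul (m0 b)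
  have s1 := split le_rfl one_pos hs hl (mZ.prodMk mX) hi m1 (D := 1 * D)
    fun b _ => mul_bd (P161.spin_abs b).le (hD _)
  have s2 := split le_rfl one_pos hs hl (mZ.prodMk mX) hi m2 (D := 1 * D)
    fun b _ => mul_bd (abs_tanh_lt_one _).le (hD _)
  have n1 := h.eq _ (m0 true) ⟨D, fun _ => hD _⟩
  have n2 := h.eq _ (m2 true) ⟨1 * D, fun _ => mul_bd (abs_tanh_lt_one _).le (hD _)⟩
  have e1 : ∀ z : ι → ℝ, (fun j => z j) = z := fun _ => rfl
  have e2 : ∀ z : ι → ℝ, (fun j => -z j) = -z := fun _ => rfl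
  simp only [spin_t, spin_f, one_mul, neg_mul, e1, e2, Pi.neg_apply] at s1 s2 n1 n2
  rw [s1, s2, integral_neg, n1, n2]
  have mF : Measurable fun ω => F (Z ω) := hF.comp mZ
  have b1 : ∀ ω, |exp (-(2 * X ω))| ≤ exp (2 * C) := fun ω => by
    simpa only [neg_mul] using exp_bd (hC ω)
  have m4 : Measurable fun ω => exp (-(2 * X ω)) := by fun_prop
  have m5 : Measurable fun ω => tanh (X ω) := tanh_meas.comp mX
  have i0 : Integrable (fun ω => F (Z ω)) P := ibdd mF fun _ => hD _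
  have i1 : Integrable (fun ω => F (Z ω) * exp (-(2 * X ω))) P :=
    ibdd (mF.mul m4) fun ω => mul_bd (hD _) (b1 ω)
  have i2 : Integrable (fun ω => tanh (X ω) * F (Z ω)) P :=
    ibdd (m5.mul mF) fun ω => mul_bd (abs_tanh_lt_one _).le (hD _)
  have i3 : Integrable (fun ω => tanh (X ω) * F (Z ω) * exp (-(2 * X ω))) P :=
    ibdd ((m5.mul mF).mul m4) fun ω => mul_bd (mul_bd (abs_tanh_lt_one _).le (hD _)) (b1 ω)
  have key : ∫ ω, F (Z ω) ∂P - ∫ ω, F (Z ω) * exp (-(2 * X ω)) ∂P =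
      ∫ ω, tanh (X ω) * F (Z ω) ∂P + ∫ ω, tanh (X ω) * F (Z ω) * exp (-(2 * X ω)) ∂P := by
    rw [← integral_sub i0 i1, ← integral_add i2 i3]
    refine integral_congr_ae (Eventually.of_forall fun ω => ?_)
    have x1 := exp_m2 (X ω)
    simp only [neg_mul] at x1
    linear_combination (-F (Z ω)) * x1
  linear_combination key / 2

lemma conv_aux [IsProbabilityMeasure P] {X : Ω → ℝ} {s : Ω → Bool} (mX : Measurable X)
    (hb : Bdd X) (hs : Measurable s) (hl : P.map s = coin 0) (hi : IndepFun s X P)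
    (h : ∀ F : ℝ → ℝ, Measurable F → Bdd F → ∫ ω, spin (s ω) * F (spin (s ω) * X ω) ∂P =
      ∫ ω, tanh (spin (s ω) * X ω) * F (spin (s ω) * X ω) ∂P) : Nish0 P X := by
  refine ⟨mX, hb, fun K hK ⟨D, hD⟩ => ?_⟩
  obtain ⟨C, hC⟩ := hb
  have t0 := one_add_pos (-C)
  have hmono : ∀ y, tanh (-C) ≤ tanh (max y (-C)) := fun y => by
    have := (artanh_le_artanh_iff (x := tanh (-C)) (y := tanh (max y (-C)))
      ⟨neg_one_lt_tanh _, tanh_lt_one _⟩ ⟨neg_one_lt_tanh _, tanh_lt_one _⟩).1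
    exact this (by rw [artanh_tanh, artanh_tanh]; exact le_max_right _ _)
  set F : ℝ → ℝ := fun y => K y * (1 + tanh (max y (-C)))⁻¹ with hFd
  have mF : Measurable F := hK.mul (measurable_const.add (tanh_meas.comp (by fun_prop))).inv
  have bF : ∀ y, |F y| ≤ D * (1 + tanh (-C))⁻¹ := fun y => mul_bd (hD _) (by
    rw [abs_of_pos (inv_pos.2 (one_add_pos _))]
    exact inv_anti₀ t0 (by linarith [hmono y]))
  have eF : ∀ y, |y| ≤ C → (1 + tanh y) * F y = K y := fun y hy => by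
    have := one_add_pos y
    simp only [hFd, max_eq_left (abs_le.1 hy).1]
    field_simp
  have h1 := h F mF ⟨_, bF⟩
  have m0 : ∀ b, Measurable fun x : ℝ => F (spin b * x) := fun b => mF.comp (by fun_prop)
  have s1 := split le_rfl one_pos hs hl mX hi (K := fun b x => spin b * F (spin b * x))
    (fun b => measurable_const.mul (m0 b)) fun b _ => mul_bd (P161.spin_abs b).le (bF _)
  have s2 := split le_rfl one_pos hs hl mX hi
    (K := fun b x => tanh (spin b * x) * F (spin b * x))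
    (fun b => (tanh_meas.comp (by fun_prop)).mul (m0 b))
    fun b _ => mul_bd (abs_tanh_lt_one _).le (bF _)
  simp only [spin_t, spin_f, one_mul, neg_mul] at s1 s2
  rw [s1, s2, integral_neg] at h1
  have m1 : Measurable fun ω => F (X ω) := mF.comp mX
  have m2 : Measurable fun ω => F (-X ω) := mF.comp mX.neg
  have m5 : Measurable fun ω => tanh (X ω) := tanh_meas.comp mX
  have m6 : Measurable fun ω => tanh (-X ω) := tanh_meas.comp mX.neg
  have i0 : Integrable (fun ω => F (X ω)) P := ibdd m1 fun _ => bF _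
  have i1 : Integrable (fun ω => F (-X ω)) P := ibdd m2 fun _ => bF _
  have i2 : Integrable (fun ω => tanh (X ω) * F (X ω)) P :=
    ibdd (m5.mul m1) fun ω => mul_bd (abs_tanh_lt_one _).le (bF _)
  have i3 : Integrable (fun ω => tanh (-X ω) * F (-X ω)) P :=
    ibdd (m6.mul m2) fun ω => mul_bd (abs_tanh_lt_one _).le (bF _)
  have a1 : ∫ ω, K (-X ω) ∂P = ∫ ω, F (-X ω) ∂P + ∫ ω, tanh (-X ω) * F (-X ω) ∂P := by
    rw [← integral_add i1 i3]
    refine integral_congr_ae (Eventually.of_forall fun ω => ?_)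
    have := eF (-X ω) (by simpa using hC ω)
    simp only
    linarith
  have a2 : ∫ ω, K (X ω) * exp (-2 * X ω) ∂P =
      ∫ ω, F (X ω) ∂P - ∫ ω, tanh (X ω) * F (X ω) ∂P := by
    rw [← integral_sub i0 i2]
    refine integral_congr_ae (Eventually.of_forall fun ω => ?_)
    have := eF (X ω) (hC ω)
    have x1 := exp_m2 (X ω)
    simp only
    rw [← this]
    linear_combination F (X ω) * x1
  rw [a1, a2]
  linarith

lemma indep_pad2 {X X' : Ω → ℝ} (hi : IndepFun X X' P) :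
    IndepFun (fun ω => ((fun _ : Empty => (0 : ℝ)), X ω))
      (fun ω => ((fun _ : Empty => (0 : ℝ)), X' ω)) P :=
  (indep_pad (indep_pad hi).symm).symm

lemma xx_eq [IsProbabilityMeasure P] {X X' : Ω → ℝ} (h : Nish0 P X) (h' : Nish0 P X')
    (hi : IndepFun X X' P) : xx P (fun ω => X ω + X' ω) =
      ∫ ω, (tanh (X ω) ^ 2 + tanh (X' ω) ^ 2 - 2 * (tanh (X ω) ^ 2 * tanh (X' ω) ^ 2)) /
        (1 - tanh (X ω) ^ 2 * tanh (X' ω) ^ 2) ∂P := by
  have c := tanh_cont
  have b1 : ∀ x, |tanh x ^ 2| ≤ 1 := fun x => by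
    rw [abs_of_nonneg (sq_nonneg _)]; exact (tanh_sq_lt_one x).le
  have a := sym2 h h'.mX hi (F := fun q => tanh (q.1 + q.2) ^ 2)
    (by apply Continuous.measurable; fun_prop) fun _ => ⟨1, fun _ _ _ => b1 _⟩
  have b := sym2 h' h.mX hi.symm (F := fun q => ((1 + tanh q.2) * tanh (q.2 + q.1) ^ 2 +
      (1 - tanh q.2) * tanh (-q.2 + q.1) ^ 2) / 2)
    (by apply Continuous.measurable; fun_prop) fun _ => ⟨1, fun x ω _ => by
      have p1 := tanh_sq_lt_one (X ω + x)
      have p2 := tanh_sq_lt_one (-X ω + x)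
      have p3 := neg_one_lt_tanh (X ω)
      have p4 := tanh_lt_one (X ω)
      have q1 := mul_nonneg (show 0 ≤ 1 + tanh (X ω) by linarith) (sq_nonneg (tanh (X ω + x)))
      have q2 := mul_nonneg (show 0 ≤ 1 - tanh (X ω) by linarith) (sq_nonneg (tanh (-X ω + x)))
      have q3 := mul_le_mul_of_nonneg_left p1.le (show 0 ≤ 1 + tanh (X ω) by linarith)
      have q4 := mul_le_mul_of_nonneg_left p2.le (show 0 ≤ 1 - tanh (X ω) by linarith)
      simp only
      rw [abs_le]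
      constructor <;> linarith⟩
  rw [xx, a, b]
  refine integral_congr_ae (Eventually.of_forall fun ω => ?_)
  have d := abs_lt.1 (tanh_mul_lt (X ω) (X' ω))
  simp only [tanh_add', tanh_neg]
  generalize tanh (X ω) = u at *
  generalize tanh (X' ω) = v at *
  have d1 : 1 + u * v ≠ 0 := by linarith [d.1]
  have d2 : 1 - u * v ≠ 0 := by linarith [d.2]
  have d3 : 1 - u ^ 2 * v ^ 2 = (1 + u * v) * (1 - u * v) := by ring
  rw [d3, show 1 + -u * v = 1 - u * v by ring, show 1 + u * -v = 1 - u * v by ring,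
    show 1 + -u * -v = 1 + u * v by ring]
  generalize hA : 1 + u * v = A at *
  generalize hB : 1 - u * v = B at *
  field_simp
  subst hA hB
  ring

lemma xx_add_aux [IsProbabilityMeasure P] {X X' : Ω → ℝ} (h : Nish0 P X) (h' : Nish0 P X')
    (hi : IndepFun X X' P) :
    (1 - xx P X) * (1 - xx P X') ≤ 1 - xx P (fun ω => X ω + X' ω) ∧
    1 - 2 * xx P (fun ω => X ω + X' ω) ≤ (1 - 2 * xx P X) * (1 - 2 * xx P X') ∧
    xx P X ≤ xx P fun ω => X ω + X' ω := by
  have c : Continuous fun x => tanh x ^ 2 := tanh_cont.pow 2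
  have b1 : ∀ x, |tanh x ^ 2| ≤ 1 := fun x => by
    rw [abs_of_nonneg (sq_nonneg _)]; exact (tanh_sq_lt_one x).le
  have m1 : Measurable fun ω => tanh (X ω) ^ 2 := c.measurable.comp h.mX
  have m2 : Measurable fun ω => tanh (X' ω) ^ 2 := c.measurable.comp h'.mX
  have i1 := icont h c
  have i2 := icont h' c
  have i3 : Integrable (fun ω => tanh (X ω) ^ 2 * tanh (X' ω) ^ 2) P :=
    ibdd (m1.mul m2) fun ω => mul_bd (b1 _) (b1 _)
  have pr : ∫ ω, tanh (X ω) ^ 2 * tanh (X' ω) ^ 2 ∂P = xx P X * xx P X' :=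
    (hi.comp c.measurable c.measurable).integral_fun_mul_eq_mul_integral
      m1.aestronglyMeasurable m2.aestronglyMeasurable
  have pt : ∀ p q : ℝ, 0 ≤ p → p < 1 → 0 ≤ q → q < 1 →
      (p + q - 2 * (p * q)) / (1 - p * q) ≤ p + q - p * q ∧
      p + q - 2 * (p * q) ≤ (p + q - 2 * (p * q)) / (1 - p * q) ∧
      p ≤ (p + q - 2 * (p * q)) / (1 - p * q) := by
    intro p q p0 p1 q0 q1
    have pq := mul_nonneg p0 q0
    have d : 0 < 1 - p * q := by nlinarith
    have e1 := mul_nonneg p0 (show 0 ≤ 1 - q by linarith)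
    have e2 := mul_nonneg q0 (show 0 ≤ 1 - p by linarith)
    have e3 := mul_nonneg (show 0 ≤ 1 - p by linarith) (show 0 ≤ 1 - q by linarith)
    refine ⟨(div_le_iff₀ d).2 ?_, (le_div_iff₀ d).2 ?_, (le_div_iff₀ d).2 ?_⟩
    · nlinarith [mul_nonneg pq e3]
    · nlinarith [mul_nonneg pq (add_nonneg e1 e2)]
    · nlinarith [mul_nonneg q0 (sq_nonneg (1 - p))]
  have pw := fun ω => pt _ _ (sq_nonneg _) (tanh_sq_lt_one (X ω)) (sq_nonneg _)
    (tanh_sq_lt_one (X' ω))
  have i4 : Integrable (fun ω => tanh (X ω) ^ 2 + tanh (X' ω) ^ 2) P := i1.add i2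
  have i5 : Integrable (fun ω => tanh (X ω) ^ 2 + tanh (X' ω) ^ 2 -
      tanh (X ω) ^ 2 * tanh (X' ω) ^ 2) P := i4.sub i3
  have i6 : Integrable (fun ω => tanh (X ω) ^ 2 + tanh (X' ω) ^ 2 -
      2 * (tanh (X ω) ^ 2 * tanh (X' ω) ^ 2)) P := i4.sub (i3.const_mul 2)
  have i7 : Integrable (fun ω => (tanh (X ω) ^ 2 + tanh (X' ω) ^ 2 -
      2 * (tanh (X ω) ^ 2 * tanh (X' ω) ^ 2)) / (1 - tanh (X ω) ^ 2 * tanh (X' ω) ^ 2)) P := by
    refine ibdd (((m1.add m2).sub (measurable_const.mul (m1.mul m2))).div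
      (measurable_const.sub (m1.mul m2))) (C := 2) fun ω => abs_le.2 ⟨?_, ?_⟩
    · linarith [(pw ω).2.2, sq_nonneg (tanh (X ω))]
    · linarith [(pw ω).1, tanh_sq_lt_one (X ω), tanh_sq_lt_one (X' ω),
        mul_nonneg (sq_nonneg (tanh (X ω))) (sq_nonneg (tanh (X' ω)))]
  have u1 := integral_mono i7 i5 fun ω => (pw ω).1
  have u2 := integral_mono i6 i7 fun ω => (pw ω).2.1
  have u3 := integral_mono i1 i7 fun ω => (pw ω).2.2
  rw [integral_sub i4 i3, integral_add i1 i2, pr] at u1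
  rw [integral_sub i4 (i3.const_mul 2), integral_add i1 i2, integral_const_mul, pr] at u2
  rw [← xx_eq h h' hi] at u1 u2 u3
  change _ ≤ xx P X + xx P X' - _ at u1
  change xx P X + xx P X' - _ ≤ _ at u2
  exact ⟨by linarith, by linarith, u3⟩

lemma cosh_aux [IsProbabilityMeasure P] {X : Ω → ℝ} {t : ℝ} (h : Nish0 P X) (ht : 0 ≤ t) :
    ∫ ω, cosh (t * X ω) ∂P ≤ ∫ ω, exp (t * X ω) ∂P ∧
      ∫ ω, exp (t * X ω) ∂P ≤ ∫ ω, cosh ((t + 1) * X ω) ∂P := by
  have c := tanh_cont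
  have a := sym1 h (F := fun x => exp (t * x)) (by fun_prop)
  have e : ∀ x, ((1 + tanh x) * exp (t * x) + (1 - tanh x) * exp (t * -x)) / 2 =
      cosh (t * x) + tanh x * sinh (t * x) := fun x => by
    rw [cosh_eq, sinh_eq, mul_neg]; ring
  simp only [e] at a
  rw [a]
  have i1 := icont h (F := fun x => cosh (t * x)) (by fun_prop)
  have i2 := icont h (F := fun x => cosh (t * x) + tanh x * sinh (t * x)) (by fun_prop)
  have i3 := icont h (F := fun x => cosh ((t + 1) * x)) (by fun_prop)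
  refine ⟨integral_mono i1 i2 fun ω => ?_, integral_mono i2 i3 fun ω => ?_⟩
  · have : 0 ≤ tanh (X ω) * sinh (t * X ω) := by
      rw [tanh_eq_sinh_div_cosh, div_mul_eq_mul_div]
      refine div_nonneg ?_ (cosh_pos _).le
      rcases le_total 0 (X ω) with p | p
      · exact mul_nonneg (sinh_nonneg_iff.2 p) (sinh_nonneg_iff.2 (mul_nonneg ht p))
      · exact mul_nonneg_of_nonpos_of_nonpos (sinh_nonpos_iff.2 p)
          (sinh_nonpos_iff.2 (mul_nonpos_of_nonneg_of_nonpos ht p))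
    simp only
    linarith
  · have p := cosh_pos (X ω)
    have q : cosh (t * X ω) + tanh (X ω) * sinh (t * X ω) =
        cosh ((t + 1) * X ω) / cosh (X ω) := by
      rw [add_mul, one_mul, cosh_add, tanh_eq_sinh_div_cosh]
      field_simp
    simp only
    rw [q]
    exact div_le_self (cosh_pos _).le (one_le_cosh _)

lemma anti_aux [IsProbabilityMeasure P] {X : Ω → ℝ} {θ : ℝ} (a : ℝ) (h1 : θ < 1) (h : Nish0 P X)
    (hb : ∀ ω, |tanh (X ω)| ≤ θ) : (1 - θ) / 2 * xx P X ≤ ∫ ω, tanh (a + X ω) ^ 2 ∂P := by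
  have c := tanh_cont
  rw [sym1 h (F := fun x => tanh (a + x) ^ 2) (by fun_prop), xx, ← integral_const_mul]
  refine integral_mono (icont h (F := fun x => (1 - θ) / 2 * tanh x ^ 2) (by fun_prop))
    (icont h (F := fun x => ((1 + tanh x) * tanh (a + x) ^ 2 +
      (1 - tanh x) * tanh (a + -x) ^ 2) / 2) (by fun_prop)) fun ω => ?_
  have p := abs_le.1 (hb ω)
  have q := tanh_sq_anti a (X ω)
  have r1 := mul_nonneg (show 0 ≤ tanh (X ω) + θ by linarith [p.1]) (sq_nonneg (tanh (a + X ω)))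
  have r2 := mul_nonneg (show 0 ≤ θ - tanh (X ω) by linarith [p.2]) (sq_nonneg (tanh (a + -X ω)))
  have r3 := mul_le_mul_of_nonneg_left q (show 0 ≤ 1 - θ by linarith)
  simp only
  linarith

end NN

open NN in
theorem stmtN {θ : ℝ} (h0 : 0 < θ) (h1 : θ < 1) (hA : StmtA 0 θ) (_hP : StmtP) : StmtN θ where
  zero := fun P _ => ⟨measurable_const, measurable_const, ⟨0, fun _ => by simp⟩, fun F _ _ => by
    simp only [neg_zero, mul_zero, exp_zero, mul_one]
    congr 1
    funext ω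
    congr 2
    exact funext fun _ => neg_zero⟩
  add := fun _ _ _ _ _ _ h h' hi => add_aux h h' hi
  flip := fun _ _ _ _ _ h hξ hl hi => flip_aux h0 h1 hA h hξ hl hi
  bayes := fun _ _ _ _ _ h hs hl hi F hF hb => bayes_aux h hs hl hi F hF hb
  conv := fun _ _ _ _ mX hb hs hl hi h => conv_aux mX hb hs hl hi h
  congr0 := fun P X X' h m b e => ⟨m, b, fun F hF hb => by
    rw [← integral_congr_ae (e.mono fun ω hω => show F (-X ω) = F (-X' ω) by rw [hω]),
      h.eq F hF hb]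
    exact integral_congr_ae (e.mono fun ω hω => by simp only [hω])⟩
  add0 := fun _ _ _ _ h h' hi => to0 (add_aux (toN h) (toN h') (indep_pad2 hi))
  flip0 := fun _ _ _ _ h hξ hl hi =>
    to0 (flip_aux h0 h1 hA (toN h) hξ hl (indep_pad hi.symm).symm)
  xx_add := fun _ _ _ _ h h' hi => xx_add_aux h h' hi
  cosh_le := fun _ _ _ _ h ht => cosh_aux h ht
  anti := fun _ _ _ a h hb => anti_aux a h1 h hb

end Vale.Agent.P161E
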