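import Vale.Agent.P161E.Spec

namespace Vale.Agent.P161E

open MeasureTheory ProbabilityTheory Filter Topology Finset Real
open Vale.Agent.P161 (spin obs gain clip coin ibdd map_update)
open scoped Classical

lemma iae {Ω : Type} [MeasurableSpace Ω] {P : Measure Ω} [IsFiniteMeasure P] {f : Ω → ℝ}
    (hf : Measurable f) {C : ℝ} (h : ∀ᵐ ω ∂P, |f ω| ≤ C) : Integrable f P :=
  Integrable.of_bound hf.aestronglyMeasurable C h

lemma pull_int {Ω : Type} (m : MeasurableSpace Ω) [m0 : MeasurableSpace Ω] (P : Measure Ω)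
    [IsProbabilityMeasure P] (hm : m ≤ m0) {h f : Ω → ℝ} (hh : StronglyMeasurable[m] h)
    {C : ℝ} (hC : ∀ᵐ ω ∂P, |h ω| ≤ C) (hf : Integrable f P) :
    ∫ ω, h ω * (P[f | m]) ω ∂P = ∫ ω, h ω * f ω ∂P := by
  have h1 := condExp_stronglyMeasurable_mul_of_bound hm hh hf C hC
  have h2 : ∫ ω, (P[h * f | m]) ω ∂P = ∫ ω, (h * f) ω ∂P := integral_condExp hm
  rw [integral_congr_ae h1] at h2
  exact h2

lemma between_aux {Ω : Type} (m : MeasurableSpace Ω) [m0 : MeasurableSpace Ω] (P : Measure Ω)
    [IsProbabilityMeasure P] (f : Ω → ℝ) (a b : ℝ) (hm : m ≤ m0) (hf : Measurable f)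
    (h : ∀ᵐ ω ∂P, a ≤ f ω ∧ f ω ≤ b) : ∀ᵐ ω ∂P, a ≤ (P[f | m]) ω ∧ (P[f | m]) ω ≤ b := by
  have hi : Integrable f P := iae hf (C := |a| + |b|) (h.mono fun ω hω => by
    rw [abs_le]
    constructor <;> linarith [hω.1, hω.2, neg_abs_le a, le_abs_self b, abs_nonneg a, abs_nonneg b])
  have h1 := condExp_mono (m := m) (integrable_const a) hi (h.mono fun ω hω => hω.1)
  have h2 := condExp_mono (m := m) hi (integrable_const b) (h.mono fun ω hω => hω.2)
  rw [condExp_const hm] at h1 h2
  filter_upwards [h1, h2] with ω a1 a2 using ⟨a1, a2⟩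

lemma abs_ce {Ω : Type} (m : MeasurableSpace Ω) [m0 : MeasurableSpace Ω] (P : Measure Ω)
    [IsProbabilityMeasure P] (f : Ω → ℝ) (C : ℝ) (hm : m ≤ m0) (hf : Measurable f)
    (h : ∀ᵐ ω ∂P, |f ω| ≤ C) : ∀ᵐ ω ∂P, |(P[f | m]) ω| ≤ C :=
  (between_aux m P f (-C) C hm hf (h.mono fun _ hω => abs_le.1 hω)).mono fun _ hω => abs_le.2 hω

lemma proj_aux {Ω : Type} (m : MeasurableSpace Ω) [m0 : MeasurableSpace Ω] (P : Measure Ω)
    [IsProbabilityMeasure P] (f Y : Ω → ℝ) (C : ℝ) (hm : m ≤ m0) (hf : Measurable f)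
    (hC : ∀ᵐ ω ∂P, |f ω| ≤ C) (hY : Measurable[m] Y) (hYC : ∀ᵐ ω ∂P, |Y ω| ≤ C) :
    ∫ ω, (f ω - (P[f | m]) ω) ^ 2 ∂P ≤ ∫ ω, (f ω - Y ω) ^ 2 ∂P := by
  have hg := abs_ce m P f C hm hf hC
  have hgs : StronglyMeasurable[m] (P[f | m]) := stronglyMeasurable_condExp
  have hgm : Measurable (P[f | m]) := (hgs.mono hm).measurable
  have hY0 : Measurable Y := hY.mono hm le_rfl
  set g := P[f | m] with hgdef
  have hh : StronglyMeasurable[m] fun ω => g ω - Y ω := hgs.sub hY.stronglyMeasurable
  have hhC : ∀ᵐ ω ∂P, |g ω - Y ω| ≤ 2 * C := by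
    filter_upwards [hg, hYC] with ω a b
    exact (abs_sub _ _).trans (by linarith)
  have key := pull_int m P hm hh hhC (iae hf hC)
  have hmul : ∀ {u v : Ω → ℝ}, Measurable u → Measurable v → (∀ᵐ ω ∂P, |u ω| ≤ 2 * C) →
      (∀ᵐ ω ∂P, |v ω| ≤ 2 * C) → Integrable (fun ω => u ω * v ω) P := by
    intro u v hu hv h1 h2
    refine iae (hu.mul hv) (C := 2 * C * (2 * C)) ?_
    filter_upwards [h1, h2] with ω a b
    rw [abs_mul]
    exact mul_le_mul a b (abs_nonneg _) ((abs_nonneg _).trans a)
  have b2 : ∀ {u : Ω → ℝ}, (∀ᵐ ω ∂P, |u ω| ≤ C) → ∀ᵐ ω ∂P, |u ω| ≤ 2 * C := fun h =>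
    h.mono fun ω a => by linarith [abs_nonneg (‹Ω → ℝ› ω)]
  have hfg : ∀ᵐ ω ∂P, |f ω - g ω| ≤ 2 * C := by
    filter_upwards [hC, hg] with ω a b
    exact (abs_sub _ _).trans (by linarith)
  have hfY : ∀ᵐ ω ∂P, |f ω - Y ω| ≤ 2 * C := by
    filter_upwards [hC, hYC] with ω a b
    exact (abs_sub _ _).trans (by linarith)
  have i1 : Integrable (fun ω => (f ω - g ω) * (f ω - g ω)) P :=
    hmul (hf.sub hgm) (hf.sub hgm) hfg hfg
  have i2 : Integrable (fun ω => (f ω - Y ω) * (f ω - Y ω)) P :=
    hmul (hf.sub hY0) (hf.sub hY0) hfY hfY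
  have i3 : Integrable (fun ω => (g ω - Y ω) * g ω) P := hmul (hgm.sub hY0) hgm hhC (b2 hg)
  have i4 : Integrable (fun ω => (g ω - Y ω) * f ω) P := hmul (hgm.sub hY0) hf hhC (b2 hC)
  have i5 : Integrable (fun ω => 2 * ((g ω - Y ω) * f ω - (g ω - Y ω) * g ω)) P :=
    (i4.sub i3).const_mul 2
  have e : ∫ ω, ((f ω - g ω) * (f ω - g ω) + 2 * ((g ω - Y ω) * f ω - (g ω - Y ω) * g ω)) ∂P =
      ∫ ω, (f ω - g ω) * (f ω - g ω) ∂P := by
    rw [integral_add i1 i5, integral_const_mul, integral_sub i4 i3, key]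
    ring
  simp only [sq]
  rw [← e]
  refine integral_mono (i1.add i5) i2 fun ω => ?_
  simp only [Pi.add_apply]
  nlinarith [sq_nonneg (g ω - Y ω)]

lemma meas_ind {ι X : Type} [MeasurableSpace X] [Zero X] (B : Set ι) :
    Measurable fun a : ι → X => B.indicator a := by
  refine measurable_pi_lambda _ fun j => ?_
  by_cases h : j ∈ B
  · simp only [Set.indicator_of_mem h]; exact measurable_pi_apply j
  · simp only [Set.indicator_of_notMem h]; exact measurable_const

lemma comap_ind_le {Ω ι X : Type} [MeasurableSpace X] [Zero X] (Y : Ω → ι → X) {B B' : Set ι}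
    (h : B ⊆ B') : MeasurableSpace.comap (fun ω => B.indicator (Y ω)) inferInstance ≤
      MeasurableSpace.comap (fun ω => B'.indicator (Y ω)) inferInstance := by
  have e : (fun ω => B.indicator (Y ω)) =
      (fun a : ι → X => B.indicator a) ∘ fun ω => B'.indicator (Y ω) := by
    funext ω
    simp only [Function.comp, Set.indicator_indicator, Set.inter_eq_left.2 h]
  rw [e, ← MeasurableSpace.comap_comp]
  exact MeasurableSpace.comap_mono (meas_ind B).comap_le

theorem stmtP : StmtP where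
  proj := fun m _ P _ f Y C hm hf hC hY hYC => proj_aux m P f Y C hm hf hC hY hYC
  dual := by
    intro Ω m m0 P _ f g C hm hf hg hfC hgC
    have h1 := pull_int m P hm (stronglyMeasurable_condExp (f := g)) (abs_ce m P g C hm hg hgC)
      (iae hf hfC)
    have h2 := pull_int m P hm (stronglyMeasurable_condExp (f := f)) (abs_ce m P f C hm hf hfC)
      (iae hg hgC)
    rw [← h2]
    simp only [mul_comm (f _)]
    rw [← h1]
    simp only [mul_comm]
  between := fun m _ P _ f a b hm hf h => between_aux m P f a b hm hf h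
  jensen := by
    intro Ω m m0 P _ f C φ hm hf hC hφ hc
    obtain ⟨D, hD⟩ := (isCompact_Icc (a := -C) (b := C)).exists_bound_of_continuousOn
      hc.continuousOn
    have hi : Integrable (φ ∘ f) P := iae (hc.measurable.comp hf) (C := D)
      (hC.mono fun ω hω => hD _ (abs_le.1 hω))
    exact hφ.map_condExp_le_univ hm hc.lowerSemicontinuous (iae hf hC) hi
  comp := by
    intro Ω E m0 _ P _ Z S S' g g' f hZ hS hS' _ h2 hg hg' h3 h4 hf
    have hm : MeasurableSpace.comap Z inferInstance ≤ m0 := hZ.comap_le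
    have hSm : @Measurable Ω Ω (MeasurableSpace.comap Z inferInstance)
        (MeasurableSpace.comap Z inferInstance) S := by
      rintro _ ⟨A, hA, rfl⟩
      exact ⟨g ⁻¹' A, hg hA, by ext ω; simp [h3]⟩
    have key : ∀ (k : Ω → ℝ), Integrable k P → ∀ A, MeasurableSet A →
        ∫ ω in Z ⁻¹' A, k (S ω) ∂P = ∫ ω in Z ⁻¹' (g' ⁻¹' A), k ω ∂P := by
      intro k hk A hA
      have e : Z ⁻¹' A = S ⁻¹' (Z ⁻¹' (g' ⁻¹' A)) := by
        ext ω
        simp only [Set.mem_preimage, ← h4, h2]
      rw [e, ← setIntegral_map (hZ (hg' hA)) (by rw [hS.map_eq]; exact hk.1)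
        hS.measurable.aemeasurable, hS.map_eq]
    symm
    refine ae_eq_condExp_of_forall_setIntegral_eq hm (hS.integrable_comp_of_integrable hf)
      (fun s _ _ => (hS.integrable_comp_of_integrable integrable_condExp).integrableOn) ?_
      (stronglyMeasurable_condExp.comp_measurable hSm).aestronglyMeasurable
    rintro _ ⟨A, hA, rfl⟩ _
    rw [key _ integrable_condExp A hA, key _ hf A hA,
      setIntegral_condExp hm hf ⟨_, hg' hA, rfl⟩]
  char := by
    intro Ω E m0 _ P _ Z f g hZ hf ⟨C, hC⟩ hg ⟨D, hD⟩ h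
    have hm : MeasurableSpace.comap Z inferInstance ≤ m0 := hZ.comap_le
    refine ae_eq_condExp_of_forall_setIntegral_eq hm (ibdd hf hC)
      (fun s _ _ => (ibdd (hg.comp hZ) fun ω => hD _).integrableOn) ?_
      (hg.comp (comap_measurable Z)).stronglyMeasurable.aestronglyMeasurable
    rintro _ ⟨A, hA, rfl⟩ _
    have h1 := h (A.indicator 1) (measurable_one.indicator hA) ⟨1, fun a => by
      by_cases ha : a ∈ A <;> simp [ha]⟩
    rw [← integral_indicator (hZ hA), ← integral_indicator (hZ hA)]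
    have e : ∀ k : Ω → ℝ, (Z ⁻¹' A).indicator k = fun ω => k ω * A.indicator 1 (Z ω) := by
      intro k
      funext ω
      by_cases ha : Z ω ∈ A <;> simp [Set.indicator_apply, ha]
    rw [e, e]
    exact h1.symm
  levy := by
    intro Ω ι X m0 _ _ _ P _ Y Bk f hY hB _
    let ℱ : Filtration ℕ m0 :=
      ⟨fun k => MeasurableSpace.comap (fun ω => (Bk k).indicator (Y ω)) inferInstance,
        fun k k' hk => comap_ind_le Y (hB hk), fun k => ((meas_ind _).comp hY).comap_le⟩
    have e : (⨆ k, ℱ k) =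
        MeasurableSpace.comap (fun ω => (⋃ k, Bk k).indicator (Y ω)) inferInstance := by
      refine le_antisymm (iSup_le fun k => comap_ind_le Y (Set.subset_iUnion _ k)) ?_
      refine Measurable.comap_le ?_
      refine @measurable_pi_lambda _ _ _ (⨆ k, ℱ k) _ _ fun j => ?_
      by_cases h : j ∈ ⋃ k, Bk k
      · obtain ⟨k, hk⟩ := Set.mem_iUnion.1 h
        have h1 : Measurable[ℱ k] fun ω => (Bk k).indicator (Y ω) j :=
          (measurable_pi_apply j).comp (comap_measurable fun ω => (Bk k).indicator (Y ω))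
        simp only [Set.indicator_of_mem hk] at h1
        simp only [Set.indicator_of_mem h]
        exact h1.mono (le_iSup (fun k => (ℱ k : MeasurableSpace Ω)) k) le_rfl
      · simp only [Set.indicator_of_notMem h]
        exact measurable_const
    have := tendsto_ae_condExp (μ := P) (ℱ := ℱ) f
    rw [e] at this
    exact this
  update := by
    intro ι i F hF ⟨C, hC⟩
    have hm : Measurable fun p : (ι → unitInterval) × unitInterval =>
        Function.update p.1 i p.2 := measurable_update'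
    conv_lhs => rw [← map_update volume i]
    rw [integral_map hm.aemeasurable hF.aestronglyMeasurable, integral_prod]
    exact ibdd (hF.comp hm) fun _ => hC _
  iindep := by
    intro Ω ι E _ _ _ P _ X hX h
    rw [iIndepFun_iff_measure_inter_preimage_eq_mul]
    intro S sets
    induction S using Finset.induction_on with
    | empty => simp
    | insert i S hi ih =>
      intro hs
      rw [prod_insert hi, ← ih fun j hj => hs j (mem_insert_of_mem hj), set_biInter_insert]
      have ht : MeasurableSet {a : {j // j ≠ i} → E | ∀ j : {j // j ≠ i}, j.1 ∈ S →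
          a j ∈ sets j} := by
        simp only [Set.setOf_forall]
        exact MeasurableSet.iInter fun j => MeasurableSet.iInter fun hj =>
          measurable_pi_apply j (hs j (mem_insert_of_mem hj))
      have := (h i).measure_inter_preimage_eq_mul _ _ (hs i (mem_insert_self _ _)) ht
      have e : (fun ω (j : {j // j ≠ i}) => X j ω) ⁻¹' {a : {j // j ≠ i} → E |
          ∀ j : {j // j ≠ i}, j.1 ∈ S → a j ∈ sets j} = ⋂ j ∈ S, X j ⁻¹' sets j := by
        ext ω
        simp only [Set.mem_preimage, Set.mem_ofPred_eq, Set.mem_iInter]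
        exact ⟨fun h j hj => h ⟨j, ne_of_mem_of_not_mem hj hi⟩ hj, fun h j hj => h j hj⟩
      rwa [e] at this
  fubini := by
    intro Ω E E' _ _ _ P _ X Y F hX hY h hF ⟨C, hC⟩
    have h1 := (indepFun_iff_map_prod_eq_prod_map_map hX.aemeasurable hY.aemeasurable).1 h
    have := Measure.isProbabilityMeasure_map (μ := P) hX.aemeasurable
    have := Measure.isProbabilityMeasure_map (μ := P) hY.aemeasurable
    rw [← integral_map (hX.prodMk hY).aemeasurable hF.aestronglyMeasurable, h1,
      integral_prod_symm _ (ibdd hF hC), integral_map hY.aemeasurable]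
    · refine integral_congr_ae (Eventually.of_forall fun ω' => ?_)
      exact integral_map hX.aemeasurable
        (hF.comp (measurable_id.prodMk measurable_const)).aestronglyMeasurable
    · exact (hF.stronglyMeasurable.integral_prod_left').aestronglyMeasurable

end Vale.Agent.P161E
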