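import Vale.Agent.P161E.Spec

/-! P161 endpoint, module Q: the quenched step. -/

namespace Vale.Agent.P161E

open MeasureTheory ProbabilityTheory Filter Topology Finset Real
open Vale.Agent.P161 (spin obs gain clip coin ibdd gain_abs gain_lip den_ge)
open scoped Classical

namespace Qm

variable {d : ℕ} {θ : ℝ} {μ : Measure (W d → Bool)}

/-- Bounded measurable functions of the array masked to `B`. -/
structure Fn (B : Set (I d)) (f : (I d → ℝ) → ℝ) : Prop where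
  meas : Measurable f
  bdd : Bdd f
  mask : ∀ a, f (B.indicator a) = f a

lemma meas_mask (B : Set (I d)) : Measurable fun a : I d → ℝ => B.indicator a := by
  refine measurable_pi_lambda _ fun j => ?_
  by_cases h : j ∈ B
  · simp only [Set.indicator_of_mem h]; exact measurable_pi_apply j
  · simp only [Set.indicator_of_notMem h]; exact measurable_const

lemma continuous_tanh' : Continuous Real.tanh := by
  have : Real.tanh = fun x => sinh x / cosh x := funext Real.tanh_eq_sinh_div_cosh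
  rw [this]
  exact continuous_sinh.div continuous_cosh fun x => (cosh_pos x).ne'

lemma mgain (hC : StmtC) {α : Type} [MeasurableSpace α] {f : α → ℝ} {g : α → unitInterval}
    (hf : Measurable f) (hg : Measurable g) : Measurable fun a => gain (f a) (g a) := by
  have h := hC.meas_gain.comp (hf.prodMk hg)
  exact h

lemma Fn.const (B : Set (I d)) (c : ℝ) : Fn B fun _ => c :=
  ⟨measurable_const, ⟨|c|, fun _ => le_rfl⟩, fun _ => rfl⟩

lemma Fn.add {B : Set (I d)} {f g : (I d → ℝ) → ℝ} (hf : Fn B f) (hg : Fn B g) :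
    Fn B fun a => f a + g a := by
  obtain ⟨C, hC⟩ := hf.bdd
  obtain ⟨D, hD⟩ := hg.bdd
  exact ⟨hf.meas.add hg.meas, ⟨C + D, fun a => (abs_add_le _ _).trans (add_le_add (hC a) (hD a))⟩,
    fun a => by rw [hf.mask, hg.mask]⟩

lemma Fn.mul {B : Set (I d)} {f g : (I d → ℝ) → ℝ} (hf : Fn B f) (hg : Fn B g) :
    Fn B fun a => f a * g a := by
  obtain ⟨C, hC⟩ := hf.bdd
  obtain ⟨D, hD⟩ := hg.bdd
  refine ⟨hf.meas.mul hg.meas, ⟨C * D, fun a => ?_⟩, fun a => by rw [hf.mask, hg.mask]⟩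
  rw [abs_mul]
  exact mul_le_mul (hC a) (hD a) (abs_nonneg _) ((abs_nonneg _).trans (hC a))

lemma Fn.sub {B : Set (I d)} {f g : (I d → ℝ) → ℝ} (hf : Fn B f) (hg : Fn B g) :
    Fn B fun a => f a - g a := by
  have := hf.add ((Fn.const B (-1)).mul hg)
  simpa [sub_eq_add_neg] using this

lemma Fn.sq {B : Set (I d)} {f : (I d → ℝ) → ℝ} (hf : Fn B f) : Fn B fun a => f a ^ 2 := by
  simpa [pow_two] using hf.mul hf

lemma Fn.sum {κ : Type} {B : Set (I d)} {f : κ → (I d → ℝ) → ℝ} (S : Finset κ)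
    (hf : ∀ k ∈ S, Fn B (f k)) : Fn B fun a => ∑ k ∈ S, f k a := by
  induction S using Finset.induction_on with
  | empty => simpa using Fn.const B 0
  | insert k S hk ih =>
    simp only [sum_insert hk]
    exact (hf k (mem_insert_self _ _)).add (ih fun j hj => hf j (mem_insert_of_mem hj))

lemma Fn.mono {B B' : Set (I d)} {f : (I d → ℝ) → ℝ} (hf : Fn B f) (h : B ⊆ B') : Fn B' f := by
  refine ⟨hf.meas, hf.bdd, fun a => ?_⟩
  rw [← hf.mask, Set.indicator_indicator, Set.inter_eq_left.2 h, hf.mask]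

lemma Fn.int (b : Base d θ μ) {B : Set (I d)} {f : (I d → ℝ) → ℝ} (hf : Fn B f) (e : I d → ℝ) :
    Integrable (fun ω => f (Yq e ω)) (P0 μ) := by
  have := b.crit.hμ.1
  obtain ⟨C, hC⟩ := hf.bdd
  exact ibdd (hf.meas.comp (b.F.meas_Yq e)) fun ω => hC _

lemma fn_comp (B : Set (I d)) {g : (I d → ℝ) → ℝ} (hg : Measurable g) (h1 : ∀ a, |g a| ≤ 1) :
    Fn B fun a => g (B.indicator a) :=
  ⟨hg.comp (meas_mask B), ⟨1, fun _ => h1 _⟩, fun a => by
    rw [Set.indicator_indicator, Set.inter_self]⟩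

lemma mA_le (e : I d → ℝ) (B : Set (I d)) (a : I d → ℝ) (z : W d) : |mA θ e B a z| ≤ 1 :=
  (abs_tanh_lt_one _).le

lemma AA_le (b : Base d θ μ) (e : I d → ℝ) (B : Set (I d)) (a : I d → ℝ) (u : W d) :
    |AA θ e B a u| ≤ 1 := by
  rw [AA, abs_of_pos (b.A.Acov_pos _ _ _)]
  exact (b.A.Acov_le _ _ _).trans ((b.A.Kp_le _ _ _).trans
    (pow_le_one₀ b.crit.h0.le b.crit.h1.le))

lemma fn_mA (b : Base d θ μ) (e : I d → ℝ) (B : Set (I d)) (z : W d) :
    Fn B fun a => mA θ e B a z :=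
  ⟨continuous_tanh'.measurable.comp (b.F.meas_HA e B z none), ⟨1, fun a => mA_le e B a z⟩,
    fun a => by simp only [mA, b.F.HA_mask e B B a subset_rfl]⟩

lemma fn_AA (b : Base d θ μ) (e : I d → ℝ) (B : Set (I d)) (u : W d) :
    Fn B fun a => AA θ e B a u :=
  ⟨(b.F.meas_Acov (fun a => HA θ e B a) (b.F.meas_HA e B)).2.1 1 (word u),
    ⟨1, fun a => AA_le b e B a u⟩, fun a => by simp only [AA, b.F.HA_mask e B B a subset_rfl]⟩

lemma fn_gain (b : Base d θ μ) (e : I d → ℝ) (B : Set (I d)) (i : I d) {m : (I d → ℝ) → ℝ}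
    (hm : Fn B m) (h1 : ∀ a, |m a| ≤ 1) :
    Fn (insert i B) fun a => gain (m a) (inn θ e B a i) := by
  refine ⟨mgain b.C hm.meas (b.F.meas_inn e B i),
    ⟨1, fun a => gain_abs (h1 a) _⟩, fun a => ?_⟩
  rw [(hm.mono (Set.subset_insert i B)).mask]
  simp only [inn, mA, b.F.HA_mask e B _ a (Set.subset_insert i B),
    Set.indicator_of_mem (Set.mem_insert i B)]

/-- The gain is orthogonal to the past. -/
lemma orth (b : Base d θ μ) (hJ : StmtJ d θ μ) {β : ℝ} {e : I d → ℝ} {B : Set (I d)} {i : I d}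
    (hB : Bnd β e B) (hi : i ∉ B) {m F : (I d → ℝ) → ℝ} (hm : Fn B m) (h1 : ∀ a, |m a| ≤ 1)
    (hF : Fn B F) :
    ∫ ω, F (Yq e ω) * gain (m (Yq e ω)) (inn θ e B (Yq e ω) i) ∂P0 μ = 0 := by
  obtain ⟨C, hC⟩ := hF.bdd
  have h := hJ.innov β e B i hB hi (fun p => F p.1 * gain (m p.1) p.2)
    ((hF.meas.comp measurable_fst).mul
      (mgain b.C (hm.meas.comp measurable_fst) measurable_snd))
    ⟨C, fun p => by
      rw [abs_mul]
      nlinarith [hC p.1, gain_abs (h1 p.1) p.2, abs_nonneg (F p.1), abs_nonneg (gain (m p.1) p.2)]⟩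
  simp only [hF.mask, hm.mask, integral_const_mul, b.C.gain_mean _ (h1 _), mul_zero,
    integral_zero] at h
  exact h

/-- Pythagoras for martingale differences. -/
lemma pyth (b : Base d θ μ) (e : I d → ℝ) {κ : Type} (T : κ → ℝ) (hT : Function.Injective T)
    (B0 : Set (I d)) (Bf Bp : κ → Set (I d)) (X : (I d → ℝ) → ℝ) (hX : Fn B0 X)
    (D : κ → (I d → ℝ) → ℝ) (S : Finset κ) (h0 : ∀ k ∈ S, B0 ⊆ Bf k)
    (h1 : ∀ k ∈ S, ∀ j ∈ S, T j < T k → Bp j ⊆ Bf k) (hD : ∀ k ∈ S, Fn (Bp k) (D k))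
    (ho : ∀ k ∈ S, ∀ F, Fn (Bf k) F → ∫ ω, F (Yq e ω) * D k (Yq e ω) ∂P0 μ = 0) :
    ∫ ω, (X (Yq e ω) + ∑ k ∈ S, D k (Yq e ω)) ^ 2 ∂P0 μ =
      ∫ ω, X (Yq e ω) ^ 2 ∂P0 μ + ∑ k ∈ S, ∫ ω, D k (Yq e ω) ^ 2 ∂P0 μ := by
  induction S using Finset.induction_on_max_value T with
  | empty => simp
  | insert k S hk hmax ih =>
    have hm := mem_insert_self k S
    have hF : Fn (Bf k) fun a => X a + ∑ j ∈ S, D j a := by
      refine (hX.mono (h0 k hm)).add (Fn.sum S fun j hj => ?_)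
      refine (hD j (mem_insert_of_mem hj)).mono (h1 k hm j (mem_insert_of_mem hj) ?_)
      exact lt_of_le_of_ne (hmax j hj) fun h => hk (hT h ▸ hj)
    have h2 := ho k hm _ hF
    have h3 := ih (fun j hj => h0 j (mem_insert_of_mem hj))
      (fun j hj l hl => h1 j (mem_insert_of_mem hj) l (mem_insert_of_mem hl))
      (fun j hj => hD j (mem_insert_of_mem hj)) (fun j hj => ho j (mem_insert_of_mem hj))
    have i1 := hF.sq.int b e
    have i2 := (hD k hm).sq.int b e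
    have i3 := ((hF.mono (Set.subset_univ _)).mul ((hD k hm).mono (Set.subset_univ _))).int b e
    simp only [sum_insert hk]
    have h4 : ∀ ω, (X (Yq e ω) + (D k (Yq e ω) + ∑ j ∈ S, D j (Yq e ω))) ^ 2 =
        (X (Yq e ω) + ∑ j ∈ S, D j (Yq e ω)) ^ 2 + D k (Yq e ω) ^ 2 +
          2 * ((X (Yq e ω) + ∑ j ∈ S, D j (Yq e ω)) * D k (Yq e ω)) := fun ω => by ring
    simp only [h4]
    have i4 := ((hF.mono (Set.subset_univ _)).sq.add ((hD k hm).mono (Set.subset_univ _)).sq).int b e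
    rw [integral_add i4 (i3.const_mul 2), integral_add i1 i2, integral_const_mul, h2, h3]
    ring

/-- The jump caused by the observation `i`, given the observations in `B`. -/
noncomputable def Jf (θ : ℝ) (e : I d → ℝ) (B : Set (I d)) (i : I d) (a : I d → ℝ) : ℝ :=
  e i * AA θ e B a i.1 * gain (e i * mA θ e B a i.1) (inn θ e B a i)

lemma em_le {x y : ℝ} (hx : 0 ≤ x ∧ x ≤ 1) (hy : |y| ≤ 1) : |x * y| ≤ 1 := by
  rw [abs_mul, abs_of_nonneg hx.1]
  nlinarith [abs_nonneg y]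

lemma fn_Jf (b : Base d θ μ) {e : I d → ℝ} (he : ∀ j, 0 ≤ e j ∧ e j ≤ 1) (B : Set (I d))
    (i : I d) : Fn (insert i B) (Jf θ e B i) :=
  (((Fn.const B (e i)).mul (fn_AA b e B i.1)).mono (Set.subset_insert _ _)).mul
    (fn_gain b e B i ((Fn.const B (e i)).mul (fn_mA b e B i.1))
      fun a => em_le (he i) (mA_le e B a i.1))

lemma orth_Jf (b : Base d θ μ) (hJ : StmtJ d θ μ) {β : ℝ} {e : I d → ℝ} {B : Set (I d)}
    {i : I d} (hB : Bnd β e B) (hi : i ∉ B) {F : (I d → ℝ) → ℝ} (hF : Fn B F) :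
    ∫ ω, F (Yq e ω) * Jf θ e B i (Yq e ω) ∂P0 μ = 0 := by
  have := orth b hJ hB hi ((Fn.const B (e i)).mul (fn_mA b e B i.1))
    (fun a => em_le (hB.1 i) (mA_le e B a i.1))
    (hF.mul ((Fn.const B (e i)).mul (fn_AA b e B i.1)))
  simpa only [Jf, mul_assoc] using this

lemma Jf_sq {e : I d → ℝ} (he : ∀ j, 0 ≤ e j ∧ e j ≤ 1) (B : Set (I d)) (i : I d)
    (a : I d → ℝ) : Jf θ e B i a ^ 2 ≤ AA θ e B a i.1 ^ 2 := by
  have h1 := em_le (he i) (gain_abs (em_le (he i) (mA_le (θ := θ) e B a i.1)) (inn θ e B a i))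
  have h2 := sq_le_one_iff_abs_le_one _ |>.2 h1
  have : Jf θ e B i a ^ 2 = AA θ e B a i.1 ^ 2 *
      (e i * gain (e i * mA θ e B a i.1) (inn θ e B a i)) ^ 2 := by rw [Jf]; ring
  rw [this]
  exact mul_le_of_le_one_right (sq_nonneg _) h2

lemma Jf_lim (b : Base d θ μ) {e : I d → ℝ} (he : ∀ j, 0 ≤ e j ∧ e j ≤ 1) {B : Set (I d)}
    {Bk : ℕ → Set (I d)} (i : I d) {a : I d → ℝ} (ha : |a i| ≤ 1)
    (h1 : Tendsto (fun k => HA θ e (Bk k) a i.1 none) atTop (𝓝 (HA θ e B a i.1 none)))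
    (h2 : Tendsto (fun k => AA θ e (Bk k) a i.1) atTop (𝓝 (AA θ e B a i.1))) :
    Tendsto (fun k => Jf θ e (Bk k) i a) atTop (𝓝 (Jf θ e B i a)) := by
  have key : ∀ B' : Set (I d), Jf θ e B' i a =
      e i * AA θ e B' a i.1 * (a i / 2 / (1 + e i * mA θ e B' a i.1 / 2 * a i)) := by
    intro B'
    rw [Jf, gain, inn, b.C.obs_cdf _ _ (em_le (he i) (mA_le e B' a i.1)) ha]
  simp only [key]
  have h3 : Tendsto (fun k => mA θ e (Bk k) a i.1) atTop (𝓝 (mA θ e B a i.1)) :=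
    (continuous_tanh'.tendsto _).comp h1
  refine (h2.const_mul _).mul (tendsto_const_nhds.div
    ((((h3.const_mul _).div_const 2).mul_const _).const_add 1) ?_)
  have := (den_ge (em_le (he i) (mA_le (θ := θ) e B a i.1)) ha).1
  linarith

def BA (T : I d → ℝ) (n : ℤ) (s : ℝ) (S : Finset (W d)) : Set (I d) :=
  {j | T j < s ∨ (j.2 = n ∧ j.1 ∈ S)}

def BB (T : I d → ℝ) (n : ℤ) (s : ℝ) (S : Finset (W d)) (u : W d) : Set (I d) :=
  {j | T j < s ∨ (j.2 = n ∧ j.1 ∈ S ∧ T j < T (u, n))}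

noncomputable def win (T : I d → ℝ) (n : ℤ) (s t : ℝ) (K : ℕ) : Finset (W d) :=
  (ball K).filter fun u => s ≤ T (u, n) ∧ T (u, n) < t

lemma mem_win {T : I d → ℝ} {n : ℤ} {s t : ℝ} {K : ℕ} {u : W d} :
    u ∈ win T n s t K ↔ len u ≤ K ∧ s ≤ T (u, n) ∧ T (u, n) < t := by
  rw [win, mem_filter, mem_ball]

lemma BA_sub {T : I d → ℝ} {n : ℤ} {s t : ℝ} (hst : s ≤ t) {S : Finset (W d)}
    (hS : ∀ u ∈ S, s ≤ T (u, n) ∧ T (u, n) < t) : BA T n s S ⊆ {j | T j < t} := by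
  rintro ⟨u, m⟩ (h | ⟨rfl, h⟩)
  · exact lt_of_lt_of_le h hst
  · exact (hS u h).2

lemma BB_sub (T : I d → ℝ) (n : ℤ) (s : ℝ) (S : Finset (W d)) (u : W d) :
    BB T n s S u ⊆ BA T n s S := fun _ h => h.imp_right fun h => ⟨h.1, h.2.1⟩

lemma tele (b : Base d θ μ) (hJ : StmtJ d θ μ) {e T : I d → ℝ} {n : ℤ} {s t β : ℝ}
    (hT : Function.Injective T) (hst : s ≤ t) (hB : Bnd β e {j | T j < t}) (S : Finset (W d))
    (hS : ∀ u ∈ S, s ≤ T (u, n) ∧ T (u, n) < t) :
    ∀ᵐ ω ∂P0 μ, mA θ e (BA T n s S) (Yq e ω) 1 = mA θ e {j | T j < s} (Yq e ω) 1 +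
      ∑ u ∈ S, Jf θ e (BB T n s S u) (u, n) (Yq e ω) := by
  induction S using Finset.induction_on_max_value fun u => T (u, n) with
  | empty =>
    have : BA T n s (∅ : Finset (W d)) = {j | T j < s} := by ext j; simp [BA]
    simp [this]
  | insert u S hu hmax ih =>
    have hlt : ∀ v ∈ S, T (v, n) < T (u, n) := fun v hv =>
      lt_of_le_of_ne (hmax v hv) fun h => hu ((Prod.mk.inj (hT h)).1 ▸ hv)
    have e1 : BA T n s (insert u S) = insert (u, n) (BA T n s S) := by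
      ext ⟨v, m⟩
      simp only [BA, Set.mem_ofPred_eq, mem_insert, Set.mem_insert_iff, Prod.mk.injEq]
      tauto
    have e2 : BB T n s (insert u S) u = BA T n s S := by
      ext ⟨v, m⟩
      simp only [BA, BB, Set.mem_ofPred_eq, mem_insert]
      refine or_congr_right (and_congr_right fun hm => ?_)
      subst hm
      constructor
      · rintro ⟨rfl | h, h'⟩
        · exact absurd h' (lt_irrefl _)
        · exact h
      · exact fun h => ⟨Or.inr h, hlt v h⟩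
    have e3 : ∀ w ∈ S, BB T n s (insert u S) w = BB T n s S w := by
      intro w hw
      ext ⟨v, m⟩
      simp only [BB, Set.mem_ofPred_eq, mem_insert]
      refine or_congr_right (and_congr_right fun hm => and_congr_left fun h => ?_)
      subst hm
      constructor
      · rintro (rfl | h')
        · exact absurd (h.trans (hlt w hw)) (lt_irrefl _)
        · exact h'
      · exact Or.inr
    have hni : (u, n) ∉ BA T n s S := by
      rintro (h | ⟨_, h⟩)
      · exact absurd (hS u (mem_insert_self _ _)).1 (not_le.2 h)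
      · exact hu h
    have hb : Bnd β e (insert (u, n) (BA T n s S)) :=
      e1 ▸ b.F.bnd_mono β e _ _ hB (BA_sub hst hS)
    filter_upwards [ih fun v hv => hS v (mem_insert_of_mem hv),
      hJ.jump β e _ _ hb hni] with ω h1 h2
    rw [e1, h2, h1, sum_insert hu, e2,
      sum_congr rfl fun w hw => congrArg (fun B => Jf θ e B (w, n) (Yq e ω)) (e3 w hw), Jf]
    ring

lemma win_mono (T : I d → ℝ) (n : ℤ) (s t : ℝ) : Monotone (win T n s t) := fun _ _ h _ hu =>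
  mem_win.2 ⟨(mem_win.1 hu).1.trans h, (mem_win.1 hu).2⟩

/-- The finite remainder. -/
lemma rem_fin (b : Base d θ μ) (hJ : StmtJ d θ μ) {e T : I d → ℝ} {n : ℤ} {s t β : ℝ}
    (hT : Function.Injective T) (hst : s ≤ t) (hB : Bnd β e {j | T j < t}) {tl : W d → ℝ}
    {K K' : ℕ} {ρ : ℝ} (hK : K ≤ K')
    (htl : ∀ B u, {j | T j < s} ⊆ B → B ⊆ {j | T j < t} →
      ∫ ω, AA θ e B (Yq e ω) u ^ 2 ∂P0 μ ≤ tl u)
    (hρ : ∑ u ∈ ball K' \ ball K, tl u ≤ ρ) :
    ∫ ω, (mA θ e (BA T n s (win T n s t K')) (Yq e ω) 1 - mA θ e {j | T j < s} (Yq e ω) 1 -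
      ∑ u ∈ win T n s t K, Jf θ e (BB T n s (win T n s t K') u) (u, n) (Yq e ω)) ^ 2 ∂P0 μ ≤
      ρ := by
  have hS : ∀ u ∈ win T n s t K', s ≤ T (u, n) ∧ T (u, n) < t := fun u hu => (mem_win.1 hu).2
  have hsub : ∀ u, BB T n s (win T n s t K') u ⊆ {j | T j < t} := fun u =>
    (BB_sub _ _ _ _ _).trans (BA_sub hst hS)
  have h1 := pyth b e (fun u => T (u, n)) (fun u v h => (Prod.mk.inj (hT h)).1) ∅
    (BB T n s (win T n s t K')) (fun u => insert (u, n) (BB T n s (win T n s t K') u)) _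
    (Fn.const ∅ 0) (fun u => Jf θ e (BB T n s (win T n s t K') u) (u, n))
    (win T n s t K' \ win T n s t K) (fun _ _ => Set.empty_subset _)
    (fun u _ v hv h j hj => by
      rcases hj with rfl | hj | hj
      · exact Or.inr ⟨rfl, (mem_sdiff.1 hv).1, h⟩
      · exact Or.inl hj
      · exact Or.inr ⟨hj.1, hj.2.1, hj.2.2.trans h⟩)
    (fun u _ => fn_Jf b hB.1 _ _)
    (fun u hu F hF => orth_Jf b hJ (b.F.bnd_mono β e _ _ hB (hsub u)) (by
      rintro (h | ⟨_, _, h⟩)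
      · exact absurd (hS u (mem_sdiff.1 hu).1).1 (not_le.2 h)
      · exact lt_irrefl _ h) hF)
  simp only [zero_add, ne_eq, OfNat.ofNat_ne_zero, not_false_eq_true, zero_pow,
    integral_zero] at h1
  rw [integral_congr_ae (g := fun ω => (∑ u ∈ win T n s t K' \ win T n s t K,
    Jf θ e (BB T n s (win T n s t K') u) (u, n) (Yq e ω)) ^ 2), h1]
  · refine le_trans ?_ hρ
    refine le_trans (sum_le_sum fun u _ => ?_) (sum_le_sum_of_subset_of_nonneg ?_ fun u _ _ => ?_)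
    · refine le_trans ?_ (htl _ u (fun j hj => Or.inl hj) (hsub u))
      exact integral_mono ((fn_Jf b hB.1 _ _).sq.int b e) ((fn_AA b e _ u).sq.int b e)
        fun ω => Jf_sq hB.1 _ _ _
    · intro u hu
      rw [Finset.mem_sdiff, mem_win, mem_win] at hu
      rw [Finset.mem_sdiff, mem_ball, mem_ball]
      exact ⟨hu.1.1, fun h => hu.2 ⟨h, hu.1.2⟩⟩
    · exact le_trans (integral_nonneg fun ω => sq_nonneg _)
        (htl _ u subset_rfl fun j hj => lt_of_lt_of_le hj hst)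
  · filter_upwards [tele b hJ hT hst hB _ hS] with ω h
    rw [h, ← sum_sdiff (win_mono T n s t hK)]
    ring

/-- The remainder. -/
lemma rem (b : Base d θ μ) (hL : StmtB d θ μ) (hJ : StmtJ d θ μ) {e T : I d → ℝ} {n : ℤ}
    {s t β : ℝ} (hT : Function.Injective T) (hst : s ≤ t) (hB : Bnd β e {j | T j < t})
    (hn : ∀ j, s ≤ T j → T j < t → j.2 = n) {tl : W d → ℝ} {K : ℕ} {ρ : ℝ}
    (htl : ∀ B u, {j | T j < s} ⊆ B → B ⊆ {j | T j < t} →
      ∫ ω, AA θ e B (Yq e ω) u ^ 2 ∂P0 μ ≤ tl u)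
    (hρ : ∀ K', ∑ u ∈ ball K' \ ball K, tl u ≤ ρ) :
    ∫ ω, (mA θ e {j | T j < t} (Yq e ω) 1 - mA θ e {j | T j < s} (Yq e ω) 1 -
      ∑ u ∈ win T n s t K, Jf θ e {j | T j < T (u, n)} (u, n) (Yq e ω)) ^ 2 ∂P0 μ ≤ ρ := by
  have := b.crit.hμ.1
  have l1 := hL.levy β e {j | T j < t} (fun k => BA T n s (win T n s t k)) hB
    (fun k l h j hj => hj.imp_right fun hj => ⟨hj.1, win_mono T n s t h hj.2⟩) (by
      refine Set.Subset.antisymm (Set.iUnion_subset fun k =>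
        BA_sub hst fun u hu => (mem_win.1 hu).2) fun j hj => Set.mem_iUnion.2 ⟨len j.1, ?_⟩
      by_cases h : T j < s
      · exact Or.inl h
      · have h2 := hn j (not_lt.1 h) hj
        refine Or.inr ⟨h2, mem_win.2 ⟨le_rfl, ?_⟩⟩
        rw [← h2]
        exact ⟨not_lt.1 h, hj⟩)
  have l2 : ∀ u ∈ win T n s t K, ∀ᵐ ω ∂P0 μ, Tendsto (fun k =>
      Jf θ e (BB T n s (win T n s t k) u) (u, n) (Yq e ω)) atTop
      (𝓝 (Jf θ e {j | T j < T (u, n)} (u, n) (Yq e ω))) := by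
    intro u hu
    have hu' := (mem_win.1 hu).2
    filter_upwards [hL.levy β e {j | T j < T (u, n)} (fun k => BB T n s (win T n s t k) u)
      (b.F.bnd_mono β e _ _ hB fun j hj => lt_trans hj hu'.2)
      (fun k l h j hj => hj.imp_right fun hj => ⟨hj.1, win_mono T n s t h hj.2.1, hj.2.2⟩) (by
        refine Set.Subset.antisymm (Set.iUnion_subset fun k j hj => ?_)
          fun j hj => Set.mem_iUnion.2 ⟨len j.1, ?_⟩
        · rcases hj with hj | hj
          · exact lt_of_lt_of_le hj hu'.1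
          · exact hj.2.2
        · by_cases h : T j < s
          · exact Or.inl h
          · have h3 : T j < t := lt_trans hj hu'.2
            have h2 := hn j (not_lt.1 h) h3
            refine Or.inr ⟨h2, mem_win.2 ⟨le_rfl, ?_⟩, hj⟩
            rw [← h2]
            exact ⟨not_lt.1 h, h3⟩)] with ω h
    exact Jf_lim b hB.1 (u, n) (b.F.Yq_le e ω _) (h.1 u none) (h.2 u)
  have hfn : ∀ k, Fn Set.univ fun a => (mA θ e (BA T n s (win T n s t k)) a 1 -
      mA θ e {j | T j < s} a 1 -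
      ∑ u ∈ win T n s t K, Jf θ e (BB T n s (win T n s t k) u) (u, n) a) ^ 2 := fun k =>
    ((((fn_mA b e _ 1).mono (Set.subset_univ _)).sub
      ((fn_mA b e _ 1).mono (Set.subset_univ _))).sub
      (Fn.sum _ fun u _ => (fn_Jf b hB.1 _ _).mono (Set.subset_univ _))).sq
  have hlim := tendsto_integral_of_dominated_convergence (μ := P0 μ)
    (F := fun k ω => (mA θ e (BA T n s (win T n s t k)) (Yq e ω) 1 -
      mA θ e {j | T j < s} (Yq e ω) 1 -
      ∑ u ∈ win T n s t K, Jf θ e (BB T n s (win T n s t k) u) (u, n) (Yq e ω)) ^ 2)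
    (f := fun ω => (mA θ e {j | T j < t} (Yq e ω) 1 - mA θ e {j | T j < s} (Yq e ω) 1 -
      ∑ u ∈ win T n s t K, Jf θ e {j | T j < T (u, n)} (u, n) (Yq e ω)) ^ 2)
    (fun _ => (2 + ((win T n s t K).card : ℝ)) ^ 2) (fun k => ((hfn k).int b e).1)
    (integrable_const _) (fun k => Eventually.of_forall fun ω => ?_) ?_
  · exact le_of_tendsto hlim (eventually_atTop.2 ⟨K, fun k hk =>
      rem_fin b hJ hT hst hB hk htl (hρ k)⟩)
  · rw [Real.norm_eq_abs, abs_pow]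
    refine pow_le_pow_left₀ (abs_nonneg _) ((abs_sub _ _).trans (add_le_add
      ((abs_sub _ _).trans ?_) ((abs_sum_le_sum_abs _ _).trans ?_))) 2
    · linarith [mA_le (θ := θ) e (BA T n s (win T n s t k)) (Yq e ω) 1,
        mA_le (θ := θ) e {j | T j < s} (Yq e ω) 1]
    · refine (sum_le_card_nsmul _ _ 1 fun u _ => ?_).trans (by simp)
      rw [← sq_le_one_iff_abs_le_one]
      exact (Jf_sq hB.1 _ _ _).trans ((sq_le_one_iff_abs_le_one _).2 (AA_le b _ _ _ _))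
  · filter_upwards [l1, (eventually_all_finset _).2 l2] with ω h1 h2
    exact (((((continuous_tanh'.tendsto _).comp (h1.1 1 none)).sub_const _).sub
      (tendsto_finsetSum _ h2))).pow 2

lemma D_sq {x A A' g g' m m' : ℝ} (hx : 0 ≤ x ∧ x ≤ 1) (hg : |g'| ≤ 1)
    (hl : |g - g'| ≤ 2 * |x * m - x * m'|) :
    (x * A * g - x * A' * g') ^ 2 ≤ x ^ 2 * (2 * (A - A') ^ 2 + 8 * (A ^ 2 * (m - m') ^ 2)) := by
  have h1 : (g - g') ^ 2 ≤ 4 * (m - m') ^ 2 := by
    have h2 := pow_le_pow_left₀ (abs_nonneg _) hl 2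
    rw [sq_abs, mul_pow, sq_abs, ← mul_sub, mul_pow] at h2
    have h3 : x ^ 2 ≤ 1 := pow_le_one₀ hx.1 hx.2
    nlinarith [sq_nonneg (m - m')]
  have h2 : g' ^ 2 ≤ 1 := (sq_le_one_iff_abs_le_one _).2 hg
  have h3 : (A * g - A' * g') ^ 2 ≤ 2 * ((A - A') ^ 2 * g' ^ 2) + 2 * (A ^ 2 * (g - g') ^ 2) := by
    nlinarith [sq_nonneg ((A - A') * g' - A * (g - g'))]
  have h4 := mul_le_mul_of_nonneg_left h1 (sq_nonneg A)
  have h5 := mul_le_mul_of_nonneg_left h2 (sq_nonneg (A - A'))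
  rw [show (x * A * g - x * A' * g') ^ 2 = x ^ 2 * (A * g - A' * g') ^ 2 by ring]
  exact mul_le_mul_of_nonneg_left (by linarith) (sq_nonneg x)

lemma eta_sq {η : ℝ} (hη : 0 < η) (x y : ℝ) :
    (x + y) ^ 2 ≤ (1 + η) * x ^ 2 + (1 + 1 / η) * y ^ 2 := by
  have h : (1 + η) * x ^ 2 + (1 + 1 / η) * y ^ 2 - (x + y) ^ 2 = (η * x - y) ^ 2 / η := by
    field_simp
    ring
  have : 0 ≤ (η * x - y) ^ 2 / η := by positivity
  linarith

/-- The surrogate jump. -/
noncomputable def Yf (θ : ℝ) (e : I d → ℝ) (B0 B : Set (I d)) (i : I d)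
    (mb At : (I d → ℝ) → ℝ) (a : I d → ℝ) : ℝ :=
  e i * At (B0.indicator a) * gain (e i * mb (B0.indicator a)) (inn θ e B a i)

/-- The main part. -/
lemma main_part (b : Base d θ μ) (hJ : StmtJ d θ μ) {e T : I d → ℝ} {n : ℤ}
    {s t β : ℝ} (hT : Function.Injective T) (hB : Bnd β e {j | T j < t})
    {m0 : (I d → ℝ) → ℝ} {mb At : W d → (I d → ℝ) → ℝ} (k0 : Measurable m0)
    (k1 : ∀ u, Measurable (mb u)) (k2 : ∀ u, Measurable (At u)) (b0 : ∀ a, |m0 a| ≤ 1)
    (b1 : ∀ u a, |mb u a| ≤ 1) (b2 : ∀ u a, |At u a| ≤ 1) (K : ℕ) :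
    (Fn Set.univ fun a => (mA θ e {j | T j < s} a 1 - m0 ({j | T j < s}.indicator a)) +
      ∑ u ∈ win T n s t K, (Jf θ e {j | T j < T (u, n)} (u, n) a -
        Yf θ e {j | T j < s} {j | T j < T (u, n)} (u, n) (mb u) (At u) a)) ∧
    ∫ ω, ((mA θ e {j | T j < s} (Yq e ω) 1 - m0 ({j | T j < s}.indicator (Yq e ω))) +
      ∑ u ∈ win T n s t K, (Jf θ e {j | T j < T (u, n)} (u, n) (Yq e ω) -
        Yf θ e {j | T j < s} {j | T j < T (u, n)} (u, n) (mb u) (At u) (Yq e ω))) ^ 2 ∂P0 μ ≤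
    ∫ ω, (mA θ e {j | T j < s} (Yq e ω) 1 - m0 ({j | T j < s}.indicator (Yq e ω))) ^ 2 ∂P0 μ +
      ∑ u ∈ win T n s t K, e (u, n) ^ 2 *
        ∫ ω, (2 * (AA θ e {j | T j < T (u, n)} (Yq e ω) u -
            At u ({j | T j < s}.indicator (Yq e ω))) ^ 2 +
          8 * (AA θ e {j | T j < T (u, n)} (Yq e ω) u ^ 2 *
            (mA θ e {j | T j < T (u, n)} (Yq e ω) u -
              mb u ({j | T j < s}.indicator (Yq e ω))) ^ 2)) ∂P0 μ := by
  have hs : ∀ u ∈ win T n s t K, {j | T j < s} ⊆ {j | T j < T (u, n)} := fun u hu j hj =>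
    lt_of_lt_of_le hj (mem_win.1 hu).2.1
  have f1 : ∀ u ∈ win T n s t K, Fn {j | T j < T (u, n)} fun a => mb u ({j | T j < s}.indicator a) :=
    fun u hu => (fn_comp _ (k1 u) (b1 u)).mono (hs u hu)
  have f2 : ∀ u ∈ win T n s t K, Fn {j | T j < T (u, n)} fun a => At u ({j | T j < s}.indicator a) :=
    fun u hu => (fn_comp _ (k2 u) (b2 u)).mono (hs u hu)
  have fY : ∀ u ∈ win T n s t K, Fn (insert (u, n) {j | T j < T (u, n)})
      (Yf θ e {j | T j < s} {j | T j < T (u, n)} (u, n) (mb u) (At u)) := fun u hu =>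
    (((Fn.const _ _).mul (f2 u hu)).mono (Set.subset_insert _ _)).mul
      (fn_gain b e _ _ ((Fn.const _ _).mul (f1 u hu)) fun a => em_le (hB.1 _) (b1 u _))
  have fX := (fn_mA b e {j | T j < s} 1).sub (fn_comp {j | T j < s} k0 b0)
  have fD := fun u hu => (fn_Jf (θ := θ) b hB.1 {j | T j < T (u, n)} (u, n)).sub (fY u hu)
  refine ⟨(fX.mono (Set.subset_univ _)).add
    (Fn.sum _ fun u hu => (fD u hu).mono (Set.subset_univ _)), ?_⟩
  have h1 := pyth b e (fun u => T (u, n)) (fun u v h => (Prod.mk.inj (hT h)).1) _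
    (fun u => {j | T j < T (u, n)}) (fun u => insert (u, n) {j | T j < T (u, n)}) _ fX _
    (win T n s t K) hs (fun u _ v _ h j hj => by
      rcases hj with rfl | hj
      · exact h
      · exact lt_trans hj h) fD (fun u hu F hF => by
      have hb := b.F.bnd_mono β e _ {j | T j < T (u, n)} hB
        fun j hj => lt_trans hj (mem_win.1 hu).2.2
      have hi : (u, n) ∉ {j | T j < T (u, n)} := fun h => lt_irrefl (T (u, n)) h
      have o1 := orth_Jf b hJ hb hi hF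
      have o2 := orth b hJ hb hi ((Fn.const _ (e (u, n))).mul (f1 u hu))
        (fun a => em_le (hB.1 _) (b1 u _)) (hF.mul ((Fn.const _ (e (u, n))).mul (f2 u hu)))
      have i1 := ((hF.mono (Set.subset_insert (u, n) _)).mul (fn_Jf b hB.1 _ (u, n))).int b e
      have i2 := ((hF.mono (Set.subset_insert (u, n) _)).mul (fY u hu)).int b e
      simp only [mul_sub]
      rw [integral_sub i1 i2, o1]
      simpa only [Yf, mul_assoc, zero_sub, neg_eq_zero] using o2)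
  rw [h1]
  refine add_le_add le_rfl (sum_le_sum fun u hu => ?_)
  rw [← integral_const_mul]
  refine integral_mono ((fD u hu).sq.int b e) (((Fn.const _ _).mul
    (((Fn.const _ 2).mul ((fn_AA b e _ u).sub (f2 u hu)).sq).add ((Fn.const _ 8).mul
      ((fn_AA b e _ u).sq.mul ((fn_mA b e _ u).sub (f1 u hu)).sq)))).int b e) fun ω => ?_
  exact D_sq (hB.1 _) (gain_abs (em_le (hB.1 _) (b1 u _)) _)
    (gain_lip (em_le (hB.1 _) (mA_le _ _ _ _)) (em_le (hB.1 _) (b1 u _)) _)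

end Qm

open Qm in
theorem stmtQ {d : ℕ} {θ : ℝ} {μ : Measure (W d → Bool)} (b : Base d θ μ) (hB : StmtB d θ μ)
    (hJ : StmtJ d θ μ) : StmtQ d θ μ := by
  intro e T n s t β hT hst hb hn m0 mb At k0 k1 k2 b0 b1 b2 tl K ρ η hη htl hρ
  obtain ⟨f1, h1⟩ := main_part (n := n) (s := s) b hJ hT hb k0 k1 k2 b0 b1 b2 K
  have h2 := rem b hB hJ hT hst hb hn htl hρ
  have f2 : Fn Set.univ fun a => mA θ e {j | T j < t} a 1 - mA θ e {j | T j < s} a 1 -
      ∑ u ∈ win T n s t K, Jf θ e {j | T j < T (u, n)} (u, n) a :=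
    (((fn_mA b e _ 1).mono (Set.subset_univ _)).sub
      ((fn_mA b e _ 1).mono (Set.subset_univ _))).sub
      (Fn.sum _ fun u _ => (fn_Jf b hb.1 _ _).mono (Set.subset_univ _))
  have h3 := integral_mono ((f1.add f2).sq.int b e)
    ((((Fn.const _ (1 + η)).mul f1.sq).add ((Fn.const _ (1 + 1 / η)).mul f2.sq)).int b e)
    fun ω => eta_sq hη _ _
  rw [integral_add (((Fn.const _ (1 + η)).mul f1.sq).int b e)
    (((Fn.const _ (1 + 1 / η)).mul f2.sq).int b e), integral_const_mul, integral_const_mul] at h3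
  simp only [← sum_filter]
  refine le_trans (le_of_eq (integral_congr_ae (Eventually.of_forall fun ω => ?_))) (h3.trans
    (add_le_add (mul_le_mul_of_nonneg_left h1 (by positivity))
      (mul_le_mul_of_nonneg_left h2 (by positivity))))
  simp only [sum_sub_distrib, Yf, win]
  ring

end Vale.Agent.P161E
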