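import Vale.Agent.P161E.E

namespace Vale.Agent.P161E

open MeasureTheory ProbabilityTheory Filter Topology Finset Real
open Vale.Agent.P161 (spin obs clip coin)
open scoped Classical

namespace Ra

variable {d : ℕ} {θ : ℝ} {μ : Measure (W d → Bool)}

lemma Gf_spin (hA : StmtA d θ) (s : Bool) (h : ℝ) : Gf θ (spin s * h) = spin s * Gf θ h := by
  cases s <;> simp [spin, hA.Gf_neg]

lemma kap_spin (hA : StmtA d θ) (s : Bool) (h : ℝ) : kap θ (spin s * h) = kap θ h := by
  cases s <;> simp [spin, hA.kap_neg]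

lemma tanh_spin (s : Bool) (h : ℝ) : tanh (spin s * h) = spin s * tanh h := by
  cases s <;> simp [spin]

lemma abs_spin (s : Bool) (h : ℝ) : |spin s * h| = |h| := by rw [abs_mul, P161.spin_abs, one_mul]

lemma meas_spin (z : W d) : Measurable fun ω : Om d => spin (ω.2.1 z) :=
  (Measurable.of_discrete (f := spin)).comp (by fun_prop)

lemma ga_congr (s : ℝ) {z : W d} {ω ω' : Om d} {j : I d}
    (h : spin (ω.2.1 z) * spin (ω.2.1 j.1) = spin (ω'.2.1 z) * spin (ω'.2.1 j.1))
    (h' : ω.1 j = ω'.1 j ∧ ω.2.2 j = ω'.2.2 j) :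
    spin (ω.2.1 z) * yA (str ω.1) (Bs ω.1 s) (Ya ω) j =
      spin (ω'.2.1 z) * yA (str ω'.1) (Bs ω'.1 s) (Ya ω') j := by
  simp only [yA, Set.indicator_apply, Bs, Set.mem_ofPred_eq, tim, Ya, Yq, str, h'.1, h'.2]
  generalize (if (ω'.1 j : ℝ) < 1 / 2 then eps j.2 else 0) = e
  split_ifs
  · linear_combination e * obs e (ω'.2.2 j) * h
  · simp

lemma H_dep (b : Base d θ μ) (s : ℝ) (c : Fin d) {ω ω' : Om d}
    (h : ∀ v ∈ sub c, v ≠ gen c → Xi ω.2.1 v = Xi ω'.2.1 v)
    (h' : ∀ j : I d, j.1 ∈ sub c → ω.1 j = ω'.1 j ∧ ω.2.2 j = ω'.2.2 j) {z : W d}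
    {α : Option (Fin d)} (hz : ∀ u, Reach z α u → u ∈ sub c) :
    spin (ω.2.1 (gen c)) * Hs θ s ω z α = spin (ω'.2.1 (gen c)) * Hs θ s ω' z α := by
  rw [Hs, Hs, HA, HA, ← b.F.HI_spin, ← b.F.HI_spin]
  exact b.F.HI_dep _ _ _ _ fun j hj => ga_congr s (b.I.dep_pair _ _ _ _
    ((b.I.mem_sub _ _).1 (hz _ hj)) fun v hv => h v ((b.I.mem_sub _ _).2 hv)) (h' j (hz _ hj))

lemma VK_congr {A : Set (W d)} {H H' : W d → Option (Fin d) → ℝ} (r : ℝ)
    (h : ∀ z α, (∀ u, Reach z α u → u ∈ A) → kap θ (H z α) = kap θ (H' z α)) (K : ℕ) (z : W d)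
    (α : Option (Fin d)) (hz : ∀ u, Reach z α u → u ∈ A) : VK θ r H K z α = VK θ r H' K z α := by
  induction K generalizing z α with
  | zero => rfl
  | succ K ih =>
    rw [VK, VK]
    congr 1
    refine sum_congr rfl fun c hc => ?_
    have : ∀ u, Reach (step z c) (some c) u → u ∈ A := fun u hu => hz u (.step (mem_dirs.1 hc) hu)
    rw [h _ _ this, ih _ _ this]

def TT : Option (Fin d) → Set (W d)
  | none => {1}
  | some c => sub c

lemma TT_disj {o o' : Option (Fin d)} (h : o ≠ o') {v : W d} (hv : v ∈ TT o) : v ∉ TT o' := by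
  intro hv'
  cases o <;> cases o'
  · exact h rfl
  · exact one_notMem_sub _ (hv ▸ hv')
  · exact one_notMem_sub _ (hv' ▸ hv)
  · exact Set.disjoint_left.1 (sub_disjoint fun e => h (congrArg some e)) hv hv'

lemma dep_piece (b : Base d θ μ) (r s : ℝ) (K : ℕ) (o : Option (Fin d)) :
    DepOn (TT o) {j | j.1 ∈ TT o} (piece θ r s K o) := by
  intro ω ω' h h'
  cases o with
  | none =>
    simp only [piece, bg, bs, ← b.F.bI_spin]
    exact congrArg (·, _) (b.F.bI_dep _ _ _ fun n => ga_congr s (by simp) (h' (1, n) rfl))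
  | some c =>
    have hH := @H_dep _ _ _ b s c ω ω' (fun v hv _ => h v hv) h'
    have hk : ∀ z α, (∀ u, Reach z α u → u ∈ sub c) →
        kap θ (Hs θ s ω z α) = kap θ (Hs θ s ω' z α) := fun z α hz => by
      rw [← kap_spin b.A (ω.2.1 (gen c)), hH hz, kap_spin b.A]
    have hc : ∀ u, Reach (gen c) (some c) u → u ∈ sub c := fun u => reach_gen.1
    simp only [piece, gc, UK, hg]
    rw [h _ (gen_mem_sub c), hH hc, hk _ _ hc, VK_congr r hk K _ _ hc]

lemma nish_prod [IsProbabilityMeasure μ] {X : Om d → ℝ} (hX : Measurable X) (hb : Bdd X)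
    (h : ∀ τ, Nish0 (P0 μ) fun ω => X (τ, ω)) : Nish0 (PP μ) X := by
  refine ⟨hX, hb, fun F hF ⟨C, hC⟩ => ?_⟩
  obtain ⟨M, hM⟩ := hb
  rw [PP, integral_prod (fun ω => F (-X ω)) (Integrable.of_bound
    (hF.comp hX.neg).aestronglyMeasurable C (ae_of_all _ fun _ => hC _)),
    integral_prod (fun ω => F (X ω) * exp (-2 * X ω)) (Integrable.of_bound ((hF.comp hX).mul
      (hX.const_mul _).exp).aestronglyMeasurable (C * exp (2 * M)) (ae_of_all _ fun ω => ?_))]
  · exact integral_congr_ae (ae_of_all _ fun τ => (h τ).eq F hF ⟨C, hC⟩)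
  · rw [norm_mul, Real.norm_eq_abs, Real.norm_eq_abs, abs_exp]
    exact mul_le_mul (hC _) (exp_le_exp.2 (by linarith [(abs_le.1 (hM ω)).1])) (exp_pos _).le
      ((abs_nonneg _).trans (hC 0))

lemma int_sh (b : Base d θ μ) (x : W d) {f : Om d → ℝ} (hf : Measurable f) :
    ∫ ω, f (sh x ω) ∂PP μ = ∫ ω, f ω ∂PP μ := by
  conv_rhs => rw [← (b.I.mp (lm x)).map_eq]
  exact (integral_map (b.I.mp (lm x)).measurable.aemeasurable hf.aestronglyMeasurable).symm

lemma int_str (b : Base d θ μ) (i : I d) : ∫ τ, str τ i ^ 2 ∂PU d = eps i.2 ^ 2 / 2 := by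
  have h1 : ∀ τ : Nz d, |str τ i ^ 2| ≤ 1 := fun τ => by
    have := (Ea.bnd 0 0 τ (by simp)).1 i
    rw [abs_of_nonneg (sq_nonneg _)]; exact pow_le_one₀ this.1 this.2
  have h2 : ∫ u : unitInterval, (if (u : ℝ) < 1 / 2 then eps i.2 else 0) ^ 2 = eps i.2 ^ 2 / 2 := by
    have : (fun u : unitInterval => (if (u : ℝ) < 1 / 2 then eps i.2 else 0) ^ 2) =
        (Set.Iio (⟨1 / 2, by norm_num, by norm_num⟩ : unitInterval)).indicator
          fun _ => eps i.2 ^ 2 := by
      funext u
      simp only [Set.indicator_apply, Set.mem_Iio, ← Subtype.coe_lt_coe]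
      split_ifs <;> simp
    rw [this, integral_indicator_const _ measurableSet_Iio, Measure.real, unitInterval.volume_Iio,
      ENNReal.toReal_ofReal (by norm_num), smul_eq_mul]
    ring
  rw [PU, b.P.update i _ ((Ea.meas_str i).pow_const 2) ⟨1, h1⟩]
  simp only [str, Function.update_self, h2]
  simp

lemma low (b : Base d θ μ) {β : ℝ} {e : I d → ℝ} {B : Set (I d)} (hB : Bnd β e B) {i : I d}
    (hi : i ∈ B) (σ : W d → Bool) :
    e i ^ 2 / 48 ≤ ∫ w, tanh (bI (yA e B (Yq e (σ, w))) i.1) ^ 2 ∂PU d := by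
  have h1 : ∀ x, |tanh x ^ 2| ≤ 1 := fun x => by
    rw [abs_pow]; exact pow_le_one₀ (abs_nonneg _) (abs_tanh_lt_one _).le
  let _ : DecidableEq (I d) := fun a b => Classical.propDecidable (a = b)
  have hy : Measurable (yA e B) := measurable_pi_lambda _ fun j => by
    by_cases hj : j ∈ B <;> simp only [yA, hj, Set.indicator_of_mem, Set.indicator_of_notMem,
      not_false_eq_true] <;> fun_prop
  obtain ⟨G, hG⟩ : ∃ G : Nz d → ℝ, G = fun w => tanh (bI (yA e B (Yq e (σ, w))) i.1) ^ 2 :=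
    ⟨_, rfl⟩
  have hm : Measurable G := hG ▸ (Fa.meas_tanh.comp ((b.F.meas_bI _).comp (hy.comp
    ((b.F.meas_Yq e).comp measurable_prodMk_left)))).pow_const 2
  have h2 : ∀ w, |G w| ≤ 1 := fun w => hG ▸ h1 _
  rw [← hG, PU, b.P.update i _ hm ⟨1, h2⟩]
  refine le_trans (by simp) (integral_mono (integrable_const (e i ^ 2 / 48))
    (Integrable.of_bound ?_ 1 (ae_of_all _ fun w => ?_)) fun w => ?_)
  · exact (StronglyMeasurable.integral_prod_right' (ν := volume)
      (f := fun p : Nz d × unitInterval => G (Function.update p.1 i p.2))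
      (hm.comp measurable_update').stronglyMeasurable).aestronglyMeasurable
  · simpa using norm_integral_le_of_norm_le_const (μ := (volume : Measure unitInterval))
      (f := fun u => G (Function.update w i u)) (ae_of_all _ fun u => h2 _)
  · refine (b.C.anti (e i) (bI (yA e (B \ {i}) (Yq e (σ, w))) i.1) (σ i.1) (hB.1 i).1
      (hB.1 i).2).trans_eq (integral_congr_ae (ae_of_all _ fun u => ?_))
    simp only [hG]
    rw [b.F.bI_add β (yA e (B \ {i}) (Yq e (σ, w))) (yA e B (Yq e (σ, Function.update w i u))) i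
      (b.F.adm _ _ _ _ hB (b.F.Yq_le _ _)) (by simp [yA])
      (fun j hj => by simp [yA, Set.indicator_apply, Yq, hj]), if_pos rfl, ← Fa.artanh_spin]
    simp only [yA, Set.indicator_of_mem hi, Yq, Function.update_self]
    congr 4; ring

end Ra

open Ra in
theorem stmtR {d : ℕ} {θ : ℝ} {μ : Measure (W d → Bool)} (b : Base d θ μ) (hB : StmtB d θ μ)
    (hE : StmtE d θ μ) : StmtR d θ μ := by
  have := b.crit.hμ.1
  have hH := fun s => hE.meas_Hs (fun _ => s) measurable_const
  have mh : ∀ s z α, Measurable (hg (d := d) θ s z α) := fun s z α => (meas_spin z).mul (hH s z α)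
  have mb : ∀ s, Measurable (bg (d := d) s) := fun s => (meas_spin 1).mul (hE.meas_bs s 1)
  have mX : ∀ v, Measurable fun ω : Om d => Xi ω.2.1 v := fun v =>
    (measurable_pi_apply v).comp (b.I.meas_Xi.comp (by fun_prop))
  have mU : ∀ r s K z c, Measurable (UK (d := d) θ r s K z c) := fun r s K z c =>
    ((b.A.kap_cont.measurable.comp (hH s _ _)).pow_const 2).mul
      ((b.F.meas_Acov _ (hH s)).2.2 _ _ _ _)
  have mp : ∀ r s K (o : Option (Fin d)), Measurable (piece θ r s K o) := fun r s K o => by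
    cases o with
    | none => exact (mb s).prodMk measurable_const
    | some c => exact (((Measurable.of_discrete (f := spin)).comp (mX _)).mul
        (b.A.Gf_cont.measurable.comp (mh s _ _))).prodMk (mU _ _ _ _ _)
  have hs : ∀ s : ℝ, s ≤ (⌈s⌉ : ℤ) + 1 := fun s => by linarith [Int.le_ceil s]
  have bl : ∀ (n : ℤ) (s : ℝ), s ≤ n + 1 → ∀ ω : Om d, |bg s ω| ≤ 2 * 2 ^ n := fun n s h ω =>
    (abs_spin _ _).trans_le (hE.bs_le n s h ω 1)
  have hl : ∀ (n : ℤ) (s : ℝ), s ≤ n + 1 → ∀ (z : W d) α ω, |hg θ s z α ω| ≤ Hb d θ n :=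
    fun n s h z α ω => (abs_spin _ _).trans_le (hE.Hs_le n s h ω z α)
  have nh : ∀ s z α, Nish0 (PP μ) (hg θ s z α) := fun s z α =>
    nish_prod (mh s z α) ⟨_, hl _ s (hs s) z α⟩ fun τ => hB.nish _ _ _ (hE.bnd _ s τ (hs s)) z α
  have sh1 : ∀ s (c : Fin d) ω, hg θ s (gen c) (some c) ω = hg θ s 1 (some c) (sh (gen c) ω) :=
    fun s c ω => by
      rw [hg, hg, hE.Hs_sh, show (sh (gen c) ω).2.1 1 = ω.2.1 (gen c * 1) from rfl]
      simp only [mul_one]
  exact {
    recur := fun s => (hE.recur s).mono fun ω h α => by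
      rw [hg, h 1 α, mul_add, mul_sum, bg]
      congr 1
      refine sum_congr rfl fun c _ => ?_
      rw [gc, hg, Gf_spin b.A, b.I.spin_par ω.2.1 (gen c) (step_ne 1 c), b.I.par_gen, ← mul_assoc,
        ← mul_assoc, P161.spin_sq, one_mul, gen]
    meas_hg := mh
    meas_piece := mp
    meas_UK := mU
    indep := fun r s K => b.P.iindep _ _ (mp r s K) fun o => b.I.indep (TT o) (TT o)ᶜ
      {j | j.1 ∈ TT o} {j | j.1 ∈ TT o}ᶜ _ _ disjoint_compl_right disjoint_compl_right (mp r s K o)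
      (measurable_pi_lambda _ fun j => mp r s K j) (dep_piece b r s K o) fun ω ω' h h' =>
        funext fun j => dep_piece b r s K j ω ω' (fun v hv => h v (TT_disj j.2 hv))
          fun l hl => h' l (TT_disj j.2 hl)
    hg_sh := sh1
    UK_sh := fun r s K c ω => by rw [UK, UK, hE.Hs_sh, b.A.VK_shift]; simp only [mul_one]
    UK_succ := fun r s K a ω => by rw [hg, kap_spin b.A]; rfl
    nish_hg := nh
    nish_bg := fun s => nish_prod (mb s) ⟨_, bl _ s (hs s)⟩ fun τ => by
      have h1 := b.F.bnd_mono _ _ _ (Bs τ s ∩ {j | j.1 = 1}) (hE.bnd _ s τ (hs s))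
        Set.inter_subset_left
      refine Eq.mp (congrArg _ (funext fun ω => ?_)) (hB.nish _ _ _ h1 1 none)
      rw [HA, b.F.HI_single _ _ _ _ (b.F.adm _ _ _ _ h1 (b.F.Yq_le _ _))
        fun j hj => by simp [yA, hj], bg, bs]
      exact congrArg _ (b.F.bI_dep _ _ _ fun n => by simp [yA, Set.indicator_apply, Ya])
    nish_gc := fun s c => b.N.flip0 _ _ _ (nh s _ _) (mX _) (by
      have h : MeasurePreserving (fun ω : Om d => ω.2.1) (PP μ) μ :=
        measurePreserving_fst.comp measurePreserving_snd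
      rw [← b.I.law_Xi (gen c) (step_ne 1 c)]
      exact ((MeasurePreserving.mk ((measurable_pi_apply _).comp b.I.meas_Xi) rfl).comp h).map_eq) (b.I.indep {gen c} {gen c}ᶜ ∅ Set.univ _ _ disjoint_compl_right (Set.empty_disjoint _)
        (mX _) (mh s _ _) (fun ω ω' h _ => h _ rfl) fun ω ω' h h' =>
          H_dep b s c (fun v _ hv => h v hv) (fun j _ => h' j trivial) fun u => reach_gen.1)
    bg_le := bl
    hg_le := hl
    bg_low := fun n s h => by
      have h1 : ∀ x, ‖tanh x ^ 2‖ ≤ 1 := fun x => by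
        rw [norm_pow]; exact pow_le_one₀ (norm_nonneg _) (abs_tanh_lt_one _).le
      have hm := (Fa.meas_tanh.comp (mb s)).pow_const 2
      have hi : Integrable (fun ω => tanh (bg s ω) ^ 2) ((PU d).prod (P0 μ)) :=
        Integrable.of_bound hm.aestronglyMeasurable 1 (ae_of_all _ fun _ => h1 _)
      rw [xx, PP, integral_prod _ hi]
      refine le_trans ?_ (integral_mono_of_nonneg (f := fun τ => str τ (1, n - 1) ^ 2 / 48)
        (ae_of_all _ fun _ => by positivity) hi.integral_prod_left (ae_of_all _ fun τ => ?_))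
      · rw [integral_div, int_str b]
        linarith [sq_nonneg (eps (n - 1))]
      by_cases ht : (τ (1, n - 1) : ℝ) < 1 / 2
      swap
      · simp only [str, if_neg ht, ne_eq, OfNat.ofNat_ne_zero, not_false_eq_true, zero_pow, zero_div]
        exact integral_nonneg fun _ => sq_nonneg _
      have hi' : Integrable (fun ω => tanh (bg s (τ, ω)) ^ 2) (μ.prod (PU d)) :=
        Integrable.of_bound (hm.comp measurable_prodMk_left).aestronglyMeasurable 1
          (ae_of_all _ fun _ => h1 _)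
      simp only
      rw [P0, integral_prod _ hi']
      refine le_trans (by simp) (integral_mono (integrable_const (str τ (1, n - 1) ^ 2 / 48))
        hi'.integral_prod_left fun σ => ?_)
      refine (low b (hE.bnd _ s τ (hs s)) (i := (1, n - 1)) ?_ σ).trans_eq ?_
      · show ((n - 1 : ℤ) : ℝ) + _ < _
        push_cast; linarith
      · simp only [bg, tanh_spin, mul_pow, sq (spin _), P161.spin_sq, one_mul]; rfl
    gc_tanh := fun s c ω => by
      rw [gc, tanh_spin, abs_spin, b.A.tanh_Gf, abs_mul, abs_of_pos b.crit.h0]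
      exact mul_le_of_le_one_right b.crit.h0.le (abs_tanh_lt_one _).le
    gc_le := fun s c ω => (abs_spin _ _).trans_le (b.A.Gf_le _)
    xx_gc := fun s c => by
      rw [xx, xx, ← int_sh b (gen c) (f := fun ω => tanh (hg θ s 1 (some c) ω) ^ 2)
        ((Fa.meas_tanh.comp (mh s 1 (some c))).pow_const 2), ← integral_const_mul]
      simp only [gc, tanh_spin, mul_pow, sq (spin _), P161.spin_sq, one_mul, b.A.tanh_Gf, sh1] }

end Vale.Agent.P161E
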