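import Vale.Agent.P161E.Q

/-! P161 endpoint, module S1: the annealed step. -/

namespace Vale.Agent.P161E

open MeasureTheory ProbabilityTheory Filter Topology Finset Real
open Vale.Agent.P161 (spin obs gain clip coin ibdd gain_abs gain_lip den_ge)
open scoped Classical

namespace S1m

open Qm

/-- Bounded measurable functions. -/
structure MB {Ω : Type} [MeasurableSpace Ω] (f : Ω → ℝ) : Prop where
  meas : Measurable f
  bdd : Bdd f

section

variable {Ω : Type} [MeasurableSpace Ω] {f g : Ω → ℝ}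

lemma MB.const (c : ℝ) : MB fun _ : Ω => c := ⟨measurable_const, ⟨|c|, fun _ => le_rfl⟩⟩

lemma MB.add (hf : MB f) (hg : MB g) : MB fun a => f a + g a := by
  obtain ⟨C, hC⟩ := hf.bdd
  obtain ⟨D, hD⟩ := hg.bdd
  exact ⟨hf.meas.add hg.meas, ⟨C + D, fun a => (abs_add_le _ _).trans (add_le_add (hC a) (hD a))⟩⟩

lemma MB.mul (hf : MB f) (hg : MB g) : MB fun a => f a * g a := by
  obtain ⟨C, hC⟩ := hf.bdd
  obtain ⟨D, hD⟩ := hg.bdd
  refine ⟨hf.meas.mul hg.meas, ⟨C * D, fun a => ?_⟩⟩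
  rw [abs_mul]
  exact mul_le_mul (hC a) (hD a) (abs_nonneg _) ((abs_nonneg _).trans (hC a))

lemma MB.sub (hf : MB f) (hg : MB g) : MB fun a => f a - g a := by
  have := hf.add ((MB.const (-1)).mul hg)
  simpa [sub_eq_add_neg] using this

lemma MB.sq (hf : MB f) : MB fun a => f a ^ 2 := by
  simpa [pow_two] using hf.mul hf

lemma MB.sum {κ : Type} {f : κ → Ω → ℝ} (S : Finset κ) (hf : ∀ k, MB (f k)) :
    MB fun a => ∑ k ∈ S, f k a := by
  induction S using Finset.induction_on with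
  | empty => simpa using MB.const 0
  | insert k S hk ih =>
    simp only [sum_insert hk]
    exact (hf k).add ih

lemma MB.ite {p : Ω → Prop} [DecidablePred p] (hp : MeasurableSet {a | p a}) (hf : MB f) :
    MB fun a => if p a then f a else 0 := by
  obtain ⟨C, hC⟩ := hf.bdd
  refine ⟨Measurable.ite hp hf.meas measurable_const, ⟨C, fun a => ?_⟩⟩
  dsimp only
  split_ifs
  · exact hC a
  · exact abs_zero.trans_le ((abs_nonneg _).trans (hC a))

lemma MB.int (hf : MB f) (P : Measure Ω) [IsFiniteMeasure P] : Integrable f P := by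
  obtain ⟨C, hC⟩ := hf.bdd
  exact ibdd hf.meas hC

lemma MB.comp {Ω' : Type} [MeasurableSpace Ω'] (hf : MB f) {k : Ω' → Ω} (hk : Measurable k) :
    MB fun a => f (k a) := by
  obtain ⟨C, hC⟩ := hf.bdd
  exact ⟨hf.meas.comp hk, ⟨C, fun a => hC _⟩⟩

lemma sup_bound (P : Measure Ω) {h : Ω → ℝ} (hi : Integrable h P) {g : ℕ → Ω → ℝ}
    (hg : ∀ k, Integrable (g k) P) (h0 : ∀ k a, 0 ≤ g k a) (hm : ∀ a, Monotone fun k => g k a)
    {c r : ℝ} (hc : 0 < c) (hr : ∀ k, ∫ a, g k a ∂P ≤ r)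
    (hh : ∀ᵐ a ∂P, ∀ ρ, (∀ k, g k a ≤ ρ) → h a ≤ c * ρ) : ∫ a, h a ∂P ≤ c * r := by
  have i1 : ∀ k, Integrable (fun a => min (h a) (c * g k a)) P := fun k =>
    hi.inf ((hg k).const_mul c)
  have hl := tendsto_integral_of_dominated_convergence (μ := P)
    (F := fun k a => min (h a) (c * g k a)) (f := h) (fun a => |h a|) (fun k => (i1 k).1) hi.abs
    (fun k => Eventually.of_forall fun a => ?_) ?_
  · refine le_of_tendsto' hl fun k => ?_
    refine (integral_mono (i1 k) ((hg k).const_mul c) fun a => min_le_right _ _).trans ?_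
    rw [integral_const_mul]
    exact mul_le_mul_of_nonneg_left (hr k) hc.le
  · have := mul_nonneg hc.le (h0 k a)
    rw [Real.norm_eq_abs, abs_le]
    exact ⟨le_min (neg_abs_le _) (by linarith [abs_nonneg (h a)]),
      (min_le_left _ _).trans (le_abs_self _)⟩
  · filter_upwards [hh] with a ha
    have hb : BddAbove (Set.range fun k => min (h a) (c * g k a)) :=
      ⟨h a, by rintro _ ⟨k, rfl⟩; exact min_le_left _ _⟩
    have h1 := tendsto_atTop_ciSup (f := fun k => min (h a) (c * g k a))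
      (fun k l hkl => min_le_min le_rfl (mul_le_mul_of_nonneg_left (hm a hkl) hc.le)) hb
    suffices h a = ⨆ k, min (h a) (c * g k a) by rwa [← this] at h1
    refine le_antisymm (not_lt.1 fun hlt => ?_) (ciSup_le fun k => min_le_left _ _)
    have h2 := ha ((⨆ k, min (h a) (c * g k a)) / c) fun k => by
      rw [le_div_iff₀ hc, mul_comm]
      rcases min_le_iff.1 (le_ciSup hb k) with h3 | h3
      · exact absurd h3 (not_le.2 hlt)
      · exact h3
    rw [mul_div_cancel₀ _ hc.ne'] at h2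
    exact absurd h2 (not_le.2 hlt)

end

lemma dep_comap {Ω E : Type} [MeasurableSpace E] {Z : Ω → E} {f : Ω → ℝ}
    (hf : Measurable[MeasurableSpace.comap Z inferInstance] f) {a a' : Ω} (h : Z a = Z a') :
    f a = f a' := by
  obtain ⟨S, -, hS⟩ := hf (measurableSet_singleton (f a'))
  have h1 : a' ∈ Z ⁻¹' S := by rw [hS]; rfl
  have h2 : a ∈ Z ⁻¹' S := by rw [Set.mem_preimage, h]; exact h1
  rw [hS] at h2
  exact h2

lemma haz1 {x : unitInterval → ℝ} (hx : MB x) (h0 : ∀ r, 0 ≤ x r) {n s t : ℝ} (h1 : n ≤ s)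
    (h2 : s ≤ t) (h3 : t ≤ n + 1 / 2) (hc : ∀ r : unitInterval, s ≤ n + r → x r = x 1) :
    0 ≤ ∫ r, (2 * (t - s) * x r - if s ≤ n + r ∧ n + r < t then x r else 0) := by
  let p : unitInterval := ⟨s - n, by linarith, by linarith⟩
  let q : unitInterval := ⟨t - n, by linarith, by linarith⟩
  let m : unitInterval := ⟨1 / 2, by norm_num, by norm_num⟩
  have e1 : ∀ r : unitInterval, (if s ≤ n + r ∧ n + r < t then x r else 0) =
      (Set.Ico p q).indicator (fun _ => x 1) r := by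
    intro r
    have : r ∈ Set.Ico p q ↔ s ≤ n + r ∧ n + r < t := by
      rw [Set.mem_Ico, ← Subtype.coe_le_coe, ← Subtype.coe_lt_coe]
      exact and_congr (by simp only [p]; constructor <;> intro <;> linarith)
        (by simp only [q]; constructor <;> intro <;> linarith)
    split_ifs with h
    · rw [Set.indicator_of_mem (this.2 h), hc r h.1]
    · rw [Set.indicator_of_notMem fun h' => h (this.1 h')]
  have e2 : x 1 / 2 ≤ ∫ r, x r := by
    have : ∫ r, (Set.Ici m).indicator (fun _ => x 1) r = x 1 / 2 := by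
      rw [integral_indicator_const _ measurableSet_Ici, Measure.real, unitInterval.volume_Ici,
        ENNReal.toReal_ofReal (by simp only [m]; norm_num)]
      simp only [m, smul_eq_mul]
      ring
    rw [← this]
    refine integral_mono ((integrable_const _).indicator measurableSet_Ici) (hx.int _) fun r => ?_
    by_cases h : r ∈ Set.Ici m
    · have h4 : (1 / 2 : ℝ) ≤ r := h
      rw [Set.indicator_of_mem h, hc r (by linarith)]
    · rw [Set.indicator_of_notMem h]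
      exact h0 r
  simp only [e1]
  rw [integral_sub ((hx.int _).const_mul _) ((integrable_const _).indicator measurableSet_Ico),
    integral_const_mul, integral_indicator_const _ measurableSet_Ico, Measure.real,
    unitInterval.volume_Ico, ENNReal.toReal_ofReal (by simp only [p, q]; linarith)]
  simp only [p, q, smul_eq_mul]
  nlinarith [h0 1]

variable {d : ℕ} {θ : ℝ} {μ : Measure (W d → Bool)}

lemma meas_win (hE : StmtE d θ μ) (s t : ℝ) (i : I d) :
    MeasurableSet {ω : Om d | s ≤ tim ω.1 i ∧ tim ω.1 i < t} :=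
  (measurableSet_le measurable_const ((hE.meas_tim i).comp measurable_fst)).inter
    (measurableSet_lt ((hE.meas_tim i).comp measurable_fst) measurable_const)

/-- The hazard bound. -/
lemma hazard (b : Base d θ μ) (hE : StmtE d θ μ) {X : Om d → ℝ} (hX : MB X) (h0 : ∀ ω, 0 ≤ X ω)
    {s t : ℝ} (i : I d) (h1 : (i.2 : ℝ) ≤ s) (h2 : s ≤ t) (h3 : t ≤ i.2 + 1 / 2)
    (hc : ∀ τ ω (r : unitInterval), s ≤ (i.2 : ℝ) + r →
      X (Function.update τ i r, ω) = X (Function.update τ i 1, ω)) :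
    ∫ ω, (if s ≤ tim ω.1 i ∧ tim ω.1 i < t then X ω else 0) ∂PP μ ≤
      2 * (t - s) * ∫ ω, X ω ∂PP μ := by
  have := b.crit.hμ.1
  have m1 := MB.ite (meas_win hE s t i) hX
  have m2 := (MB.const (2 * (t - s))).mul hX
  rw [← integral_const_mul, ← sub_nonneg, ← integral_sub (m2.int _) (m1.int _), PP,
    integral_prod_symm _ ((m2.sub m1).int _)]
  refine integral_nonneg fun ω => ?_
  have m3 := (m2.sub m1).comp (k := fun τ : Nz d => (τ, ω)) measurable_prodMk_right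
  have h4 := b.P.update i _ m3.meas m3.bdd
  simp only [PU]
  rw [h4]
  refine integral_nonneg fun τ => ?_
  have h5 := haz1 (hX.comp (k := fun r : unitInterval => ((Function.update τ i r, ω) : Om d))
    ((measurable_update τ).prodMk measurable_const)) (fun r => h0 _) h1 h2 h3 (hc τ ω)
  have h6 : ∀ r : unitInterval, @Function.update (I d) (fun _ => unitInterval)
      (fun a b => Classical.propDecidable (a = b)) τ i r = Function.update τ i r := fun r => by
    congr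
    exact Subsingleton.elim _ _
  simp only [h6, tim, Function.update_self]
  exact h5

lemma str_le (hE : StmtE d θ μ) (τ : Nz d) (j : I d) : 0 ≤ str τ j ∧ str τ j ≤ eps j.2 := by
  rw [str]
  split_ifs
  · exact ⟨(hE.eps_pos _).1.le, le_rfl⟩
  · exact ⟨le_rfl, (hE.eps_pos _).1.le⟩

lemma str_one (hE : StmtE d θ μ) (τ : Nz d) (j : I d) : 0 ≤ str τ j ∧ str τ j ≤ 1 :=
  ⟨(str_le hE τ j).1, (str_le hE τ j).2.trans (hE.eps_pos _).2.1⟩

lemma mb_str (hE : StmtE d θ μ) (j : I d) : MB fun ω : Om d => str ω.1 j :=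
  ⟨(hE.meas_str j).comp measurable_fst,
    ⟨1, fun ω => by rw [abs_of_nonneg (str_one hE _ _).1]; exact (str_one hE _ _).2⟩⟩

lemma mb_mb (hE : StmtE d θ μ) (s : ℝ) (u : W d) : MB (mb θ μ s u) :=
  ⟨(hE.meas_mb s u).1.mono (hE.Gs_le s) le_rfl, ⟨1, (hE.meas_mb s u).2⟩⟩

lemma mb_At (hE : StmtE d θ μ) (s : ℝ) (u : W d) : MB (At θ μ s u) :=
  ⟨(hE.meas_At s u).1.mono (hE.Gs_le s) le_rfl, ⟨1, (hE.meas_At s u).2⟩⟩

lemma mb_ms (hE : StmtE d θ μ) {S : Nz d → ℝ} (hS : Measurable S) (u : W d) :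
    MB fun ω : Om d => ms θ (S ω.1) u ω :=
  ⟨hE.meas_ms S hS u, ⟨1, fun _ => (abs_tanh_lt_one _).le⟩⟩

lemma mb_As (hE : StmtE d θ μ) {S : Nz d → ℝ} (hS : Measurable S) (u : W d) :
    MB fun ω : Om d => As θ (S ω.1) u ω :=
  ⟨hE.meas_As S hS u, ⟨1, fun ω => hE.As_le _ u ω⟩⟩

/-- The surrogate for the magnetisation at time `t`. -/
noncomputable def YK (θ : ℝ) (μ : Measure (W d → Bool)) (n : ℤ) (s t : ℝ) (K : ℕ) (ω : Om d) : ℝ :=
  mb θ μ s 1 ω + ∑ u ∈ ball K, if s ≤ tim ω.1 (u, n) ∧ tim ω.1 (u, n) < t then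
    str ω.1 (u, n) * At θ μ s u ω * gain (str ω.1 (u, n) * mb θ μ s u ω) (gI θ ω (u, n)) else 0

lemma YK_le (hE : StmtE d θ μ) (n : ℤ) (s t : ℝ) (K : ℕ) (ω : Om d) :
    |YK θ μ n s t K ω| ≤ 1 + (ball K : Finset (W d)).card := by
  refine (abs_add_le _ _).trans (add_le_add ((hE.meas_mb s 1).2 ω)
    ((abs_sum_le_sum_abs _ _).trans ((sum_le_card_nsmul _ _ 1 fun u _ => ?_).trans (by simp))))
  split_ifs
  · rw [abs_mul]
    exact mul_le_one₀ (em_le (str_one hE _ _) ((hE.meas_At s u).2 ω)) (abs_nonneg _)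
      (gain_abs (em_le (str_one hE _ _) ((hE.meas_mb s u).2 ω)) _)
  · simp

lemma YK_meas (b : Base d θ μ) (hE : StmtE d θ μ) (n : ℤ) {s t : ℝ} (h2 : s ≤ t)
    (h3 : t ≤ n + 1 / 2) (K : ℕ) : Measurable[Gs θ t] (YK θ μ n s t K) := by
  let _ : MeasurableSpace (Om d) := Gs θ t
  have k1 : ∀ u, Measurable (mb θ μ s u) := fun u =>
    (hE.meas_mb s u).1.mono (hE.Gs_mono s t h2) le_rfl
  have k2 : ∀ u, Measurable (At θ μ s u) := fun u =>
    (hE.meas_At s u).1.mono (hE.Gs_mono s t h2) le_rfl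
  refine (k1 1).add (Finset.measurable_sum _ fun u _ => ?_)
  have z : Measurable fun ω : Om d => Zs θ t ω (u, n) :=
    (measurable_pi_apply (u, n)).comp (comap_measurable (Zs θ t))
  have z1 : Measurable fun ω : Om d => ((Zs θ t ω (u, n)).1 : ℝ) :=
    measurable_subtype_coe.comp z.fst
  have z2 : Measurable fun ω : Om d => if ((Zs θ t ω (u, n)).1 : ℝ) < 1 / 2 then eps n else 0 :=
    Measurable.ite (measurableSet_lt z1 measurable_const) measurable_const measurable_const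
  have key : (fun ω : Om d => if s ≤ tim ω.1 (u, n) ∧ tim ω.1 (u, n) < t then
      str ω.1 (u, n) * At θ μ s u ω * gain (str ω.1 (u, n) * mb θ μ s u ω) (gI θ ω (u, n))
      else 0) = fun ω => if s ≤ n + ((Zs θ t ω (u, n)).1 : ℝ) ∧ n + ((Zs θ t ω (u, n)).1 : ℝ) < t
      then (if ((Zs θ t ω (u, n)).1 : ℝ) < 1 / 2 then eps n else 0) * At θ μ s u ω *
        gain ((if ((Zs θ t ω (u, n)).1 : ℝ) < 1 / 2 then eps n else 0) * mb θ μ s u ω)
          (Zs θ t ω (u, n)).2 else 0 := by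
    funext ω
    by_cases h : tim ω.1 (u, n) < t
    · rw [Zs, if_pos h]
      rfl
    · rw [Zs, if_neg h, if_neg fun h' => h h'.2, if_neg fun h' => ?_]
      have := h'.2
      simp only [Set.Icc.coe_one] at this
      linarith
  rw [key]
  exact Measurable.ite ((measurableSet_le measurable_const (z1.const_add _)).inter
    (measurableSet_lt (z1.const_add _) measurable_const))
    ((z2.mul (k2 u)).mul (mgain b.C (z2.mul (k1 u)) z.snd)) measurable_const

lemma split {x ε a a0 at' m m0 m' : ℝ} (hx : 0 ≤ x ∧ x ≤ ε) (hε : ε ≤ 1) (h1 : |m0| ≤ 1)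
    (h2 : |m'| ≤ 1) :
    x ^ 2 * (2 * (a - at') ^ 2 + 8 * (a ^ 2 * (m - m') ^ 2)) ≤
      32 * ε ^ 2 * ((a0 - at') ^ 2 + a0 ^ 2 * (m0 - m') ^ 2) +
        132 * ((a - a0) ^ 2 + a ^ 2 * (m - m0) ^ 2) := by
  have e1 : (a - at') ^ 2 ≤ 2 * (a - a0) ^ 2 + 2 * (a0 - at') ^ 2 := by
    nlinarith [sq_nonneg (a - a0 - (a0 - at'))]
  have e2 : (m - m') ^ 2 ≤ 2 * (m - m0) ^ 2 + 2 * (m0 - m') ^ 2 := by
    nlinarith [sq_nonneg (m - m0 - (m0 - m'))]
  have e3 : a ^ 2 ≤ 2 * a0 ^ 2 + 2 * (a - a0) ^ 2 := by nlinarith [sq_nonneg (a0 - (a - a0))]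
  have e4 : (m0 - m') ^ 2 ≤ 4 := by
    obtain ⟨_, _⟩ := abs_le.1 h1
    obtain ⟨_, _⟩ := abs_le.1 h2
    nlinarith
  have e5 := mul_le_mul_of_nonneg_left e2 (sq_nonneg a)
  have e6 := mul_le_mul_of_nonneg_right e3 (sq_nonneg (m0 - m'))
  have e7 := mul_le_mul_of_nonneg_left e4 (sq_nonneg (a - a0))
  have e8 : x ^ 2 ≤ ε ^ 2 := pow_le_pow_left₀ hx.1 hx.2 2
  have e9 : x ^ 2 ≤ 1 := pow_le_one₀ hx.1 (hx.2.trans hε)
  have p1 : 0 ≤ (a0 - at') ^ 2 + a0 ^ 2 * (m0 - m') ^ 2 := by positivity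
  have p2 : 0 ≤ (a - a0) ^ 2 + a ^ 2 * (m - m0) ^ 2 := by positivity
  have f : 2 * (a - at') ^ 2 + 8 * (a ^ 2 * (m - m') ^ 2) ≤
      32 * ((a0 - at') ^ 2 + a0 ^ 2 * (m0 - m') ^ 2) +
        132 * ((a - a0) ^ 2 + a ^ 2 * (m - m0) ^ 2) := by
    nlinarith [sq_nonneg (a0 - at'), mul_nonneg (sq_nonneg a) (sq_nonneg (m - m0))]
  have f2 := mul_le_mul_of_nonneg_left f (sq_nonneg x)
  nlinarith [mul_le_mul_of_nonneg_right e8 p1, mul_le_mul_of_nonneg_right e9 p2]

/-- The quenched error of one observation. -/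
noncomputable def bq (θ : ℝ) (μ : Measure (W d → Bool)) (n : ℤ) (s : ℝ) (u : W d) (ω : Om d) :
    ℝ :=
  2 * (As θ (tim ω.1 (u, n)) u ω - At θ μ s u ω) ^ 2 + 8 * (As θ (tim ω.1 (u, n)) u ω ^ 2 *
    (ms θ (tim ω.1 (u, n)) u ω - mb θ μ s u ω) ^ 2)

lemma mb_bq (hE : StmtE d θ μ) (n : ℤ) (s : ℝ) (u : W d) : MB (bq θ μ n s u) :=
  ((MB.const 2).mul ((mb_As hE (hE.meas_tim _) u).sub (mb_At hE s u)).sq).add ((MB.const 8).mul
    ((mb_As hE (hE.meas_tim _) u).sq.mul ((mb_ms hE (hE.meas_tim _) u).sub (mb_mb hE s u)).sq))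

lemma mb_bw (hE : StmtE d θ μ) (n : ℤ) (s t : ℝ) (u : W d) : MB fun ω : Om d =>
    if s ≤ tim ω.1 (u, n) ∧ tim ω.1 (u, n) < t then str ω.1 (u, n) ^ 2 * bq θ μ n s u ω else 0 :=
  MB.ite (meas_win hE s t (u, n)) ((mb_str hE _).sq.mul (mb_bq hE n s u))

lemma bw_le (b : Base d θ μ) (hE : StmtE d θ μ) {n : ℤ} {s t : ℝ} (h1 : n ≤ s) (h2 : s ≤ t)
    (h3 : t ≤ n + 1 / 2) (u : W d) :
    ∫ ω, (if s ≤ tim ω.1 (u, n) ∧ tim ω.1 (u, n) < t then str ω.1 (u, n) ^ 2 * bq θ μ n s u ω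
      else 0) ∂PP μ ≤ 64 * ((t - s) * eps n ^ 2) * (∫ ω, (As θ s u ω - At θ μ s u ω) ^ 2 ∂PP μ +
        ∫ ω, As θ s u ω ^ 2 * (ms θ s u ω - mb θ μ s u ω) ^ 2 ∂PP μ) + 132 * err θ μ n s t u := by
  have := b.crit.hμ.1
  have a0 := mb_As hE (S := fun _ => s) measurable_const u
  have m0 := mb_ms hE (S := fun _ => s) measurable_const u
  have a1 := mb_As hE (hE.meas_tim (u, n)) u
  have m1 := mb_ms hE (hE.meas_tim (u, n)) u
  have x1 := (a0.sub (mb_At hE s u)).sq
  have x2 := a0.sq.mul (m0.sub (mb_mb hE s u)).sq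
  have h4 := hazard b hE (x1.add x2) (fun ω => by positivity) (u, n) h1 h2 h3 fun τ ω r hr => by
    obtain ⟨e1, e2⟩ := hE.upd s (u, n) τ ω r 1 hr (by
      simp only [Set.Icc.coe_one]; linarith)
    rw [dep_comap (hE.meas_At s u).1 e2, dep_comap (hE.meas_mb s u).1 e2]
    simp only [As, ms, e1]
  rw [integral_add (x1.int _) (x2.int _)] at h4
  have y1 := MB.ite (meas_win hE s t (u, n)) (x1.add x2)
  have y2 := MB.ite (meas_win hE s t (u, n)) ((a1.sub a0).sq.add (a1.sq.mul (m1.sub m0).sq))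
  have h5 := integral_mono (μ := PP μ) ((mb_bw hE n s t u).int _)
    ((((MB.const (32 * eps n ^ 2)).mul y1).add ((MB.const 132).mul y2)).int _) fun ω => by
      dsimp only
      split_ifs
      · exact split (str_le hE _ _) (hE.eps_pos n).2.1 (abs_tanh_lt_one _).le
          ((hE.meas_mb s u).2 ω)
      · simp
  rw [integral_add (((MB.const _).mul y1).int _) (((MB.const _).mul y2).int _),
    integral_const_mul, integral_const_mul] at h5
  refine h5.trans (add_le_add ?_ le_rfl)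
  have h6 := mul_le_mul_of_nonneg_left h4 (by positivity : 0 ≤ 32 * eps n ^ 2)
  exact h6.trans (le_of_eq (by ring))

/-- The quenched step for almost every schedule. -/
lemma quenched (b : Base d θ μ) (hTl : StmtTl d θ μ) (hQ : StmtQ d θ μ) (hE : StmtE d θ μ)
    {n : ℤ} {s t η : ℝ} (h1 : n ≤ s) (h2 : s ≤ t) (h3 : t ≤ n + 1 / 2) (hη : 0 < η) (K : ℕ) :
    ∀ᵐ τ ∂PU d, ∀ ρ, (∀ K', ∑ u ∈ ball K' \ ball K,
      tlp θ (fun z => str τ (z, n - 1)) 1 (word u) ≤ ρ) →
      ∫ ω, (ms θ t 1 (τ, ω) - YK θ μ n s t K (τ, ω)) ^ 2 ∂P0 μ ≤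
        (1 + η) * (∫ ω, (ms θ s 1 (τ, ω) - mb θ μ s 1 (τ, ω)) ^ 2 ∂P0 μ +
          ∑ u ∈ ball K, if s ≤ tim τ (u, n) ∧ tim τ (u, n) < t then str τ (u, n) ^ 2 *
            ∫ ω, bq θ μ n s u (τ, ω) ∂P0 μ else 0) + (1 + 1 / η) * ρ := by
  choose Φ k1 b1 e1 using fun u => hE.factor s _ (hE.meas_mb s u).1 (hE.meas_mb s u).2
  choose Ψ k2 b2 e2 using fun u => hE.factor s _ (hE.meas_At s u).1 (hE.meas_At s u).2
  filter_upwards [b.I.inj, b.I.lt_one] with τ hi hl ρ hρ
  have hb := hE.bnd n t τ (by linarith)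
  have h := hQ (str τ) (tim τ) n s t _ hi h2 hb (fun j k3 k4 => by
      have k5 : (n : ℝ) < j.2 + 1 := by linarith [hl j, show tim τ j = j.2 + τ j from rfl]
      have k6 : (j.2 : ℝ) < n + 1 := by linarith [(τ j).2.1, show tim τ j = j.2 + τ j from rfl]
      have k7 : n < j.2 + 1 := by exact_mod_cast k5
      have k8 : j.2 < n + 1 := by exact_mod_cast k6
      omega)
    (fun a => Φ 1 (τ, a)) (fun u a => Φ u (τ, a)) (fun u a => Ψ u (τ, a))
    ((k1 1).comp measurable_prodMk_left) (fun u => (k1 u).comp measurable_prodMk_left)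
    (fun u => (k2 u).comp measurable_prodMk_left) (fun a => b1 1 _) (fun u a => b1 u _)
    (fun u a => b2 u _) (fun u => tlp θ (fun z => str τ (z, n - 1)) 1 (word u)) K ρ η hη
    (fun B u k3 k4 => hTl.tail _ _ B (n - 1) _ (b.F.bnd_mono _ _ _ _ hb k4) (fun z => by
      have k5 : (z, n - 1) ∈ B := k3 (by
        have := hl (z, n - 1)
        simp only [Set.mem_ofPred_eq, tim]
        push_cast
        linarith)
      rw [Set.indicator_of_mem k5]
      exact ⟨(str_one hE _ _).1, le_rfl⟩) u) hρ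
  simp only [YK, bq, e1, e2]
  exact h

lemma ball_mono : Monotone (ball : ℕ → Finset (W d)) := fun _ _ h _ hu =>
  mem_ball.2 ((mem_ball.1 hu).trans h)

/-- The annealed inequality at finite radius. -/
lemma annealed (b : Base d θ μ) (hTl : StmtTl d θ μ) (hQ : StmtQ d θ μ) (hE : StmtE d θ μ)
    {n : ℤ} {s t η : ℝ} (h1 : n ≤ s) (h2 : s ≤ t) (h3 : t ≤ n + 1 / 2) (hη : 0 < η) (K : ℕ) :
    ∫ ω, (ms θ t 1 ω - YK θ μ n s t K ω) ^ 2 ∂PP μ ≤
      (1 + η) * (∫ ω, (ms θ s 1 ω - mb θ μ s 1 ω) ^ 2 ∂PP μ + ∑ u ∈ ball K,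
        ∫ ω, (if s ≤ tim ω.1 (u, n) ∧ tim ω.1 (u, n) < t then
          str ω.1 (u, n) ^ 2 * bq θ μ n s u ω else 0) ∂PP μ) + (1 + 1 / η) *
      (∑' u : W d, ∫ τ, tlp θ (fun z => str τ (z, n - 1)) 1 (word u) ∂PU d -
        ∑ u ∈ ball K, ∫ τ, tlp θ (fun z => str τ (z, n - 1)) 1 (word u) ∂PU d) := by
  have := b.crit.hμ.1
  have t0 := fun (τ : Nz d) (u : W d) =>
    hTl.nonneg (fun z => str τ (z, n - 1)) 1 (word u) fun z => str_one hE _ _
  have t1 : ∀ u : W d, MB fun τ : Nz d => tlp θ (fun z => str τ (z, n - 1)) 1 (word u) := fun u =>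
    ⟨hTl.meas _ _ _, ⟨1, fun τ => by rw [abs_of_nonneg (t0 τ u).1]; exact (t0 τ u).2⟩⟩
  have y1 : MB (YK θ μ n s t K) :=
    ⟨(YK_meas b hE n h2 h3 K).mono (hE.Gs_le t) le_rfl, ⟨_, YK_le hE n s t K⟩⟩
  have x1 := ((mb_ms hE (S := fun _ => t) measurable_const 1).sub y1).sq
  have x2 := ((mb_ms hE (S := fun _ => s) measurable_const 1).sub (mb_mb hE s 1)).sq
  have x3 := MB.sum (ball K) (mb_bw hE n s t)
  have x4 := (MB.const (1 + η)).mul (x2.add x3)
  have h4 := sup_bound (PU d) ((x1.sub x4).int ((PU d).prod (P0 μ))).integral_prod_left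
    (g := fun K' τ => ∑ u ∈ ball K' \ ball K, tlp θ (fun z => str τ (z, n - 1)) 1 (word u))
    (fun k => (MB.sum _ t1).int _) (fun k τ => sum_nonneg fun u _ => (t0 τ u).1)
    (fun τ k l h => sum_le_sum_of_subset_of_nonneg (sdiff_subset_sdiff (ball_mono h) subset_rfl)
      fun u _ _ => (t0 τ u).1) (c := 1 + 1 / η)
    (r := ∑' u : W d, ∫ τ, tlp θ (fun z => str τ (z, n - 1)) 1 (word u) ∂PU d -
      ∑ u ∈ ball K, ∫ τ, tlp θ (fun z => str τ (z, n - 1)) 1 (word u) ∂PU d) (by positivity)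
    (fun k => by
      rw [integral_finsetSum _ fun u _ => (t1 u).int _, le_sub_iff_add_le,
        ← sum_union sdiff_disjoint]
      exact (hTl.mean (n - 1)).sum_le_tsum _ fun u _ => integral_nonneg fun τ => (t0 τ u).1) (by
      filter_upwards [quenched b hTl hQ hE h1 h2 h3 hη K] with τ h ρ hρ
      have k : Measurable fun ω : O0 d => ((τ, ω) : Om d) := measurable_prodMk_left
      rw [integral_sub ((x1.comp k).int _) ((x4.comp k).int _), integral_const_mul,
        integral_add ((x2.comp k).int _) ((x3.comp k).int _),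
        integral_finsetSum _ fun u _ => ((mb_bw hE n s t u).comp k).int _]
      refine sub_le_iff_le_add'.2 ((h ρ hρ).trans (le_of_eq ?_))
      congr 3
      refine sum_congr rfl fun u _ => ?_
      dsimp only
      split_ifs
      · rw [integral_const_mul]
      · simp)
  rw [← integral_prod _ ((x1.sub x4).int _), ← PP, integral_sub (x1.int _) (x4.int _),
    integral_const_mul, integral_add (x2.int _) (x3.int _),
    integral_finsetSum _ fun u _ => (mb_bw hE n s t u).int _] at h4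
  exact sub_le_iff_le_add'.1 h4

end S1m

open S1m in
theorem stmtS1 {d : ℕ} {θ : ℝ} {μ : Measure (W d → Bool)} (b : Base d θ μ) (_hB : StmtB d θ μ)
    (hTl : StmtTl d θ μ) (hQ : StmtQ d θ μ) (hE : StmtE d θ μ) (hS2 : StmtS2 d θ μ) :
    StmtS1 d θ μ := by
  intro n s t Db h1 h2 h3 hD
  have := b.crit.hμ.1
  have d0 : 0 ≤ Db := le_trans (sum_nonneg fun u _ => add_nonneg
    (integral_nonneg fun ω => by positivity) (integral_nonneg fun ω => by positivity)) (hD 0)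
  have e0 : 0 ≤ ∑' u, err θ μ n s t u := tsum_nonneg (hS2.nonneg n s t)
  have c0 : 0 ≤ (t - s) * eps n ^ 2 := mul_nonneg (sub_nonneg.2 h2) (sq_nonneg _)
  have k1 : ∫ ω, (ms θ s 1 ω - mb θ μ s 1 ω) ^ 2 ∂PP μ = del θ μ s :=
    integral_congr_ae ((hE.mb_eq s 1).mono fun ω h => by simp only [h])
  obtain ⟨f, hf⟩ : ∃ f : W d → ℝ,
    f = fun u => ∫ τ, tlp θ (fun z => str τ (z, n - 1)) 1 (word u) ∂PU d := ⟨_, rfl⟩
  have k2 : ∀ η, 0 < η → ∀ K, del θ μ t ≤ (1 + η) * (del θ μ s + (64 * ((t - s) * eps n ^ 2 * Db)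
      + 132 * ∑' u, err θ μ n s t u)) + (1 + 1 / η) * (∑' u, f u - ∑ u ∈ ball K, f u) := by
    intro η hη K
    have p1 := b.P.proj (Gs θ t) (PP μ) (ms θ t 1) (YK θ μ n s t K)
      (1 + (ball K : Finset (W d)).card) (hE.Gs_le t)
      (mb_ms hE (S := fun _ => t) measurable_const 1).meas
      (Eventually.of_forall fun ω => (abs_tanh_lt_one _).le.trans (by simp))
      (YK_meas b hE n h2 h3 K) (Eventually.of_forall (YK_le hE n s t K))
    refine le_trans p1 ((annealed b hTl hQ hE h1 h2 h3 hη K).trans ?_)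
    rw [k1, hf]
    refine add_le_add (mul_le_mul_of_nonneg_left (add_le_add le_rfl ?_) (by positivity)) le_rfl
    refine (sum_le_sum fun u _ => bw_le b hE h1 h2 h3 u).trans ?_
    rw [sum_add_distrib, ← mul_sum, ← mul_sum, ← Dsum]
    have p2 := (hS2.summ n s t h1).sum_le_tsum (ball K) fun u _ => hS2.nonneg n s t u
    have p3 := mul_le_mul_of_nonneg_left (hD K) c0
    linarith
  have k3 : Tendsto (fun K => ∑ u ∈ ball K, f u) atTop (𝓝 (∑' u, f u)) :=
    (hf ▸ hTl.mean (n - 1)).hasSum.comp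
      (ball_mono.tendsto_atTop_finset fun u => ⟨len u, mem_ball.2 le_rfl⟩)
  have k4 : ∀ η, 0 < η → del θ μ t ≤ (1 + η) * (del θ μ s + (64 * ((t - s) * eps n ^ 2 * Db)
      + 132 * ∑' u, err θ μ n s t u)) := by
    intro η hη
    have := ((k3.const_sub (∑' u, f u)).const_mul (1 + 1 / η)).const_add ((1 + η) *
      (del θ μ s + (64 * ((t - s) * eps n ^ 2 * Db) + 132 * ∑' u, err θ μ n s t u)))
    simpa using ge_of_tendsto' this (k2 η hη)
  have k5 : Tendsto (fun η : ℝ => (1 + η) * (del θ μ s + (64 * ((t - s) * eps n ^ 2 * Db)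
      + 132 * ∑' u, err θ μ n s t u))) (𝓝[>] 0) (𝓝 ((1 + 0) * (del θ μ s +
      (64 * ((t - s) * eps n ^ 2 * Db) + 132 * ∑' u, err θ μ n s t u)))) :=
    Tendsto.mono_left (Continuous.tendsto (by fun_prop) 0) nhdsWithin_le_nhds
  have k6 := ge_of_tendsto k5 (eventually_nhdsWithin_of_forall k4)
  have k7 := mul_nonneg c0 d0
  linarith

end Vale.Agent.P161E
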