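import Vale.Agent.P161E.Spec

namespace Vale.Agent.P161E

open MeasureTheory ProbabilityTheory Filter Topology Finset Real
open Vale.Agent.P161 (spin obs gain clip coin IsFreeIsing IsFactorOfIID)
open scoped Classical

namespace S2

variable {d : ℕ} {θ : ℝ} {μ : Measure (W d → Bool)}

/-- the integrand of `err` with lower time `r` -/
noncomputable def G (θ : ℝ) (n : ℤ) (u : W d) (r : ℝ) (ω : Om d) : ℝ :=
  (As θ (tim ω.1 (u, n)) u ω - As θ r u ω) ^ 2 +
    As θ (tim ω.1 (u, n)) u ω ^ 2 * (ms θ (tim ω.1 (u, n)) u ω - ms θ r u ω) ^ 2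

lemma err_eq (n : ℤ) (s t : ℝ) (u : W d) : err θ μ n s t u =
    ∫ ω, (if s ≤ tim ω.1 (u, n) ∧ tim ω.1 (u, n) < t then G θ n u s ω else 0) ∂PP μ := rfl

lemma G_nonneg (n : ℤ) (u : W d) (r : ℝ) (ω : Om d) : 0 ≤ G θ n u r ω := by
  unfold G; positivity

lemma G_le (n : ℤ) (u : W d) (r : ℝ) (ω : Om d) :
    G θ n u r ω ≤ 6 * As θ (tim ω.1 (u, n)) u ω ^ 2 + 2 * As θ r u ω ^ 2 := by
  have a1 := abs_lt.1 (show |ms θ (tim ω.1 (u, n)) u ω| < 1 from abs_tanh_lt_one _)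
  have a2 := abs_lt.1 (show |ms θ r u ω| < 1 from abs_tanh_lt_one _)
  have a3 : (ms θ (tim ω.1 (u, n)) u ω - ms θ r u ω) ^ 2 ≤ 4 := by nlinarith
  have a4 := mul_le_mul_of_nonneg_left a3 (sq_nonneg (As θ (tim ω.1 (u, n)) u ω))
  unfold G
  nlinarith [sq_nonneg (As θ (tim ω.1 (u, n)) u ω + As θ r u ω)]

lemma tim_mem (τ : Nz d) (u : W d) (n : ℤ) : n ≤ tim τ (u, n) ∧ tim τ (u, n) ≤ n + 1 :=
  ⟨le_add_of_nonneg_right (τ _).2.1, add_le_add_right (τ _).2.2 _⟩

/-- the grid point below `T` -/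
noncomputable def fl (s t : ℝ) (N : ℕ) (T : ℝ) : ℝ :=
  if s ≤ T ∧ T < t then s + ⌊(T - s) / ((t - s) / 2 ^ N)⌋₊ * ((t - s) / 2 ^ N) else T

lemma meas_fl (s t : ℝ) (N : ℕ) : Measurable (fl s t N) := by
  refine Measurable.ite ((measurableSet_le measurable_const measurable_id).inter
    (measurableSet_lt measurable_id measurable_const)) ?_ measurable_id
  exact (((measurable_of_countable (Nat.cast : ℕ → ℝ)).comp
    ((measurable_id.sub_const s).div_const _).nat_floor).mul_const _).const_add s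

lemma fl_le (s t : ℝ) (N : ℕ) (T : ℝ) : fl s t N T ≤ T ∧ T - |t - s| / 2 ^ N ≤ fl s t N T ∧
    min s T ≤ fl s t N T := by
  unfold fl
  split_ifs with h
  · have h0 : 0 < t - s := by linarith [h.1, h.2]
    have hδ : 0 < (t - s) / 2 ^ N := by positivity
    have h1 := Nat.floor_le (div_nonneg (sub_nonneg.2 h.1) hδ.le)
    have h2 := Nat.lt_floor_add_one ((T - s) / ((t - s) / 2 ^ N))
    rw [le_div_iff₀ hδ] at h1
    rw [div_lt_iff₀ hδ] at h2
    rw [abs_of_pos h0]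
    refine ⟨by linarith, by linarith, (min_le_left _ _).trans (le_add_of_nonneg_right ?_)⟩
    positivity
  · exact ⟨le_rfl, sub_le_self _ (by positivity), min_le_right _ _⟩

lemma fl_mono (s t T : ℝ) : Monotone fun N => fl s t N T := by
  refine monotone_nat_of_le_succ fun N => ?_
  unfold fl
  split_ifs with h
  · have h0 : 0 < t - s := by linarith [h.1, h.2]
    have hδ : 0 < (t - s) / 2 ^ N := by positivity
    have h1 := Nat.floor_le (div_nonneg (sub_nonneg.2 h.1) hδ.le)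
    have e : (t - s) / 2 ^ N = 2 * ((t - s) / 2 ^ (N + 1)) := by rw [pow_succ]; field_simp
    have hδ' : 0 < (t - s) / 2 ^ (N + 1) := by positivity
    have h2 : ⌊(T - s) / ((t - s) / 2 ^ N)⌋₊ * 2 ≤ ⌊(T - s) / ((t - s) / 2 ^ (N + 1))⌋₊ := by
      refine Nat.le_floor ?_
      rw [le_div_iff₀ hδ] at h1
      rw [le_div_iff₀ hδ', Nat.cast_mul, Nat.cast_ofNat, mul_assoc, ← e]
      exact h1
    have h3 : (⌊(T - s) / ((t - s) / 2 ^ N)⌋₊ : ℝ) * 2 ≤
        ⌊(T - s) / ((t - s) / 2 ^ (N + 1))⌋₊ := by exact_mod_cast h2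
    have h4 := mul_le_mul_of_nonneg_right h3 hδ'.le
    rw [mul_assoc, ← e] at h4
    linarith
  · exact le_rfl

lemma fl_union (s t T : ℝ) (τ : Nz d) : ⋃ N, Bs τ (fl s t N T) = Bs τ T := by
  refine Set.Subset.antisymm (Set.iUnion_subset fun N j hj => lt_of_lt_of_le hj (fl_le s t N T).1)
    fun j hj => ?_
  have h1 : Tendsto (fun N : ℕ => |t - s| / 2 ^ N) atTop (𝓝 0) :=
    tendsto_const_nhds.div_atTop (tendsto_pow_atTop_atTop_of_one_lt one_lt_two)
  obtain ⟨N, hN⟩ := (h1.eventually (gt_mem_nhds (sub_pos.2 (show tim τ j < T from hj)))).exists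
  refine Set.mem_iUnion.2 ⟨N, ?_⟩
  change tim τ j < _
  linarith [(fl_le s t N T).2.1]

lemma fl_active {s t T : ℝ} {N j : ℕ} (hj : j < 2 ^ N) (hst : s ≤ t)
    (h1 : s + j * ((t - s) / 2 ^ N) ≤ T) (h2 : T < s + (j + 1) * ((t - s) / 2 ^ N)) :
    j = ⌊(T - s) / ((t - s) / 2 ^ N)⌋₊ ∧ s + j * ((t - s) / 2 ^ N) = fl s t N T := by
  have hδ : 0 < (t - s) / 2 ^ N := by linarith
  have e : ⌊(T - s) / ((t - s) / 2 ^ N)⌋₊ = j := by
    rw [Nat.floor_eq_iff (div_nonneg (by nlinarith [Nat.cast_nonneg (α := ℝ) j]) hδ.le),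
      le_div_iff₀ hδ, div_lt_iff₀ hδ]
    exact ⟨by linarith, by linarith⟩
  have h3 : (j + 1 : ℝ) ≤ 2 ^ N := by exact_mod_cast hj
  have h4 : (j + 1 : ℝ) * ((t - s) / 2 ^ N) ≤ t - s := by
    refine (mul_le_mul_of_nonneg_right h3 hδ.le).trans (le_of_eq ?_)
    field_simp
  refine ⟨e.symm, ?_⟩
  rw [fl, if_pos ⟨by nlinarith [Nat.cast_nonneg (α := ℝ) j], by linarith⟩, e]

variable (b : Base d θ μ) (hB : StmtB d θ μ) (hTl : StmtTl d θ μ) (hE : StmtE d θ μ)
include hE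

lemma meas_G (n : ℤ) (u : W d) {S : Nz d → ℝ} (hS : Measurable S) :
    Measurable fun ω : Om d => G θ n u (S ω.1) ω :=
  (((hE.meas_As _ (hE.meas_tim _) u).sub (hE.meas_As S hS u)).pow_const 2).add
    (((hE.meas_As _ (hE.meas_tim _) u).pow_const 2).mul
      (((hE.meas_ms _ (hE.meas_tim _) u).sub (hE.meas_ms S hS u)).pow_const 2))

lemma meas_flt (s t : ℝ) (N : ℕ) (j : I d) : Measurable fun τ : Nz d => fl s t N (tim τ j) :=
  (meas_fl s t N).comp (hE.meas_tim j)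

lemma As_sq (r : ℝ) (u : W d) (ω : Om d) : As θ r u ω ^ 2 ≤ 1 :=
  (sq_le_one_iff_abs_le_one _).2 (hE.As_le r u ω)

lemma G_abs (n : ℤ) (u : W d) (r : ℝ) (ω : Om d) : |G θ n u r ω| ≤ 8 := by
  rw [abs_of_nonneg (G_nonneg _ _ _ _)]
  linarith [G_le (θ := θ) n u r ω, As_sq hE r u ω, As_sq hE (tim ω.1 (u, n)) u ω]

lemma str_mem (τ : Nz d) (j : I d) : 0 ≤ str τ j ∧ str τ j ≤ 1 := by
  unfold str
  split_ifs
  · exact ⟨(hE.eps_pos _).1.le, (hE.eps_pos _).2.1⟩
  · exact ⟨le_rfl, zero_le_one⟩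

include b

lemma int_As (u : W d) {S : Nz d → ℝ} (hS : Measurable S) :
    Integrable (fun ω : Om d => As θ (S ω.1) u ω ^ 2) (PP μ) := by
  have := b.crit.hμ.1
  exact P161.ibdd ((hE.meas_As S hS u).pow_const 2) (C := 1) fun ω => by
    rw [abs_of_nonneg (sq_nonneg _)]; exact As_sq hE _ u ω

lemma int_G (n : ℤ) (u : W d) {S : Nz d → ℝ} (hS : Measurable S) :
    Integrable (fun ω : Om d => G θ n u (S ω.1) ω) (PP μ) := by
  have := b.crit.hμ.1
  exact P161.ibdd (meas_G hE n u hS) fun ω => G_abs hE n u _ ω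

lemma int_ite (n : ℤ) (u : W d) (s t : ℝ) : Integrable (fun ω : Om d =>
    if s ≤ tim ω.1 (u, n) ∧ tim ω.1 (u, n) < t then G θ n u s ω else 0) (PP μ) := by
  have := b.crit.hμ.1
  have mt : Measurable fun ω : Om d => tim ω.1 (u, n) := (hE.meas_tim _).comp measurable_fst
  refine P161.ibdd (Measurable.ite ((measurableSet_le measurable_const mt).inter
    (measurableSet_lt mt measurable_const)) (meas_G hE n u (S := fun _ => s) measurable_const)
    measurable_const) (C := 8) fun ω => ?_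
  split_ifs
  · exact G_abs hE n u _ ω
  · norm_num

include hTl

lemma As_tail (n : ℤ) (u : W d) {S : Nz d → ℝ} (hS : Measurable S)
    (h : ∀ τ, n ≤ S τ ∧ S τ ≤ n + 1) : ∫ ω, As θ (S ω.1) u ω ^ 2 ∂PP μ ≤
      ∫ τ, tlp θ (fun z => str τ (z, n - 1)) 1 (word u) ∂PU d := by
  have := b.crit.hμ.1
  have h1 := int_As b hE u hS
  unfold PP at h1 ⊢
  rw [integral_prod _ h1]
  have h2 := fun τ : Nz d => hTl.nonneg (fun z => str τ (z, n - 1)) 1 (word u)
    fun z => str_mem hE τ _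
  refine integral_mono_of_nonneg (ae_of_all _ fun τ => integral_nonneg fun _ => sq_nonneg _)
    (P161.ibdd (hTl.meas (n - 1) 1 (word u)) (C := 1) fun τ => by
      rw [abs_of_nonneg (h2 τ).1]; exact (h2 τ).2) (ae_of_all _ fun τ => ?_)
  refine hTl.tail _ (str τ) (Bs τ (S τ)) (n - 1) _ (hE.bnd n _ τ (h τ).2)
    (fun z => ⟨(str_mem hE τ _).1, ?_⟩) u
  by_cases hz : (τ (z, n - 1) : ℝ) < 1 / 2
  · rw [Set.indicator_of_mem]
    change ((n - 1 : ℤ) : ℝ) + τ (z, n - 1) < S τ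
    push_cast
    linarith [(h τ).1]
  · rw [show str τ (z, n - 1) = 0 from if_neg hz]
    exact Set.indicator_nonneg (fun j _ => (str_mem hE τ j).1) _

lemma G_tail (n : ℤ) (u : W d) {S : Nz d → ℝ} (hS : Measurable S)
    (h : ∀ τ, n ≤ S τ ∧ S τ ≤ n + 1) : ∫ ω, G θ n u (S ω.1) ω ∂PP μ ≤
      8 * ∫ τ, tlp θ (fun z => str τ (z, n - 1)) 1 (word u) ∂PU d := by
  have h1 := As_tail b hTl hE n u hS h
  have h2 := As_tail b hTl hE n u (hE.meas_tim (u, n)) fun τ => tim_mem τ u n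
  have i1 := int_As b hE u hS
  have i2 := int_As b hE u (hE.meas_tim (u, n))
  have h3 := integral_mono (int_G b hE n u hS) ((i2.const_mul 6).add (i1.const_mul 2))
    fun ω => G_le n u _ ω
  simp only [Pi.add_apply] at h3
  rw [integral_add (i2.const_mul 6) (i1.const_mul 2), integral_const_mul, integral_const_mul] at h3
  linarith

lemma err_le (n : ℤ) (s t : ℝ) (hs : n ≤ s) (u : W d) : err θ μ n s t u ≤
    8 * ∫ τ, tlp θ (fun z => str τ (z, n - 1)) 1 (word u) ∂PU d := by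
  refine le_trans ?_ (G_tail b hTl hE n u (S := fun _ => min s (n + 1)) measurable_const
    fun _ => ⟨le_min hs (by linarith), min_le_right _ _⟩)
  rw [err_eq]
  refine integral_mono (int_ite b hE n u s t)
    (int_G b hE n u (S := fun _ => min s (n + 1)) measurable_const) fun ω => ?_
  dsimp only
  split_ifs with h
  · rw [min_eq_left (h.1.trans (tim_mem _ u n).2)]
  · exact G_nonneg _ _ _ _

omit hTl in
lemma sum_le (n : ℤ) (s t : ℝ) (hst : s ≤ t) (u : W d) (N : ℕ) : ∑ j ∈ range (2 ^ N),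
    err θ μ n (s + j * ((t - s) / 2 ^ N)) (s + (j + 1) * ((t - s) / 2 ^ N)) u ≤
      ∫ ω, G θ n u (fl s t N (tim ω.1 (u, n))) ω ∂PP μ := by
  simp only [err_eq]
  rw [← integral_finsetSum _ fun j _ => int_ite b hE n u _ _]
  have i1 := int_G b hE n u (meas_flt hE s t N (u, n))
  refine integral_mono (integrable_finsetSum _ fun j _ => int_ite b hE n u _ _) i1 fun ω => ?_
  have h1 : ∀ j ∈ range (2 ^ N), (if s + j * ((t - s) / 2 ^ N) ≤ tim ω.1 (u, n) ∧
      tim ω.1 (u, n) < s + (j + 1) * ((t - s) / 2 ^ N) then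
        G θ n u (s + j * ((t - s) / 2 ^ N)) ω else 0) ≤
      if j = ⌊(tim ω.1 (u, n) - s) / ((t - s) / 2 ^ N)⌋₊ then
        G θ n u (fl s t N (tim ω.1 (u, n))) ω else 0 := by
    intro j hj
    split_ifs with h h'
    · rw [(fl_active (mem_range.1 hj) hst h.1 h.2).2]
    · exact absurd (fl_active (mem_range.1 hj) hst h.1 h.2).1 h'
    · exact G_nonneg _ _ _ _
    · exact le_rfl
  refine (sum_le_sum h1).trans ?_
  rw [sum_ite_eq']
  split_ifs
  · exact le_rfl
  · exact G_nonneg _ _ _ _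

omit hTl in
include hB in
lemma G_lim (n : ℤ) (s t : ℝ) (u : W d) :
    Tendsto (fun N => ∫ ω, G θ n u (fl s t N (tim ω.1 (u, n))) ω ∂PP μ) atTop (𝓝 0) := by
  have := b.crit.hμ.1
  have hm : ∀ N, Measurable fun ω : Om d => G θ n u (fl s t N (tim ω.1 (u, n))) ω :=
    fun N => by
      have := meas_G hE n u (meas_flt hE s t N (u, n))
      exact this
  have h := tendsto_integral_of_dominated_convergence (μ := PP μ) (f := fun _ => (0 : ℝ))
    (fun _ => 8) (fun N => (hm N).aestronglyMeasurable) (integrable_const _)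
    (fun N => ae_of_all _ fun ω => G_abs hE n u _ ω) ?_
  · simpa using h
  unfold PP
  refine (Measure.ae_prod_iff_ae_ae (measurableSet_tendsto _ hm)).2 (ae_of_all _ fun τ => ?_)
  filter_upwards [hB.levy _ (str τ) (Bs τ (tim τ (u, n))) (fun N => Bs τ (fl s t N (tim τ (u, n))))
    (hE.bnd n _ τ (tim_mem τ u n).2) (fun N N' h j hj => lt_of_lt_of_le hj (fl_mono s t _ h))
    (fl_union s t _ τ)] with ω hω
  have ct : Continuous tanh := by
    have : tanh = fun x => sinh x / cosh x := funext tanh_eq_sinh_div_cosh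
    rw [this]
    exact continuous_sinh.div continuous_cosh fun x => (cosh_pos x).ne'
  have h1 : Tendsto (fun N => As θ (fl s t N (tim τ (u, n))) u (τ, ω)) atTop
      (𝓝 (As θ (tim τ (u, n)) u (τ, ω))) := hω.2 u
  have h2 : Tendsto (fun N => ms θ (fl s t N (tim τ (u, n))) u (τ, ω)) atTop
      (𝓝 (ms θ (tim τ (u, n)) u (τ, ω))) := (ct.tendsto _).comp (hω.1 u none)
  have h3 := ((h1.const_sub (As θ (tim τ (u, n)) u (τ, ω))).pow 2).add
    (((h2.const_sub (ms θ (tim τ (u, n)) u (τ, ω))).pow 2).const_mul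
      (As θ (tim τ (u, n)) u (τ, ω) ^ 2))
  simpa [G] using h3

end S2

open S2 in
theorem stmtS2 {d : ℕ} {θ : ℝ} {μ : Measure (W d → Bool)} (b : Base d θ μ) (hB : StmtB d θ μ)
    (hTl : StmtTl d θ μ) (hE : StmtE d θ μ) : StmtS2 d θ μ := by
  have h0 : ∀ n s t u, 0 ≤ err θ μ n s t u := fun n s t u => by
    rw [err_eq]
    refine integral_nonneg fun ω => ?_
    dsimp only
    split_ifs
    · exact G_nonneg _ _ _ _
    · exact le_rfl
  have h1 : ∀ (n : ℤ) (s t : ℝ), n ≤ s → Summable (err θ μ n s t) := fun n s t hs =>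
    Summable.of_nonneg_of_le (h0 n s t) (err_le b hTl hE n s t hs) ((hTl.mean (n - 1)).mul_left 8)
  refine ⟨h0, h1, fun n s t hs hst => ?_⟩
  have h2 : ∀ N : ℕ, ∑ j ∈ range (2 ^ N),
      ∑' u, err θ μ n (s + j * ((t - s) / 2 ^ N)) (s + (j + 1) * ((t - s) / 2 ^ N)) u =
      ∑' u, ∑ j ∈ range (2 ^ N),
        err θ μ n (s + j * ((t - s) / 2 ^ N)) (s + (j + 1) * ((t - s) / 2 ^ N)) u := fun N =>
    (Summable.tsum_finsetSum fun j _ => h1 n _ _ (hs.trans (le_add_of_nonneg_right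
      (mul_nonneg (Nat.cast_nonneg j) (div_nonneg (sub_nonneg.2 hst) (by positivity)))))).symm
  simp only [h2]
  have h3 := tendsto_tsum_of_dominated_convergence (𝓕 := atTop) (g := fun _ : W d => (0 : ℝ))
    (f := fun (N : ℕ) u => ∑ j ∈ range (2 ^ N),
      err θ μ n (s + j * ((t - s) / 2 ^ N)) (s + (j + 1) * ((t - s) / 2 ^ N)) u)
    ((hTl.mean (n - 1)).mul_left 8) (fun u => squeeze_zero
      (fun N => sum_nonneg fun _ _ => h0 _ _ _ _) (sum_le b hE n s t hst u) (G_lim b hB hE n s t u))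
    (Eventually.of_forall fun N u => ?_)
  · simpa using h3
  rw [Real.norm_of_nonneg (sum_nonneg fun _ _ => h0 _ _ _ _)]
  have h4 := G_tail b hTl hE n u (meas_flt hE s t N (u, n)) fun τ =>
    ⟨(le_min hs (tim_mem τ u n).1).trans (fl_le s t N _).2.2,
      (fl_le s t N _).1.trans (tim_mem τ u n).2⟩
  exact (sum_le b hE n s t hst u N).trans h4

end Vale.Agent.P161E
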