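import Vale.Agent.P161E.J

namespace Vale.Agent.P161E

open MeasureTheory ProbabilityTheory Filter Topology Finset Real
open Vale.Agent.P161 (spin obs gain clip coin ibdd)
open scoped Classical

namespace TT

variable {d : ℕ} {θ : ℝ} {μ : Measure (W d → Bool)}

def Beh (z x : W d) (α : Option (Fin d)) : Prop :=
  ∀ c, some c ≠ α → ¬ Reach (step x c) (some c) z

lemma beh_self (z : W d) (α : Option (Fin d)) : Beh z z α := fun _ _ h =>
  reach_step.1 h (Reach.refl _ _)

lemma Beh.step {z x : W d} {α : Option (Fin d)} (h : Beh z x α) {c : Fin d} (hc : some c ≠ α) :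
    Beh z (step x c) (some c) := fun _ hc' hr => h c hc (Reach.step hc' hr)

lemma head_ne {a : Fin d} {p : List (Fin d)} (h : (a :: p).IsChain (· ≠ ·)) :
    ∀ c ∈ p.head?, some c ≠ some a := fun c hc e =>
  (List.isChain_cons.1 h).1 c hc (Option.some.inj e).symm

lemma Kp_congr {H H' : W d → Option (Fin d) → ℝ} {z : W d}
    (hH : ∀ x c, ¬ Reach x (some c) z → H x (some c) = H' x (some c)) (p : List (Fin d)) :
    ∀ x α, p.IsChain (· ≠ ·) → (∀ a ∈ p.head?, some a ≠ α) → Beh z x α →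
      Kp θ H x p = Kp θ H' x p := by
  induction p with
  | nil => exact fun _ _ _ _ _ => rfl
  | cons a p ih =>
    intro x α h1 h2 h3
    rw [Kp, Kp, hH _ _ (h3 a (h2 a rfl)), ih _ _ h1.tail (head_ne h1) (h3.step (h2 a rfl))]

lemma tlp_congr {e e' : W d → ℝ} {z : W d} (he : ∀ x, x ≠ z → e x = e' x) (p : List (Fin d)) :
    ∀ x α, p.IsChain (· ≠ ·) → (∀ a ∈ p.head?, some a ≠ α) → Beh z x α →
      tlp θ e x p = tlp θ e' x p := by
  induction p with
  | nil => exact fun _ _ _ _ _ => rfl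
  | cons a p ih =>
    intro x α h1 h2 h3
    rw [tlp, tlp, he _ fun h => h3 a (h2 a rfl) (h ▸ Reach.refl _ _),
      ih _ _ h1.tail (head_ne h1) (h3.step (h2 a rfl))]

lemma fac_bd (h0 : 0 < θ) (h1 : θ < 1) {e : ℝ} (he : 0 ≤ e ∧ e ≤ 1) :
    0 ≤ 1 - (1 - θ ^ 2) / 48 * e ^ 2 ∧ 1 - (1 - θ ^ 2) / 48 * e ^ 2 ≤ 1 := by
  have a : θ ^ 2 ≤ 1 := pow_le_one₀ h0.le h1.le
  have b : e ^ 2 ≤ 1 := pow_le_one₀ he.1 he.2
  have c : (1 - θ ^ 2) / 48 * e ^ 2 ≤ 1 :=
    mul_le_one₀ (by linarith [sq_nonneg θ]) (sq_nonneg _) b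
  have : 0 ≤ (1 - θ ^ 2) / 48 * e ^ 2 := mul_nonneg (by linarith) (sq_nonneg _)
  constructor <;> linarith

lemma tlp_bd (h0 : 0 < θ) (h1 : θ < 1) {e : W d → ℝ} (he : ∀ z, 0 ≤ e z ∧ e z ≤ 1)
    (p : List (Fin d)) : ∀ x, 0 ≤ tlp θ e x p ∧ tlp θ e x p ≤ 1 := by
  induction p with
  | nil => exact fun _ => ⟨zero_le_one, le_rfl⟩
  | cons a p ih =>
    intro x
    have f := fac_bd h0 h1 (he (step x a))
    exact ⟨mul_nonneg (mul_nonneg (sq_nonneg _) f.1) (ih _).1, mul_le_one₀
      (mul_le_one₀ (pow_le_one₀ h0.le h1.le) f.1 f.2) (ih _).1 (ih _).2⟩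

lemma artanh_spin (s : Bool) {x : ℝ} (hx : |x| < 1) : artanh (spin s * x) = spin s * artanh x := by
  cases s
  · have : -x = tanh (-artanh x) := by rw [tanh_neg, tanh_artanh (abs_lt.1 hx)]
    simp only [spin, Bool.false_eq_true, if_false, neg_mul, one_mul]
    rw [this, artanh_tanh]
  · simp [spin]

lemma meas_artanh : Measurable artanh := by
  unfold artanh
  fun_prop

lemma Kp_sq (b : Base d θ μ) (H : W d → Option (Fin d) → ℝ) (x : W d) (p : List (Fin d)) :
    |Kp θ H x p ^ 2| ≤ 1 := by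
  rw [abs_of_nonneg (sq_nonneg _)]
  exact pow_le_one₀ (b.A.Kp_pos H x p).le
    ((b.A.Kp_le H x p).trans (pow_le_one₀ b.crit.h0.le b.crit.h1.le))

lemma meas_Kp (b : Base d θ μ) (e : I d → ℝ) (B : Set (I d)) (x : W d) (p : List (Fin d)) :
    Measurable fun ω => Kp θ (HA θ e B (Yq e ω)) x p :=
  (b.F.meas_Acov (fun ω => HA θ e B (Yq e ω)) fun z α =>
    (b.F.meas_HA e B z α).comp (b.F.meas_Yq e)).1 x p

lemma one_step (b : Base d θ μ) (hB : StmtB d θ μ) {β : ℝ} {e : I d → ℝ} {B : Set (I d)}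
    (hb : Bnd β e B) {i : I d} (hi : i ∈ B) (a : Fin d) {p : List (Fin d)}
    (hp : p.IsChain (· ≠ ·)) :
    ∫ ω, kap θ (HA θ e B (Yq e ω) i.1 (some a)) ^ 2 * Kp θ (HA θ e B (Yq e ω)) i.1 p ^ 2 ∂P0 μ ≤
      (1 - (1 - θ ^ 2) / 48 * e i ^ 2) * ∫ ω, Kp θ (HA θ e B (Yq e ω)) i.1 p ^ 2 ∂P0 μ := by
  haveI := b.crit.hμ.1
  have h0 := b.crit.h0
  have h1 := b.crit.h1
  have hθ : 0 ≤ 1 - θ ^ 2 := by nlinarith
  have hi0 : i ∉ B \ {i} := fun h => h.2 rfl
  have e2 : ∀ (y : I d → ℝ) j, j ≠ i → yA e (B \ {i}) y j = yA e B y j := fun y j hj => by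
    simp only [yA, Set.indicator_apply, Set.mem_diff, Set.mem_singleton_iff, hj,
      not_false_eq_true, and_true]
  have e3 : ∀ (y : I d → ℝ) x c, ¬ Reach x (some c) i.1 →
      HA θ e B y x (some c) = HA θ e (B \ {i}) y x (some c) := fun y x c hx =>
    (b.F.HI_dep _ _ _ _ fun j hj => e2 y j fun h => hx (h ▸ hj)).symm
  have e4 : ∀ y, Kp θ (HA θ e B y) i.1 p = Kp θ (HA θ e (B \ {i}) y) i.1 p := fun y =>
    Kp_congr (e3 y) p _ none hp (fun _ _ => by simp) (beh_self _ _)
  set R : (I d → ℝ) → ℝ := fun y => bI y i.1 +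
    ∑ c ∈ dirs (some a), Gf θ (HI θ y (step i.1 c) (some c)) with hR
  have mR : Measurable R := (b.F.meas_bI _).add (Finset.measurable_sum _ fun c _ =>
    b.A.Gf_cont.measurable.comp (b.F.meas_HI _ _))
  have mY := b.F.meas_Yq e
  have my : Measurable fun ω => yA e (B \ {i}) (Yq e ω) := measurable_pi_lambda _ fun j =>
    measurable_const.mul ((measurable_pi_apply j).comp ((JJ.meas_ind _).comp mY))
  have yu : ∀ (ω : O0 d) u, yA e (B \ {i}) (Yq e (ω.1, Function.update ω.2 i u)) =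
      yA e (B \ {i}) (Yq e ω) := fun ω u => by
    funext j
    rw [yA, yA, JJ.ind_update hi0]
  set F : O0 d → ℝ := fun ω => (1 - (1 - θ ^ 2) * tanh (R (yA e (B \ {i}) (Yq e ω)) +
    spin (ω.1 i.1) * artanh (e i * obs (e i) (ω.2 i) / 2)) ^ 2) *
      Kp θ (HA θ e (B \ {i}) (Yq e ω)) i.1 p ^ 2 with hF
  have ms : Measurable fun ω : O0 d => spin (ω.1 i.1) :=
    (Measurable.of_discrete (f := spin)).comp ((measurable_pi_apply _).comp measurable_fst)
  have mo : Measurable fun u => artanh (e i * obs (e i) u / 2) := meas_artanh.comp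
    ((measurable_const.mul (P161.measurable_obs.comp measurable_prodMk_left)).div_const 2)
  have mK := (meas_Kp b e (B \ {i}) i.1 p).pow_const 2
  have mF : Measurable F := (measurable_const.sub (measurable_const.mul ((JJ.meas_tanh.comp
    ((mR.comp my).add (ms.mul (mo.comp ((measurable_pi_apply i).comp measurable_snd))))).pow_const
      2))).mul mK
  have tb : ∀ x, 0 ≤ 1 - (1 - θ ^ 2) * tanh x ^ 2 ∧ 1 - (1 - θ ^ 2) * tanh x ^ 2 ≤ 1 := fun x => by
    have := mul_nonneg hθ (sq_nonneg (tanh x))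
    have := mul_le_one₀ (show 1 - θ ^ 2 ≤ 1 by linarith [sq_nonneg θ]) (sq_nonneg (tanh x))
      (tanh_sq_lt_one x).le
    constructor <;> linarith
  have bF : ∀ ω, |F ω| ≤ 1 := fun ω => by
    rw [hF, abs_mul, abs_of_nonneg (tb _).1]
    exact mul_le_one₀ (tb _).2 (abs_nonneg _) (Kp_sq b _ _ _)
  have s1 : ∫ ω, kap θ (HA θ e B (Yq e ω) i.1 (some a)) ^ 2 *
      Kp θ (HA θ e B (Yq e ω)) i.1 p ^ 2 ∂P0 μ ≤ ∫ ω, F ω ∂P0 μ := by
    refine integral_mono_of_nonneg (ae_of_all _ fun ω => mul_nonneg (sq_nonneg _) (sq_nonneg _))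
      (ibdd mF bF) ?_
    filter_upwards [hB.recur β e B hb] with ω hr
    have hy := b.F.Yq_le e ω
    have k1 : HA θ e B (Yq e ω) i.1 (some a) = R (yA e (B \ {i}) (Yq e ω)) +
        spin (ω.1 i.1) * artanh (e i * obs (e i) (ω.2 i) / 2) := by
      have o1 : |e i * obs (e i) (ω.2 i) / 2| < 1 := by
        have : |e i * obs (e i) (ω.2 i)| ≤ 1 := by
          rw [abs_mul, abs_of_nonneg (hb.1 i).1]
          exact mul_le_one₀ (hb.1 i).2 (abs_nonneg _) (P161.obs_abs _ _)
        rw [abs_div, abs_two]; linarith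
      rw [hr, b.F.bI_add β _ _ i (b.F.adm β e _ _ hb hy)
        (by rw [yA, Set.indicator_of_notMem hi0, mul_zero]) (e2 _), if_pos rfl, ← artanh_spin _ o1,
        sum_congr rfl fun c _ => by rw [e3 _ _ c (beh_self i.1 none c (by simp))]]
      simp only [hR, HA, yA, Set.indicator_of_mem hi, Yq]
      rw [show e i * (spin (ω.1 i.1) * obs (e i) (ω.2 i)) / 2 =
        spin (ω.1 i.1) * (e i * obs (e i) (ω.2 i) / 2) by ring]
      ring
    simp only [hF]
    rw [e4, ← k1]
    refine mul_le_mul_of_nonneg_right (le_trans ?_ (b.A.kap_le _)) (sq_nonneg _)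
    rw [sq]
    exact mul_le_of_le_one_left (b.A.kap_pos _).le (b.A.kap_le_one _)
  refine s1.trans ?_
  simp only [e4]
  rw [JJ.upd0 i mF bF, ← integral_const_mul]
  refine integral_mono_of_nonneg (ae_of_all _ fun ω => integral_nonneg fun u =>
    mul_nonneg (tb _).1 (sq_nonneg _)) ((ibdd mK fun _ => Kp_sq b _ _ _).const_mul _)
    (ae_of_all _ fun ω => ?_)
  simp only [hF, HA, yu, Function.update_self]
  rw [integral_mul_const]
  refine mul_le_mul_of_nonneg_right ?_ (sq_nonneg _)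
  have it : Integrable fun u => tanh (R (yA e (B \ {i}) (Yq e ω)) +
      spin (ω.1 i.1) * artanh (e i * obs (e i) u / 2)) ^ 2 :=
    ibdd ((JJ.meas_tanh.comp (measurable_const.add (measurable_const.mul mo))).pow_const 2)
      (C := 1) fun u => by rw [abs_of_nonneg (sq_nonneg _)]; exact (tanh_sq_lt_one _).le
  rw [integral_sub (integrable_const _) (it.const_mul _), integral_const_mul]
  have := mul_le_mul_of_nonneg_left
    (b.C.anti (e i) (R (yA e (B \ {i}) (Yq e ω))) (ω.1 i.1) (hb.1 i).1 (hb.1 i).2) hθ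
  simp only [integral_const, probReal_univ, smul_eq_mul, mul_one]
  linarith

lemma tail_aux (b : Base d θ μ) (hB : StmtB d θ μ) {β : ℝ} {e : I d → ℝ} {B : Set (I d)}
    {n : ℤ} {e' : W d → ℝ} (hb : Bnd β e B)
    (he : ∀ z, 0 ≤ e' z ∧ e' z ≤ B.indicator e (z, n)) (p : List (Fin d)) :
    ∀ x, p.IsChain (· ≠ ·) →
      ∫ ω, Kp θ (HA θ e B (Yq e ω)) x p ^ 2 ∂P0 μ ≤ tlp θ e' x p := by
  haveI := b.crit.hμ.1
  have h0 := b.crit.h0
  have h1 := b.crit.h1
  induction p with
  | nil => intro x _; simp [Kp, tlp]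
  | cons a p ih =>
    intro x hp
    have ih' := ih (step x a) hp.tail
    have n0 : 0 ≤ ∫ ω, Kp θ (HA θ e B (Yq e ω)) (step x a) p ^ 2 ∂P0 μ :=
      integral_nonneg fun _ => sq_nonneg _
    simp only [Kp, tlp, mul_pow, mul_assoc]
    rw [integral_const_mul]
    refine mul_le_mul_of_nonneg_left ?_ (sq_nonneg _)
    by_cases hi : (step x a, n) ∈ B
    · have k := he (step x a)
      rw [Set.indicator_of_mem hi] at k
      refine (one_step b hB hb hi a hp.tail).trans (mul_le_mul ?_ ih' n0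
        (fac_bd h0 h1 ⟨k.1, k.2.trans (hb.1 _).2⟩).1)
      have := mul_le_mul_of_nonneg_left (pow_le_pow_left₀ k.1 k.2 2)
        (show 0 ≤ (1 - θ ^ 2) / 48 by nlinarith)
      linarith
    · have k := he (step x a)
      rw [Set.indicator_of_notMem hi] at k
      rw [le_antisymm k.2 k.1]
      simp only [ne_eq, OfNat.ofNat_ne_zero, not_false_eq_true, zero_pow, mul_zero, sub_zero,
        one_mul]
      refine le_trans (integral_mono_of_nonneg (ae_of_all _ fun ω =>
        mul_nonneg (sq_nonneg _) (sq_nonneg _)) (ibdd ((meas_Kp b e B _ p).pow_const 2)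
          fun _ => Kp_sq b _ _ _) (ae_of_all _ fun ω => ?_)) ih'
      exact mul_le_of_le_one_left (sq_nonneg _)
        (pow_le_one₀ (b.A.kap_pos _).le (b.A.kap_le_one _))

lemma eps_bd (n : ℤ) : 0 < eps n ∧ eps n ≤ 1 :=
  ⟨lt_min one_pos (zpow_pos two_pos n), min_le_left _ _⟩

lemma str_bd (τ : Nz d) (j : I d) : 0 ≤ str τ j ∧ str τ j ≤ 1 := by
  unfold str
  split_ifs
  · exact ⟨(eps_bd _).1.le, (eps_bd _).2⟩
  · exact ⟨le_rfl, zero_le_one⟩

lemma meas_str (j : I d) : Measurable fun τ : Nz d => str τ j :=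
  Measurable.ite (measurableSet_lt (by fun_prop) measurable_const) measurable_const
    measurable_const

lemma meas_tlp (n : ℤ) (p : List (Fin d)) :
    ∀ x, Measurable fun τ : Nz d => tlp θ (fun z => str τ (z, n)) x p := by
  induction p with
  | nil => exact fun _ => measurable_const
  | cons a p ih =>
    exact fun x => (measurable_const.mul (measurable_const.sub (measurable_const.mul
      ((meas_str _).pow_const 2)))).mul (ih _)

lemma int_half (c : ℝ) :
    ∫ u : unitInterval, (if (u : ℝ) < 1 / 2 then c else 0) ^ 2 = c ^ 2 / 2 := by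
  have e : (fun u : unitInterval => (if (u : ℝ) < 1 / 2 then c else 0) ^ 2) =
      (Set.Iio (⟨1 / 2, by norm_num, by norm_num⟩ : unitInterval)).indicator fun _ => c ^ 2 := by
    funext u
    simp only [Set.indicator_apply, Set.mem_Iio, ← Subtype.coe_lt_coe]
    split_ifs <;> simp
  rw [e, integral_indicator_const _ measurableSet_Iio, measureReal_def, unitInterval.volume_Iio,
    ENNReal.toReal_ofReal (by norm_num), smul_eq_mul]
  ring

lemma mean_aux (h0 : 0 < θ) (h1 : θ < 1) (n : ℤ) (p : List (Fin d)) :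
    ∀ x, p.IsChain (· ≠ ·) → ∫ τ, tlp θ (fun z => str τ (z, n)) x p ∂PU d =
      (θ ^ 2 * (1 - (1 - θ ^ 2) / 48 * (eps n ^ 2 / 2))) ^ p.length := by
  induction p with
  | nil => intro x _; simp [tlp]
  | cons a p ih =>
    intro x hp
    rw [JJ.updU (step x a, n) (meas_tlp n _ x) (C := 1) fun τ => abs_le.2
      ⟨by linarith [(tlp_bd h0 h1 (fun z => str_bd τ (z, n)) (a :: p) x).1],
        (tlp_bd h0 h1 (fun z => str_bd τ (z, n)) _ x).2⟩, List.length_cons, pow_succ',
      ← ih (step x a) hp.tail, ← integral_const_mul]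
    refine integral_congr_ae (ae_of_all _ fun τ => ?_)
    have e : ∀ u, tlp θ (fun z => str (Function.update τ (step x a, n) u) (z, n)) (step x a) p =
        tlp θ (fun z => str τ (z, n)) (step x a) p := fun u =>
      tlp_congr (z := step x a) (fun y hy => by
        simp only [str, Function.update_of_ne fun h : (y, n) = (step x a, n) =>
          hy (congrArg Prod.fst h)]) p _ none hp.tail (fun _ _ => by simp) (beh_self _ _)
    have it : Integrable fun u : unitInterval => (if (u : ℝ) < 1 / 2 then eps n else 0) ^ 2 :=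
      ibdd ((Measurable.ite (measurableSet_lt (by fun_prop) measurable_const) measurable_const
        measurable_const).pow_const 2) (C := eps n ^ 2) fun u => by
          split_ifs <;> simp [sq_nonneg]
    simp only [tlp, e]
    simp only [str, Function.update_self]
    rw [integral_mul_const, integral_const_mul,
      integral_sub (integrable_const _) (it.const_mul _), integral_const_mul, int_half]
    simp

lemma summ_geo (hd : 3 ≤ d) {q : ℝ} (h0 : 0 ≤ q) (h1 : (d - 1 : ℝ) * q < 1) :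
    Summable fun u : W d => q ^ len u := by
  have hd' : (3 : ℝ) ≤ d := by exact_mod_cast hd
  have hr : 0 ≤ (d - 1 : ℝ) * q := mul_nonneg (by linarith) h0
  have hs := (summable_geometric_of_lt_one hr h1).mul_left 2
  refine summable_of_sum_le (fun u => pow_nonneg h0 _)
    (c := ∑' k : ℕ, 2 * ((d - 1 : ℝ) * q) ^ k) fun s => ?_
  refine (sum_le_sum_of_subset_of_nonneg (t := ball (s.sup len))
    (fun u hu => mem_ball.2 (le_sup hu)) fun u _ _ => pow_nonneg h0 _).trans ?_
  rw [sum_ball]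
  refine le_trans (sum_le_sum fun k _ => ?_)
    (hs.sum_le_tsum _ fun k _ => mul_nonneg zero_le_two (pow_nonneg hr k))
  rw [sum_congr rfl fun p hp => by rw [len_walk (mem_PE.1 hp).1, (mem_PE.1 hp).2.1], sum_const,
    nsmul_eq_mul, mul_pow, ← mul_assoc]
  refine mul_le_mul_of_nonneg_right ?_ (pow_nonneg h0 k)
  cases k with
  | zero => simp [PE]
  | succ k =>
    rw [card_PE_none, Nat.cast_mul, Nat.cast_pow, Nat.cast_pred (by omega), pow_succ',
      ← mul_assoc]
    exact mul_le_mul_of_nonneg_right (by linarith) (pow_nonneg (by linarith) k)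

end TT

open TT in
theorem stmtTl {d : ℕ} {θ : ℝ} {μ : Measure (W d → Bool)} (b : Base d θ μ) (hB : StmtB d θ μ) :
    StmtTl d θ μ where
  tail := by
    intro β e B n e' hb he u
    haveI := b.crit.hμ.1
    refine le_trans (integral_mono_of_nonneg (ae_of_all _ fun ω => sq_nonneg _)
      (ibdd ((meas_Kp b e B 1 (word u)).pow_const 2) fun _ => Kp_sq b _ _ _)
      (ae_of_all _ fun ω => ?_)) (tail_aux b hB hb he _ 1 (word_chain u))
    exact pow_le_pow_left₀ (b.A.Acov_pos _ _ _).le (b.A.Acov_le _ _ _) 2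
  nonneg := fun _ x p he => tlp_bd b.crit.h0 b.crit.h1 he p x
  meas := fun n x p => meas_tlp n p x
  mean := fun n => by
    have h0 := b.crit.h0
    have h1 := b.crit.h1
    have e0 := eps_bd n
    have c0 : 0 < (1 - θ ^ 2) / 48 * (eps n ^ 2 / 2) :=
      mul_pos (by nlinarith) (by have := pow_pos e0.1 2; linarith)
    have c1 : (1 - θ ^ 2) / 48 * (eps n ^ 2 / 2) ≤ 1 :=
      mul_le_one₀ (by linarith [sq_nonneg θ]) (by positivity)
        (by linarith [pow_le_one₀ (n := 2) e0.1.le e0.2])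
    simp only [mean_aux h0 h1 n _ _ (word_chain _), length_word]
    refine summ_geo b.crit.hd (mul_nonneg (sq_nonneg _) (by linarith)) ?_
    rw [← mul_assoc, mul_comm _ (θ ^ 2), b.crit.hc]
    linarith

end Vale.Agent.P161E
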