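import Vale.Agent.P161E.A
import Vale.Agent.P161E.B
import Vale.Agent.P161E.B1
import Vale.Agent.P161E.C
import Vale.Agent.P161E.Conv
import Vale.Agent.P161E.Core
import Vale.Agent.P161E.D
import Vale.Agent.P161E.D1
import Vale.Agent.P161E.D2
import Vale.Agent.P161E.Da
import Vale.Agent.P161E.Fin
import Vale.Agent.P161E.G
import Vale.Agent.P161E.GB1
import Vale.Agent.P161E.Info
import Vale.Agent.P161E.Iso
import Vale.Agent.P161E.J
import Vale.Agent.P161E.Mc
import Vale.Agent.P161E.Mu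
import Vale.Agent.P161E.Mu1
import Vale.Agent.P161E.Mx
import Vale.Agent.P161E.N
import Vale.Agent.P161E.P
import Vale.Agent.P161E.Q
import Vale.Agent.P161E.R
import Vale.Agent.P161E.S1
import Vale.Agent.P161E.S2
import Vale.Agent.P161E.Tl

namespace Vale.Agent.P161E

open MeasureTheory
open Vale.Agent.P161

theorem base {d : ℕ} {θ : ℝ} {μ : Measure (W d → Bool)} (h : Crit d θ μ) : Base d θ μ :=
  ⟨h, stmtA h.h0 h.h1, stmtF (stmtA h.h0 h.h1) stmtC, stmtC,
    stmtN h.h0 h.h1 (stmtA h.h0 h.h1) stmtP, stmtP, stmtI h⟩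

theorem critical {d : ℕ} {θ : ℝ} {μ : Measure (W d → Bool)} (h : Crit d θ μ) :
    IsFactorOfIID (T d) μ := by
  have b := base h
  have hB := stmtB b (stmtB1 b)
  have hJ := stmtJ b hB
  have hTl := stmtTl b hB
  have hE := stmtE b hB
  have hR := stmtR b hB hE
  have hMx := stmtMx b hR
  have hDa := stmtDa b hE
  have hS2 := stmtS2 b hB hTl hE
  have hD := stmtD b hE hMx (stmtMc b hR hMx) (stmtMu b hE hR (stmtMu1 b hE hR)) hDa
    (stmtD1 b hE hDa (stmtGB b (stmtGA h.hd h.h0 h.hc) (stmtGB1 b))) (stmtD2 b hE hDa)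
  exact stmtFin b hJ hE (stmtInfo b hB hE)
    (core b hE hMx hD (stmtS1 b hB hTl (stmtQ b hB hJ) hE hS2) hS2 stmtG)

theorem threshold {V : Type} {G : SimpleGraph V} {d : ℕ} {θ θ' : ℝ} (hd : 3 ≤ d) (hT : G.IsTree)
    (hreg : ∀ v, (G.neighborSet v).ncard = d) (h0 : 0 < θ) (hc : θ ^ 2 * (d - 1) = 1)
    (h0' : 0 ≤ θ') (h1' : θ' < 1) {μ : Measure (V → Bool)} (hμ : IsFreeIsing G θ' μ) :
    IsFactorOfIID G μ ↔ θ' ≤ θ := by
  have hG : ∀ v, (G.neighborSet v).Finite := fun v =>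
    Set.finite_of_ncard_ne_zero (by rw [hreg]; omega)
  have h3 : (3 : ℝ) ≤ d := by exact_mod_cast hd
  have h1 : θ < 1 := by nlinarith
  refine ⟨fun h => ?_, fun h => ?_⟩
  · obtain ⟨g⟩ := Isom.exists_iso hT hreg (by omega)
    have hT' := g.isTree_iff.2 hT
    obtain ⟨ν, hν⟩ := exists_ising hT' h0.le h1
    have b := base ⟨hd, h0, h1, hc, hν⟩
    refine converse b (stmtGB1 b) hT' (Isom.ising_map hμ g) h0' h1' (Isom.factor_map g.symm ?_)
    rwa [ising_unique hT.connected hG (Isom.ising_map (Isom.ising_map hμ g) g.symm) hμ]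
  · rcases h.lt_or_eq with h | rfl
    · refine isFactor hT hG hreg hμ h0' h1' (lt_of_lt_of_eq ?_ hc)
      exact mul_lt_mul_of_pos_right (pow_lt_pow_left₀ h h0' two_ne_zero) (by linarith)
    · exact stmtIso V G d θ' hT hreg (by omega) (fun ν hν => critical ⟨hd, h0, h1, hc, hν⟩) μ hμ

end Vale.Agent.P161E
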