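import Vale.Agent.P161E.Mu1

namespace Vale.Agent.P161E

open MeasureTheory ProbabilityTheory Filter Topology Finset Real
open scoped Classical

namespace Mum

open D2m Mu1m

variable {d : ℕ} {θ : ℝ} {μ : Measure (W d → Bool)}

theorem ptw {u σ q x C₁ : ℝ} (hu : 0 ≤ u) (hσ : 0 < σ) (hq : 0 ≤ q) (hx : 0 ≤ x) (hx' : x ≤ C₁) :
    x * u ^ 2 ≤ 49 * σ ^ 2 * q ^ 2 * x +
      2 * σ ^ 2 * C₁ * exp (-(7 * q ^ 2)) * exp ((1 + q) / σ * u) := by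
  have hC : 0 ≤ C₁ := hx.trans hx'
  rcases le_total u (7 * σ * q) with h | h
  · have h1 := mul_le_mul_of_nonneg_left (pow_le_pow_left₀ hu h 2) hx
    have h2 : 0 ≤ 2 * σ ^ 2 * C₁ * exp (-(7 * q ^ 2)) * exp ((1 + q) / σ * u) := by positivity
    nlinarith
  · obtain ⟨v, rfl⟩ : ∃ v, u = σ * v := ⟨u / σ, by field_simp⟩
    have hv : 0 ≤ v := (mul_nonneg_iff_of_pos_left hσ).1 hu
    have h7 : 7 * q ≤ v := by nlinarith
    have e1 : (1 + q) / σ * (σ * v) = v + q * v := by field_simp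
    have h1 : v ^ 2 ≤ 2 * exp v := by
      have := quadratic_le_exp_of_nonneg hv
      linarith
    have h2 : exp v ≤ exp (-(7 * q ^ 2)) * exp (v + q * v) := by
      rw [← exp_add]
      exact exp_le_exp.2 (by nlinarith)
    rw [e1]
    have h3 : x * (σ * v) ^ 2 ≤ C₁ * (σ ^ 2 * (2 * (exp (-(7 * q ^ 2)) * exp (v + q * v)))) := by
      refine mul_le_mul hx' ?_ (sq_nonneg _) hC
      rw [mul_pow]
      exact mul_le_mul_of_nonneg_left (by linarith) (sq_nonneg _)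
    have h4 : 0 ≤ 49 * σ ^ 2 * q ^ 2 * x := by positivity
    nlinarith

theorem tail [IsProbabilityMeasure μ] {U χ : Om d → ℝ} {σ C₁ p : ℝ} (hU : MB μ U)
    (h0 : ∀ ω, 0 ≤ U ω) (hσ : 0 < σ)
    (hm : ∀ l, 0 ≤ l → ∫ ω, exp (l * U ω) ∂PP μ ≤ exp (σ * l + σ ^ 2 * l ^ 2))
    (hχ : Measurable χ) (hχ' : ∀ᵐ ω ∂PP μ, 0 ≤ χ ω ∧ χ ω ≤ C₁) (hp : 1 ≤ p) :
    ∫ ω, χ ω * U ω ^ 2 ∂PP μ ≤ 49 * σ ^ 2 * (p * ∫ ω, χ ω ∂PP μ + C₁ * exp (-p)) := by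
  have mχ : MB μ χ := ⟨hχ, C₁, hχ'.mono fun ω h => by rw [abs_of_nonneg h.1]; exact h.2⟩
  have hC : 0 ≤ C₁ := by
    obtain ⟨ω, h⟩ := hχ'.exists
    exact h.1.trans h.2
  obtain ⟨q, hq, rfl⟩ : ∃ q, 1 ≤ q ∧ p = q ^ 2 :=
    ⟨√p, one_le_sqrt.2 hp, (sq_sqrt (by linarith)).symm⟩
  have i1 := ((MB.const (49 * σ ^ 2 * q ^ 2)).mul mχ).int
  have i2 := ((MB.const (2 * σ ^ 2 * C₁ * exp (-(7 * q ^ 2)))).mul
    (mb_exp ((MB.const ((1 + q) / σ)).mul hU))).int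
  have h1 := integral_mono_ae (mχ.mul hU.sq).int (i1.add i2)
    (hχ'.mono fun ω h => ptw (h0 ω) hσ (by linarith) h.1 h.2)
  refine h1.trans ?_
  simp only [Pi.add_apply]
  rw [integral_add i1 i2, integral_const_mul, integral_const_mul]
  have h2 := hm ((1 + q) / σ) (by positivity)
  have e1 : σ * ((1 + q) / σ) + σ ^ 2 * ((1 + q) / σ) ^ 2 = (1 + q) + (1 + q) ^ 2 := by field_simp
  rw [e1] at h2
  have h3 : exp (-(7 * q ^ 2)) * exp ((1 + q) + (1 + q) ^ 2) ≤ exp (-q ^ 2) := by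
    rw [← exp_add]
    exact exp_le_exp.2 (by nlinarith)
  have h4 := (mul_le_mul_of_nonneg_left h2 (exp_pos (-(7 * q ^ 2))).le).trans h3
  have h5 := mul_le_mul_of_nonneg_left h4 (by positivity : 0 ≤ 2 * σ ^ 2 * C₁)
  have h6 : 0 ≤ σ ^ 2 * C₁ * exp (-q ^ 2) := by positivity
  nlinarith

theorem VK_sq (b : Base d θ μ) (s : ℝ) {r : ℝ} (hr : 0 ≤ r) (hr' : r * θ ^ 2 ≤ 1) (K : ℕ)
    (ω : Om d) : VK θ r (Hs θ s ω) K 1 none ^ 2 ≤
      2 + 2 * d * ∑ c, UK θ r s (K - 1) (gen c) c ω ^ 2 := by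
  have n0 : 0 ≤ ∑ c, UK θ r s (K - 1) (gen c) c ω ^ 2 := Finset.sum_nonneg fun _ _ => sq_nonneg _
  cases K with
  | zero =>
    have : 0 ≤ 2 * d * ∑ c, UK θ r s (0 - 1) (gen c) c ω ^ 2 := by positivity
    simp only [VK]
    linarith
  | succ K =>
    obtain ⟨C, hC⟩ := UK_bd b s hr K
    have h1 : VK θ r (Hs θ s ω) (K + 1) 1 none ≤ 1 + ∑ c, UK θ r s K (gen c) c ω := by
      rw [VK, dirs_none]
      exact add_le_add le_rfl (Finset.sum_le_sum fun c _ =>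
        mul_le_of_le_one_left (hC (gen c) c ω).1 hr')
    have h2 := pow_le_pow_left₀ (zero_le_one.trans (b.A.VK_ge _ _ _ _ _ hr)) h1 2
    have h3 := sq_sum_le_card_mul_sum_sq (s := (univ : Finset (Fin d)))
      (f := fun c => UK θ r s K (gen c) c ω)
    rw [card_univ, Fintype.card_fin] at h3
    rw [Nat.add_sub_cancel]
    nlinarith [sq_nonneg (1 - ∑ c, UK θ r s K (gen c) c ω)]

end Mum

open D2m Mu1m Mum in
theorem stmtMu {d : ℕ} {θ : ℝ} {μ : Measure (W d → Bool)} (b : Base d θ μ) (hE : StmtE d θ μ)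
    (hR : StmtR d θ μ) (h : StmtMu1 d θ μ) : StmtMu d θ μ := by
  have := b.crit.hμ.1
  obtain ⟨C, hC, hM⟩ := h
  refine ⟨2 + 98 * d ^ 2 * (C + 1) ^ 2, by positivity, fun s ρ hρ h K χ C₁ p hχ hχ' hp => ?_⟩
  have h0 := b.crit.h0
  have h1 := b.crit.h1
  have hc := b.crit.hc
  have hd : (3 : ℝ) ≤ d := by exact_mod_cast b.crit.hd
  have a : Fin d := ⟨0, by have := b.crit.hd; omega⟩
  have hθ : θ ^ 2 ≤ 1 / 2 := by nlinarith [sq_nonneg θ]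
  have hx : xx (PP μ) (hg θ s 1 (some a)) ≤ 1 := by
    have := integral_mono (mb_tanh (μ := μ) (hR.meas_hg s 1 (some a))).int (integrable_const 1)
      fun ω => (sq_le_one_iff_abs_le_one _).2 (abs_tanh_lt_one _).le
    simpa [xx] using this
  have hx0 : 0 ≤ xx (PP μ) (hg θ s 1 (some a)) := integral_nonneg fun _ => sq_nonneg _
  have hρ1 : ρ ≤ 1 / 2 := by
    have a1 : θ ^ 2 * xx (PP μ) (hg θ s 1 (some a)) ≤ 1 := by nlinarith
    have a2 : (1 - θ) / 2 * (θ ^ 2 * xx (PP μ) (hg θ s 1 (some a))) ≤ 1 / 2 := by nlinarith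
    have a3 : 0 ≤ (1 - θ) / 2 * (θ ^ 2 * xx (PP μ) (hg θ s 1 (some a))) :=
      mul_nonneg (by linarith) (by positivity)
    nlinarith [h a, sq_nonneg θ]
  have hr : 0 ≤ 1 + ρ / 2 := by positivity
  have hr' : (1 + ρ / 2) * θ ^ 2 ≤ 1 := by nlinarith [sq_nonneg θ]
  have mχ : MB μ χ := ⟨hχ, C₁, hχ'.mono fun ω h => by rw [abs_of_nonneg h.1]; exact h.2⟩
  have hC₁ : 0 ≤ C₁ := by
    obtain ⟨ω, h⟩ := hχ'.exists
    exact h.1.trans h.2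
  have n0 : 0 ≤ ∫ ω, χ ω ∂PP μ := integral_nonneg_of_ae (hχ'.mono fun ω h => h.1)
  obtain ⟨B, hB⟩ := UK_bd b s hr (K - 1)
  have mU := fun c => mb_UK b hR s hr (K - 1) (gen c) c
  have ht : ∀ c, ∫ ω, χ ω * UK θ (1 + ρ / 2) s (K - 1) (gen c) c ω ^ 2 ∂PP μ ≤
      49 * ((C + 1) / ρ) ^ 2 * (p * ∫ ω, χ ω ∂PP μ + C₁ * exp (-p)) := by
    intro c
    refine tail (mU c) (fun ω => (hB _ _ _).1) (by positivity) (fun l hl => ?_) hχ hχ' hp
    simp only [hR.UK_sh]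
    rw [int_sh b (mb_exp ((MB.const l).mul (mb_UK b hR s hr (K - 1) 1 c))).1]
    refine (hM s ρ hρ h _ c l hl).trans (exp_le_exp.2 (add_le_add ?_ ?_))
    · gcongr; linarith
    · rw [div_pow]; gcongr; nlinarith
  have i1 := ((MB.const 2).mul mχ).int
  have i2 := ((MB.const (2 * d)).mul (MB.sum univ fun c _ => mχ.mul (mU c).sq)).int
  have h2 : ∫ ω, χ ω * VK θ (1 + ρ / 2) (Hs θ s ω) K 1 none ^ 2 ∂PP μ ≤
      ∫ ω, (2 * χ ω + 2 * d * ∑ c, χ ω * UK θ (1 + ρ / 2) s (K - 1) (gen c) c ω ^ 2) ∂PP μ := by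
    refine integral_mono_ae (mχ.mul (mb_VK b hE s hr K).sq).int (i1.add i2) ?_
    filter_upwards [hχ'] with ω hω
    refine (mul_le_mul_of_nonneg_left (VK_sq b s hr hr' K ω) hω.1).trans (le_of_eq ?_)
    rw [← Finset.mul_sum]; ring
  rw [integral_add i1 i2, integral_const_mul, integral_const_mul,
    integral_finsetSum _ fun c _ => (mχ.mul (mU c).sq).int] at h2
  refine h2.trans ?_
  have h3 := Finset.sum_le_card_nsmul univ _ _ fun c _ => ht c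
  rw [card_univ, Fintype.card_fin, nsmul_eq_mul] at h3
  have h4 := mul_le_mul_of_nonneg_left h3 (by positivity : (0 : ℝ) ≤ 2 * d)
  have h5 : ∫ ω, χ ω ∂PP μ ≤ p * ∫ ω, χ ω ∂PP μ + C₁ * exp (-p) := by
    have : 0 ≤ C₁ * exp (-p) := by positivity
    nlinarith
  generalize p * ∫ ω, χ ω ∂PP μ + C₁ * exp (-p) = X at h4 h5 ⊢
  have h6 : 1 ≤ 1 / ρ ^ 2 := by
    rw [le_div_iff₀ (by positivity)]; nlinarith
  have h7 := mul_le_mul_of_nonneg_left h6 (n0.trans h5)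
  have e : (2 + 98 * d ^ 2 * (C + 1) ^ 2) / ρ ^ 2 * X =
      2 * (X * (1 / ρ ^ 2)) + 2 * d * (d * (49 * ((C + 1) / ρ) ^ 2 * X)) := by
    field_simp; ring
  rw [e]
  linarith

end Vale.Agent.P161E
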