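import Vale.Agent.P161E.Defs

namespace Vale.Agent.P161E

open MeasureTheory ProbabilityTheory Filter Topology Finset Real
open Vale.Agent.P161 (spin obs gain clip coin IsFreeIsing IsFactorOfIID)
open scoped Classical InnerProductSpace

/-- A: algebra of deterministic field systems (for `0 < θ < 1`). -/
structure StmtA (d : ℕ) (θ : ℝ) : Prop where
  tanh_Gf : ∀ h, tanh (Gf θ h) = θ * tanh h
  Gf_neg : ∀ h, Gf θ (-h) = -Gf θ h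
  Gf_le : ∀ h, |Gf θ h| ≤ θ * |h|
  Gf_le' : ∀ h, |Gf θ h| ≤ artanh θ
  Gf_cont : Continuous (Gf θ)
  kap_pos : ∀ h, 0 < kap θ h
  kap_le : ∀ h, kap θ h ≤ 1 - (1 - θ ^ 2) * tanh h ^ 2
  kap_le_one : ∀ h, kap θ h ≤ 1
  kap_neg : ∀ h, kap θ (-h) = kap θ h
  kap_cont : Continuous (kap θ)
  Kp_pos : ∀ (H : W d → Option (Fin d) → ℝ) x p, 0 < Kp θ H x p
  Kp_le : ∀ (H : W d → Option (Fin d) → ℝ) x p, Kp θ H x p ≤ θ ^ p.length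
  Kp_append : ∀ (H : W d → Option (Fin d) → ℝ) x p q,
    Kp θ H x (p ++ q) = Kp θ H x p * Kp θ H (walk x p) q
  Acov_pos : ∀ (H : W d → Option (Fin d) → ℝ) x p, 0 < Acov θ H x p
  Acov_le : ∀ (H : W d → Option (Fin d) → ℝ) x p, Acov θ H x p ≤ Kp θ H x p
  Kp_shift : ∀ (H : W d → Option (Fin d) → ℝ) y x p,
    Kp θ (fun z => H (y * z)) x p = Kp θ H (y * x) p
  VK_shift : ∀ r (H : W d → Option (Fin d) → ℝ) y K x α,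
    VK θ r (fun z => H (y * z)) K x α = VK θ r H K (y * x) α
  symm : ∀ (b : W d → ℝ) H, Rec θ b H → ∀ x p, Acov θ H x p = Acov θ H (walk x p) p.reverse
  jump : ∀ (b b' : W d → ℝ) H H' u t, Rec θ b H → Rec θ b' H' → |t| < 1 →
    (∀ z, b' z = b z + if z = u then artanh t else 0) →
    (∀ x a, ¬ Reach x (some a) u → H' x (some a) = H x (some a)) →
    tanh (H' 1 none) = tanh (H 1 none) +
      Acov θ H 1 (word u) * (t / (1 + tanh (H u none) * t))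
  lip : ∃ (Ψ : ℝ × ℝ → ℝ) (C : NNReal), LipschitzWith C Ψ ∧ ∀ (b : W d → ℝ) H, Rec θ b H →
    ∀ x a, tanh (H x (some a)) = Ψ (tanh (H x none), tanh (H (step x a) none))
  loglip : ∀ θ' M n n' : ℝ, 0 ≤ θ' → θ' < 1 → |n| ≤ tanh M → |n'| ≤ tanh M →
    |log ((1 - n ^ 2) / (1 - θ' ^ 2 * n ^ 2)) - log ((1 - n' ^ 2) / (1 - θ' ^ 2 * n' ^ 2))| ≤
      cosh M ^ 2 * |n ^ 2 - n' ^ 2|
  VK_eq : ∀ r (H : W d → Option (Fin d) → ℝ) K x α, VK θ r H K x α =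
    ∑ k ∈ range (K + 1), ∑ p ∈ PE α k, r ^ k * Kp θ H x p ^ 2
  VK_ge : ∀ r (H : W d → Option (Fin d) → ℝ) K x α, 0 ≤ r → 1 ≤ VK θ r H K x α
  VK_bdd : ∀ r K, 0 ≤ r → ∃ C, ∀ (H : W d → Option (Fin d) → ℝ) x α, VK θ r H K x α ≤ C
  transport : ∀ (F : List (Fin d) → List (Fin d) → ℝ) K, (∀ p q, 0 ≤ F p q) →
    ∑ k ∈ range (K + 1), ∑ p ∈ PE none k, ∑ j ∈ range (k + 1), F (p.take j).reverse (p.drop j) ≤
      ∑ k ∈ range (K + 1), ∑ p ∈ PE none k, ∑ k' ∈ range (K + 1), ∑ q ∈ PE none k', F p q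

/-- F: the fields of an array (for `0 < θ < 1`). -/
structure StmtF (d : ℕ) (θ : ℝ) : Prop where
  meas_hR : ∀ R z α, Measurable fun y : I d → ℝ => hR θ y R z α
  meas_HI : ∀ z α, Measurable fun y : I d → ℝ => HI θ y z α
  meas_bI : ∀ z, Measurable fun y : I d → ℝ => bI y z
  hR_spin : ∀ (s : Bool) (y : I d → ℝ) R z α,
    hR θ (fun j => spin s * y j) R z α = spin s * hR θ y R z α
  HI_spin : ∀ (s : Bool) (y : I d → ℝ) z α, HI θ (fun j => spin s * y j) z α = spin s * HI θ y z α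
  bI_spin : ∀ (s : Bool) (y : I d → ℝ) z, bI (fun j => spin s * y j) z = spin s * bI y z
  hR_dep : ∀ (y y' : I d → ℝ) R z α, (∀ j ∈ Vis R z α, y j = y' j) → hR θ y R z α = hR θ y' R z α
  vis_mono : ∀ (z : W d) α, Monotone fun R => Vis R z α
  vis_union : ∀ (z : W d) α, (⋃ R, Vis R z α) = {j | Reach z α j.1}
  HI_dep : ∀ (y y' : I d → ℝ) z α, (∀ j, Reach z α j.1 → y j = y' j) → HI θ y z α = HI θ y' z α
  bI_dep : ∀ (y y' : I d → ℝ) z, (∀ n, y (z, n) = y' (z, n)) → bI y z = bI y' z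
  HI_single : ∀ (y : I d → ℝ) β z α, AdmY β y → (∀ j, j.1 ≠ z → y j = 0) → HI θ y z α = bI y z
  hR_le : ∀ β (y : I d → ℝ), AdmY β y → ∀ R z α, |hR θ y R z α| ≤ β + d * artanh θ
  HI_le : ∀ β (y : I d → ℝ), AdmY β y → ∀ z α, |HI θ y z α| ≤ β + d * artanh θ
  bI_le : ∀ β (y : I d → ℝ), AdmY β y → ∀ z, |bI y z| ≤ β
  tendsto_HI : ∀ (y : I d → ℝ), Conv θ y → ∀ z α,
    Tendsto (fun R => hR θ y R z α) atTop (𝓝 (HI θ y z α))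
  recur : ∀ β (y : I d → ℝ), AdmY β y → Conv θ y → Rec θ (bI y) (HI θ y)
  bI_add : ∀ β (y y' : I d → ℝ) i, AdmY β y' → y i = 0 → (∀ j, j ≠ i → y j = y' j) →
    ∀ z, bI y' z = bI y z + if z = i.1 then artanh (y' i / 2) else 0
  hR_lm : ∀ (y : I d → ℝ) x R z α, hR θ (fun j => y (exI (lm x) j)) R z α = hR θ y R (x * z) α
  HI_lm : ∀ (y : I d → ℝ) x z α, HI θ (fun j => y (exI (lm x) j)) z α = HI θ y (x * z) α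
  HI_aut : ∀ (y : I d → ℝ) γ z, HI θ (fun j => y (exI γ j)) z none = HI θ y (γ z) none
  bI_aut : ∀ (y : I d → ℝ) γ z, bI (fun j => y (exI γ j)) z = bI y (γ z)
  Yq_le : ∀ (e : I d → ℝ) ω j, |Yq e ω j| ≤ 1
  meas_Yq : ∀ (e : I d → ℝ), Measurable (Yq e)
  adm : ∀ β (e : I d → ℝ) B a, Bnd β e B → (∀ j, |a j| ≤ 1) → AdmY β (yA e B a)
  bnd_mono : ∀ β (e : I d → ℝ) B B', Bnd β e B → B' ⊆ B → Bnd β e B'
  HA_mask : ∀ (e : I d → ℝ) B B' a, B ⊆ B' → HA θ e B (B'.indicator a) = HA θ e B a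
  meas_HA : ∀ (e : I d → ℝ) B z α, Measurable fun a => HA θ e B a z α
  meas_Acov : ∀ {Ω : Type} [MeasurableSpace Ω] (H : Ω → W d → Option (Fin d) → ℝ),
    (∀ z α, Measurable fun ω => H ω z α) → (∀ x p, Measurable fun ω => Kp θ (H ω) x p) ∧
      (∀ x p, Measurable fun ω => Acov θ (H ω) x p) ∧
      ∀ r K x α, Measurable fun ω => VK θ r (H ω) K x α
  meas_inn : ∀ (e : I d → ℝ) B j, Measurable fun a => inn θ e B a j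

/-- C: the one-site channel. -/
structure StmtC : Prop where
  law : ∀ m (F : ℝ → ℝ), |m| ≤ 1 → Measurable F → Bdd F →
    ∫ u, F (obs m u) = ∫ y in (-1 : ℝ)..1, F y * ((1 + m * y / 2) / 2)
  cdf_obs : ∀ m u, |m| ≤ 1 → cdf m (obs m u) = u
  obs_cdf : ∀ m y, |m| ≤ 1 → |y| ≤ 1 → obs m (cdf m y) = y
  meas_cdf : Measurable fun p : ℝ × ℝ => cdf p.1 p.2
  meas_gain : Measurable fun p : ℝ × unitInterval => gain p.1 p.2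
  gain_mean : ∀ m, |m| ≤ 1 → ∫ u, gain m u = 0
  anti : ∀ e a (s : Bool), 0 ≤ e → e ≤ 1 →
    e ^ 2 / 48 ≤ ∫ u, tanh (a + spin s * artanh (e * obs e u / 2)) ^ 2
  nish : ∀ e (F : ℝ → ℝ), 0 ≤ e → e ≤ 1 → Measurable F → Bdd F →
    ∫ u, F (-obs e u) = ∫ u, F (obs e u) * exp (-2 * artanh (e * obs e u / 2))
  mean : ∫ u, obs 1 u = 1 / 6
  mix : ∀ e m (F : ℝ → ℝ), 0 ≤ e → e ≤ 1 → |m| ≤ 1 → Measurable F → Bdd F →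
    (1 + m) / 2 * (∫ u, F (obs e u)) + (1 - m) / 2 * (∫ u, F (-obs e u)) =
      ∫ u, F (obs (e * m) u)
  artanh_le : ∀ y : ℝ, |y| ≤ 1 → |artanh (y / 2)| ≤ |y|

/-- N: symmetric channels (for `0 < θ < 1`). -/
structure StmtN (θ : ℝ) : Prop where
  zero : ∀ {Ω ι : Type} [MeasurableSpace Ω] (P : Measure Ω) [IsProbabilityMeasure P],
    Nish P (fun _ (_ : ι) => 0) fun _ => 0
  add : ∀ {Ω ι : Type} [MeasurableSpace Ω] (P : Measure Ω) [IsProbabilityMeasure P]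
    (Z Z' : Ω → ι → ℝ) (X X' : Ω → ℝ), Nish P Z X → Nish P Z' X' →
    IndepFun (fun ω => (Z ω, X ω)) (fun ω => (Z' ω, X' ω)) P →
    Nish P (fun ω => Z ω + Z' ω) fun ω => X ω + X' ω
  flip : ∀ {Ω ι : Type} [MeasurableSpace Ω] (P : Measure Ω) [IsProbabilityMeasure P]
    (Z : Ω → ι → ℝ) (X : Ω → ℝ) (ξ : Ω → Bool), Nish P Z X → Measurable ξ → P.map ξ = coin θ →
    IndepFun ξ (fun ω => (Z ω, X ω)) P →
    Nish P (fun ω j => spin (ξ ω) * Z ω j) fun ω => spin (ξ ω) * Gf θ (X ω)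
  bayes : ∀ {Ω ι : Type} [MeasurableSpace Ω] (P : Measure Ω) [IsProbabilityMeasure P]
    (Z : Ω → ι → ℝ) (X : Ω → ℝ) (s : Ω → Bool), Nish P Z X → Measurable s → P.map s = coin 0 →
    IndepFun s (fun ω => (Z ω, X ω)) P → ∀ F : (ι → ℝ) → ℝ, Measurable F → Bdd F →
    ∫ ω, spin (s ω) * F (fun j => spin (s ω) * Z ω j) ∂P =
      ∫ ω, tanh (spin (s ω) * X ω) * F (fun j => spin (s ω) * Z ω j) ∂P
  conv : ∀ {Ω : Type} [MeasurableSpace Ω] (P : Measure Ω) [IsProbabilityMeasure P]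
    (X : Ω → ℝ) (s : Ω → Bool), Measurable X → Bdd X → Measurable s → P.map s = coin 0 →
    IndepFun s X P → (∀ F : ℝ → ℝ, Measurable F → Bdd F →
      ∫ ω, spin (s ω) * F (spin (s ω) * X ω) ∂P =
        ∫ ω, tanh (spin (s ω) * X ω) * F (spin (s ω) * X ω) ∂P) → Nish0 P X
  congr0 : ∀ {Ω : Type} [MeasurableSpace Ω] (P : Measure Ω) (X X' : Ω → ℝ), Nish0 P X →
    Measurable X' → Bdd X' → X =ᵐ[P] X' → Nish0 P X'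
  add0 : ∀ {Ω : Type} [MeasurableSpace Ω] (P : Measure Ω) [IsProbabilityMeasure P]
    (X X' : Ω → ℝ), Nish0 P X → Nish0 P X' → IndepFun X X' P → Nish0 P fun ω => X ω + X' ω
  flip0 : ∀ {Ω : Type} [MeasurableSpace Ω] (P : Measure Ω) [IsProbabilityMeasure P]
    (X : Ω → ℝ) (ξ : Ω → Bool), Nish0 P X → Measurable ξ → P.map ξ = coin θ →
    IndepFun ξ X P → Nish0 P fun ω => spin (ξ ω) * Gf θ (X ω)
  xx_add : ∀ {Ω : Type} [MeasurableSpace Ω] (P : Measure Ω) [IsProbabilityMeasure P]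
    (X X' : Ω → ℝ), Nish0 P X → Nish0 P X' → IndepFun X X' P →
    (1 - xx P X) * (1 - xx P X') ≤ 1 - xx P (fun ω => X ω + X' ω) ∧
    1 - 2 * xx P (fun ω => X ω + X' ω) ≤ (1 - 2 * xx P X) * (1 - 2 * xx P X') ∧
    xx P X ≤ xx P fun ω => X ω + X' ω
  cosh_le : ∀ {Ω : Type} [MeasurableSpace Ω] (P : Measure Ω) [IsProbabilityMeasure P]
    (X : Ω → ℝ) (t : ℝ), Nish0 P X → 0 ≤ t →
    ∫ ω, cosh (t * X ω) ∂P ≤ ∫ ω, exp (t * X ω) ∂P ∧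
      ∫ ω, exp (t * X ω) ∂P ≤ ∫ ω, cosh ((t + 1) * X ω) ∂P
  anti : ∀ {Ω : Type} [MeasurableSpace Ω] (P : Measure Ω) [IsProbabilityMeasure P]
    (X : Ω → ℝ) (a : ℝ), Nish0 P X → (∀ ω, |tanh (X ω)| ≤ θ) →
    (1 - θ) / 2 * xx P X ≤ ∫ ω, tanh (a + X ω) ^ 2 ∂P

/-- P: general facts on conditional expectations of bounded functions. -/
structure StmtP : Prop where
  proj : ∀ {Ω : Type} (m : MeasurableSpace Ω) [m0 : MeasurableSpace Ω] (P : Measure Ω)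
    [IsProbabilityMeasure P] (f Y : Ω → ℝ) (C : ℝ), m ≤ m0 → Measurable f → (∀ᵐ ω ∂P, |f ω| ≤ C) →
    Measurable[m] Y → (∀ᵐ ω ∂P, |Y ω| ≤ C) →
    ∫ ω, (f ω - (P[f | m]) ω) ^ 2 ∂P ≤ ∫ ω, (f ω - Y ω) ^ 2 ∂P
  dual : ∀ {Ω : Type} (m : MeasurableSpace Ω) [m0 : MeasurableSpace Ω] (P : Measure Ω)
    [IsProbabilityMeasure P] (f g : Ω → ℝ) (C : ℝ), m ≤ m0 → Measurable f → Measurable g →
    (∀ᵐ ω ∂P, |f ω| ≤ C) → (∀ᵐ ω ∂P, |g ω| ≤ C) →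
    ∫ ω, f ω * (P[g | m]) ω ∂P = ∫ ω, (P[f | m]) ω * g ω ∂P
  between : ∀ {Ω : Type} (m : MeasurableSpace Ω) [m0 : MeasurableSpace Ω] (P : Measure Ω)
    [IsProbabilityMeasure P] (f : Ω → ℝ) (a b : ℝ), m ≤ m0 → Measurable f →
    (∀ᵐ ω ∂P, a ≤ f ω ∧ f ω ≤ b) → ∀ᵐ ω ∂P, a ≤ (P[f | m]) ω ∧ (P[f | m]) ω ≤ b
  jensen : ∀ {Ω : Type} (m : MeasurableSpace Ω) [m0 : MeasurableSpace Ω] (P : Measure Ω)
    [IsProbabilityMeasure P] (f : Ω → ℝ) (C : ℝ) (φ : ℝ → ℝ), m ≤ m0 → Measurable f →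
    (∀ᵐ ω ∂P, |f ω| ≤ C) → ConvexOn ℝ Set.univ φ → Continuous φ →
    ∀ᵐ ω ∂P, φ ((P[f | m]) ω) ≤ (P[fun ω => φ (f ω) | m]) ω
  comp : ∀ {Ω E : Type} [m0 : MeasurableSpace Ω] [MeasurableSpace E] (P : Measure Ω)
    [IsProbabilityMeasure P] (Z : Ω → E) (S S' : Ω → Ω) (g g' : E → E) (f : Ω → ℝ),
    Measurable Z → MeasurePreserving S P P → MeasurePreserving S' P P →
    (∀ ω, S (S' ω) = ω) → (∀ ω, S' (S ω) = ω) → Measurable g → Measurable g' →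
    (∀ ω, Z (S ω) = g (Z ω)) → (∀ ω, Z (S' ω) = g' (Z ω)) → Integrable f P →
    P[fun ω => f (S ω) | MeasurableSpace.comap Z inferInstance] =ᵐ[P]
      fun ω => (P[f | MeasurableSpace.comap Z inferInstance]) (S ω)
  char : ∀ {Ω E : Type} [m0 : MeasurableSpace Ω] [MeasurableSpace E] (P : Measure Ω)
    [IsProbabilityMeasure P] (Z : Ω → E) (f : Ω → ℝ) (g : E → ℝ), Measurable Z → Measurable f →
    Bdd f → Measurable g → Bdd g → (∀ F : E → ℝ, Measurable F → Bdd F →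
      ∫ ω, f ω * F (Z ω) ∂P = ∫ ω, g (Z ω) * F (Z ω) ∂P) →
    (fun ω => g (Z ω)) =ᵐ[P] P[f | MeasurableSpace.comap Z inferInstance]
  levy : ∀ {Ω ι X : Type} [m0 : MeasurableSpace Ω] [Countable ι] [MeasurableSpace X] [Zero X]
    (P : Measure Ω) [IsProbabilityMeasure P] (Y : Ω → ι → X) (Bk : ℕ → Set ι) (f : Ω → ℝ),
    Measurable Y → Monotone Bk → Integrable f P → ∀ᵐ ω ∂P, Tendsto (fun k =>
      (P[f | MeasurableSpace.comap (fun ω => (Bk k).indicator (Y ω)) inferInstance]) ω) atTop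
      (𝓝 ((P[f | MeasurableSpace.comap (fun ω => (⋃ k, Bk k).indicator (Y ω)) inferInstance]) ω))
  update : ∀ {ι : Type} (i : ι) (F : (ι → unitInterval) → ℝ), Measurable F → Bdd F →
    ∫ g, F g ∂(Measure.infinitePi fun _ : ι => (volume : Measure unitInterval)) =
      ∫ g, ∫ u, F (Function.update g i u) ∂volume
        ∂(Measure.infinitePi fun _ : ι => (volume : Measure unitInterval))
  iindep : ∀ {Ω ι E : Type} [MeasurableSpace Ω] [Fintype ι] [MeasurableSpace E] (P : Measure Ω)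
    [IsProbabilityMeasure P] (X : ι → Ω → E), (∀ i, Measurable (X i)) →
    (∀ i, IndepFun (X i) (fun ω (j : {j // j ≠ i}) => X j ω) P) → iIndepFun X P
  fubini : ∀ {Ω E E' : Type} [MeasurableSpace Ω] [MeasurableSpace E] [MeasurableSpace E']
    (P : Measure Ω) [IsProbabilityMeasure P] (X : Ω → E) (Y : Ω → E') (F : E × E' → ℝ),
    Measurable X → Measurable Y → IndepFun X Y P → Measurable F → Bdd F →
    ∫ ω, F (X ω, Y ω) ∂P = ∫ ω', ∫ ω, F (X ω, Y ω') ∂P ∂P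

/-- I: independence in gauge coordinates and invariance. -/
structure StmtI (d : ℕ) (θ : ℝ) (μ : Measure (W d → Bool)) : Prop where
  indep : ∀ {α β : Type} [MeasurableSpace α] [MeasurableSpace β] (S S' : Set (W d))
    (R R' : Set (I d)) (f : Om d → α) (g : Om d → β), Disjoint S S' → Disjoint R R' →
    Measurable f → Measurable g → DepOn S R f → DepOn S' R' g → IndepFun f g (PP μ)
  indep0 : ∀ {α β : Type} [MeasurableSpace α] [MeasurableSpace β] (S S' : Set (W d))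
    (R R' : Set (I d)) (f : O0 d → α) (g : O0 d → β), Disjoint S S' → Disjoint R R' →
    Measurable f → Measurable g → DepOn0 S R f → DepOn0 S' R' g → IndepFun f g (P0 μ)
  meas_Xi : Measurable (Xi : (W d → Bool) → W d → Bool)
  law_spin : ∀ v, μ.map (fun σ => σ v) = coin 0
  law_Xi : ∀ v, v ≠ 1 → μ.map (fun σ => Xi σ v) = coin θ
  spin_par : ∀ (σ : W d → Bool) v, v ≠ 1 → spin (σ v) = spin (Xi σ v) * spin (σ (par v))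
  par_gen : ∀ c : Fin d, par (gen c) = 1
  dep_spin : ∀ (σ σ' : W d → Bool) u, (∀ v, v.1 <:+ u.1 → Xi σ v = Xi σ' v) → σ u = σ' u
  dep_pair : ∀ (σ σ' : W d → Bool) x u, x.1 <:+ u.1 →
    (∀ v, x.1 <:+ v.1 → v ≠ x → Xi σ v = Xi σ' v) →
    spin (σ x) * spin (σ u) = spin (σ' x) * spin (σ' u)
  mem_sub : ∀ (c : Fin d) u, u ∈ sub c ↔ (gen c).1 <:+ u.1
  mp0 : ∀ γ, MeasurePreserving (act0 γ) (P0 μ) (P0 μ)
  mp : ∀ γ, MeasurePreserving (act γ) (PP μ) (PP μ)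
  sh_sh : ∀ (x y : W d) ω, sh y (sh x ω) = sh (x * y) ω
  sh_one : ∀ ω : Om d, sh 1 ω = ω
  inj : ∀ᵐ τ ∂PU d, Function.Injective (tim τ)
  lt_one : ∀ᵐ τ ∂PU d, ∀ j, (τ j : ℝ) < 1

/-- The basic modules together. -/
structure Base (d : ℕ) (θ : ℝ) (μ : Measure (W d → Bool)) : Prop where
  crit : Crit d θ μ
  A : StmtA d θ
  F : StmtF d θ
  C : StmtC
  N : StmtN θ
  P : StmtP
  I : StmtI d θ μ

/-- B1: Bayes formula at finite depth. -/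
def StmtB1 (d : ℕ) (θ : ℝ) (μ : Measure (W d → Bool)) : Prop :=
  ∀ (e : I d → ℝ) (B : Set (I d)), (∀ j, 0 ≤ e j ∧ e j ≤ 1) → ∀ R z α (F : (I d → ℝ) → ℝ),
    Measurable F → Bdd F →
    ∫ ω, spin (ω.1 z) * F ((B ∩ Vis R z α).indicator (Yq e ω)) ∂P0 μ =
      ∫ ω, tanh (hR θ (yA e B (Yq e ω)) R z α) * F ((B ∩ Vis R z α).indicator (Yq e ω)) ∂P0 μ

/-- B: Bayes formula in infinite volume. -/
structure StmtB (d : ℕ) (θ : ℝ) (μ : Measure (W d → Bool)) : Prop where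
  conv : ∀ β (e : I d → ℝ) B, Bnd β e B → ∀ᵐ ω ∂P0 μ, Conv θ (yA e B (Yq e ω))
  recur : ∀ β (e : I d → ℝ) B, Bnd β e B →
    ∀ᵐ ω ∂P0 μ, Rec θ (bI (yA e B (Yq e ω))) (HA θ e B (Yq e ω))
  test : ∀ β (e : I d → ℝ) B, Bnd β e B → ∀ z α (F : (I d → ℝ) → ℝ), Measurable F → Bdd F →
    ∫ ω, spin (ω.1 z) * F ((B ∩ {j | Reach z α j.1}).indicator (Yq e ω)) ∂P0 μ =
      ∫ ω, tanh (HA θ e B (Yq e ω) z α) *
        F ((B ∩ {j | Reach z α j.1}).indicator (Yq e ω)) ∂P0 μ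
  test0 : ∀ β (e : I d → ℝ) B, Bnd β e B → ∀ z (F : (I d → ℝ) → ℝ), Measurable F → Bdd F →
    ∫ ω, spin (ω.1 z) * F (B.indicator (Yq e ω)) ∂P0 μ =
      ∫ ω, mA θ e B (Yq e ω) z * F (B.indicator (Yq e ω)) ∂P0 μ
  levy : ∀ β (e : I d → ℝ) B (Bk : ℕ → Set (I d)), Bnd β e B → Monotone Bk → (⋃ k, Bk k) = B →
    ∀ᵐ ω ∂P0 μ, (∀ z α, Tendsto (fun k => HA θ e (Bk k) (Yq e ω) z α) atTop
      (𝓝 (HA θ e B (Yq e ω) z α))) ∧ ∀ u, Tendsto (fun k => AA θ e (Bk k) (Yq e ω) u) atTop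
      (𝓝 (AA θ e B (Yq e ω) u))
  nish : ∀ β (e : I d → ℝ) B, Bnd β e B → ∀ z α,
    Nish0 (P0 μ) fun ω => spin (ω.1 z) * HA θ e B (Yq e ω) z α

/-- J: innovations and jumps. -/
structure StmtJ (d : ℕ) (θ : ℝ) (μ : Measure (W d → Bool)) : Prop where
  innov : ∀ β (e : I d → ℝ) B i, Bnd β e B → i ∉ B →
    ∀ φ : (I d → ℝ) × unitInterval → ℝ, Measurable φ → Bdd φ →
    ∫ ω, φ (B.indicator (Yq e ω), inn θ e B (Yq e ω) i) ∂P0 μ =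
      ∫ ω, ∫ r, φ (B.indicator (Yq e ω), r) ∂volume ∂P0 μ
  jump : ∀ β (e : I d → ℝ) B i, Bnd β e (insert i B) → i ∉ B → ∀ᵐ ω ∂P0 μ,
    mA θ e (insert i B) (Yq e ω) 1 = mA θ e B (Yq e ω) 1 + e i * AA θ e B (Yq e ω) i.1 *
      gain (e i * mA θ e B (Yq e ω) i.1) (inn θ e B (Yq e ω) i)
  law : ∀ (e t : I d → ℝ), Function.Injective t → (∀ j, ∃ β, Bnd β e {l | t l < t j}) →
    (P0 μ).map (fun ω j => inn θ e {l | t l < t j} (Yq e ω) j) = PU d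

/-- Tl: the crude tail bound. -/
structure StmtTl (d : ℕ) (θ : ℝ) (μ : Measure (W d → Bool)) : Prop where
  tail : ∀ β (e : I d → ℝ) B n (e' : W d → ℝ), Bnd β e B →
    (∀ z, 0 ≤ e' z ∧ e' z ≤ B.indicator e (z, n)) →
    ∀ u, ∫ ω, AA θ e B (Yq e ω) u ^ 2 ∂P0 μ ≤ tlp θ e' 1 (word u)
  nonneg : ∀ (e' : W d → ℝ) x p, (∀ z, 0 ≤ e' z ∧ e' z ≤ 1) → 0 ≤ tlp θ e' x p ∧ tlp θ e' x p ≤ 1
  meas : ∀ n x p, Measurable fun τ : Nz d => tlp θ (fun z => str τ (z, n)) x p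
  mean : ∀ n, Summable fun u : W d => ∫ τ, tlp θ (fun z => str τ (z, n)) 1 (word u) ∂PU d

/-- Q: the quenched step. -/
def StmtQ (d : ℕ) (θ : ℝ) (μ : Measure (W d → Bool)) : Prop :=
  ∀ (e T : I d → ℝ) (n : ℤ) (s t β : ℝ), Function.Injective T → s ≤ t → Bnd β e {j | T j < t} →
    (∀ j, s ≤ T j → T j < t → j.2 = n) →
    ∀ (m0 : (I d → ℝ) → ℝ) (mb At : W d → (I d → ℝ) → ℝ), Measurable m0 →
    (∀ u, Measurable (mb u)) → (∀ u, Measurable (At u)) → (∀ a, |m0 a| ≤ 1) →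
    (∀ u a, |mb u a| ≤ 1) → (∀ u a, |At u a| ≤ 1) →
    ∀ (tl : W d → ℝ) (K : ℕ) (ρ η : ℝ), 0 < η →
    (∀ B u, {j | T j < s} ⊆ B → B ⊆ {j | T j < t} → ∫ ω, AA θ e B (Yq e ω) u ^ 2 ∂P0 μ ≤ tl u) →
    (∀ K', ∑ u ∈ ball K' \ ball K, tl u ≤ ρ) →
    ∫ ω, (mA θ e {j | T j < t} (Yq e ω) 1 - (m0 ({j | T j < s}.indicator (Yq e ω)) +
      ∑ u ∈ ball K, if s ≤ T (u, n) ∧ T (u, n) < t then
        e (u, n) * At u ({j | T j < s}.indicator (Yq e ω)) *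
          gain (e (u, n) * mb u ({j | T j < s}.indicator (Yq e ω)))
            (inn θ e {j | T j < T (u, n)} (Yq e ω) (u, n)) else 0)) ^ 2 ∂P0 μ ≤
    (1 + η) * (∫ ω, (mA θ e {j | T j < s} (Yq e ω) 1 -
        m0 ({j | T j < s}.indicator (Yq e ω))) ^ 2 ∂P0 μ +
      ∑ u ∈ ball K, if s ≤ T (u, n) ∧ T (u, n) < t then e (u, n) ^ 2 *
        ∫ ω, (2 * (AA θ e {j | T j < T (u, n)} (Yq e ω) u -
            At u ({j | T j < s}.indicator (Yq e ω))) ^ 2 +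
          8 * (AA θ e {j | T j < T (u, n)} (Yq e ω) u ^ 2 *
            (mA θ e {j | T j < T (u, n)} (Yq e ω) u -
              mb u ({j | T j < s}.indicator (Yq e ω))) ^ 2)) ∂P0 μ else 0) + (1 + 1 / η) * ρ

/-- E: basic facts on the annealed quantities. -/
structure StmtE (d : ℕ) (θ : ℝ) (μ : Measure (W d → Bool)) : Prop where
  eps_pos : ∀ n, 0 < eps n ∧ eps n ≤ 1 ∧ eps n ≤ 2 ^ n
  meas_Hs : ∀ S : Nz d → ℝ, Measurable S → ∀ z α, Measurable fun ω : Om d => Hs θ (S ω.1) ω z α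
  meas_ms : ∀ S : Nz d → ℝ, Measurable S → ∀ z, Measurable fun ω : Om d => ms θ (S ω.1) z ω
  meas_As : ∀ S : Nz d → ℝ, Measurable S → ∀ u, Measurable fun ω : Om d => As θ (S ω.1) u ω
  meas_bs : ∀ s z, Measurable fun ω : Om d => bs s ω z
  meas_tim : ∀ j, Measurable fun τ : Nz d => tim τ j
  meas_str : ∀ j, Measurable fun τ : Nz d => str τ j
  meas_Ya : Measurable (Ya : Om d → I d → ℝ)
  meas_gI : Measurable (gI θ : Om d → I d → unitInterval)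
  meas_Zs : ∀ s, Measurable (Zs θ s : Om d → _)
  bnd : ∀ (n : ℤ) (s : ℝ) (τ : Nz d), s ≤ n + 1 → Bnd (2 * 2 ^ n) (str τ) (Bs τ s)
  Hs_le : ∀ (n : ℤ) (s : ℝ), s ≤ n + 1 → ∀ (ω : Om d) z α, |Hs θ s ω z α| ≤ Hb d θ n
  bs_le : ∀ (n : ℤ) (s : ℝ), s ≤ n + 1 → ∀ (ω : Om d) z, |bs s ω z| ≤ 2 * 2 ^ n
  recur : ∀ s, ∀ᵐ ω ∂PP μ, Rec θ (bs s ω) (Hs θ s ω)
  Hs_sh : ∀ s x (ω : Om d), Hs θ s (sh x ω) = fun z => Hs θ s ω (x * z)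
  gI_act : ∀ γ (ω : Om d) j, gI θ (act γ ω) j = gI θ ω (exI γ j)
  Gs_le : ∀ s, Gs θ s ≤ (inferInstance : MeasurableSpace (Om d))
  Gs_mono : ∀ s t, s ≤ t → (Gs θ s : MeasurableSpace (Om d)) ≤ Gs θ t
  meas_CE : ∀ s f, Measurable (CE θ μ s f) ∧ Measurable[Gs θ s] (CE θ μ s f)
  CE_sh : ∀ s x (f : Om d → ℝ), Measurable f → (∃ C, ∀ᵐ ω ∂PP μ, |f ω| ≤ C) →
    CE θ μ s (fun ω => f (sh x ω)) =ᵐ[PP μ] fun ω => CE θ μ s f (sh x ω)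
  factor : ∀ s (f : Om d → ℝ), Measurable[Gs θ s] f → (∀ ω, |f ω| ≤ 1) →
    ∃ Φ : Nz d × (I d → ℝ) → ℝ, Measurable Φ ∧ (∀ p, |Φ p| ≤ 1) ∧
      ∀ ω, f ω = Φ (ω.1, (Bs ω.1 s).indicator (Ya ω))
  upd : ∀ (s : ℝ) (i : I d) (τ : Nz d) (ω : O0 d) (r r' : unitInterval),
    s ≤ (i.2 : ℝ) + r → s ≤ (i.2 : ℝ) + r' →
    Hs θ s (Function.update τ i r, ω) = Hs θ s (Function.update τ i r', ω) ∧
      Zs θ s (Function.update τ i r, ω) = Zs θ s (Function.update τ i r', ω)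
  half : ∀ (n : ℤ) (ω : Om d), Hs θ (n + 1) ω = Hs θ (n + 1 / 2) ω
  mb_eq : ∀ s u, mb θ μ s u =ᵐ[PP μ] CE θ μ s (ms θ s u)
  meas_mb : ∀ s u, Measurable[Gs θ s] (mb θ μ s u) ∧ ∀ ω, |mb θ μ s u ω| ≤ 1
  meas_At : ∀ s u, Measurable[Gs θ s] (At θ μ s u) ∧ ∀ ω, |At θ μ s u ω| ≤ 1
  As_le : ∀ s u (ω : Om d), |As θ s u ω| ≤ 1

/-- R: the structure at the root. -/
structure StmtR (d : ℕ) (θ : ℝ) (μ : Measure (W d → Bool)) : Prop where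
  recur : ∀ s, ∀ᵐ ω ∂PP μ, ∀ α, hg θ s 1 α ω = bg s ω + ∑ c ∈ dirs α, gc θ s c ω
  meas_hg : ∀ s (z : W d) α, Measurable (hg θ s z α)
  meas_piece : ∀ r s K (o : Option (Fin d)), Measurable (piece θ r s K o)
  meas_UK : ∀ r s K (z : W d) c, Measurable (UK θ r s K z c)
  indep : ∀ r s K, iIndepFun (piece θ r s K) (PP μ)
  hg_sh : ∀ s (c : Fin d) ω, hg θ s (gen c) (some c) ω = hg θ s 1 (some c) (sh (gen c) ω)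
  UK_sh : ∀ r s K (c : Fin d) ω, UK θ r s K (gen c) c ω = UK θ r s K 1 c (sh (gen c) ω)
  UK_succ : ∀ r s K (a : Fin d) ω, UK θ r s (K + 1) 1 a ω = kap θ (hg θ s 1 (some a) ω) ^ 2 *
    (1 + ∑ c ∈ dirs (some a), r * θ ^ 2 * UK θ r s K (gen c) c ω)
  nish_hg : ∀ s z α, Nish0 (PP μ) (hg θ s z α)
  nish_bg : ∀ s, Nish0 (PP μ) (bg s)
  nish_gc : ∀ s c, Nish0 (PP μ) (gc θ s c)
  bg_le : ∀ (n : ℤ) (s : ℝ), s ≤ n + 1 → ∀ ω : Om d, |bg s ω| ≤ 2 * 2 ^ n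
  hg_le : ∀ (n : ℤ) (s : ℝ), s ≤ n + 1 → ∀ (z : W d) α ω, |hg θ s z α ω| ≤ Hb d θ n
  bg_low : ∀ (n : ℤ) (s : ℝ), n ≤ s → eps (n - 1) ^ 2 / 100 ≤ xx (PP μ) (bg s)
  gc_tanh : ∀ s (c : Fin d) ω, |tanh (gc θ s c ω)| ≤ θ
  gc_le : ∀ s (c : Fin d) ω, |gc θ s c ω| ≤ θ * |hg θ s (gen c) (some c) ω|
  xx_gc : ∀ s c, xx (PP μ) (gc θ s c) = θ ^ 2 * xx (PP μ) (hg θ s 1 (some c))

/-- Mx: second moments of the fields. -/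
structure StmtMx (d : ℕ) (θ : ℝ) (μ : Measure (W d → Bool)) : Prop where
  up : ∀ (n : ℤ) (s : ℝ), s ≤ n + 1 → ∀ a, xx (PP μ) (hg θ s 1 (some a)) ≤ d * (2 * 2 ^ n)
  upm : ∀ (n : ℤ) (s : ℝ), s ≤ n + 1 →
    ∫ ω, ms θ s 1 ω ^ 2 ∂PP μ ≤ (2 * 2 ^ n) ^ 2 + 2 * d * (2 * 2 ^ n)
  low : ∀ (n : ℤ) (s : ℝ), n ≤ s → ∀ a, eps (n - 1) / 20 ≤ xx (PP μ) (hg θ s 1 (some a))

/-- Mc: tails of the fields at small times. -/
def StmtMc (d : ℕ) (θ : ℝ) (μ : Measure (W d → Bool)) : Prop :=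
  ∃ C, 0 < C ∧ ∀ (n : ℤ) (s : ℝ), n ≤ 0 → s ≤ n + 1 → ∀ a l, 0 ≤ l →
    (PP μ).real {ω | l < |tanh (Hs θ s ω 1 (some a))|} ≤ C * exp (-(l * 2 ^ (-(n : ℝ) / 3)))

/-- Mu1: exponential moments of the tree sums. -/
def StmtMu1 (d : ℕ) (θ : ℝ) (μ : Measure (W d → Bool)) : Prop :=
  ∃ C, 0 < C ∧ ∀ s ρ : ℝ, 0 < ρ →
    (∀ a, ρ ≤ (1 - θ ^ 2) * ((1 - θ) / 2 * (θ ^ 2 * xx (PP μ) (hg θ s 1 (some a))))) →
    ∀ K a l, 0 ≤ l → ∫ ω, exp (l * UK θ (1 + ρ / 2) s K 1 a ω) ∂PP μ ≤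
      exp (C / ρ * l + C / ρ ^ 2 * l ^ 2)

/-- Mu: weighted second moments of the tree sums. -/
def StmtMu (d : ℕ) (θ : ℝ) (μ : Measure (W d → Bool)) : Prop :=
  ∃ C, 0 < C ∧ ∀ s ρ : ℝ, 0 < ρ →
    (∀ a, ρ ≤ (1 - θ ^ 2) * ((1 - θ) / 2 * (θ ^ 2 * xx (PP μ) (hg θ s 1 (some a))))) →
    ∀ K (χ : Om d → ℝ) C₁ p, Measurable χ → (∀ᵐ ω ∂PP μ, 0 ≤ χ ω ∧ χ ω ≤ C₁) → 1 ≤ p →
    ∫ ω, χ ω * VK θ (1 + ρ / 2) (Hs θ s ω) K 1 none ^ 2 ∂PP μ ≤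
      C / ρ ^ 2 * (p * ∫ ω, χ ω ∂PP μ + C₁ * exp (-p))

/-- GA: abstract decorrelation along paths (for `3 ≤ d`, `0 < θ`, `θ ^ 2 * (d - 1) = 1`). -/
def StmtGA (d : ℕ) (θ : ℝ) : Prop :=
  ∃ C, 0 < C ∧ ∀ (H : Type) [NormedAddCommGroup H] [InnerProductSpace ℝ H]
    (U : W d → H →ₗᵢ[ℝ] H) (D : Submodule ℝ H), (∀ x y f, U x (U y f) = U (x * y) f) →
    (∀ f, U 1 f = f) → (∀ f ∈ D, ∀ g ∈ D, ∃ C', ∀ x, |⟪f, U x g⟫_ℝ| ≤ C' * θ ^ len x) →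
    ∀ φ : Fin d → H, (∀ a, φ a ∈ closure (D : Set H)) → ∀ k,
    ∑ p ∈ PE none k, ‖Sp U φ 1 p‖ ^ 2 ≤ C * k * (d - 1) ^ k * ∑ a, ‖φ a‖ ^ 2

/-- GB1: decay of correlations of local functions. -/
def StmtGB1 (d : ℕ) (θ : ℝ) (μ : Measure (W d → Bool)) : Prop :=
  ∀ R (f g : Om d → ℝ), Measurable f → Measurable g → Bdd f → Bdd g → Loc R f → Loc R g →
    ∫ ω, f ω ∂PP μ = 0 → ∫ ω, g ω ∂PP μ = 0 →
    ∃ C, ∀ x, |∫ ω, f ω * g (sh x ω) ∂PP μ| ≤ C * θ ^ len x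

/-- GB: decorrelation along paths. -/
def StmtGB (d : ℕ) (μ : Measure (W d → Bool)) : Prop :=
  ∃ C, 0 < C ∧ ∀ φ : Fin d → Om d → ℝ, (∀ a, Measurable (φ a)) →
    (∃ C', ∀ a, ∀ᵐ ω ∂PP μ, |φ a ω| ≤ C') → (∀ a, ∫ ω, φ a ω ∂PP μ = 0) → ∀ k,
    ∑ p ∈ PE none k, ∫ ω, Sf φ 1 p ω ^ 2 ∂PP μ ≤
      C * k * (d - 1) ^ k * ∑ a, ∫ ω, φ a ω ^ 2 ∂PP μ

/-- Da: the local discrepancies. -/
structure StmtDa (d : ℕ) (θ : ℝ) (μ : Measure (W d → Bool)) : Prop where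
  meas : ∀ s (x : W d) a, Measurable (ell θ s x a) ∧ Measurable (ell0 θ s x) ∧
    Measurable (phi θ μ s a) ∧ Measurable (phi0 θ μ s)
  ell_le : ∀ (n : ℤ) (s : ℝ), s ≤ n + 1 → ∀ (x : W d) a ω,
    (-cosh (Hb d θ n) ^ 2 ≤ ell θ s x a ω ∧ ell θ s x a ω ≤ 0) ∧
      -cosh (Hb d θ n) ^ 2 ≤ ell0 θ s x ω ∧ ell0 θ s x ω ≤ 0
  phi_le : ∀ (n : ℤ) (s : ℝ), s ≤ n + 1 → ∀ᵐ ω ∂PP μ,
    (∀ a, |phi θ μ s a ω| ≤ cosh (Hb d θ n) ^ 2) ∧ |phi0 θ μ s ω| ≤ cosh (Hb d θ n) ^ 2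
  mean : ∀ s a, ∫ ω, phi θ μ s a ω ∂PP μ = 0
  phi_sh : ∀ s, ∀ᵐ ω ∂PP μ, ∀ x a,
    ell θ s x a ω - CE θ μ s (ell θ s x a) ω = phi θ μ s a (sh x ω)
  chi_le : ∀ s (f : Om d → ℝ) C, Measurable f → (∀ᵐ ω ∂PP μ, |f ω| ≤ C) →
    Measurable (chi θ μ s f) ∧ (∀ᵐ ω ∂PP μ, 0 ≤ chi θ μ s f ω ∧ chi θ μ s f ω ≤ 2 * C ^ 2) ∧
      ∫ ω, chi θ μ s f ω ∂PP μ = 2 * ∫ ω, f ω ^ 2 ∂PP μ
  bound : ∃ C, 0 < C ∧ ∀ (n : ℤ) (s : ℝ), s ≤ n + 1 →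
    ∫ ω, phi0 θ μ s ω ^ 2 ∂PP μ ≤ C * cosh (Hb d θ n) ^ 4 * del θ μ s ∧ ∀ a l, 0 ≤ l →
    ∫ ω, phi θ μ s a ω ^ 2 ∂PP μ ≤ C * cosh (Hb d θ n) ^ 4 * (l ^ 2 * del θ μ s +
      (PP μ).real {ω | l < |tanh (Hs θ s ω 1 (some a))|})

/-- D1: short paths. -/
def StmtD1 (d : ℕ) (θ : ℝ) (μ : Measure (W d → Bool)) : Prop :=
  ∃ C, 0 < C ∧ ∀ s k, ∑ p ∈ PE none k,
    ∫ ω, (As θ s (walk 1 p) ω - At θ μ s (walk 1 p) ω) ^ 2 ∂PP μ ≤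
      C * (∫ ω, phi0 θ μ s ω ^ 2 ∂PP μ + k * ∑ a, ∫ ω, phi θ μ s a ω ^ 2 ∂PP μ)

/-- D2: long paths. -/
structure StmtD2 (d : ℕ) (θ : ℝ) (μ : Measure (W d → Bool)) : Prop where
  far : ∀ (s r c : ℝ) (K k₀ : ℕ), 1 ≤ r → 0 ≤ c → (∀ k : ℕ, k₀ < k → (k + 1 : ℝ) ≤ c * r ^ k) →
    ∑ k ∈ (range (K + 1)).filter (k₀ < ·), ∑ p ∈ PE none k,
      ∫ ω, (As θ s (walk 1 p) ω - At θ μ s (walk 1 p) ω) ^ 2 ∂PP μ ≤
    c * (∫ ω, chi θ μ s (phi0 θ μ s) ω * VK θ r (Hs θ s ω) K 1 none ^ 2 ∂PP μ +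
      ∑ a, ∫ ω, chi θ μ s (phi θ μ s a) ω * VK θ r (Hs θ s ω) K 1 none ^ 2 ∂PP μ)
  mag : ∀ (s r : ℝ) (K : ℕ), 1 ≤ r →
    ∑ u ∈ ball K, ∫ ω, As θ s u ω ^ 2 * (ms θ s u ω - mb θ μ s u ω) ^ 2 ∂PP μ ≤
      ∫ ω, (ms θ s 1 ω - mb θ μ s 1 ω) ^ 2 * VK θ r (Hs θ s ω) K 1 none ∂PP μ

/-- D: the main estimate. -/
def StmtD (d : ℕ) (θ : ℝ) (μ : Measure (W d → Bool)) : Prop :=
  ∃ L : ℤ → ℝ, (∀ n, 0 ≤ L n) ∧ (Summable fun m : ℕ => eps (-m) ^ 2 * L (-m)) ∧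
    ∀ (n : ℤ) (s : ℝ), n ≤ s → s ≤ n + 1 → ∀ p, 1 ≤ p → ∀ K,
      Dsum θ μ s K ≤ L n * (p * del θ μ s + exp (-p))

/-- S2: the discretisation errors. -/
structure StmtS2 (d : ℕ) (θ : ℝ) (μ : Measure (W d → Bool)) : Prop where
  nonneg : ∀ n s t u, 0 ≤ err θ μ n s t u
  summ : ∀ (n : ℤ) (s t : ℝ), n ≤ s → Summable (err θ μ n s t)
  lim : ∀ (n : ℤ) (s t : ℝ), n ≤ s → s ≤ t → Tendsto (fun N : ℕ => ∑ j ∈ range (2 ^ N),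
    ∑' u, err θ μ n (s + j * ((t - s) / 2 ^ N)) (s + (j + 1) * ((t - s) / 2 ^ N)) u) atTop (𝓝 0)

/-- S1: the annealed step. -/
def StmtS1 (d : ℕ) (θ : ℝ) (μ : Measure (W d → Bool)) : Prop :=
  ∀ (n : ℤ) (s t Db : ℝ), n ≤ s → s ≤ t → t ≤ n + 1 / 2 → (∀ K, Dsum θ μ s K ≤ Db) →
    del θ μ t ≤ del θ μ s + 200 * ((t - s) * eps n ^ 2 * Db) + 200 * ∑' u, err θ μ n s t u

/-- G: the Osgood-Gronwall argument. -/
def StmtG : Prop :=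
  ∀ (δ : ℝ → ℝ) (Λ : ℤ → ℝ) (E : ℤ → ℝ → ℝ → ℝ), (∀ s, 0 ≤ δ s) → (∀ n, 0 ≤ Λ n) →
    (∀ n s t, 0 ≤ E n s t) → (Summable fun m : ℕ => Λ (-m)) →
    (∀ (n : ℤ) (s t p : ℝ), n ≤ s → s ≤ t → t ≤ n + 1 / 2 → 1 ≤ p →
      δ t ≤ δ s + (t - s) * Λ n * (p * δ s + exp (-p)) + E n s t) →
    (∀ (n : ℤ) (s t : ℝ), n ≤ s → s ≤ t → Tendsto (fun N : ℕ => ∑ j ∈ range (2 ^ N),
      E n (s + j * ((t - s) / 2 ^ N)) (s + (j + 1) * ((t - s) / 2 ^ N))) atTop (𝓝 0)) →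
    (∀ n : ℤ, δ (n + 1) ≤ δ (n + 1 / 2)) →
    Tendsto (fun m : ℕ => δ (-m)) atTop (𝓝 0) → ∀ n : ℤ, δ n = 0

/-- Info: the observations determine the spin. -/
def StmtInfo (d : ℕ) (θ : ℝ) (μ : Measure (W d → Bool)) : Prop :=
  Tendsto (fun n : ℕ => ∫ ω, (spin (ω.2.1 1) - ms θ n 1 ω) ^ 2 ∂PP μ) atTop (𝓝 0)

/-- Fin: conclusion on the word tree. -/
def StmtFin (d : ℕ) (θ : ℝ) (μ : Measure (W d → Bool)) : Prop :=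
  (∀ n : ℕ, del θ μ n = 0) → IsFactorOfIID (T d) μ

/-- Iso: transfer to an arbitrary `d`-regular tree. -/
def StmtIso : Prop :=
  ∀ (V : Type) (G : SimpleGraph V) (d : ℕ) (θ : ℝ), G.IsTree →
    (∀ v, (G.neighborSet v).ncard = d) → 1 ≤ d →
    (∀ μ, IsFreeIsing (T d) θ μ → IsFactorOfIID (T d) μ) →
    ∀ μ, IsFreeIsing G θ μ → IsFactorOfIID G μ

end Vale.Agent.P161E
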