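import Vale.Agent.P161E.Spec

namespace Vale.Agent.P161E

open MeasureTheory ProbabilityTheory Filter Topology Finset Real

namespace Th

lemma sinh_le_mul {x : ℝ} (hx : 0 ≤ x) : sinh x ≤ x * cosh x := by
  have hd : ∀ y : ℝ, HasDerivAt (fun y => y * cosh y - sinh y) (y * sinh y) y := fun y => by
    have := ((hasDerivAt_id y).mul (Real.hasDerivAt_cosh y)).sub (Real.hasDerivAt_sinh y)
    refine this.congr_deriv ?_
    simp
  have hm : MonotoneOn (fun y => y * cosh y - sinh y) (Set.Ici 0) := by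
    refine monotoneOn_of_deriv_nonneg (convex_Ici 0) (by fun_prop)
      (fun y _ => (hd y).differentiableAt.differentiableWithinAt) fun y hy => ?_
    rw [(hd y).deriv]
    have hy' : 0 ≤ y := interior_subset hy
    exact mul_nonneg hy' (Real.sinh_nonneg_iff.2 hy')
  have := hm (Set.self_mem_Ici) hx hx
  simp at this
  linarith

lemma abs_tanh_le (x : ℝ) : |tanh x| ≤ |x| := by
  rw [Real.tanh_eq_sinh_div_cosh, abs_div, abs_of_pos (cosh_pos x), div_le_iff₀ (cosh_pos x),
    Real.abs_sinh, ← Real.cosh_abs x]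
  exact sinh_le_mul (abs_nonneg x)

lemma tanh_sq_le (x : ℝ) : tanh x ^ 2 ≤ x ^ 2 := sq_le_sq.2 (abs_tanh_le x)

lemma sq_le_tanh (x : ℝ) : x ^ 2 ≤ tanh x ^ 2 * cosh x ^ 2 := by
  rw [← mul_pow, Real.tanh_eq_sinh_div_cosh, div_mul_cancel₀ _ (cosh_pos x).ne']
  refine sq_le_sq.2 ?_
  rw [Real.abs_sinh]
  exact Real.self_le_sinh_iff.2 (abs_nonneg x)

lemma ibdd {Ω : Type} [MeasurableSpace Ω] (P : Measure Ω) [IsProbabilityMeasure P] {f : Ω → ℝ}
    (hf : Measurable f) {C : ℝ} (h : ∀ ω, |f ω| ≤ C) : Integrable f P :=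
  Integrable.of_bound hf.aestronglyMeasurable C (Eventually.of_forall h)

lemma meas_tanh : Measurable Real.tanh := by
  have : Real.tanh = fun x => sinh x / cosh x := funext Real.tanh_eq_sinh_div_cosh
  rw [this]; fun_prop

lemma int_tanh_sq {Ω : Type} [MeasurableSpace Ω] (P : Measure Ω) [IsProbabilityMeasure P]
    {f : Ω → ℝ} (hf : Measurable f) : Integrable (fun ω => tanh (f ω) ^ 2) P :=
  ibdd P ((meas_tanh.comp hf).pow_const 2) (C := 1) fun ω => by
    rw [abs_of_nonneg (sq_nonneg _)]; exact (Real.tanh_sq_lt_one _).le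

end Th

end Vale.Agent.P161E
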