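import Mathlib

namespace Vale.Agent.P161E

open Finset
open scoped Classical

variable {d : ℕ}

/-- Reduced words; the head of the list is the last letter. -/
@[ext] structure W (d : ℕ) : Type where
  val : List (Fin d)
  chain : val.IsChain (· ≠ ·)

instance : Countable (W d) := Function.Injective.countable (f := W.val) fun _ _ => W.ext

def step (v : W d) (a : Fin d) : W d :=
  if h : v.1.head? = some a then ⟨v.1.tail, v.2.tail⟩
  else ⟨a :: v.1, v.2.cons fun y hy e => h (by rw [e]; exact hy)⟩

def walk (x : W d) (p : List (Fin d)) : W d := p.foldl step x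

def word (u : W d) : List (Fin d) := u.1.reverse

def len (u : W d) : ℕ := u.1.length

lemma step_of_eq {v : W d} {a : Fin d} (h : v.1.head? = some a) : (step v a).1 = v.1.tail := by
  rw [step, dif_pos h]

lemma step_of_ne {v : W d} {a : Fin d} (h : v.1.head? ≠ some a) : (step v a).1 = a :: v.1 := by
  rw [step, dif_neg h]

@[simp] lemma step_step (v : W d) (a : Fin d) : step (step v a) a = v := by
  apply W.ext
  by_cases h : v.1.head? = some a
  · obtain ⟨l, hl⟩ := v
    cases l with
    | nil => simp at h
    | cons b l =>
      obtain rfl : b = a := by simpa using h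
      have e : (step ⟨b :: l, hl⟩ b).1 = l := step_of_eq h
      rw [step_of_ne, e]
      rw [e]
      intro h'
      exact (List.isChain_cons.1 hl).1 b h' rfl
  · have e := step_of_ne h
    rw [step_of_eq (by rw [e]; rfl), e]; rfl

@[simp] lemma walk_nil (x : W d) : walk x [] = x := rfl

@[simp] lemma walk_cons (x : W d) (a : Fin d) (p : List (Fin d)) :
    walk x (a :: p) = walk (step x a) p := rfl

lemma walk_append (x : W d) (p q : List (Fin d)) : walk x (p ++ q) = walk (walk x p) q :=
  List.foldl_append

lemma walk_concat (x : W d) (p : List (Fin d)) (a : Fin d) :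
    walk x (p ++ [a]) = step (walk x p) a := by rw [walk_append]; rfl

@[simp] lemma walk_reverse (x : W d) (p : List (Fin d)) : walk (walk x p) p.reverse = x := by
  induction p generalizing x with
  | nil => rfl
  | cons a p ih => rw [List.reverse_cons, walk_concat, walk_cons, ih, step_step]

lemma walk_word_step (x v : W d) (a : Fin d) :
    walk x (word (step v a)) = step (walk x (word v)) a := by
  by_cases h : v.1.head? = some a
  · have h1 : word v = word (step v a) ++ [a] := by
      obtain ⟨l, hl⟩ := v
      cases l with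
      | nil => simp at h
      | cons b l =>
        obtain rfl : b = a := by simpa using h
        simp [word, step_of_eq h]
    rw [h1, walk_concat, step_step]
  · rw [word, step_of_ne h, List.reverse_cons, walk_concat, word]

lemma walk_word_walk (x v : W d) (p : List (Fin d)) :
    walk x (word (walk v p)) = walk (walk x (word v)) p := by
  induction p generalizing v with
  | nil => rfl
  | cons a p ih => rw [walk_cons, ih, walk_word_step, walk_cons]

lemma walk_val (x : W d) (p : List (Fin d)) (h : (p.reverse ++ x.1).IsChain (· ≠ ·)) :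
    (walk x p).1 = p.reverse ++ x.1 := by
  induction p generalizing x with
  | nil => rfl
  | cons a p ih =>
    rw [List.reverse_cons, List.append_assoc, List.singleton_append] at h
    have h1 : x.1.head? ≠ some a := fun e =>
      (List.isChain_cons.1 h.right_of_append).1 a e rfl
    rw [walk_cons, ih _ (by rw [step_of_ne h1]; exact h), step_of_ne h1]; simp

lemma chain_reverse {p : List (Fin d)} (h : p.IsChain (· ≠ ·)) : p.reverse.IsChain (· ≠ ·) :=
  List.isChain_reverse.2 (h.imp fun _ _ e => e.symm)

lemma word_chain (u : W d) : (word u).IsChain (· ≠ ·) := chain_reverse u.2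

instance : Group (W d) where
  mul x v := walk x (word v)
  one := ⟨[], List.isChain_nil⟩
  inv x := ⟨word x, word_chain x⟩
  mul_assoc x y z := (walk_word_walk x y (word z)).symm
  one_mul x := W.ext <| (walk_val ⟨[], List.isChain_nil⟩ (word x)
    (by simpa [word] using x.2)).trans (by simp [word])
  mul_one _ := rfl
  inv_mul_cancel x := by
    have : (⟨word x, word_chain x⟩ : W d) = walk ⟨[], List.isChain_nil⟩ x.1 :=
      W.ext (by rw [walk_val _ _ (by simpa [word] using word_chain x)]; simp [word])
    change walk ⟨word x, word_chain x⟩ (word x) = _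
    rw [this]
    exact walk_reverse _ _

lemma mul_def (x v : W d) : x * v = walk x (word v) := rfl

lemma one_val : (1 : W d).1 = [] := rfl

lemma inv_val (x : W d) : x⁻¹.1 = word x := rfl

lemma mul_step (x v : W d) (a : Fin d) : x * step v a = step (x * v) a := walk_word_step x v a

lemma mul_walk (x v : W d) (p : List (Fin d)) : x * walk v p = walk (x * v) p :=
  walk_word_walk x v p

/-- The neighbour of the root in direction `a`. -/
def gen (a : Fin d) : W d := step 1 a

lemma gen_val (a : Fin d) : (gen a).1 = [a] := step_of_ne (by simp [one_val])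

lemma mul_gen (x : W d) (a : Fin d) : x * gen a = step x a := by rw [gen, mul_step, mul_one]

@[simp] lemma gen_mul_gen (a : Fin d) : gen a * gen a = 1 := by rw [mul_gen, gen, step_step]

@[simp] lemma step_gen (a : Fin d) : step (gen a) a = 1 := step_step _ _

@[simp] lemma walk_word (u : W d) : walk 1 (word u) = u := one_mul u

lemma walk_one_val {p : List (Fin d)} (h : p.IsChain (· ≠ ·)) : (walk 1 p).1 = p.reverse := by
  rw [walk_val _ _ (by simpa [one_val] using chain_reverse h)]; simp [one_val]

lemma word_walk {p : List (Fin d)} (h : p.IsChain (· ≠ ·)) : word (walk 1 p) = p := by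
  rw [word, walk_one_val h, List.reverse_reverse]

lemma len_walk {p : List (Fin d)} (h : p.IsChain (· ≠ ·)) : len (walk 1 p) = p.length := by
  rw [len, walk_one_val h, List.length_reverse]

lemma length_word (u : W d) : (word u).length = len u := List.length_reverse

lemma len_step_of_eq {v : W d} {a : Fin d} (h : v.1.head? = some a) :
    len (step v a) + 1 = len v := by
  obtain ⟨l, hl⟩ := v
  cases l with
  | nil => simp at h
  | cons b l => simp [len, step_of_eq h]

lemma len_step_of_ne {v : W d} {a : Fin d} (h : v.1.head? ≠ some a) :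
    len (step v a) = len v + 1 := by simp [len, step_of_ne h]

lemma step_ne (v : W d) (a : Fin d) : step v a ≠ v := by
  intro e
  by_cases h : v.1.head? = some a
  · have := len_step_of_eq h; rw [e] at this; omega
  · have := len_step_of_ne h; rw [e] at this; omega

lemma step_injective (v : W d) : Function.Injective (step v) := by
  intro a b h
  rw [← mul_gen, ← mul_gen, mul_right_inj] at h
  have := congrArg W.val h
  simpa [gen_val] using this

lemma induction_step {p : W d → Prop} (h1 : p 1)
    (h2 : ∀ v a, v.1.head? ≠ some a → p v → p (step v a)) (u : W d) : p u := by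
  obtain ⟨l, hl⟩ := u
  induction l with
  | nil => exact h1
  | cons a l ih =>
    have h : (⟨l, hl.tail⟩ : W d).1.head? ≠ some a := fun e =>
      (List.isChain_cons.1 hl).1 a e rfl
    have := h2 _ a h (ih hl.tail)
    rwa [show step ⟨l, hl.tail⟩ a = ⟨a :: l, hl⟩ from W.ext (step_of_ne h)] at this

/-- The `d`-regular tree on reduced words. -/
def T (d : ℕ) : SimpleGraph (W d) where
  Adj u v := ∃ a, step u a = v
  symm := ⟨fun _ _ ⟨a, h⟩ => ⟨a, by rw [← h, step_step]⟩⟩
  loopless := ⟨fun v ⟨a, h⟩ => step_ne v a h⟩

/-- Left multiplication as an automorphism of the tree. -/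
def lm (x : W d) : T d ≃g T d where
  toEquiv := Equiv.mulLeft x
  map_rel_iff' := by
    intro u v
    simp only [T, Equiv.coe_mulLeft, ← mul_step, mul_right_inj]

@[simp] lemma lm_apply (x v : W d) : lm x v = x * v := rfl

/-- The directions other than `α`. -/
def dirs (α : Option (Fin d)) : Finset (Fin d) := univ.filter fun a => some a ≠ α

@[simp] lemma mem_dirs {α : Option (Fin d)} {a : Fin d} : a ∈ dirs α ↔ some a ≠ α := by
  simp [dirs]

lemma dirs_none : dirs (none : Option (Fin d)) = univ := by ext; simp

lemma dirs_some (a : Fin d) : dirs (some a) = univ.erase a := by ext; simp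

lemma card_dirs_some (a : Fin d) : (dirs (some a)).card = d - 1 := by
  rw [dirs_some, card_erase_of_mem (mem_univ _), card_univ, Fintype.card_fin]

/-- Reduced lists of length `k` whose first letter is not `α`. -/
def PE : Option (Fin d) → ℕ → Finset (List (Fin d))
  | _, 0 => {[]}
  | α, k + 1 => (dirs α).biUnion fun a => (PE (some a) k).image (a :: ·)

lemma mem_PE {α : Option (Fin d)} {k : ℕ} {p : List (Fin d)} : p ∈ PE α k ↔
    p.IsChain (· ≠ ·) ∧ p.length = k ∧ ∀ a ∈ p.head?, some a ≠ α := by
  induction k generalizing α p with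
  | zero =>
    simp only [PE, mem_singleton, List.length_eq_zero_iff]
    exact ⟨fun h => by simp [h], fun h => h.2.1⟩
  | succ k ih =>
    simp only [PE, mem_biUnion, mem_image, mem_dirs, ih]
    constructor
    · rintro ⟨a, ha, q, ⟨h1, h2, h3⟩, rfl⟩
      exact ⟨h1.cons fun y hy e => h3 y hy (by rw [e]), by simp [h2], by simpa using ha⟩
    · rintro ⟨h1, h2, h3⟩
      cases p with
      | nil => simp at h2
      | cons a q =>
        refine ⟨a, h3 a rfl, q, ⟨h1.tail, by simpa using h2, fun y hy e => ?_⟩, rfl⟩
        exact (List.isChain_cons.1 h1).1 y hy (Option.some.inj e).symm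

lemma sum_PE_zero {M : Type*} [AddCommMonoid M] (α : Option (Fin d)) (f : List (Fin d) → M) :
    ∑ p ∈ PE α 0, f p = f [] := sum_singleton _ _

lemma sum_PE_succ {M : Type*} [AddCommMonoid M] (α : Option (Fin d)) (k : ℕ)
    (f : List (Fin d) → M) :
    ∑ p ∈ PE α (k + 1), f p = ∑ a ∈ dirs α, ∑ p ∈ PE (some a) k, f (a :: p) := by
  rw [PE, sum_biUnion]
  · exact sum_congr rfl fun a _ => sum_image fun _ _ _ _ h => List.cons_injective h
  · intro a _ b _ hab
    refine disjoint_left.2 fun p ha hb => hab ?_
    obtain ⟨q, _, rfl⟩ := mem_image.1 ha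
    obtain ⟨q', _, h⟩ := mem_image.1 hb
    exact (List.cons.inj h).1.symm

lemma card_PE_some (a : Fin d) (k : ℕ) : (PE (some a) k).card = (d - 1) ^ k := by
  induction k generalizing a with
  | zero => simp [PE]
  | succ k ih =>
    rw [card_eq_sum_ones, sum_PE_succ]
    simp only [ih, sum_const, card_dirs_some, smul_eq_mul]
    ring

lemma card_PE_none (k : ℕ) : (PE (none : Option (Fin d)) (k + 1)).card = d * (d - 1) ^ k := by
  rw [card_eq_sum_ones, sum_PE_succ]
  simp [card_PE_some, dirs_none]

/-- The ball of radius `K` around the root. -/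
noncomputable def ball (K : ℕ) : Finset (W d) :=
  ((range (K + 1)).biUnion (PE none)).image (walk 1)

lemma mem_ball {K : ℕ} {u : W d} : u ∈ ball K ↔ len u ≤ K := by
  simp only [ball, mem_image, mem_biUnion, mem_range, mem_PE]
  constructor
  · rintro ⟨p, ⟨k, hk, h1, h2, _⟩, rfl⟩
    rw [len_walk h1]; omega
  · intro h
    exact ⟨word u, ⟨len u, by omega, word_chain u, length_word u, by simp⟩, walk_word u⟩

lemma sum_ball {M : Type*} [AddCommMonoid M] (K : ℕ) (f : W d → M) :
    ∑ u ∈ ball K, f u = ∑ k ∈ range (K + 1), ∑ p ∈ PE none k, f (walk 1 p) := by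
  rw [ball, sum_image, sum_biUnion]
  · intro a _ b _ hab
    refine disjoint_left.2 fun p ha hb => hab ?_
    rw [← (mem_PE.1 ha).2.1, ← (mem_PE.1 hb).2.1]
  · intro p hp q hq h
    obtain ⟨_, _, hp⟩ := mem_biUnion.1 (mem_coe.1 hp)
    obtain ⟨_, _, hq⟩ := mem_biUnion.1 (mem_coe.1 hq)
    rw [← word_walk (mem_PE.1 hp).1, h, word_walk (mem_PE.1 hq).1]

/-- `Reach z α u`: `u` is reached from `z` by a non-backtracking walk not starting with `α`. -/
inductive Reach : W d → Option (Fin d) → W d → Prop
  | refl (z α) : Reach z α z
  | step {z α c u} : some c ≠ α → Reach (step z c) (some c) u → Reach z α u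

/-- The branch of the root in direction `c`. -/
def sub (c : Fin d) : Set (W d) := {u | (word u).head? = some c}

lemma reach_iff {z u : W d} {α : Option (Fin d)} :
    Reach z α u ↔ ∀ a, α = some a → z⁻¹ * u ∉ sub a := by
  constructor
  · intro h
    have key : ∃ p : List (Fin d), p.IsChain (· ≠ ·) ∧ (∀ a ∈ p.head?, some a ≠ α) ∧
        u = walk z p := by
      induction h with
      | refl z α => exact ⟨[], by simp, by simp, rfl⟩
      | @step z α c u hc _ ih =>
        obtain ⟨p, h1, h2, h3⟩ := ih
        exact ⟨c :: p, h1.cons fun y hy e => h2 y hy (by rw [e]), by simpa using hc, h3⟩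
    obtain ⟨p, h1, h2, rfl⟩ := key
    intro a ha hs
    rw [mul_walk, inv_mul_cancel, sub, Set.mem_ofPred_eq, word_walk h1] at hs
    exact h2 a hs ha.symm
  · intro h
    have key : ∀ (p : List (Fin d)) (z : W d) (α : Option (Fin d)), p.IsChain (· ≠ ·) →
        (∀ a ∈ p.head?, some a ≠ α) → Reach z α (walk z p) := by
      intro p
      induction p with
      | nil => exact fun z α _ _ => Reach.refl _ _
      | cons c p ih =>
        intro z α h1 h2
        exact Reach.step (h2 c rfl) (ih _ _ h1.tail fun a ha e =>
          (List.isChain_cons.1 h1).1 a ha (Option.some.inj e).symm)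
    have := key (word (z⁻¹ * u)) z α (word_chain _) fun a ha e => h a e.symm ha
    rwa [← mul_def, mul_inv_cancel_left] at this

lemma reach_none (z u : W d) : Reach z none u := reach_iff.2 (by simp)

lemma reach_mul {x z u : W d} {α : Option (Fin d)} : Reach (x * z) α (x * u) ↔ Reach z α u := by
  simp [reach_iff, mul_assoc]

lemma one_notMem_sub (c : Fin d) : (1 : W d) ∉ sub c := by simp [sub, word, one_val]

lemma gen_mem_sub (c : Fin d) : gen c ∈ sub c := by simp [sub, word, gen_val]

lemma sub_disjoint {a c : Fin d} (h : a ≠ c) : Disjoint (sub a) (sub c) :=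
  Set.disjoint_left.2 fun _ h1 h2 => h (Option.some.inj (h1.symm.trans h2))

lemma gen_mul_mem_sub {c : Fin d} {u : W d} : gen c * u ∈ sub c ↔ u ∉ sub c := by
  have key : ∀ u : W d, u ∉ sub c → gen c * u ∈ sub c := by
    intro u hu
    have h : (c :: word u).IsChain (· ≠ ·) := (word_chain u).cons fun y hy e => hu (e ▸ hy)
    have : gen c * u = walk 1 (c :: word u) := rfl
    rw [this, sub, Set.mem_ofPred_eq, word_walk h]; rfl
  refine ⟨fun h hu => ?_, key u⟩
  obtain ⟨q, hq⟩ : ∃ q, word u = c :: q := by
    have hu' : (word u).head? = some c := hu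
    cases h' : word u with
    | nil => simp [h'] at hu'
    | cons b q => exact ⟨q, by simpa [h'] using hu'⟩
  have hc := word_chain u
  rw [hq] at hc
  have : gen c * u = walk 1 q := by rw [mul_def, hq, walk_cons, step_gen]
  rw [this, sub, Set.mem_ofPred_eq, word_walk (show q.IsChain (· ≠ ·) from hc.tail)] at h
  exact (List.isChain_cons.1 hc).1 c h rfl

lemma gen_inv (c : Fin d) : (gen c)⁻¹ = gen c := inv_eq_of_mul_eq_one_right (gen_mul_gen c)

lemma reach_gen {c : Fin d} {u : W d} : Reach (gen c) (some c) u ↔ u ∈ sub c := by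
  rw [reach_iff, gen_inv]
  simp [gen_mul_mem_sub]

lemma reach_step {z u : W d} {c : Fin d} :
    Reach (step z c) (some c) u ↔ ¬ Reach z (some c) u := by
  rw [← mul_gen, ← mul_inv_cancel_left z u, reach_mul, reach_gen, ← mul_one z, mul_assoc, one_mul,
    show z * 1 = z * 1 from rfl]
  conv_rhs => rw [← mul_one z]
  simp [reach_iff]

end Vale.Agent.P161E
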